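import Mathlib

/-! The infinite tensor product of generic quaternion algebras, as a twisted group algebra. -/

namespace Vale.Agent.P199

open Finset

noncomputable section

/-- The index group. -/
abbrev G := ℕ →₀ ZMod 2

/-- The value group of the base field. -/
abbrev Gam := Lex (ℕ →₀ ℤ)

/-- The base field. -/
def K0 : Type := HahnSeries Gam ℚ

instance : Field K0 := inferInstanceAs (Field (HahnSeries Gam ℚ))

instance : CharZero K0 := by
  have : CharZero (HahnSeries Gam ℚ) :=
    charZero_of_injective_ringHom (f := (HahnSeries.C : ℚ →+* HahnSeries Gam ℚ))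
      HahnSeries.C_injective
  exact this

theorem G.add_self (g : G) : g + g = 0 := by
  ext k; simp only [Finsupp.add_apply, Finsupp.zero_apply]
  generalize g k = x; revert x; decide

theorem G.add_add (g h : G) : g + (g + h) = h := by rw [← add_assoc, G.add_self, zero_add]

theorem G.add_eq_zero {g h : G} : g + h = 0 ↔ g = h := by
  constructor
  · intro H
    have := G.add_add g h
    rw [H, add_zero] at this; exact this
  · rintro rfl; exact G.add_self g

/-- Exponent part of the cocycle. -/
def gam (g h : G) : ℕ →₀ ℤ := Finsupp.zipWith (fun x y => ((x * y).val : ℤ)) (by simp) g h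

/-- Sign part of the cocycle. -/
def beta (g h : G) : ZMod 2 := g.sum fun b x => x * (if b % 2 = 1 then h (b - 1) else 0)

/-- The sign character. -/
def sg (x : ZMod 2) : ℤ := if x = 0 then 1 else -1

theorem sg_add (x y : ZMod 2) : sg (x + y) = sg x * sg y := by revert x y; decide

theorem sg_sq (x : ZMod 2) : sg x * sg x = 1 := by revert x; decide

theorem beta_add_left (g g' h : G) : beta (g + g') h = beta g h + beta g' h := by
  unfold beta
  rw [Finsupp.sum_add_index' (by simp) (fun _ _ _ => add_mul _ _ _)]

theorem beta_add_right (g h h' : G) : beta g (h + h') = beta g h + beta g h' := by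
  unfold beta
  rw [← Finsupp.sum_add]
  refine Finsupp.sum_congr fun b _ => ?_
  split_ifs <;> simp [mul_add]

theorem beta_zero_left (h : G) : beta 0 h = 0 := by simp [beta]

theorem beta_zero_right (g : G) : beta g 0 = 0 := by simp [beta]

theorem beta_single (b : ℕ) (h : G) :
    beta (Finsupp.single b 1) h = if b % 2 = 1 then h (b - 1) else 0 := by
  unfold beta
  rw [Finsupp.sum_single_index] <;> simp

/-- The cocycle. -/
def chi (g h : G) : K0 :=
  (HahnSeries.single (toLex (gam g h)) ((sg (beta g h) : ℤ) : ℚ) : HahnSeries Gam ℚ)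

theorem gam_cocycle (g h k : G) : gam g h + gam (g + h) k = gam h k + gam g (h + k) := by
  ext b
  simp only [gam, Finsupp.add_apply, Finsupp.zipWith_apply]
  generalize g b = x; generalize h b = y; generalize k b = z
  revert x y z; decide

theorem chi_cocycle (g h k : G) : chi g h * chi (g + h) k = chi h k * chi g (h + k) := by
  unfold chi
  have := HahnSeries.single_mul_single (a := toLex (gam g h)) (b := toLex (gam (g + h) k))
    (r := ((sg (beta g h) : ℤ) : ℚ)) (s := ((sg (beta (g + h) k) : ℤ) : ℚ))
  refine this.trans ?_
  have := HahnSeries.single_mul_single (a := toLex (gam h k)) (b := toLex (gam g (h + k)))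
    (r := ((sg (beta h k) : ℤ) : ℚ)) (s := ((sg (beta g (h + k)) : ℤ) : ℚ))
  refine Eq.trans ?_ this.symm
  rw [← toLex_add, ← toLex_add, gam_cocycle, beta_add_left, beta_add_right, sg_add, sg_add]
  congr 1
  push_cast; ring

theorem chi_zero_left (h : G) : chi 0 h = 1 := by
  have : gam 0 h = 0 := by ext b; simp [gam]
  unfold chi
  rw [this, beta_zero_left]
  simp only [sg, if_true, Int.cast_one]
  rfl

theorem chi_zero_right (g : G) : chi g 0 = 1 := by
  have : gam g 0 = 0 := by ext b; simp [gam]
  unfold chi
  rw [this, beta_zero_right]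
  simp only [sg, if_true, Int.cast_one]
  rfl

theorem sg_ne_zero (x : ZMod 2) : sg x ≠ 0 := by revert x; decide

theorem chi_ne_zero (g h : G) : chi g h ≠ 0 := by
  unfold chi
  exact HahnSeries.single_ne_zero (by exact_mod_cast sg_ne_zero _)

/-- The commutator form. -/
def sym (g h : G) : ZMod 2 := beta g h + beta h g

theorem chi_comm (g h : G) : chi g h = (sg (sym g h) : ℤ) * chi h g := by
  have e1 : gam g h = gam h g := by ext b; simp [gam, mul_comm]
  have e2 : sg (beta g h) = sg (sym g h) * sg (beta h g) := by
    rw [sym, sg_add, mul_assoc, sg_sq, mul_one]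
  unfold chi
  rw [e1, e2]
  have := HahnSeries.single_mul_single (a := (0 : Gam)) (b := toLex (gam h g))
    (r := ((sg (sym g h) : ℤ) : ℚ)) (s := ((sg (beta h g) : ℤ) : ℚ))
  refine Eq.trans ?_ this.symm
  rw [zero_add]; push_cast; rfl

theorem sym_comm (g h : G) : sym g h = sym h g := add_comm _ _

theorem sym_add_left (g g' h : G) : sym (g + g') h = sym g h + sym g' h := by
  simp only [sym, beta_add_left, beta_add_right]; ring

theorem sym_add_right (g h h' : G) : sym g (h + h') = sym g h + sym g h' := by
  simp only [sym, beta_add_left, beta_add_right]; ring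

theorem sym_self (g : G) : sym g g = 0 := by
  unfold sym; generalize beta g g = x; revert x; decide

theorem beta_single_right (g : G) (b : ℕ) :
    beta g (Finsupp.single b 1) = if b % 2 = 0 then g (b + 1) else 0 := by
  induction g using Finsupp.induction_linear with
  | zero => simp [beta_zero_left]
  | add g g' hg hg' => rw [beta_add_left, hg, hg']; split_ifs <;> simp
  | single a x =>
    unfold beta
    rw [Finsupp.sum_single_index (by simp)]
    simp only [Finsupp.single_apply]
    split_ifs <;> first | omega | simp

/-- The partner bit. -/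
def mate (b : ℕ) : ℕ := if b % 2 = 0 then b + 1 else b - 1

theorem sym_single (b : ℕ) (h : G) : sym (Finsupp.single b 1) h = h (mate b) := by
  unfold sym mate
  rw [beta_single, beta_single_right]
  split_ifs <;> first | omega | simp

/-- The twisted group algebra. -/
def A (K : Type) [Field K] : Type := G →₀ K

variable {K K' : Type} [Field K] [Field K']

instance : AddCommGroup (A K) := inferInstanceAs (AddCommGroup (G →₀ K))

instance : Module K (A K) := inferInstanceAs (Module K (G →₀ K))

/-- Basis elements. -/
def e (g : G) : A K := Finsupp.single g 1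

/-- Coordinates. -/
def co (g : G) : A K →ₗ[K] K := Finsupp.lapply g

/-- Support. -/
def sup (x : A K) : Finset G := Finsupp.support x

theorem mem_sup {x : A K} {g : G} : g ∈ sup x ↔ co g x ≠ 0 := Finsupp.mem_support_iff

theorem A.ext' {x y : A K} (h : ∀ g, co g x = co g y) : x = y := Finsupp.ext h

open Classical in
theorem co_e (g h : G) : co g (e h : A K) = if h = g then 1 else 0 := by
  have := Finsupp.single_apply (a := h) (a' := g) (b := (1 : K))
  exact (show co g (e h : A K) = Finsupp.single h (1 : K) g from rfl).trans (by convert this)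

theorem sum_co (x : A K) {S : Finset G} (hS : ∀ g, g ∉ S → co g x = 0) :
    x = ∑ g ∈ S, co g x • e g := by
  classical
  refine A.ext' fun k => ?_
  simp only [map_sum, map_smul, co_e, smul_eq_mul, mul_ite, mul_one, mul_zero]
  rw [Finset.sum_ite_eq']
  split_ifs with h
  · rfl
  · exact hS k h

theorem sum_sup (x : A K) : x = ∑ g ∈ sup x, co g x • e g :=
  sum_co x fun g hg => by simpa [mem_sup] using hg

theorem A.induction {p : A K → Prop} (x : A K) (h0 : p 0) (hadd : ∀ x y, p x → p y → p (x + y))
    (he : ∀ (a : K) (g : G), p (a • e g)) : p x := by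
  rw [sum_sup x]
  exact Finset.sum_induction _ p hadd h0 fun g _ => he _ g

theorem exists_co (S : Finset G) (v : G → K) :
    ∃ x : A K, (∀ g ∈ S, co g x = v g) ∧ ∀ g, g ∉ S → co g x = 0 := by
  classical
  refine ⟨∑ g ∈ S, v g • e g, fun g hg => ?_, fun g hg => ?_⟩ <;>
  simp only [map_sum, map_smul, co_e, smul_eq_mul, mul_ite, mul_one, mul_zero] <;>
  rw [Finset.sum_ite_eq'] <;> simp [hg]

theorem lin_ext {X : Type*} [AddCommGroup X] [Module K X] {f g : A K →ₗ[K] X}
    (h : ∀ a, f (e a) = g (e a)) : f = g := by
  ext x
  induction x using A.induction with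
  | h0 => simp
  | hadd x y hx hy => simp [hx, hy]
  | he a k => simp [h]

/-- The linear map with given values on the basis. -/
def lift {X : Type*} [AddCommGroup X] [Module K X] (v : G → X) : A K →ₗ[K] X :=
  Finsupp.linearCombination K v

theorem lift_e {X : Type*} [AddCommGroup X] [Module K X] (v : G → X) (g : G) :
    lift v (e g : A K) = v g := by
  have := Finsupp.linearCombination_single K (v := v) (1 : K) g
  rw [one_smul] at this
  exact this

variable [Algebra K0 K] [Algebra K0 K']

/-- The cocycle in `K`. -/
def c (K : Type) [Field K] [Algebra K0 K] (g h : G) : K := algebraMap K0 K (chi g h)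

theorem c_ne_zero (g h : G) : c K g h ≠ 0 := by
  unfold c; rw [Ne, map_eq_zero]; exact chi_ne_zero g h

/-- Multiplication as a bilinear map. -/
def mulL : A K →ₗ[K] A K →ₗ[K] A K := lift fun g => lift fun h => c K g h • e (g + h)

theorem mulL_e (g h : G) : mulL (e g : A K) (e h) = c K g h • e (g + h) := by
  simp [mulL, lift_e]

theorem mulL_assoc (x y z : A K) : mulL (mulL x y) z = mulL x (mulL y z) := by
  induction x using A.induction with
  | h0 => simp
  | hadd x y hx hy => simp [hx, hy]
  | he a g =>
  induction y using A.induction with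
  | h0 => simp
  | hadd x y hx hy => simp only [map_add, LinearMap.add_apply, hx, hy]
  | he b h =>
  induction z using A.induction with
  | h0 => simp
  | hadd x y hx hy => simp only [map_add, hx, hy]
  | he d k =>
  simp only [map_smul, LinearMap.smul_apply, mulL_e, smul_smul, add_assoc]
  congr 1
  have := congrArg (algebraMap K0 K) (chi_cocycle g h k)
  simp only [map_mul] at this
  unfold c
  linear_combination a * b * d * this

theorem mulL_one (x : A K) : mulL x (e 0) = x := by
  induction x using A.induction with
  | h0 => simp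
  | hadd x y hx hy => simp [hx, hy]
  | he a g => simp [mulL_e, c, chi_zero_right]

theorem one_mulL (x : A K) : mulL (e 0) x = x := by
  induction x using A.induction with
  | h0 => simp
  | hadd x y hx hy => simp [hx, hy]
  | he a g => simp [mulL_e, c, chi_zero_left]

instance : Ring (A K) where
  __ := (inferInstance : AddCommGroup (A K))
  mul x y := mulL x y
  one := e 0
  left_distrib x y z := map_add (mulL x) y z
  right_distrib x y z := LinearMap.map_add₂ mulL x y z
  zero_mul x := LinearMap.map_zero₂ mulL x
  mul_zero x := map_zero (mulL x)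
  mul_assoc := mulL_assoc
  one_mul := one_mulL
  mul_one := mulL_one

instance : Algebra K (A K) :=
  Algebra.ofModule (fun r x y => LinearMap.map_smul₂ mulL r x y)
    (fun r x y => map_smul (mulL x) r y)

theorem e_zero : (e 0 : A K) = 1 := rfl

theorem e_mul_e (g h : G) : (e g : A K) * e h = c K g h • e (g + h) := mulL_e g h

omit [Algebra K0 K'] in
theorem charZero (K : Type) [Field K] [Algebra K0 K] : CharZero K :=
  charZero_of_injective_algebraMap (algebraMap K0 K).injective

theorem e_comm (g h : G) : (e g : A K) * e h = ((sg (sym g h) : ℤ) : K) • (e h * e g) := by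
  rw [e_mul_e, e_mul_e, smul_smul, add_comm h g]
  congr 1
  unfold c
  rw [chi_comm g h, map_mul, map_intCast]

theorem co_mul (x y : A K) (k : G) {S : Finset G} (hS : ∀ g, g ∉ S → co g x = 0) :
    co k (x * y) = ∑ g ∈ S, c K g (g + k) * (co g x * co (g + k) y) := by
  classical
  conv_lhs => rw [sum_co x hS]
  rw [Finset.sum_mul, map_sum]
  refine Finset.sum_congr rfl fun g _ => ?_
  rw [smul_mul_assoc, map_smul, smul_eq_mul, mul_left_comm]
  congr 1
  induction y using A.induction with
  | h0 => simp
  | hadd x y hx hy => simp [mul_add, hx, hy]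
  | he b h =>
    rw [mul_smul_comm, e_mul_e]
    simp only [map_smul, co_e, smul_eq_mul]
    by_cases H : g + h = k
    · subst H; simp [G.add_add, mul_comm]
    · have : h ≠ g + k := fun H' => H (by rw [H', G.add_add])
      simp [H, this]

/-- The normalized trace. -/
def tr : A K →ₗ[K] K := co 0

theorem tr_one : tr (1 : A K) = 1 := by
  rw [← e_zero, tr, co_e, if_pos rfl]

theorem tr_e {g : G} (hg : g ≠ 0) : tr (e g : A K) = 0 := by
  rw [tr, co_e, if_neg hg]

theorem tr_comm (x y : A K) : tr (x * y) = tr (y * x) := by
  induction x using A.induction with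
  | h0 => simp
  | hadd x y hx hy => simp [mul_add, add_mul, hx, hy]
  | he a g =>
  induction y using A.induction with
  | h0 => simp
  | hadd x y hx hy => simp only [mul_add, add_mul, map_add, hx, hy]
  | he b h =>
  simp only [smul_mul_assoc, mul_smul_comm, map_smul, e_mul_e, smul_eq_mul, add_comm h g]
  by_cases H : g = h
  · subst H; ring
  · rw [tr_e (fun H' => H (G.add_eq_zero.1 H'))]; ring

instance : Nontrivial (A K) := ⟨⟨1, 0, fun h => by simpa [tr_one] using congrArg tr h⟩⟩

/-- Inverse basis elements. -/
def ei (g : G) : A K := (c K g g)⁻¹ • e g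

theorem e_mul_ei (g : G) : (e g : A K) * ei g = 1 := by
  rw [ei, mul_smul_comm, e_mul_e, smul_smul, inv_mul_cancel₀ (c_ne_zero g g), G.add_self, one_smul,
    e_zero]

theorem ei_mul_e (g : G) : (ei g : A K) * e g = 1 := by
  rw [ei, smul_mul_assoc, e_mul_e, smul_smul, inv_mul_cancel₀ (c_ne_zero g g), G.add_self, one_smul,
    e_zero]

theorem ei_zero : (ei 0 : A K) = 1 := by
  have := e_mul_ei (K := K) 0
  rwa [e_zero, one_mul] at this

theorem e_ne_zero (g : G) : (e g : A K) ≠ 0 := fun h => by
  simpa [h] using e_mul_ei (K := K) g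

theorem tr_ei_mul (g : G) (x : A K) : tr (ei g * x) = co g x := by
  induction x using A.induction with
  | h0 => simp
  | hadd x y hx hy => simp [mul_add, hx, hy]
  | he b h =>
    rw [mul_smul_comm, map_smul, map_smul, co_e]
    congr 1
    split_ifs with H
    · subst H; rw [ei_mul_e, tr_one]
    · rw [ei, smul_mul_assoc, e_mul_e, map_smul, map_smul,
        tr_e (fun H' => H (G.add_eq_zero.1 H').symm)]
      simp

theorem tr_mul_ei (g : G) (x : A K) : tr (x * ei g) = co g x := by
  rw [tr_comm, tr_ei_mul]

/-- Base change of scalars. -/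
def mapA (f : K →ₐ[K0] K') : A K →+ A K' := Finsupp.mapRange.addMonoidHom (f : K →+ K')

theorem co_mapA (f : K →ₐ[K0] K') (g : G) (x : A K) : co g (mapA f x) = f (co g x) := rfl

theorem mapA_smul_e (f : K →ₐ[K0] K') (a : K) (g : G) : mapA f (a • e g) = f a • e g := by
  refine A.ext' fun k => ?_
  rw [co_mapA]
  simp only [map_smul, co_e, smul_eq_mul]
  split_ifs <;> simp

/-- Base change of scalars. -/
def map (f : K →ₐ[K0] K') : A K →+* A K' where
  toFun := mapA f
  map_zero' := map_zero _
  map_add' := map_add _
  map_one' := by simpa [e_zero] using mapA_smul_e f 1 0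
  map_mul' x y := by
    refine A.ext' fun k => ?_
    rw [co_mapA, co_mul x y k (S := sup x) (fun g hg => by simpa [mem_sup] using hg),
      co_mul _ _ k (S := sup x) (fun g hg => by
        rw [co_mapA]; rw [mem_sup, not_not] at hg; rw [hg, map_zero]), map_sum]
    refine Finset.sum_congr rfl fun g _ => ?_
    simp only [map_mul, co_mapA, c, AlgHom.commutes]

theorem co_map (f : K →ₐ[K0] K') (g : G) (x : A K) : co g (map f x) = f (co g x) := rfl

theorem tr_map (f : K →ₐ[K0] K') (x : A K) : tr (map f x) = f (tr x) := rfl

theorem map_smul' (f : K →ₐ[K0] K') (a : K) (x : A K) : map f (a • x) = f a • map f x := by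
  refine A.ext' fun k => ?_
  simp only [co_map, map_smul, smul_eq_mul, map_mul]

theorem map_e (f : K →ₐ[K0] K') (g : G) : map f (e g) = e g := by
  have := mapA_smul_e f 1 g
  rw [one_smul, map_one, one_smul] at this
  exact this

theorem c_map (f : K →ₐ[K0] K') (g h : G) : f (c K g h) = c K' g h := f.commutes _

theorem map_ei (f : K →ₐ[K0] K') (g : G) : map f (ei g) = ei g := by
  rw [ei, map_smul', map_e, map_inv₀, c_map, ei]

theorem map_injective (f : K →ₐ[K0] K') : Function.Injective (map f) := fun x y h =>
  A.ext' fun g => f.injective (show f _ = f _ by rw [← co_map, h, co_map])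

theorem map_map {K'' : Type} [Field K''] [Algebra K0 K''] (f : K →ₐ[K0] K') (g : K' →ₐ[K0] K'')
    (x : A K) : map g (map f x) = map (g.comp f) x := A.ext' fun _ => rfl

theorem map_id (x : A K) : map (AlgHom.id K0 K) x = x := A.ext' fun _ => rfl

end

end Vale.Agent.P199
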