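import Vale.Agent.P199.Laurent

/-! Noncommutative expressions and their first and second derivatives. -/

namespace Vale.Agent.P199

open Finset Module

set_option linter.unusedSectionVars false

/-- Noncommutative polynomial expressions. -/
inductive Ex : Type
  | var : ℕ → Ex
  | zero : Ex
  | one : Ex
  | add : Ex → Ex → Ex
  | mul : Ex → Ex → Ex
  | neg : Ex → Ex

/-- An injective encoding of expressions. -/
def Ex.enc_aux : Ex → ℕ
  | .var i => Nat.pair 0 i
  | .zero => Nat.pair 1 0
  | .one => Nat.pair 2 0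
  | .add a b => Nat.pair 3 (Nat.pair a.enc_aux b.enc_aux)
  | .mul a b => Nat.pair 4 (Nat.pair a.enc_aux b.enc_aux)
  | .neg a => Nat.pair 5 a.enc_aux

theorem Ex.enc_inj_aux : ∀ a b : Ex, a.enc_aux = b.enc_aux → a = b := by
  intro a
  induction a with
  | var i => intro b h; cases b <;> simp_all [Ex.enc_aux]
  | zero => intro b h; cases b <;> simp_all [Ex.enc_aux]
  | one => intro b h; cases b <;> simp_all [Ex.enc_aux]
  | add a c iha ihc =>
    intro b h
    cases b <;> simp only [Ex.enc_aux, Nat.pair_eq_pair] at h <;> try omega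
    rw [iha _ h.2.1, ihc _ h.2.2]
  | mul a c iha ihc =>
    intro b h
    cases b <;> simp only [Ex.enc_aux, Nat.pair_eq_pair] at h <;> try omega
    rw [iha _ h.2.1, ihc _ h.2.2]
  | neg a iha =>
    intro b h
    cases b <;> simp only [Ex.enc_aux, Nat.pair_eq_pair] at h <;> try omega
    rw [iha _ h.2]

instance : Countable Ex := ⟨Ex.enc_aux, fun a b h => Ex.enc_inj_aux a b h⟩

instance : Inhabited Ex := ⟨Ex.zero⟩

/-- All variables lie in `S`. -/
def Ex.In (S : Set ℕ) : Ex → Prop
  | .var i => i ∈ S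
  | .zero => True
  | .one => True
  | .add a b => a.In S ∧ b.In S
  | .mul a b => a.In S ∧ b.In S
  | .neg a => a.In S

theorem Ex.In.mono {S T : Set ℕ} (h : S ⊆ T) {a : Ex} (ha : a.In S) : a.In T := by
  induction a with
  | var i => exact h ha
  | zero => trivial
  | one => trivial
  | add a b iha ihb => exact ⟨iha ha.1, ihb ha.2⟩
  | mul a b iha ihb => exact ⟨iha ha.1, ihb ha.2⟩
  | neg a iha => exact iha ha

theorem Ex.exists_finset {S : Set ℕ} {a : Ex} (ha : a.In S) :
    ∃ T : Finset ℕ, (T : Set ℕ) ⊆ S ∧ a.In T := by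
  induction a with
  | var i => exact ⟨{i}, by simpa [Ex.In] using ha, by simp [Ex.In]⟩
  | zero => exact ⟨∅, by simp, trivial⟩
  | one => exact ⟨∅, by simp, trivial⟩
  | add a b iha ihb =>
    obtain ⟨T, hT, h⟩ := iha ha.1
    obtain ⟨U, hU, h'⟩ := ihb ha.2
    exact ⟨T ∪ U, by simp [hT, hU], h.mono (by simp), h'.mono (by simp)⟩
  | mul a b iha ihb =>
    obtain ⟨T, hT, h⟩ := iha ha.1
    obtain ⟨U, hU, h'⟩ := ihb ha.2
    exact ⟨T ∪ U, by simp [hT, hU], h.mono (by simp), h'.mono (by simp)⟩
  | neg a iha => exact iha ha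

/-- Evaluation. -/
def ev {R : Type*} [Ring R] (v : ℕ → R) : Ex → R
  | .var i => v i
  | .zero => 0
  | .one => 1
  | .add a b => ev v a + ev v b
  | .mul a b => ev v a * ev v b
  | .neg a => -ev v a

/-- Finite sums of expressions. -/
def Ex.sum (f : ℕ → Ex) : ℕ → Ex
  | 0 => .zero
  | k + 1 => .add (Ex.sum f k) (f k)

/-- Powers of expressions. -/
def Ex.pow (a : Ex) : ℕ → Ex
  | 0 => .one
  | k + 1 => .mul (a.pow k) a

theorem Ex.In.sum {S : Set ℕ} {f : ℕ → Ex} {k : ℕ} (h : ∀ i < k, (f i).In S) :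
    (Ex.sum f k).In S := by
  induction k with
  | zero => trivial
  | succ k ih => exact ⟨ih fun i hi => h i (by omega), h k (by omega)⟩

theorem Ex.In.pow {S : Set ℕ} {a : Ex} (h : a.In S) (k : ℕ) : (a.pow k).In S := by
  induction k with
  | zero => trivial
  | succ k ih => exact ⟨ih, h⟩

theorem ev_sum {R : Type*} [Ring R] (v : ℕ → R) (f : ℕ → Ex) (k : ℕ) :
    ev v (Ex.sum f k) = ∑ i ∈ range k, ev v (f i) := by
  induction k with
  | zero => rfl
  | succ k ih => rw [Finset.sum_range_succ, ← ih]; rfl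

theorem ev_pow {R : Type*} [Ring R] (v : ℕ → R) (a : Ex) (k : ℕ) :
    ev v (a.pow k) = ev v a ^ k := by
  induction k with
  | zero => rw [pow_zero]; rfl
  | succ k ih => rw [pow_succ, ← ih]; rfl

theorem ev_congr {R : Type*} [Ring R] {S : Set ℕ} {v w : ℕ → R} (h : ∀ i ∈ S, v i = w i) {a : Ex}
    (ha : a.In S) : ev v a = ev w a := by
  induction a with
  | var i => exact h i ha
  | zero => rfl
  | one => rfl
  | add a b iha ihb => simp only [ev, iha ha.1, ihb ha.2]
  | mul a b iha ihb => simp only [ev, iha ha.1, ihb ha.2]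
  | neg a iha => simp only [ev, iha ha]

theorem ev_hom {R R' : Type*} [Ring R] [Ring R'] (φ : R →+* R') (v : ℕ → R) (a : Ex) :
    ev (fun i => φ (v i)) a = φ (ev v a) := by
  induction a with
  | var i => rfl
  | zero => simp [ev]
  | one => simp [ev]
  | add a b iha ihb => simp only [ev, iha, ihb, map_add]
  | mul a b iha ihb => simp only [ev, iha, ihb, map_mul]
  | neg a iha => simp only [ev, iha, map_neg]

noncomputable section

variable {K K' : Type} [Field K] [Field K'] [Algebra K0 K] [Algebra K0 K']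

/-- First derivative. -/
def d1 (v : ℕ → A K) : Ex → (ℕ → A K) →ₗ[K] A K
  | .var i => LinearMap.proj i
  | .zero => 0
  | .one => 0
  | .add a b => d1 v a + d1 v b
  | .mul a b => LinearMap.mulRight K (ev v b) ∘ₗ d1 v a + LinearMap.mulLeft K (ev v a) ∘ₗ d1 v b
  | .neg a => -d1 v a

/-- Second order term. -/
def d2 (v : ℕ → A K) : Ex → (ℕ → A K) →ₗ[K] (ℕ → A K) →ₗ[K] A K
  | .var _ => 0
  | .zero => 0
  | .one => 0
  | .add a b => d2 v a + d2 v b
  | .mul a b => (d2 v a).compr₂ (LinearMap.mulRight K (ev v b)) +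
      (LinearMap.mul K (A K)).compl₁₂ (d1 v a) (d1 v b) +
      (d2 v b).compr₂ (LinearMap.mulLeft K (ev v a))
  | .neg a => -d2 v a

section simp_lemmas

variable (v β β' : ℕ → A K) (a b : Ex) (i : ℕ)

@[simp] theorem ev_var {R : Type*} [Ring R] (v : ℕ → R) : ev v (.var i) = v i := rfl
@[simp] theorem ev_zero {R : Type*} [Ring R] (v : ℕ → R) : ev v .zero = 0 := rfl
@[simp] theorem ev_one {R : Type*} [Ring R] (v : ℕ → R) : ev v .one = 1 := rfl
@[simp] theorem ev_add {R : Type*} [Ring R] (v : ℕ → R) :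
    ev v (.add a b) = ev v a + ev v b := rfl
@[simp] theorem ev_mul {R : Type*} [Ring R] (v : ℕ → R) :
    ev v (.mul a b) = ev v a * ev v b := rfl
@[simp] theorem ev_neg {R : Type*} [Ring R] (v : ℕ → R) : ev v (.neg a) = -ev v a := rfl
@[simp] theorem d1_var : d1 v (.var i) β = β i := rfl
@[simp] theorem d1_zero : d1 v .zero β = 0 := rfl
@[simp] theorem d1_one : d1 v .one β = 0 := rfl
@[simp] theorem d1_add : d1 v (.add a b) β = d1 v a β + d1 v b β := rfl
@[simp] theorem d1_mul : d1 v (.mul a b) β = d1 v a β * ev v b + ev v a * d1 v b β := rfl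
@[simp] theorem d1_neg : d1 v (.neg a) β = -d1 v a β := rfl
@[simp] theorem d2_var : d2 v (.var i) β β' = 0 := rfl
@[simp] theorem d2_zero : d2 v .zero β β' = 0 := rfl
@[simp] theorem d2_one : d2 v .one β β' = 0 := rfl
@[simp] theorem d2_add : d2 v (.add a b) β β' = d2 v a β β' + d2 v b β β' := rfl
@[simp] theorem d2_mul : d2 v (.mul a b) β β' =
    d2 v a β β' * ev v b + d1 v a β * d1 v b β' + ev v a * d2 v b β β' := rfl
@[simp] theorem d2_neg : d2 v (.neg a) β β' = -d2 v a β β' := rfl

end simp_lemmas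

theorem d1_sum (v β : ℕ → A K) (f : ℕ → Ex) (k : ℕ) :
    d1 v (Ex.sum f k) β = ∑ i ∈ range k, d1 v (f i) β := by
  induction k with
  | zero => rfl
  | succ k ih => rw [Finset.sum_range_succ, ← ih]; rfl

theorem d2_sum (v β β' : ℕ → A K) (f : ℕ → Ex) (k : ℕ) :
    d2 v (Ex.sum f k) β β' = ∑ i ∈ range k, d2 v (f i) β β' := by
  induction k with
  | zero => rfl
  | succ k ih => rw [Finset.sum_range_succ, ← ih]; rfl

variable {S : Set ℕ} {a : Ex}

theorem d1_congr {v w β β' : ℕ → A K} (h : ∀ i ∈ S, v i = w i) (h' : ∀ i ∈ S, β i = β' i)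
    (ha : a.In S) : d1 v a β = d1 w a β' := by
  induction a with
  | var i => exact h' i ha
  | zero => rfl
  | one => rfl
  | add a b iha ihb => simp only [d1_add, iha ha.1, ihb ha.2]
  | mul a b iha ihb =>
    simp only [d1_mul, iha ha.1, ihb ha.2, ev_congr h ha.1, ev_congr h ha.2]
  | neg a iha => simp only [d1_neg, iha ha]

theorem d2_congr {v w β β' γ γ' : ℕ → A K} (h : ∀ i ∈ S, v i = w i) (h' : ∀ i ∈ S, β i = β' i)
    (h'' : ∀ i ∈ S, γ i = γ' i) (ha : a.In S) : d2 v a β γ = d2 w a β' γ' := by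
  induction a with
  | var i => rfl
  | zero => rfl
  | one => rfl
  | add a b iha ihb => simp only [d2_add, iha ha.1, ihb ha.2]
  | mul a b iha ihb =>
    simp only [d2_mul, iha ha.1, ihb ha.2, ev_congr h ha.1, ev_congr h ha.2,
      d1_congr h h' ha.1, d1_congr h h'' ha.2]
  | neg a iha => simp only [d2_neg, iha ha]

theorem ev_mem {B : Subalgebra K (A K)} {v : ℕ → A K} (h : ∀ i ∈ S, v i ∈ B) (ha : a.In S) :
    ev v a ∈ B := by
  induction a with
  | var i => exact h i ha
  | zero => exact zero_mem _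
  | one => exact one_mem _
  | add a b iha ihb => exact add_mem (iha ha.1) (ihb ha.2)
  | mul a b iha ihb => exact mul_mem (iha ha.1) (ihb ha.2)
  | neg a iha => exact neg_mem (iha ha)

theorem d1_mem {B : Subalgebra K (A K)} {v β : ℕ → A K} (h : ∀ i ∈ S, v i ∈ B)
    (h' : ∀ i ∈ S, β i ∈ B) (ha : a.In S) : d1 v a β ∈ B := by
  induction a with
  | var i => exact h' i ha
  | zero => exact zero_mem _
  | one => exact zero_mem _
  | add a b iha ihb => exact add_mem (iha ha.1) (ihb ha.2)
  | mul a b iha ihb =>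
    exact add_mem (mul_mem (iha ha.1) (ev_mem h ha.2)) (mul_mem (ev_mem h ha.1) (ihb ha.2))
  | neg a iha => exact neg_mem (iha ha)

theorem d2_mem {B : Subalgebra K (A K)} {v β γ : ℕ → A K} (h : ∀ i ∈ S, v i ∈ B)
    (h' : ∀ i ∈ S, β i ∈ B) (h'' : ∀ i ∈ S, γ i ∈ B) (ha : a.In S) : d2 v a β γ ∈ B := by
  induction a with
  | var i => exact zero_mem _
  | zero => exact zero_mem _
  | one => exact zero_mem _
  | add a b iha ihb => exact add_mem (iha ha.1) (ihb ha.2)
  | mul a b iha ihb =>
    exact add_mem (add_mem (mul_mem (iha ha.1) (ev_mem h ha.2))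
      (mul_mem (d1_mem h h' ha.1) (d1_mem h h'' ha.2))) (mul_mem (ev_mem h ha.1) (ihb ha.2))
  | neg a iha => exact neg_mem (iha ha)

theorem d1_mul_DS {n m : ℕ} {v : ℕ → A K} (β : ℕ → A K) (h : ∀ i ∈ S, v i ∈ D K n)
    (ha : a.In S) {z : A K} (hz : z ∈ DS K n m) : d1 v a (fun i => β i * z) = d1 v a β * z := by
  induction a with
  | var i => rfl
  | zero => simp
  | one => simp
  | add a b iha ihb => simp only [d1_add, iha ha.1, ihb ha.2, add_mul]
  | mul a b iha ihb =>
    have := comm_DS (ev_mem h ha.2) hz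
    simp only [d1_mul, iha ha.1, ihb ha.2, add_mul, mul_assoc, this]
  | neg a iha => simp only [d1_neg, iha ha, neg_mul]

theorem d2_mul_DS {n m : ℕ} {v β γ : ℕ → A K} (h : ∀ i ∈ S, v i ∈ D K n)
    (h' : ∀ i ∈ S, γ i ∈ D K n) (ha : a.In S) {z z' : A K} (hz : z ∈ DS K n m)
    (hz' : z' ∈ DS K n m) :
    d2 v a (fun i => β i * z) (fun i => γ i * z') = d2 v a β γ * (z * z') := by
  induction a with
  | var i => simp
  | zero => simp
  | one => simp
  | add a b iha ihb => simp only [d2_add, iha ha.1, ihb ha.2, add_mul]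
  | mul a b iha ihb =>
    have h1 := comm_DS (ev_mem h ha.2) (mul_mem hz hz')
    have h2 := comm_DS (d1_mem h h' ha.2) hz
    rw [d2_mul, d2_mul, iha ha.1, ihb ha.2, d1_mul_DS β h ha.1 hz, d1_mul_DS γ h ha.2 hz',
      add_mul, add_mul, mul_assoc (d2 v a β γ) (z * z'), ← h1, mul_assoc (d1 v a β) z,
      ← mul_assoc z, ← h2]
    simp only [mul_assoc]
  | neg a iha => simp only [d2_neg, iha ha, neg_mul]

theorem d1_cp {n m : ℕ} {v : ℕ → A K} (β : ℕ → A K) (h : ∀ i ∈ S, v i ∈ D K n)
    (ha : a.In S) {g : G} (hg : g ∈ GS n m) :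
    d1 v a (fun i => cp n g (β i)) = cp n g (d1 v a β) := by
  induction a with
  | var i => rfl
  | zero => simp
  | one => simp
  | add a b iha ihb => simp only [d1_add, iha ha.1, ihb ha.2, map_add]
  | mul a b iha ihb =>
    simp only [d1_mul, iha ha.1, ihb ha.2, map_add, cp_mul_left g (ev_mem h ha.1),
      cp_mul_right hg (ev_mem h ha.2)]
  | neg a iha => simp only [d1_neg, iha ha, map_neg]

theorem d1_map (f : K →ₐ[K0] K') (v β : ℕ → A K) (a : Ex) :
    d1 (fun i => map f (v i)) a (fun i => map f (β i)) = map f (d1 v a β) := by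
  induction a with
  | var i => rfl
  | zero => simp
  | one => simp
  | add a b iha ihb => simp only [d1_add, iha, ihb, map_add]
  | mul a b iha ihb => simp only [d1_mul, iha, ihb, map_add, map_mul, ev_hom]
  | neg a iha => simp only [d1_neg, iha, map_neg]

theorem d2_map (f : K →ₐ[K0] K') (v β γ : ℕ → A K) (a : Ex) :
    d2 (fun i => map f (v i)) a (fun i => map f (β i)) (fun i => map f (γ i)) =
      map f (d2 v a β γ) := by
  induction a with
  | var i => simp
  | zero => simp
  | one => simp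
  | add a b iha ihb => simp only [d2_add, iha, ihb, map_add]
  | mul a b iha ihb => simp only [d2_mul, iha, ihb, map_add, map_mul, ev_hom, d1_map]
  | neg a iha => simp only [d2_neg, iha, map_neg]

section place

variable {f : K →ₐ[K0] K'} {P : K' → K → Prop} {v' β' γ' : ℕ → A K'} {v β γ : ℕ → A K}

theorem ev_RA (hP : IsPlace f P) (h : ∀ i ∈ S, RA P (v' i) (v i)) (ha : a.In S) :
    RA P (ev v' a) (ev v a) := by
  induction a with
  | var i => exact h i ha
  | zero => exact RA.zero hP
  | one => exact RA.one hP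
  | add a b iha ihb => exact (iha ha.1).add hP (ihb ha.2)
  | mul a b iha ihb => exact (iha ha.1).mul hP (ihb ha.2)
  | neg a iha => exact (iha ha).neg hP

theorem d1_RA (hP : IsPlace f P) (h : ∀ i ∈ S, RA P (v' i) (v i))
    (h' : ∀ i ∈ S, RA P (β' i) (β i)) (ha : a.In S) : RA P (d1 v' a β') (d1 v a β) := by
  induction a with
  | var i => exact h' i ha
  | zero => exact RA.zero hP
  | one => exact RA.zero hP
  | add a b iha ihb => exact (iha ha.1).add hP (ihb ha.2)
  | mul a b iha ihb =>
    exact ((iha ha.1).mul hP (ev_RA hP h ha.2)).add hP ((ev_RA hP h ha.1).mul hP (ihb ha.2))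
  | neg a iha => exact (iha ha).neg hP

theorem d2_RA (hP : IsPlace f P) (h : ∀ i ∈ S, RA P (v' i) (v i))
    (h' : ∀ i ∈ S, RA P (β' i) (β i)) (h'' : ∀ i ∈ S, RA P (γ' i) (γ i)) (ha : a.In S) :
    RA P (d2 v' a β' γ') (d2 v a β γ) := by
  induction a with
  | var i => exact RA.zero hP
  | zero => exact RA.zero hP
  | one => exact RA.zero hP
  | add a b iha ihb => exact (iha ha.1).add hP (ihb ha.2)
  | mul a b iha ihb =>
    exact (((iha ha.1).mul hP (ev_RA hP h ha.2)).add hP
      ((d1_RA hP h h' ha.1).mul hP (d1_RA hP h h'' ha.2))).add hP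
      ((ev_RA hP h ha.1).mul hP (ihb ha.2))
  | neg a iha => exact (iha ha).neg hP

end place

section taylor

variable {w w' β' : ℕ → A (LS K)} {v σ β : ℕ → A K} {k : ℕ}

theorem d1_Ld (h : ∀ i ∈ S, RA PL (w i) (v i)) (h' : ∀ i ∈ S, Ld k (β' i) (β i))
    (ha : a.In S) : Ld k (d1 w a β') (d1 v a β) := by
  induction a with
  | var i => rw [d1_var, d1_var]; exact h' i ha
  | zero => rw [d1_zero, d1_zero]; exact Ld.zero k
  | one => rw [d1_one, d1_one]; exact Ld.zero k
  | add a b iha ihb => rw [d1_add, d1_add]; exact (iha ha.1).add (ihb ha.2)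
  | mul a b iha ihb =>
    have h1 := (iha ha.1).mul (Ld_zero_iff.2 (ev_RA (plc K) h ha.2))
    have h2 := (Ld_zero_iff.2 (ev_RA (plc K) h ha.1)).mul (ihb ha.2)
    rw [zero_add] at h2
    rw [add_zero] at h1
    rw [d1_mul, d1_mul]
    exact h1.add h2
  | neg a iha => rw [d1_neg, d1_neg]; exact (iha ha).neg

theorem ev_ord0_aux (h : ∀ i ∈ S, Ord 0 (w i)) (ha : a.In S) : Ord 0 (ev w a) := by
  induction a with
  | var i => rw [ev_var]; exact h i ha
  | zero => rw [ev_zero]; exact Ord.zero 0
  | one => simpa using Ord.of (K := K) 1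
  | add a b iha ihb => rw [ev_add]; exact (iha ha.1).add (ihb ha.2)
  | mul a b iha ihb =>
    have := (iha ha.1).mul (ihb ha.2)
    rw [add_zero] at this
    rw [ev_mul]; exact this
  | neg a iha => rw [ev_neg]; exact (iha ha).neg

theorem in_univ_aux (c : Ex) : c.In Set.univ := by
  induction c with
  | var i => trivial
  | zero => trivial
  | one => trivial
  | add a b iha ihb => exact ⟨iha, ihb⟩
  | mul a b iha ihb => exact ⟨iha, ihb⟩
  | neg a iha => exact iha

/-- Continuity of evaluation. -/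
theorem ev_ord (h : ∀ i ∈ S, Ord 0 (w i)) (h' : ∀ i ∈ S, Ord k (w' i - w i)) (ha : a.In S) :
    Ord k (ev w' a - ev w a) := by
  induction a with
  | var i => exact h' i ha
  | zero => simpa using Ord.zero (K := K) k
  | one => simpa using Ord.zero (K := K) k
  | add a b iha ihb =>
    have := (iha ha.1).add (ihb ha.2)
    convert this using 1
    simp only [ev_add]; abel
  | mul a b iha ihb =>
    have h1 := (iha ha.1).mul (ev_ord0_aux h ha.2)
    have h2 := (ev_ord0_aux h ha.1).mul (ihb ha.2)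
    have h3 := ((iha ha.1).mul (ihb ha.2)).mono (Nat.le_add_right k k)
    rw [zero_add] at h2
    rw [add_zero] at h1
    have := (h1.add h2).add h3
    convert this using 1
    simp only [ev_mul]; noncomm_ring
  | neg a iha =>
    have := (iha ha).neg
    convert this using 1
    simp only [ev_neg]; abel

/-- First order Taylor formula. -/
theorem taylor1 (h : ∀ i ∈ S, Ord 0 (w i)) (h' : ∀ i ∈ S, Ord k (w' i - w i)) (ha : a.In S) :
    Ord (k + k) (ev w' a - ev w a - d1 w a (w' - w)) := by
  induction a with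
  | var i => simpa using Ord.zero (K := K) (k + k)
  | zero => simpa using Ord.zero (K := K) (k + k)
  | one => simpa using Ord.zero (K := K) (k + k)
  | add a b iha ihb =>
    have := (iha ha.1).add (ihb ha.2)
    convert this using 1
    simp only [ev_add, d1_add]; abel
  | mul a b iha ihb =>
    have h1 := (iha ha.1).mul (ev_ord0_aux h ha.2)
    have h2 := (ev_ord0_aux h ha.1).mul (ihb ha.2)
    have h3 := (ev_ord h h' ha.1).mul (ev_ord h h' ha.2)
    rw [zero_add] at h2
    rw [add_zero] at h1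
    have := (h1.add h2).add h3
    convert this using 1
    simp only [ev_mul, d1_mul]; noncomm_ring
  | neg a iha =>
    have := (iha ha).neg
    convert this using 1
    simp only [ev_neg, d1_neg]; abel

theorem ev_Ld (h : ∀ i ∈ S, RA PL (w i) (v i)) (h' : ∀ i ∈ S, Ld (k + 1) (w' i - w i) (σ i))
    (ha : a.In S) : Ld (k + 1) (ev w' a - ev w a) (d1 v a σ) := by
  have h1 : Ord (k + 1 + (k + 1)) (ev w' a - ev w a - d1 w a (w' - w)) :=
    taylor1 (fun i hi => (Ld_zero_iff.2 (h i hi)).ord) (fun i hi => (h' i hi).ord) ha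
  have h2 : Ld (k + 1) (d1 w a (w' - w)) (d1 v a σ) := d1_Ld h (fun i hi => h' i hi) ha
  have := h2.add_ord (h1.mono (by omega))
  convert this using 1
  abel

/-- First order variation of the first derivative. -/
theorem d1_Ld1 (h : ∀ i ∈ S, Ld 1 (w i - map (io K) (v i)) (σ i)) (β : ℕ → A K) (ha : a.In S) :
    Ld 1 (d1 w a (fun i => map (io K) (β i)) - map (io K) (d1 v a β))
      (d2 v a σ β + d2 v a β σ) := by
  have hw : ∀ i ∈ S, RA PL (w i) (v i) := fun i hi => (h i hi).ra
  have hv : ∀ i ∈ S, RA PL (map (io K) (v i)) (v i) := fun i _ => RA.of (plc K) _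
  have hβ : ∀ i ∈ S, RA PL (map (io K) (β i)) (β i) := fun i _ => RA.of (plc K) _
  have E : ∀ c : Ex, c.In S → Ld 1 (ev w c - map (io K) (ev v c)) (d1 v c σ) := fun c hc => by
    have := ev_Ld (k := 0) (w := fun i => map (io K) (v i)) (w' := w) hv h hc
    rwa [ev_hom] at this
  induction a with
  | var i => simpa using Ld.zero (K := K) 1
  | zero => simpa using Ld.zero (K := K) 1
  | one => simpa using Ld.zero (K := K) 1
  | add a b iha ihb =>
    have := (iha ha.1).add (ihb ha.2)
    convert this using 1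
    · simp only [d1_add, map_add]; abel
    · simp only [d2_add]; abel
  | mul a b iha ihb =>
    have h1 := (iha ha.1).mul (Ld_zero_iff.2 (ev_RA (plc K) hw ha.2))
    have h2 := (Ld_zero_iff.2 (RA.of (plc K) (d1 v a β))).mul (E b ha.2)
    have h3 := (E a ha.1).mul (Ld_zero_iff.2 (d1_RA (plc K) hw hβ ha.2))
    have h4 := (Ld_zero_iff.2 (RA.of (plc K) (ev v a))).mul (ihb ha.2)
    have := ((h1.add h2).add h3).add h4
    convert this using 1
    · simp only [d1_mul, map_add, map_mul]; noncomm_ring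
    · simp only [d2_mul]; noncomm_ring
  | neg a iha =>
    have := (iha ha).neg
    convert this using 1
    · simp only [d1_neg, map_neg]; abel
    · simp only [d2_neg]; abel

/-- Second order Taylor formula along a line. -/
theorem taylor2 (v σ : ℕ → A K) (a : Ex) :
    Ld 2 (ev (fun i => map (io K) (v i) + eps K • map (io K) (σ i)) a - map (io K) (ev v a)
      - eps K • map (io K) (d1 v a σ)) (d2 v a σ σ) := by
  have hv : ∀ i ∈ (Set.univ : Set ℕ), RA PL (map (io K) (v i)) (v i) :=
    fun i _ => RA.of (plc K) _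
  have E : ∀ c : Ex, Ld 1 (ev (fun i => map (io K) (v i) + eps K • map (io K) (σ i)) c
      - map (io K) (ev v c)) (d1 v c σ) := fun c => by
    have := ev_Ld (k := 0) (w := fun i => map (io K) (v i))
      (w' := fun i => map (io K) (v i) + eps K • map (io K) (σ i)) (σ := σ) hv
      (fun i _ => by simpa using Ld.of 1 (σ i)) (in_univ_aux c)
    rwa [ev_hom] at this
  induction a with
  | var i => simpa using Ld.zero (K := K) 2
  | zero => simpa using Ld.zero (K := K) 2
  | one => simpa using Ld.zero (K := K) 2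
  | add a b iha ihb =>
    have := iha.add ihb
    rw [d2_add]
    convert this using 1
    simp only [ev_add, d1_add, map_add, smul_add]; abel
  | mul a b iha ihb =>
    have h1 := iha.mul (Ld_zero_iff.2 (RA.of (plc K) (ev v b)))
    have h2 := (E a).mul (E b)
    have h3 := (Ld_zero_iff.2 (RA.of (plc K) (ev v a))).mul ihb
    have := (h1.add h2).add h3
    rw [d2_mul]
    convert this using 1
    simp only [ev_mul, d1_mul, map_add, map_mul, smul_add, ← smul_mul_assoc]
    noncomm_ring
  | neg a iha =>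
    have := iha.neg
    rw [d2_neg]
    convert this using 1
    simp only [ev_neg, d1_neg, map_neg, smul_neg]; abel

theorem dA_ev (w : ℕ → A (LS K)) (a : Ex) : dA (ev w a) = d1 w a (fun i => dA (w i)) := by
  induction a with
  | var i => rfl
  | zero => simp
  | one => simpa using dA_map (K := K) 1
  | add a b iha ihb => simp only [ev_add, d1_add, map_add, iha, ihb]
  | mul a b iha ihb => simp only [ev_mul, d1_mul, dA_mul, iha, ihb]
  | neg a iha => simp only [ev_neg, d1_neg, map_neg, iha]

end taylor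

end

end Vale.Agent.P199
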