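import Vale.Agent.P199.SubAlg

/-! Inner derivations, disjoint subfields and extension of scalars. -/

namespace Vale.Agent.P199

open Finset Module

set_option linter.unusedSectionVars false

noncomputable section

variable {K K' K'' : Type} [Field K] [Field K'] [Field K''] [Algebra K0 K] [Algebra K0 K']
  [Algebra K0 K''] [Dom K] [Dom K'] [Dom K'']

theorem IsDual.cas_aux {B : Subalgebra K (A K)} {r : ℕ} {b b' : Fin r → A K} (h : IsDual B b b')
    (φ : Fin r → A K) {z : A K} (hz : z ∈ B) :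
    ∑ i, (∑ j, tr (b' j * (z * b i)) • φ j) * b' i = (∑ i, φ i * b' i) * z := by
  simp only [Finset.sum_mul, smul_mul_assoc]
  rw [Finset.sum_comm]
  refine Finset.sum_congr rfl fun j _ => ?_
  rw [mul_assoc, h.span' (mul_mem (h.mem' j) hz), Finset.mul_sum]
  refine Finset.sum_congr rfl fun i _ => ?_
  rw [mul_smul_comm, mul_assoc]

/-- Derivations of division subalgebras are inner. -/
theorem inner_der {n : ℕ} {B : Subalgebra K (A K)} (hB : B ≤ D K n) (Γ : Submodule K (A K × A K))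
    (hmul : ∀ p ∈ Γ, ∀ q ∈ Γ, (p.1 * q.1, p.2 * q.1 + p.1 * q.2) ∈ Γ)
    (hall : ∀ z ∈ B, ∃ z', (z, z') ∈ Γ) (hfn : ∀ z', (0, z') ∈ Γ → z' = 0)
    (hD : ∀ p ∈ Γ, p.2 ∈ D K n) :
    ∃ m ∈ D K n, ∀ z ∈ B, ∀ z', (z, z') ∈ Γ → z' = m * z - z * m := by
  have := charZero K
  obtain ⟨b, b', h⟩ := exists_dual hB
  choose φ hφ using fun i => hall (b i) (h.mem i)
  have hγB : ∑ i, b i * b' i ∈ B := sum_mem fun i _ => mul_mem (h.mem i) (h.mem' i)
  have hγ0 : ∑ i, b i * b' i ≠ 0 := by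
    intro H
    have h1 := congrArg tr H
    rw [map_sum, map_zero, Finset.sum_congr rfl fun i _ => by
      rw [tr_comm, h.dual i i, if_pos rfl]] at h1
    simp only [Finset.sum_const, Finset.card_univ, Fintype.card_fin, nsmul_eq_mul, mul_one,
      Nat.cast_eq_zero] at h1
    exact (finrank_pos' hB).ne' h1
  have hcen : ∀ z ∈ B, z * ∑ i, b i * b' i = (∑ i, b i * b' i) * z := by
    intro z hz
    rw [← h.cas_aux b hz, Finset.mul_sum]
    refine Finset.sum_congr rfl fun i _ => ?_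
    rw [← h.span _ (mul_mem hz (h.mem i)), mul_assoc]
  have hm0 : ∑ i, φ i * b' i ∈ D K n :=
    sum_mem fun i _ => mul_mem (hD _ (hφ i)) (hB (h.mem' i))
  refine ⟨(∑ i, φ i * b' i) * (∑ i, b i * b' i)⁻¹,
    mul_mem hm0 (hB (inv_mem_of_le hB hγB)), fun z hz z' hz' => ?_⟩
  have key : ∀ i, z' * b i + z * φ i = ∑ j, tr (b' j * (z * b i)) • φ j := by
    intro i
    have h1 := hmul _ hz' _ (hφ i)
    have h2 : ∑ j, tr (b' j * (z * b i)) • (b j, φ j) ∈ Γ :=
      sum_mem fun j _ => Γ.smul_mem _ (hφ j)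
    have h3 := sub_mem h1 h2
    refine sub_eq_zero.1 (hfn _ ?_)
    have h4 : ((z * b i, z' * b i + z * φ i) - ∑ j, tr (b' j * (z * b i)) • (b j, φ j) :
        A K × A K) = (0, z' * b i + z * φ i - ∑ j, tr (b' j * (z * b i)) • φ j) := by
      refine Prod.ext ?_ ?_
      · simp only [Prod.fst_sub, Prod.fst_sum, Prod.smul_fst]
        rw [← h.span _ (mul_mem hz (h.mem i)), sub_self]
      · simp only [Prod.snd_sub, Prod.snd_sum, Prod.smul_snd]
    exact h4 ▸ h3
  have h5 := h.cas_aux φ hz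
  simp only [← key, add_mul, Finset.sum_add_distrib, mul_assoc, ← Finset.mul_sum] at h5
  have h6 := hcen z hz
  generalize ∑ i, b i * b' i = γ at h5 h6 hγ0
  generalize ∑ i, φ i * b' i = m at h5
  have h7 : γ⁻¹ * z = z * γ⁻¹ := by
    rw [inv_mul_eq_iff_eq_mul₀ hγ0, ← mul_assoc, ← h6, mul_inv_cancel_right₀ hγ0]
  rw [mul_assoc, h7, ← mul_assoc, ← mul_assoc, ← sub_mul, ← h5, add_sub_cancel_right,
    mul_inv_cancel_right₀ hγ0]

theorem field_disj_aux {k F : Type} [Field k] [Field F] [Algebra k F] [FiniteDimensional k F]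
    [CharZero k] {L0 L M0 : IntermediateField k F} (h1 : L0 ≤ L) (h2 : L0 ≤ M0) (h3 : L ⊔ M0 = ⊤)
    (hd : finrank k L * finrank k M0 ≤ finrank k F * finrank k L0) {ξ μ : F} (hξ : ξ ∈ L)
    (hξ0 : ∀ l ∈ L0, Algebra.trace k F (l * ξ) = 0) (hμ : μ ∈ M0) :
    Algebra.trace k F (ξ * μ) = 0 := by
  set L' := IntermediateField.extendScalars h1 with hL'
  set M' := IntermediateField.extendScalars h2 with hM'
  have hs : M' ⊔ L' = ⊤ := by
    refine eq_top_iff.2 fun x _ => ?_
    have : L ⊔ M0 ≤ (M' ⊔ L').restrictScalars k :=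
      sup_le ((IntermediateField.extendScalars_le_iff h1 _).1 le_sup_right)
        ((IntermediateField.extendScalars_le_iff h2 _).1 le_sup_left)
    rw [h3] at this
    exact this trivial
  have e1 : finrank k L0 * finrank L0 L' = finrank k L := Module.finrank_mul_finrank k L0 L'
  have e2 : finrank k L0 * finrank L0 M' = finrank k M0 := Module.finrank_mul_finrank k L0 M'
  have e3 : finrank k L0 * finrank L0 F = finrank k F := Module.finrank_mul_finrank k L0 F
  have hpos : 0 < finrank k L0 := Module.finrank_pos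
  have hdis : M'.LinearDisjoint L' := by
    refine IntermediateField.LinearDisjoint.of_finrank_sup
      (le_antisymm (IntermediateField.finrank_sup_le _ _) ?_)
    rw [hs, IntermediateField.finrank_top']
    rw [← e1, ← e2, ← e3] at hd
    refine Nat.le_of_mul_le_mul_left (Nat.le_of_mul_le_mul_left ?_ hpos) hpos
    calc _ = finrank k L0 * finrank L0 L' * (finrank k L0 * finrank L0 M') := by ring
      _ ≤ _ := hd
      _ = _ := by ring
  have : IsScalarTower k M' F := IsScalarTower.of_algebraMap_eq fun _ => rfl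
  have : Module.Finite k M' := Module.Finite.trans L0 M'
  have ht := hdis.trace_algebraMap hs ⟨ξ, hξ⟩
  set θ := Algebra.trace L0 L' ⟨ξ, hξ⟩ with hθ
  have key : ∀ ν : M', Algebra.trace k F (ν * ξ) =
      Algebra.trace k M' (ν * algebraMap L0 M' θ) := by
    intro ν
    rw [← Algebra.trace_trace (S := M'), ← ht, ← smul_eq_mul ν, ← map_smul]
    rfl
  have h0 : θ = 0 := by
    by_contra H
    have h4 := key (algebraMap L0 M' θ⁻¹)
    rw [← map_mul, inv_mul_cancel₀ H, map_one, ← (algebraMap k M').map_one,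
      Algebra.trace_algebraMap] at h4
    have h5 := hξ0 _ (θ⁻¹).2
    have h6 : (finrank k M' : k) = 0 := by simpa using h4.symm.trans h5
    exact (Module.finrank_pos (R := k) (M := M')).ne' (by exact_mod_cast h6)
  have h4 := key ⟨μ, hμ⟩
  rw [h0, map_zero, mul_zero, map_zero] at h4
  rw [mul_comm]
  exact h4

theorem trace_mul_aux {n : ℕ} {M : Subalgebra K (A K)} (hM : M ≤ D K n) (hc : Comm M) (x : M) :
    LinearMap.trace K M (LinearMap.mul K M x) = finrank K M * tr (x : A K) := by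
  have := finite_sub hM
  obtain ⟨b, b', h⟩ := exists_dual hM
  have e1 : LinearMap.mul K M x = ∑ i, ((tr ∘ₗ LinearMap.mulLeft K (b' i * x)) ∘ₗ
      M.val.toLinearMap).smulRight (⟨b i, h.mem i⟩ : M) := by
    ext y
    have := h.span _ (x * y).2
    simpa [mul_assoc] using this
  have e2 := congrArg (fun w => tr ((x : A K) * w)) (h.casimir hM hc)
  simp only [Finset.mul_sum, map_sum, mul_smul_comm, mul_one, map_smul, smul_eq_mul] at e2
  rw [e1, map_sum, ← e2]
  refine Finset.sum_congr rfl fun i _ => ?_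
  rw [LinearMap.trace_smulRight, ← mul_assoc, tr_comm, ← mul_assoc]
  rfl

/-- Orthogonality for linearly disjoint subfields. -/
theorem tr_disjoint {n : ℕ} {L0 L M0 M : Subalgebra K (A K)} (hM : M ≤ D K n) (hc : Comm M)
    (h1 : L0 ≤ L) (h2 : L0 ≤ M0) (h3 : L ⊔ M0 = M)
    (hd : finrank K L * finrank K M0 ≤ finrank K M * finrank K L0) {ξ μ : A K} (hξ : ξ ∈ L)
    (hξ0 : ∀ l ∈ L0, tr (l * ξ) = 0) (hμ : μ ∈ M0) : tr (ξ * μ) = 0 := by
  have := charZero K
  have := finite_sub hM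
  have hLM : L ≤ M := h3 ▸ le_sup_left
  have hMM : M0 ≤ M := h3 ▸ le_sup_right
  have hF : IsField M :=
    { exists_pair_ne := exists_pair_ne M
      mul_comm := fun x y => Subtype.ext (hc _ x.2 _ y.2)
      mul_inv_cancel := fun {x} hx => ⟨⟨(x : A K)⁻¹, inv_mem_of_le hM x.2⟩,
        Subtype.ext (mul_inv_cancel₀ fun H => hx (Subtype.ext H))⟩ }
  let _ : Field M := hF.toField
  have hinv : ∀ x : M, ((x⁻¹ : M) : A K) = (x : A K)⁻¹ := by
    intro x
    by_cases hx : x = 0
    · subst hx; simp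
    · refine eq_inv_of_mul_eq_one_right ?_
      exact congrArg Subtype.val (mul_inv_cancel₀ hx)
  let I : ∀ T : Subalgebra K (A K), T ≤ M → IntermediateField K M := fun T hT =>
    (T.comap M.val).toIntermediateField fun x hx => by
      have hx' : (x : A K) ∈ T := hx
      show ((x⁻¹ : M) : A K) ∈ T
      rw [hinv]
      exact inv_mem_of_le (hT.trans hM) hx'
  have hI : ∀ T hT (x : M), x ∈ I T hT ↔ (x : A K) ∈ T := fun _ _ _ => Iff.rfl
  have hr : ∀ T hT, finrank K (I T hT) = finrank K T := fun T hT =>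
    (Submodule.comapSubtypeEquivOfLe (p := T.toSubmodule) (q := M.toSubmodule) hT).finrank_eq
  have ht : ∀ x : M, Algebra.trace K M x = finrank K M * tr (x : A K) := fun x =>
    trace_mul_aux hM hc x
  have hs : I L hLM ⊔ I M0 hMM = ⊤ := by
    refine eq_top_iff.2 fun x _ => ?_
    have h4 : L ⊔ M0 ≤ (I L hLM ⊔ I M0 hMM).toSubalgebra.map M.val := by
      refine sup_le (fun y hy => ⟨⟨y, hLM hy⟩, ?_, rfl⟩) fun y hy => ⟨⟨y, hMM hy⟩, ?_, rfl⟩
      · exact (le_sup_left : I L hLM ≤ I L hLM ⊔ I M0 hMM) ((hI L hLM _).2 hy)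
      · exact (le_sup_right : I M0 hMM ≤ I L hLM ⊔ I M0 hMM) ((hI M0 hMM _).2 hy)
    obtain ⟨y, hy, e⟩ := h4 (h3.ge x.2)
    have : y = x := Subtype.ext e
    exact this ▸ hy
  have key := field_disj_aux (L0 := I L0 (h1.trans hLM)) (L := I L hLM) (M0 := I M0 hMM)
    (fun x hx => h1 hx) (fun x hx => h2 hx) hs (by rw [hr L hLM, hr M0 hMM, hr L0 (h1.trans hLM)]; exact hd)
    (ξ := ⟨ξ, hLM hξ⟩) (μ := ⟨μ, hMM hμ⟩) hξ (fun l hl => by
      rw [ht]; exact mul_eq_zero_of_right _ (hξ0 _ hl)) hμ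
  rw [ht] at key
  exact (mul_eq_zero.1 key).resolve_left (Nat.cast_ne_zero.2 (finrank_pos' hM).ne')

/-- Extension of scalars of a subalgebra. -/
def bc (f : K →ₐ[K0] K') (M : Subalgebra K (A K)) : Subalgebra K' (A K') :=
  Algebra.adjoin K' (map f '' (M : Set (A K)))

section bc

variable {n : ℕ} {M : Subalgebra K (A K)} (f : K →ₐ[K0] K')

theorem map_mem_bc {x : A K} (hx : x ∈ M) : map f x ∈ bc f M :=
  Algebra.subset_adjoin ⟨x, hx, rfl⟩

theorem bc_le (hM : M ≤ D K n) : bc f M ≤ D K' n :=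
  Algebra.adjoin_le (by rintro _ ⟨x, hx, rfl⟩; exact map_mem f (hM hx))

theorem mem_span_of_bc_aux {x : A K'} (hx : x ∈ bc f M) :
    x ∈ Submodule.span K' (map f '' (M : Set (A K))) := by
  have h1 : (Submonoid.closure (map f '' (M : Set (A K))) : Set (A K')) ⊆
      map f '' (M : Set (A K)) :=
    (Submonoid.closure_le (S := M.toSubmonoid.map (map f))).2 Set.Subset.rfl
  have h2 : x ∈ Subalgebra.toSubmodule (bc f M) := hx
  rw [bc, Algebra.adjoin_eq_span] at h2
  exact Submodule.span_mono h1 h2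

theorem IsDual.bc {r : ℕ} {b b' : Fin r → A K} (h : IsDual M b b') :
    IsDual (bc f M) (fun i => map f (b i)) (fun i => map f (b' i)) := by
  refine ⟨fun i => map_mem_bc f (h.mem i), fun i => map_mem_bc f (h.mem' i), fun i j => ?_,
    fun x hx => ?_⟩
  · rw [← map_mul, tr_map, h.dual]; split_ifs <;> simp
  · refine Submodule.span_induction (p := fun x _ => x = ∑ i, tr (map f (b' i) * x) • map f (b i))
      ?_ (by simp) (fun x y _ _ h1 h2 => ?_) (fun a x _ h1 => ?_) (mem_span_of_bc_aux f hx)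
    · rintro _ ⟨y, hy, rfl⟩
      conv_lhs => rw [h.span y hy, map_sum]
      refine Finset.sum_congr rfl fun i _ => ?_
      rw [map_smul', ← map_mul, tr_map]
    · simp only [mul_add, map_add, add_smul, Finset.sum_add_distrib]
      rw [← h1, ← h2]
    · simp only [mul_smul_comm, map_smul, smul_eq_mul, mul_smul, ← Finset.smul_sum]
      rw [← h1]

theorem Comm.bc (hc : Comm M) : Comm (bc f M) := by
  intro x hx y hy
  refine comm_adjoin (fun x hx => ?_) x hx
  refine (comm_adjoin (fun y hy => ?_) y hy).symm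
  obtain ⟨x, hx, rfl⟩ := hx
  obtain ⟨y, hy, rfl⟩ := hy
  rw [← map_mul, ← map_mul, hc y hy x hx]

theorem finrank_bc (hM : M ≤ D K n) : finrank K' (bc f M) = finrank K M := by
  obtain ⟨b, b', h⟩ := exists_dual hM
  exact (h.bc f).finrank_eq

theorem bc_bc (g : K' →ₐ[K0] K'') : bc g (bc f M) = bc (g.comp f) M := by
  refine le_antisymm (Algebra.adjoin_le ?_) (Algebra.adjoin_le ?_)
  · rintro _ ⟨x, hx, rfl⟩
    refine Submodule.span_induction (p := fun x _ => map g x ∈ bc (g.comp f) M)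
      ?_ (by simp) (fun x y _ _ h1 h2 => ?_) (fun a x _ h1 => ?_) (mem_span_of_bc_aux f hx)
    · rintro _ ⟨y, hy, rfl⟩
      rw [map_map]
      exact map_mem_bc _ hy
    · rw [map_add]; exact add_mem h1 h2
    · rw [map_smul']; exact Subalgebra.smul_mem _ h1 _
  · rintro _ ⟨x, hx, rfl⟩
    rw [← map_map]
    exact map_mem_bc g (map_mem_bc f hx)

theorem bc_id : bc (AlgHom.id K0 K) M = M := by
  refine le_antisymm (Algebra.adjoin_le ?_) fun x hx => ?_
  · rintro _ ⟨x, hx, rfl⟩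
    rw [map_id]; exact hx
  · rw [← map_id x]; exact map_mem_bc _ hx

theorem bc_mono {M' : Subalgebra K (A K)} (h : M ≤ M') : bc f M ≤ bc f M' :=
  Algebra.adjoin_mono (Set.image_mono h)

variable {f} {P : K' → K → Prop}

theorem RA.mem_of_bc (hP : IsPlace f P) (hM : M ≤ D K n) {x : A K'} {y : A K} (h : RA P x y)
    (hx : x ∈ bc f M) : y ∈ M := by
  obtain ⟨b, b', hb⟩ := exists_dual hM
  have h1 : RA P (∑ i, P199.tr (map f (b' i) * x) • map f (b i))
      (∑ i, P199.tr (b' i * y) • b i) :=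
    RA.sum hP _ fun i _ => RA.smul hP ((RA.of hP _).mul hP h).tr (RA.of hP _)
  rw [← (hb.bc f).span x hx] at h1
  rw [h.unique hP h1]
  exact sum_mem fun i _ => M.smul_mem (hb.mem i) _

theorem RA.pr_bc (hP : IsPlace f P) (hM : M ≤ D K n) {x : A K'} {y : A K} (h : RA P x y) :
    RA P (pr (bc f M) x) (pr M y) := by
  obtain ⟨b, b', hb⟩ := exists_dual hM
  rw [hb.pr_eq hM, (hb.bc f).pr_eq (bc_le f hM)]
  exact RA.sum hP _ fun i _ => RA.smul hP ((RA.of hP _).mul hP h).tr (RA.of hP _)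

theorem RA.Pc_bc (hP : IsPlace f P) (hM : M ≤ D K n) (hc : Comm M) {x : A K'} {y : A K}
    (h : RA P x y) : RA P (Pc (bc f M) x) (Pc M y) := by
  obtain ⟨b, b', hb⟩ := exists_dual hM
  rw [hb.Pc_eq hM hc, (hb.bc f).Pc_eq (bc_le f hM) (hc.bc f)]
  refine RA.smul hP ?_ (RA.sum hP _ fun i _ => ((RA.of hP _).mul hP h).mul hP (RA.of hP _))
  simpa using hP.of (finrank K M : K)⁻¹

end bc

end

end Vale.Agent.P199
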