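import Vale.Agent.P199.Laurent
import Vale.Agent.P199.SubAlg2

/-! Extremality and its transfer along places. -/

namespace Vale.Agent.P199

open Finset Module

set_option linter.unusedSectionVars false

noncomputable section

variable {K K' : Type} [Field K] [Field K'] [Algebra K0 K] [Algebra K0 K'] [Dom K] [Dom K']

/-- The algebra generated by ratios. -/
def Rat' (U : Submodule K (A K)) : Subalgebra K (A K) :=
  Algebra.adjoin K {z | ∃ u ∈ U, ∃ u' ∈ U, z = u⁻¹ * u'}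

theorem ratio_mem {U : Submodule K (A K)} {u u' : A K} (hu : u ∈ U) (hu' : u' ∈ U) :
    u⁻¹ * u' ∈ Rat' U := Algebra.subset_adjoin ⟨u, hu, u', hu', rfl⟩

theorem Rat_le {n : ℕ} {M : Subalgebra K (A K)} (hM : M ≤ D K n) {U : Submodule K (A K)}
    (hU : ∀ u ∈ U, u ∈ M) : Rat' U ≤ M := by
  refine Algebra.adjoin_le ?_
  rintro _ ⟨u, hu, u', hu', rfl⟩
  exact mul_mem (inv_mem_of_le hM (hU u hu)) (hU u' hu')

theorem Rat_eq {n : ℕ} {M : Subalgebra K (A K)} (hM : M ≤ D K n) (hc : Comm M)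
    {U : Submodule K (A K)} (hU : ∀ u ∈ U, u ∈ M) {η : A K} (hη : η ∈ U) (h0 : η ≠ 0) :
    Algebra.adjoin K (U.map (LinearMap.mulLeft K η⁻¹) : Set (A K)) = Rat' U := by
  have h1 : Algebra.adjoin K (U.map (LinearMap.mulLeft K η⁻¹) : Set (A K)) ≤ Rat' U := by
    refine Algebra.adjoin_le ?_
    rintro _ ⟨u, hu, rfl⟩
    exact ratio_mem hη hu
  refine le_antisymm h1 (Algebra.adjoin_le ?_)
  rintro _ ⟨u, hu, u', hu', rfl⟩
  have h2 : u⁻¹ * u' = (η⁻¹ * u)⁻¹ * (η⁻¹ * u') := by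
    rw [mul_inv_rev, inv_inv, mul_assoc, mul_inv_cancel_left₀ h0]
  rw [h2]
  exact mul_mem (inv_mem_of_le (h1.trans ((Rat_le hM hU).trans hM))
    (Algebra.subset_adjoin ⟨u, hu, rfl⟩)) (Algebra.subset_adjoin ⟨u', hu', rfl⟩)

theorem Pc_Pc {n : ℕ} {L M : Subalgebra K (A K)} (hM : M ≤ D K n) (hc : Comm M) (h : L ≤ M)
    (z : A K) : Pc M (Pc L z) = Pc M z := by
  obtain ⟨b, b', hb⟩ := exists_dual (h.trans hM)
  have h1 := hb.Pc_eq (h.trans hM) (hc.mono h)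
  conv_rhs => rw [← Pc_self (h.trans hM) (hc.mono h) fun x hx => Pc_comm hM hc z (h hx)]
  rw [h1, h1, map_smul, map_sum]
  refine congrArg _ (Finset.sum_congr rfl fun i _ => ?_)
  rw [Pc_mul_right fun x hx => hc x hx _ (h (hb.mem' i)),
    Pc_mul_left fun x hx => hc x hx _ (h (hb.mem i))]

theorem map_Pc (f : K →ₐ[K0] K') {n : ℕ} {M : Subalgebra K (A K)} (hM : M ≤ D K n) (hc : Comm M)
    (z : A K) : map f (Pc M z) = Pc (bc f M) (map f z) := by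
  obtain ⟨b, b', hb⟩ := exists_dual hM
  rw [hb.Pc_eq hM hc, (hb.bc f).Pc_eq (bc_le f hM) (hc.bc f), map_smul', map_sum]
  simp only [map_mul, map_inv₀, map_natCast]

/-- The extremality property. -/
def Ext (μ ν n : ℕ) (M : Subalgebra K (A K)) (Z : Submodule K (A K)) : Prop :=
  finrank K M * μ ≤ 2 ^ n ∧ (finrank K M * μ = 2 ^ n →
    (∀ z ∈ Z, Pc M z ∈ M) ∧ finrank K (Rat' (Z.map (Pc M))) * ν ≤ 2 ^ n)

/-- The centralizer of `M'` reduces into the centralizer of `M`. -/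
def RedC (P : K' → K → Prop) (n : ℕ) (M' : Subalgebra K' (A K')) (M : Subalgebra K (A K)) : Prop :=
  ∀ x ∈ Cn n M', ∀ y, RA P x y → y ∈ Cn n M

section ct

variable {f : K →ₐ[K0] K'} {P : K' → K → Prop} {n : ℕ} {M' : Subalgebra K' (A K')}
  {M : Subalgebra K (A K)}

theorem RedC.le_auxE (h : RedC P n M' M) (hP : IsPlace f P) : redS hP (Cn n M') ≤ Cn n M :=
  fun _ ⟨x, hx, hr⟩ => h x hx _ hr

theorem RedC.le (h : RedC P n M' M) (hP : IsPlace f P) (hM' : M' ≤ D K' n) (hc' : Comm M')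
    (hM : M ≤ D K n) (hc : Comm M) : finrank K M ≤ finrank K' M' := by
  have h1 := finrank_mono (Cn_le n M) (h.le_auxE hP)
  rw [finrank_redS hP (Cn_le n M')] at h1
  refine Nat.le_of_mul_le_mul_left ?_ (finrank_pos' (Cn_le n M))
  rw [finrank_Cn hM hc, ← finrank_Cn hM' hc']
  exact Nat.mul_le_mul_right _ h1

theorem RedC.lift (h : RedC P n M' M) (hP : IsPlace f P) (hM' : M' ≤ D K' n) (hc' : Comm M')
    (hM : M ≤ D K n) (hc : Comm M) (hd : finrank K' M' ≤ finrank K M) {y : A K}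
    (hy : y ∈ Cn n M) : ∃ x ∈ Cn n M', RA P x y := by
  refine mem_redS.1 ((eq_of_finrank_le (Cn_le n M) (h.le_auxE hP) ?_).ge hy)
  rw [finrank_redS hP (Cn_le n M')]
  refine Nat.le_of_mul_le_mul_right ?_ (finrank_pos' hM)
  rw [finrank_Cn hM hc, ← finrank_Cn hM' hc']
  exact Nat.mul_le_mul_left _ hd

theorem RedC.Pc (h : RedC P n M' M) (hP : IsPlace f P) (hM' : M' ≤ D K' n) (hc' : Comm M')
    (hM : M ≤ D K n) (hc : Comm M) (hd : finrank K' M' ≤ finrank K M) {z' : A K'} {z : A K}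
    (hz' : z' ∈ D K' n) (hz : RA P z' z) : RA P (Pc M' z') (Pc M z) := by
  have hx := Pc_mem hM' hc' hz'
  have key : ∀ {a : K'} {b : K} {y : A K}, P a b → RA P (a • P199.Pc M' z') y →
      ∀ w ∈ Cn n M, tr (w * y) = b * tr (w * z) := fun ha hy w hw => by
    obtain ⟨w', hw', hr⟩ := h.lift hP hM' hc' hM hc hd hw
    have h1 := (hr.mul hP hy).tr
    rw [mul_smul_comm, map_smul, tr_mul_Pc hM' hc' (mem_Cn.1 hw').2] at h1
    exact hP.unique h1 (hP.mul ha (hr.mul hP hz).tr)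
  obtain ⟨y, hy⟩ : ∃ y, RA P (P199.Pc M' z') y := by
    by_cases h0 : P199.Pc M' z' = 0
    · exact ⟨0, h0 ▸ RA.zero hP⟩
    obtain ⟨a, ha, y, hy0, hy⟩ := RA.norm hP h0
    rcases hP.tot a⁻¹ with ⟨b, hb⟩ | hb
    · exact ⟨_, by simpa only [inv_smul_smul₀ ha] using RA.smul hP hb hy⟩
    · rw [inv_inv] at hb
      exact absurd (nondeg (Cn_le n M) (h _ (Subalgebra.smul_mem _ hx a) _ hy) fun w hw => by
        rw [key hb hy w hw, zero_mul]) hy0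
  rwa [Pc_unique hM hc (h _ hx _ hy) (hz.mem hP hz') fun w hw => by
    rw [key (y := y) hP.one (by rwa [one_smul]) w hw, one_mul]]

theorem RedC.mem (h : RedC P n M' M) (hP : IsPlace f P) (hM' : M' ≤ D K' n) (hc' : Comm M')
    (hM : M ≤ D K n) (hc : Comm M) (hd : finrank K' M' ≤ finrank K M) {x : A K'} {y : A K}
    (hx : x ∈ M') (hy : RA P x y) : y ∈ M := by
  refine double_cent hM hc (h _ (le_Cn hM' hc' hx) _ hy) fun w hw => ?_
  obtain ⟨w', hw', hr⟩ := h.lift hP hM' hc' hM hc hd hw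
  exact (hy.mul hP hr).unique hP ((mem_Cn.1 hw').2 x hx ▸ hr.mul hP hy)

theorem Rat_le_red (hP : IsPlace f P) {U' : Submodule K' (A K')} {U : Submodule K (A K)}
    (h : ∀ u ∈ U, ∃ u' ∈ U', RA P u' u) : Rat' U ≤ redS hP (Rat' U') := by
  refine Algebra.adjoin_le ?_
  rintro _ ⟨u, hu, v, hv, rfl⟩
  by_cases h0 : u = 0
  · rw [h0, inv_zero, zero_mul]; exact zero_mem _
  obtain ⟨u', hu', hr⟩ := h u hu
  obtain ⟨v', hv', hr'⟩ := h v hv
  exact ⟨_, ratio_mem hu' hv', (hr.inv hP h0).mul hP hr'⟩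

theorem Ext.transfer {μ ν : ℕ} {Z' : Submodule K' (A K')} {Z : Submodule K (A K)}
    (hE : Ext μ ν n M' Z') (h : RedC P n M' M) (hP : IsPlace f P) (hM' : M' ≤ D K' n)
    (hc' : Comm M') (hM : M ≤ D K n) (hc : Comm M) (hZ' : ∀ z ∈ Z', z ∈ D K' n)
    (hZ : ∀ z ∈ Z, ∃ z' ∈ Z', ∃ z0, RA P z' z0 ∧ Pc M z0 = Pc M z) : Ext μ ν n M Z := by
  have h1 := Nat.mul_le_mul_right μ (h.le hP hM' hc' hM hc)
  refine ⟨h1.trans hE.1, fun he => ?_⟩
  have hd : finrank K' M' ≤ finrank K M := Nat.le_of_mul_le_mul_right (hE.1.trans he.ge)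
    (Nat.pos_of_ne_zero fun h0 => by rw [h0, mul_zero] at he; exact (pow_pos two_pos n).ne he)
  obtain ⟨h2, h3⟩ := hE.2 (le_antisymm hE.1 (he.ge.trans h1))
  have h4 : ∀ z ∈ Z, ∃ z' ∈ Z', RA P (Pc M' z') (Pc M z) := fun z hz => by
    obtain ⟨z', hz', z0, hr, e⟩ := hZ z hz
    exact ⟨z', hz', e ▸ h.Pc hP hM' hc' hM hc hd (hZ' z' hz') hr⟩
  refine ⟨fun z hz => ?_, le_trans (Nat.mul_le_mul_right ν ?_) h3⟩
  · obtain ⟨z', hz', hr⟩ := h4 z hz
    exact h.mem hP hM' hc' hM hc hd (h2 z' hz') hr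
  · have h5 : Rat' (Z'.map (Pc M')) ≤ D K' n := (Rat_le hM' (by
      rintro _ ⟨z, hz, rfl⟩; exact h2 z hz)).trans hM'
    rw [← finrank_redS hP h5]
    refine finrank_mono (redS_le hP h5) (Rat_le_red hP ?_)
    rintro _ ⟨z, hz, rfl⟩
    obtain ⟨z', hz', hr⟩ := h4 z hz
    exact ⟨_, ⟨z', hz', rfl⟩, hr⟩

theorem redC_adj (hP : IsPlace f P) (L : Subalgebra K (A K)) {y' : A K'} {y : A K}
    (hy : RA P y' y) : RedC P n (adj (bc f L) y') (adj L y) := by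
  intro x hx x0 hr
  obtain ⟨h1, h2⟩ := mem_Cn_adj.1 hx
  refine mem_Cn_adj.2 ⟨mem_Cn.2 ⟨hr.mem hP (mem_Cn.1 h1).1, fun l hl => ?_⟩,
    (hy.mul hP hr).unique hP (h2 ▸ hr.mul hP hy)⟩
  exact ((RA.of hP l).mul hP hr).unique hP
    ((mem_Cn.1 h1).2 _ (map_mem_bc f hl) ▸ hr.mul hP (RA.of hP l))

end ct

/-- Conjugation. -/
def cj (g : A K) : A K →ₗ[K] A K := LinearMap.mulLeft K g⁻¹ ∘ₗ LinearMap.mulRight K g

theorem cj_apply (g z : A K) : cj g z = g⁻¹ * (z * g) := rfl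

/-- Conjugation as an algebra map. -/
def cjA {g : A K} (h0 : g ≠ 0) : A K →ₐ[K] A K :=
  AlgHom.ofLinearMap (cj g) (by rw [cj_apply, one_mul, inv_mul_cancel₀ h0]) fun x y => by
    simp only [cj_apply, mul_assoc, mul_inv_cancel_left₀ h0]

theorem cjA_apply {g : A K} (h0 : g ≠ 0) (z : A K) : cjA h0 z = cj g z := rfl

theorem tr_cjA {g : A K} (h0 : g ≠ 0) (z : A K) : tr (cjA h0 z) = tr z := by
  rw [cjA_apply, cj_apply, tr_comm, mul_inv_cancel_right₀ h0]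

theorem gen_cj {g : A K} (h0 : g ≠ 0) (a : A K) : gen (cj g a) = (gen a).map (cjA h0) :=
  (AlgHom.map_adjoin_singleton (cjA h0) a).symm

theorem cj_mem {n : ℕ} {g z : A K} (hg : g ∈ D K n) (hz : z ∈ D K n) : cj g z ∈ D K n :=
  mul_mem (inv_mem_of_le le_rfl hg) (mul_mem hz hg)

theorem Ext.conj {μ ν n : ℕ} {a g : A K} (ha : a ∈ D K n) (hg : g ∈ D K n) (h0 : g ≠ 0)
    {Z : Submodule K (A K)} (hZ : ∀ z ∈ Z, z ∈ D K n) (h : Ext μ ν n (gen a) Z) :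
    Ext μ ν n (gen (cj g a)) (Z.map (cj g)) := by
  have hi : Function.Injective (cjA h0) := (cjA h0).toRingHom.injective
  have hf : ∀ B : Subalgebra K (A K), finrank K (B.map (cjA h0)) = finrank K B := fun B =>
    (B.equivMapOfInjective _ hi).toLinearEquiv.finrank_eq.symm
  have hM := gen_le (cj_mem hg ha)
  have hPc : ∀ z, Pc (gen (cj g a)) (cj g z) = cjA h0 (Pc (gen a) z) := fun z => by
    obtain ⟨b, b', hb⟩ := exists_dual (gen_le ha)
    have hb' : IsDual (gen (cj g a)) (fun i => cjA h0 (b i)) fun i => cjA h0 (b' i) := by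
      rw [gen_cj h0]
      refine ⟨fun i => ⟨_, hb.mem i, rfl⟩, fun i => ⟨_, hb.mem' i, rfl⟩, fun i j => ?_, ?_⟩
      · rw [← map_mul, tr_cjA, hb.dual]
      · rintro _ ⟨x, hx, rfl⟩
        simp only [RingHom.coe_coe, ← map_mul, tr_cjA, ← map_smul, ← map_sum, ← hb.span x hx]
    rw [hb.Pc_eq (gen_le ha) (comm_gen a), hb'.Pc_eq hM (comm_gen _), map_smul, map_sum]
    simp only [map_mul, cjA_apply]
  unfold Ext
  rw [gen_cj h0, hf, ← gen_cj h0]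
  refine ⟨h.1, fun he => ?_⟩
  obtain ⟨h2, h3⟩ := h.2 he
  refine ⟨?_, le_trans (Nat.mul_le_mul_right ν ?_) h3⟩
  · rintro _ ⟨z, hz, rfl⟩
    rw [hPc, gen_cj h0]
    exact ⟨_, h2 z hz, rfl⟩
  · rw [← hf (Rat' (Z.map _))]
    refine finrank_mono (le_trans (Subalgebra.map_mono (Rat_le (gen_le ha) ?_))
      ((gen_cj h0 a).ge.trans hM)) (Algebra.adjoin_le ?_)
    · rintro _ ⟨z, hz, rfl⟩; exact h2 z hz
    · rintro _ ⟨_, ⟨_, ⟨u, hu, rfl⟩, rfl⟩, _, ⟨_, ⟨u', hu', rfl⟩, rfl⟩, rfl⟩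
      rw [hPc, hPc, ← map_inv₀, ← map_mul]
      exact ⟨_, ratio_mem ⟨u, hu, rfl⟩ ⟨u', hu', rfl⟩, rfl⟩

theorem cj_mem_gen {a g y : A K} (h0 : g ≠ 0) (hy : y ∈ gen (cj g a)) : cj g⁻¹ y ∈ gen a := by
  rw [gen_cj h0] at hy
  obtain ⟨x, hx, rfl⟩ := hy
  have : cj g⁻¹ (cj g x) = x := by
    rw [cj_apply, cj_apply, inv_inv, mul_assoc, mul_inv_cancel_left₀ h0, mul_inv_cancel_right₀ h0]
  exact this.symm ▸ hx

/-- First order perturbation of a centralizer. -/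
theorem redC_of_ld {n : ℕ} {a1 : A K} (ha : a1 ∈ D K n) {a' α' : A (LS K)}
    (hα : α' ∈ bc (io K) (gen a1)) (hα' : RA PL α' a1) {k : ℕ} (hk : 1 ≤ k) {y : A K}
    (hy : Ld k (a' - α') y) : RedC PL n (gen a') (adj (gen a1) (Pc (gen a1) y)) := by
  intro x hx x0 hr
  have hP := plc K
  have hL := gen_le ha
  obtain ⟨h1, h2⟩ := mem_Cn_gen.1 hx
  have h3 : RA PL a' a1 := by
    simpa using hα'.add hP (Ld_zero_iff.1 (hy.ord.ld hk))
  have h4 := mem_Cn_gen.2 ⟨hr.mem hP h1, (h3.mul hP hr).unique hP (h2 ▸ hr.mul hP h3)⟩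
  refine mem_Cn_adj.2 ⟨h4, ?_⟩
  have h5 := ((RA.mul hP hy hr).sub hP (hr.mul hP hy)).Pc_bc hP hL (comm_gen a1)
  have h6 : (a' - α') * x - x * (a' - α') = -(α' * x - x * α') := by
    rw [sub_mul, mul_sub, h2]; abel
  rw [smul_mul_assoc, mul_smul_comm, ← smul_sub, h6, map_smul, map_neg,
    Pc_bracket (bc_le _ hL) ((comm_gen a1).bc _) hα, neg_zero, smul_zero] at h5
  have h7 := h5.eq_zero hP
  rwa [map_sub, Pc_mul_right (mem_Cn.1 h4).2, Pc_mul_left (mem_Cn.1 h4).2, sub_eq_zero] at h7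

end

end Vale.Agent.P199
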