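import Vale.Agent.P199.Plus

/-! The extended system at the state where the constraint is imposed. -/

namespace Vale.Agent.P199

open Finset Module

set_option linter.unusedSectionVars false

variable {K : Type} [Field K] [Algebra K0 K] [Dom K]

/-- The hypotheses at the state where the constraint is imposed. -/
structure BSet (S : Sys) (a : Ex) (r κ q n : ℕ) (v : ℕ → A K) (η : A K) : Prop where
  wf : S.WF
  ha : a.In (Set.Iio S.N)
  st : IsSt S n v
  sub : ∀ u ∈ UU S n v a, u ∈ gen (ev v a)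
  eta : η ∈ UU S n v a
  va : v (S.N + 1) = ev v a
  cst : Cst S r κ q n v (gen (ev v a)) (Rat' (UU S n v a)) η
  base : Base S r κ q n v (Rat' (UU S n v a)) η

namespace BSet

variable {S : Sys} {a : Ex} {r κ q n : ℕ} {v : ℕ → A K} {η : A K} (h : BSet S a r κ q n v η)
include h

theorem ev_eG : ev v (S.eG r) = 1 := by
  rw [h.cst.ev_eG, h.base.vw]; simp

theorem ev_eA : ev v (S.eA r κ q) = ev v a := by
  rw [h.cst.ev_eA, h.base.vw, h.va, Finset.sum_eq_zero fun l hl => by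
    rw [h.base.vt l (mem_range.1 hl), zero_mul]]
  simp

theorem st' : IsSt (S.plus a r κ q) n v := by
  refine ⟨fun i _ => ?_, fun i hi => ?_, fun j hj => ?_⟩
  · rcases lt_or_ge i S.N with hi | hi
    · exact h.st.mem i hi
    · exact h.base.mem i hi
  · rcases mem_union.1 hi with hi | hi
    · exact h.st.sc i hi
    · obtain ⟨l, hl, rfl⟩ := mem_image.1 hi
      rw [h.base.vt l (mem_range.1 hl)]
      exact zero_mem _
  · rcases mem_insert.1 hj with rfl | hj
    · show ev v (Function.update S.F S.j0 (S.eF a r κ q) S.j0) = 0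
      rw [Function.update_self, Sys.eF, ev_add, ev_neg, ev_mul, ev_mul, h.ev_eG, h.ev_eA]
      simp
    · have hne : j ≠ S.j0 := fun e => S.j0_notMem (e ▸ hj)
      show ev v (Function.update S.F S.j0 (S.eF a r κ q) j) = 0
      rw [Function.update_of_ne hne]
      exact h.st.eq j hj

theorem L0_le_auxF : Rat' (UU S n v a) ≤ D K n := h.cst.L0_le.trans h.cst.L_le

theorem inv_mem_auxF : η⁻¹ ∈ gen (ev v a) := inv_mem_of_le h.cst.L_le h.cst.eta

theorem d1F_auxF {β : ℕ → A K} (hβ : ∀ i, S.IsC r κ q i → β i = 0) :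
    d1 v (S.eF a r κ q) β = d1 v a β +
      (ev v a * (β S.N - Pc (gen (ev v a)) (β S.N)) -
        (β S.N - Pc (gen (ev v a)) (β S.N)) * ev v a) -
      (Pc (gen (ev v a)) (β S.N) - Qop S q v (β S.N) +
        ∑ l ∈ range κ, β (S.vt l) * v (S.vl l)) := by
  rw [Sys.eF, d1_add, d1_neg, d1_mul, d1_mul, h.ev_eG, h.ev_eA, h.cst.d1_eG hβ, h.cst.d1_eA hβ,
    mul_one, one_mul]
  abel

theorem Q_zero_auxF {z : A K} (hz : z ∈ D K n) (h0 : Pc (gen (ev v a)) z = 0) :
    Qop S q v z = 0 := by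
  have h1 : η⁻¹ * Qop S q v z = 0 := by
    refine nondeg h.L0_le_auxF (h.base.q_mem z hz) fun l hl => ?_
    have hlL := h.cst.L0_le hl
    have e1 := h.cst.q_tr z l hl n 1 (one_mem _)
    rw [mul_one] at e1
    have hm : η⁻¹ * l ∈ gen (ev v a) := mul_mem h.inv_mem_auxF hlL
    rw [← mul_assoc, h.cst.comm l hlL _ h.inv_mem_auxF, e1,
      ← tr_mul_Pc h.cst.L_le h.cst.comm (fun x hx => h.cst.comm x hx _ hm), h0, mul_zero,
      map_zero]
  exact (mul_eq_zero.1 h1).resolve_left (inv_ne_zero h.cst.eta0)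

theorem d1_zero_auxF {b : Ex} (hb : b.In (Set.Iio S.N)) {β : ℕ → A K}
    (hβ : ∀ i < S.N, β i = 0) : d1 v b β = 0 := by
  rw [d1_congr (w := v) (β' := 0) (fun _ _ => rfl) (fun i hi => hβ i hi) hb, map_zero]

theorem LB_zero_auxF (c : ℕ → A K) {β : ℕ → A K} (hβ : ∀ i < S.N, β i = 0) :
    LB S v c β = 0 := by
  rw [LB_apply]
  refine Finset.sum_eq_zero fun j hj => ?_
  rw [h.d1_zero_auxF (h.wf.F_in j hj) hβ, mul_zero, map_zero]

theorem test_auxF {c : ℕ → A K} (hc : c ∈ OO (S.plus a r κ q) n v) {z : A K} (hz : z ∈ D K n) :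
    tr (c S.j0 * ((ev v a * (z - Pc (gen (ev v a)) z) - (z - Pc (gen (ev v a)) z) * ev v a) -
      (Pc (gen (ev v a)) z - Qop S q v z))) = 0 := by
  have hX : (Pi.single S.N z : ℕ → A K) ∈ XS K (S.plus a r κ q).W n := by
    intro i
    by_cases hi : i = S.N
    · subst hi
      rw [Pi.single_eq_same]
      exact ⟨hz, fun H => absurd (mem_insert_self _ _) H⟩
    · rw [Pi.single_eq_of_ne hi]
      exact ⟨zero_mem _, fun _ => rfl⟩
  have hlt : ∀ i < S.N, (Pi.single S.N z : ℕ → A K) i = 0 :=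
    fun i hi => Pi.single_eq_of_ne hi.ne _
  have e1 := hc.2 _ hX
  rw [LB_plus, h.LB_zero_auxF c hlt, zero_add,
    h.d1F_auxF (fun i hi => Pi.single_eq_of_ne hi.1.ne' _), h.d1_zero_auxF h.ha hlt,
    Finset.sum_eq_zero (fun l _ => by
      rw [Pi.single_eq_of_ne (by unfold Sys.vt; omega), zero_mul]),
    Pi.single_eq_same, zero_add, add_zero] at e1
  exact e1

theorem c_mem_auxF {c : ℕ → A K} (hc : c ∈ OO (S.plus a r κ q) n v) :
    c S.j0 ∈ Cn n (gen (ev v a)) := by
  have hD : c S.j0 ∈ D K n := (hc.1 _).1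
  have hα : ev v a ∈ D K n := h.cst.L_le (mem_gen _)
  rw [mem_Cn_gen]
  refine ⟨hD, ?_⟩
  have : c S.j0 * ev v a - ev v a * c S.j0 = 0 := by
    refine eq_zero_of_tr (sub_mem (mul_mem hD hα) (mul_mem hα hD)) fun y hy => ?_
    have hP := Pc_mem h.cst.L_le h.cst.comm hy
    have hz : y - Pc (gen (ev v a)) y ∈ D K n := sub_mem hy hP.1
    have h0 : Pc (gen (ev v a)) (y - Pc (gen (ev v a)) y) = 0 := by
      rw [map_sub, Pc_self h.cst.L_le h.cst.comm (y := Pc (gen (ev v a)) y)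
        (fun x hx => (mem_Cn.1 hP).2 x hx), sub_self]
    have e1 := h.test_auxF hc hz
    rw [h0, h.Q_zero_auxF hz h0, sub_zero, sub_zero, sub_zero, mul_sub (ev v a), sub_mul,
      (mem_Cn.1 hP).2 _ (mem_gen _), sub_sub_sub_cancel_right, mul_sub, map_sub] at e1
    rw [sub_mul, map_sub, mul_assoc, mul_assoc, tr_comm (ev v a), mul_assoc]
    exact e1
  exact (sub_eq_zero.1 this).symm

theorem new_mem {c : ℕ → A K} (hc : c ∈ OO (S.plus a r κ q) n v) :
    η * c S.j0 ∈ Rat' (UU S n v a) := by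
  have hc0 := h.c_mem_auxF hc
  have hη : η ∈ Cn n (gen (ev v a)) := le_Cn h.cst.L_le h.cst.comm h.cst.eta
  have hp := pr_mem (Rat' (UU S n v a)) (η * c S.j0)
  have hpL := h.cst.L0_le hp
  have key : η * c S.j0 - pr (Rat' (UU S n v a)) (η * c S.j0) = 0 := by
    refine nondeg (Cn_le n (gen (ev v a)))
      (sub_mem (mul_mem hη hc0) (le_Cn h.cst.L_le h.cst.comm hpL)) fun y hy => ?_
    have hz : y * η ∈ Cn n (gen (ev v a)) := mul_mem hy hη
    have e1 := h.test_auxF hc hz.1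
    rw [Pc_self h.cst.L_le h.cst.comm (fun x hx => (mem_Cn.1 hz).2 x hx), sub_self, mul_zero,
      zero_mul, sub_self, zero_sub, mul_neg, map_neg, neg_eq_zero, mul_sub, map_sub,
      sub_eq_zero] at e1
    have hl := h.base.q_mem _ hz.1
    have e2 := h.cst.q_tr (y * η) _ hp n 1 (one_mem _)
    have e3 := tr_mul_pr h.L0_le_auxF hl (η * c S.j0)
    have hQ : ∀ x ∈ gen (ev v a), x * Qop S q v (y * η) = Qop S q v (y * η) * x :=
      h.cst.q_comm _
    rw [mul_sub, map_sub, sub_eq_zero]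
    calc tr (y * (η * c S.j0)) = tr (c S.j0 * (y * η)) := by
          rw [← mul_assoc, tr_comm]
      _ = tr (η⁻¹ * Qop S q v (y * η) * (η * c S.j0)) := by
          rw [e1, hQ _ h.inv_mem_auxF, mul_assoc, ← mul_assoc η⁻¹, inv_mul_cancel₀ h.cst.eta0,
            one_mul, tr_comm]
      _ = tr (η⁻¹ * pr (Rat' (UU S n v a)) (η * c S.j0) * 1 * Qop S q v (y * η)) := by
          rw [← e3, mul_one, mul_assoc, mul_assoc, hQ _ hpL]
      _ = tr (y * pr (Rat' (UU S n v a)) (η * c S.j0)) := by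
          rw [e2, mul_one, ← mul_assoc, tr_comm, ← mul_assoc, ← mul_assoc,
            mul_inv_cancel₀ h.cst.eta0, one_mul, tr_comm]
  rw [sub_eq_zero.1 key]
  exact hp

theorem XS_zero_auxF {β : ℕ → A K} (hβ : β ∈ XS K S.W n) : ∀ i, S.N ≤ i → β i = 0 :=
  fun i hi => (hβ i).2 fun H => absurd (h.wf.W_lt i H) (not_lt.2 hi)

theorem lin {c : ℕ → A K} (hc : c ∈ OO (S.plus a r κ q) n v) {β : ℕ → A K}
    (hβ : β ∈ XS K S.W n) : LB S v c β + tr (c S.j0 * d1 v a β) = 0 := by
  have hz := h.XS_zero_auxF hβ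
  have e1 := hc.2 β (XS_mono (subset_insert _ _) le_rfl hβ)
  rw [LB_plus, h.d1F_auxF (fun i hi => hz i hi.1.le), hz S.N le_rfl,
    Finset.sum_eq_zero (fun l _ => by rw [hz _ (by unfold Sys.vt; omega), zero_mul])] at e1
  simpa using e1

theorem old_mem {c : ℕ → A K} (hc : c ∈ OO (S.plus a r κ q) n v) (h0 : c S.j0 = 0) :
    c ∈ OO S n v := by
  refine ⟨fun j => ⟨(hc.1 j).1, fun hj => ?_⟩, fun β hβ => ?_⟩
  · by_cases e : j = S.j0
    · rw [e, h0]
    · exact (hc.1 j).2 fun H => (mem_insert.1 H).elim e hj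
  · have := h.lin hc hβ
    rwa [h0, zero_mul, map_zero, add_zero] at this

theorem h1' (h1 : H1 S n v) : H1 (S.plus a r κ q) n v := by
  intro c hc ht
  have hc0 := h.c_mem_auxF hc
  have h0 : c S.j0 = 0 := by
    have : η * c S.j0 = 0 := by
      refine h.base.span _ (h.new_mem hc) fun l hl => ?_
      have e1 := ht (S.vt l) (mem_union_right _ (mem_image_of_mem _ (mem_range.2 hl)))
      have hlt : ∀ i < S.N, (Pi.single (S.vt l) 1 : ℕ → A K) i = 0 :=
        fun i hi => Pi.single_eq_of_ne (by unfold Sys.vt; omega) _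
      rw [LB_plus, h.LB_zero_auxF c hlt, zero_add,
        h.d1F_auxF (fun i hi => Pi.single_eq_of_ne (hi.2.2 l hl) _), h.d1_zero_auxF h.ha hlt,
        Finset.sum_eq_single l (fun l' _ hne => by
          rw [Pi.single_eq_of_ne (by unfold Sys.vt; omega), zero_mul])
          (fun H => absurd (mem_range.2 hl) H),
        Pi.single_eq_same, Pi.single_eq_of_ne (by unfold Sys.vt; omega)] at e1
      rw [(mem_Cn.1 hc0).2 η h.cst.eta, mul_assoc, ← mul_assoc η, mul_inv_cancel₀ h.cst.eta0,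
        one_mul]
      simpa using e1
    exact (mul_eq_zero.1 this).resolve_left h.cst.eta0
  refine h1 c (h.old_mem hc h0) fun t ht' => ?_
  have := ht t (mem_union_left _ ht')
  rwa [LB_plus, h0, zero_mul, map_zero, add_zero] at this

theorem del_le : del (S.plus a r κ q) n v + finrank K (UU S n v a) ≤
    del S n v + finrank K (Rat' (UU S n v a)) := by
  let φ : (ℕ → A K) →ₗ[K] A K := LinearMap.mulLeft K η ∘ₗ LinearMap.proj S.j0
  let B : A K →ₗ[K] A K →ₗ[K] K := (LinearMap.mul K (A K)).compr₂ tr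
  have hLam : Lam S n v a η ≤ (Rat' (UU S n v a)).toSubmodule := by
    rintro _ ⟨u, hu, rfl⟩
    exact ratio_mem h.eta hu
  have : Module.Finite K (Rat' (UU S n v a)).toSubmodule := finite_of_le h.L0_le_auxF
  have : Module.Finite K (Lam S n v a η) := Submodule.finiteDimensional_of_le hLam
  have : Module.Finite K (lrad B (Rat' (UU S n v a)).toSubmodule (Lam S n v a η)) :=
    Submodule.finiteDimensional_of_le (lrad_le _ _ _)
  have e1 := finrank_ker_map φ (OO (S.plus a r κ q) n v)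
  have e2 : finrank K (OO (S.plus a r κ q) n v ⊓ LinearMap.ker φ : Submodule K (ℕ → A K)) ≤
      del S n v := by
    refine Submodule.finrank_mono fun c hc => h.old_mem hc.1 ?_
    have : η * c S.j0 = 0 := hc.2
    exact (mul_eq_zero.1 this).resolve_left h.cst.eta0
  have e3 : finrank K ((OO (S.plus a r κ q) n v).map φ) ≤
      finrank K (lrad B (Rat' (UU S n v a)).toSubmodule (Lam S n v a η)) := by
    refine Submodule.finrank_mono ?_
    rintro _ ⟨c, hc, rfl⟩
    refine ⟨h.new_mem hc, ?_⟩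
    rintro _ ⟨u, hu, rfl⟩
    obtain ⟨β, hβ, rfl⟩ := mem_UU.1 hu
    have hc0 := h.c_mem_auxF hc
    have hβ' := (mem_VV h.wf h.st.mem).1 hβ
    have e4 := h.lin hc hβ'.1
    rw [LB_apply, Finset.sum_eq_zero (fun j hj => by rw [hβ'.2 j hj, mul_zero, map_zero]),
      zero_add] at e4
    show tr (η * c S.j0 * (η⁻¹ * ell (gen (ev v a)) 1 v a β)) = 0
    rw [(mem_Cn.1 hc0).2 η h.cst.eta, mul_assoc, ← mul_assoc η, mul_inv_cancel₀ h.cst.eta0,
      one_mul, ell_one, tr_mul_Pc h.cst.L_le h.cst.comm (mem_Cn.1 hc0).2, e4]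
  have e5 := lrad_flip B (Rat' (UU S n v a)).toSubmodule (Lam S n v a η)
  have e6 : lrad B.flip (Lam S n v a η) (Rat' (UU S n v a)).toSubmodule = ⊥ := by
    rw [eq_bot_iff]
    intro x hx
    exact nondeg h.L0_le_auxF (hLam hx.1) fun y hy => hx.2 y hy
  rw [e6, finrank_bot, finrank_Lam h.cst.eta0, Subalgebra.finrank_toSubmodule] at e5
  unfold del at *
  omega

theorem upd_mem_auxF {β : ℕ → A K} (hβ : β ∈ XS K S.W n) {y : A K} (hy : y ∈ D K n) :
    Function.update β S.N y ∈ XS K (S.plus a r κ q).W n := by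
  intro i
  by_cases hi : i = S.N
  · subst hi
    rw [Function.update_self]
    exact ⟨hy, fun H => absurd (mem_insert_self _ _) H⟩
  · rw [Function.update_of_ne hi]
    exact ⟨(hβ i).1, fun H => (hβ i).2 fun H' => H (mem_insert_of_mem H')⟩

theorem upd_zero_auxF {β : ℕ → A K} (hβ : β ∈ XS K S.W n) (y : A K) :
    ∀ i, S.N < i → Function.update β S.N y i = 0 := fun i hi => by
  rw [Function.update_of_ne hi.ne', h.XS_zero_auxF hβ i hi.le]

theorem upd_d1_auxF {b : Ex} (hb : b.In (Set.Iio S.N)) (β : ℕ → A K) (y : A K) :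
    d1 v b (Function.update β S.N y) = d1 v b β :=
  d1_congr (fun _ _ => rfl) (fun _ hi => Function.update_of_ne (ne_of_lt hi) _ _) hb

theorem upd_d2_auxF {b : Ex} (hb : b.In (Set.Iio S.N)) (β β' : ℕ → A K) (y y' : A K) :
    d2 v b (Function.update β S.N y) (Function.update β' S.N y') = d2 v b β β' :=
  d2_congr (fun _ _ => rfl) (fun _ hi => Function.update_of_ne (ne_of_lt hi) _ _)
    (fun _ hi => Function.update_of_ne (ne_of_lt hi) _ _) hb

theorem upd_sum_auxF {β : ℕ → A K} (hβ : β ∈ XS K S.W n) (y : A K) :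
    ∑ l ∈ range κ, Function.update β S.N y (S.vt l) * v (S.vl l) = 0 :=
  Finset.sum_eq_zero fun l _ => by
    rw [h.upd_zero_auxF hβ y _ (by unfold Sys.vt; omega), zero_mul]

theorem extend {β : ℕ → A K} (hβ : β ∈ VV S n v) (h0 : ell (gen (ev v a)) 1 v a β = 0) :
    ∃ y ∈ D K n, Pc (gen (ev v a)) y = 0 ∧ ev v a * y - y * ev v a = -d1 v a β ∧
      Function.update β S.N y ∈ VV (S.plus a r κ q) n v := by
  have hβ' := (mem_VV h.wf h.st.mem).1 hβ
  have hα : ev v a ∈ D K n := h.cst.L_le (mem_gen _)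
  have hd : d1 v a β ∈ D K n := d1_mem h.st.mem (fun i _ => (hβ'.1 i).1) h.ha
  rw [ell_one] at h0
  obtain ⟨y, hy, hy0, hyb⟩ := exists_bracket hα (neg_mem hd) (by rw [map_neg, h0, neg_zero])
  refine ⟨y, hy, hy0, hyb.symm, ?_⟩
  rw [mem_VV (h.wf.plus h.ha r κ q) h.st'.mem]
  refine ⟨h.upd_mem_auxF hβ'.1 hy, fun j hj => ?_⟩
  rcases mem_insert.1 hj with rfl | hj
  · show d1 v (Function.update S.F S.j0 (S.eF a r κ q) S.j0) _ = 0
    rw [Function.update_self, h.d1F_auxF (fun i hi => h.upd_zero_auxF hβ'.1 y i hi.1),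
      h.upd_d1_auxF h.ha, h.upd_sum_auxF hβ'.1, Function.update_self, hy0, h.Q_zero_auxF hy hy0,
      sub_zero, ← hyb]
    simp
  · have hne : j ≠ S.j0 := fun e => S.j0_notMem (e ▸ hj)
    show d1 v (Function.update S.F S.j0 (S.eF a r κ q) j) _ = 0
    rw [Function.update_of_ne hne, h.upd_d1_auxF (h.wf.F_in j hj)]
    exact hβ'.2 j hj

theorem Om_upd_auxF (c : ℕ → A K) {β β' : ℕ → A K} (hβ : β ∈ XS K S.W n) (hβ' : β' ∈ XS K S.W n)
    (y : A K) {y' : A K} (hy' : y' ∈ D K n) (h0' : Pc (gen (ev v a)) y' = 0) :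
    Om (S.plus a r κ q) v c (Function.update β S.N y) (Function.update β' S.N y') =
      Om S v c β β' + tr (c S.j0 * (d2 v a β β' + d1 v a β * y')) := by
  have z1 : ∀ i, S.IsC r κ q i → Function.update β S.N y i = 0 :=
    fun i hi => h.upd_zero_auxF hβ y i hi.1
  have z2 : ∀ i, S.IsC r κ q i → Function.update β' S.N y' i = 0 :=
    fun i hi => h.upd_zero_auxF hβ' y' i hi.1
  rw [Om_plus, Om_apply, Om_apply,
    Finset.sum_congr rfl fun j hj => by rw [h.upd_d2_auxF (h.wf.F_in j hj)],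
    Sys.eF, d2_add, d2_neg, d2_mul, d2_mul, d2_eG v z1 z2, d2_eA v z1 z2, h.ev_eG,
    h.cst.d1_eG z2, h.cst.d1_eA z2, h.upd_sum_auxF hβ', Function.update_self, h0',
    h.Q_zero_auxF hy' h0', h.upd_d1_auxF h.ha, h.upd_d2_auxF h.ha]
  simp

theorem om_eq (c : ℕ → A K) {β β' : ℕ → A K} (hβ : β ∈ XS K S.W n) (hβ' : β' ∈ XS K S.W n)
    {y y' : A K} (hy : y ∈ D K n) (hy' : y' ∈ D K n) (h0 : Pc (gen (ev v a)) y = 0)
    (h0' : Pc (gen (ev v a)) y' = 0) :
    om (S.plus a r κ q) v c (Function.update β S.N y) (Function.update β' S.N y') =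
      om S v c β β' + tr (c S.j0 * (d2 v a β β' - d2 v a β' β)) +
        tr (c S.j0 * (d1 v a β * y' - d1 v a β' * y)) := by
  rw [om_apply, om_apply, h.Om_upd_auxF c hβ hβ' y hy' h0', h.Om_upd_auxF c hβ' hβ y' hy h0]
  simp only [mul_add, mul_sub, map_add, map_sub]
  ring

theorem finrank_ker : finrank K (VV S n v ⊓ LinearMap.ker (ell (gen (ev v a)) 1 v a) :
    Submodule K (ℕ → A K)) + finrank K (UU S n v a) = finrank K (VV S n v) := by
  have e : UU S n v a = (VV S n v).map (ell (gen (ev v a)) 1 v a) := by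
    ext u
    rw [mem_UU, Submodule.mem_map]
  rw [e]
  exact finrank_ker_map _ _

theorem msk_le : finrank K ((VV S n v).map (msk {0, 1})) ≤
    finrank K ((VV (S.plus a r κ q) n v).map (msk {0, 1})) + finrank K (UU S n v a) := by
  have e1 := finrank_map_codim (msk {0, 1})
    (inf_le_left : VV S n v ⊓ LinearMap.ker (ell (gen (ev v a)) 1 v a) ≤ VV S n v)
  have e2 := h.finrank_ker
  have e3 : finrank K ((VV S n v ⊓ LinearMap.ker (ell (gen (ev v a)) 1 v a)).map (msk {0, 1})) ≤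
      finrank K ((VV (S.plus a r κ q) n v).map (msk {0, 1})) := by
    refine Submodule.finrank_mono ?_
    rintro _ ⟨β, hβ, rfl⟩
    obtain ⟨y, -, -, -, hy⟩ := h.extend hβ.1 hβ.2
    refine ⟨_, hy, funext fun i => ?_⟩
    rw [msk_apply, msk_apply]
    split_ifs with hi
    · have := h.wf.W_lt 1 h.wf.one_mem
      refine Function.update_of_ne ?_ _ _
      simp only [mem_insert, mem_singleton] at hi
      omega
    · rfl
  omega

end BSet

end Vale.Agent.P199
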