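import Vale.Agent.P199.Grow

/-! The child of a special quaternion move. -/

namespace Vale.Agent.P199

open Finset Module

set_option linter.unusedSectionVars false

variable {K : Type} [Field K] [Algebra K0 K] [Dom K] {S : Sys} {n : ℕ} {v σ : ℕ → A K}
  {w : ℕ → A (LS K)} {a : Ex} {μ ν : ℕ}

namespace QSet

variable {η θ : A K} (h : QSet S n v a μ ν η θ σ w)
include h

theorem L_le : gen (ev v a) ≤ D K n := gen_le (ev_mem h.st.mem h.ha)

theorem L'_le : gen (ev w a) ≤ D (LS K) (n + 1) := gen_le (ev_mem h.mv.mem h.ha)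

theorem L0_le : Rat' (UU S n v a) ≤ gen (ev v a) := Rat_le h.L_le h.dx.sub

theorem theta_mem : θ ∈ Rat' (UU S n v a) := by
  simpa [← mul_assoc, h.eta0] using ratio_mem h.eta h.theta

theorem theta_L_auxQ : θ ∈ gen (ev v a) := h.L0_le h.theta_mem

theorem eta_L_auxQ : η ∈ gen (ev v a) := h.dx.sub η h.eta

theorem u_comm_auxQ {l : A K} (hl : l ∈ gen (ev v a)) :
    l * (e (gi n) + θ * e (gj n)) = (e (gi n) + θ * e (gj n)) * l := by
  rw [mul_add, add_mul, comm_DS (h.L_le hl) (e_mem (gi_mem n)), ← mul_assoc,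
    comm_gen _ l hl θ h.theta_L_auxQ, mul_assoc, mul_assoc,
    comm_DS (h.L_le hl) (e_mem (gj_mem n))]

theorem u_i_auxQ : (e (gi n) + θ * e (gj n)) * e (gi n) + e (gi n) * (e (gi n) + θ * e (gj n)) =
    (2 * c K (gi n) (gi n)) • (1 : A K) := by
  rw [mul_add, add_mul, e_sq, ← mul_assoc, ← comm_DS (h.L_le h.theta_L_auxQ) (e_mem (gi_mem n)),
    mul_assoc, mul_assoc, e_gi_gj, mul_neg, two_mul, add_smul]
  abel

theorem u_j_auxQ : (e (gi n) + θ * e (gj n)) * e (gj n) + e (gj n) * (e (gi n) + θ * e (gj n)) =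
    (2 * c K (gj n) (gj n)) • θ := by
  rw [mul_add, add_mul, ← mul_assoc, ← comm_DS (h.L_le h.theta_L_auxQ) (e_mem (gj_mem n)),
    mul_assoc, e_sq, e_gi_gj, mul_smul_comm, mul_one, two_mul, add_smul]
  abel

theorem u_sq_auxQ : (e (gi n) + θ * e (gj n)) * (e (gi n) + θ * e (gj n)) =
    c K (gi n) (gi n) • 1 + c K (gj n) (gj n) • (θ * θ) := by
  have h1 := comm_DS (h.L_le h.theta_L_auxQ) (e_mem (gi_mem n))
  have h2 := comm_DS (h.L_le h.theta_L_auxQ) (e_mem (gj_mem n))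
  have e1 : e (gi n) * (θ * e (gj n)) = θ * (e (gi n) * e (gj n)) := by
    rw [← mul_assoc, ← h1, mul_assoc]
  have e2 : θ * e (gj n) * (θ * e (gj n)) = c K (gj n) (gj n) • (θ * θ) := by
    rw [mul_assoc, ← mul_assoc (e (gj n)), ← h2, mul_assoc, e_sq, mul_smul_comm, mul_one,
      mul_smul_comm]
  rw [mul_add, add_mul, add_mul, e_sq, e1, e2, mul_assoc, e_gi_gj, mul_neg]
  abel

theorem u_notMem_auxQ : e (gi n) + θ * e (gj n) ∉ D K n := by
  intro H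
  have h1 := cp_mul_e (gi_mem n) (zero_mem_GS n (n + 1)) H
  rw [e_zero, mul_one, if_neg (gi_ne_zero n).symm, map_add, cp_e (gi_mem n) (gi_mem n),
    cp_mul_e (gi_mem n) (gj_mem n) (h.L_le h.theta_L_auxQ), if_pos rfl,
    if_neg (gi_ne_gj n).symm, add_zero] at h1
  exact one_ne_zero h1

theorem u_ne_auxQ : e (gi n) + θ * e (gj n) ≠ 0 := fun H =>
  h.u_notMem_auxQ (by rw [H]; exact zero_mem _)

theorem nrm_mem_auxQ :
    (c K (gi n) (gi n) • 1 + c K (gj n) (gj n) • (θ * θ) : A K) ∈ Rat' (UU S n v a) :=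
  add_mem (Subalgebra.smul_mem _ (one_mem _) _)
    (Subalgebra.smul_mem _ (mul_mem h.theta_mem h.theta_mem) _)

theorem nrm_inv_auxQ :
    (c K (gi n) (gi n) • 1 + c K (gj n) (gj n) • (θ * θ) : A K)⁻¹ ∈ gen (ev v a) :=
  inv_mem_of_le h.L_le (h.L0_le h.nrm_mem_auxQ)

theorem tight_auxQ : del S n v ≤ del S (n + 1) w := h.tt _ _ _ h.mv

theorem M_le : adj (gen (ev v a)) (e (gi n) + θ * e (gj n)) ≤ D K (n + 1) := by
  refine adj_le (h.L_le.trans (D_mono n.le_succ)) (add_mem (DS_le_D (e_mem (gi_mem n))) ?_)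
  exact mul_mem (D_mono n.le_succ (h.L_le h.theta_L_auxQ)) (DS_le_D (e_mem (gj_mem n)))

theorem M_comm : Comm (adj (gen (ev v a)) (e (gi n) + θ * e (gj n))) := by
  exact (comm_gen _).adj fun _ hx => h.u_comm_auxQ hx

theorem ld : Ld 1 (ev w a - map (io K) (ev v a)) (d1 v a σ) := by
  have := ev_Ld (k := 0) (w := fun i => map (io K) (v i)) (w' := w)
    (fun i _ => RA.of (plc K) (v i)) h.mv.ld h.ha
  rwa [ev_hom] at this

theorem redC : RedC PL (n + 1) (gen (ev w a)) (adj (gen (ev v a)) (e (gi n) + θ * e (gj n))) := by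
  have h1 := redC_of_ld (D_mono n.le_succ (ev_mem h.st.mem h.ha))
    (map_mem_bc (io K) (mem_gen (ev v a))) (RA.of (plc K) _) le_rfl h.ld
  have h2 : adj (gen (ev v a)) (η * (e (gi n) + θ * e (gj n))) =
      adj (gen (ev v a)) (e (gi n) + θ * e (gj n)) := by
    refine le_antisymm (adj_le (le_adj _ _) (mul_mem (le_adj _ _ h.eta_L_auxQ) (mem_adj _ _)))
      (adj_le (le_adj _ _) ?_)
    have := mul_mem (le_adj _ (η * (e (gi n) + θ * e (gj n)))
      (inv_mem_of_le h.L_le h.eta_L_auxQ)) (mem_adj _ _)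
    rwa [inv_mul_cancel_left₀ h.eta0] at this
  rwa [← ell_one, h.dir, h2] at h1

theorem act : Act S (n + 1) w a := by
  obtain ⟨β0, h0, e0⟩ := mem_UU.1 h.eta
  obtain ⟨β, -, e1, β', h1, h2⟩ := h.mv.toPreMove.lift_ell h.wf h.st h.tight_auxQ h.bp
    (VV_mono h.wf h.st.mem n.le_succ h0)
  have hy := inv_mem_of_le h.L_le h.eta_L_auxQ
  refine h.mv.toPreMove.act h.wf h.ha h1 h2 hy ?_
  rw [← tr_mul_Pc h.L_le (comm_gen _) fun x hx => comm_gen _ x hx _ hy, ← ell_one, e1, e0,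
    inv_mul_cancel₀ h.eta0, tr_one]
  exact one_ne_zero

theorem dbl_auxQ : 2 * finrank K (gen (ev v a)) ≤
    finrank K (adj (gen (ev v a)) (e (gi n) + θ * e (gj n))) :=
  dbl h.M_le (le_adj _ _) (mem_adj _ _) fun H => h.u_notMem_auxQ (h.L_le H)

theorem deg_le :
    finrank (LS K) (gen (ev w a)) ≤ finrank K (adj (gen (ev v a)) (e (gi n) + θ * e (gj n))) := by
  have h1 := (h.loc _ _ _ h.mv h.act).1
  have h2 := h.dx.deg
  have h3 : 0 < μ := Nat.pos_of_ne_zero fun H => by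
    rw [H, mul_zero] at h2
    exact (pow_pos two_pos n).ne h2
  rw [pow_succ, ← h2] at h1
  refine le_trans (Nat.le_of_mul_le_mul_right ?_ h3) h.dbl_auxQ
  exact h1.trans_eq (by ring)

theorem Pc_ell_auxQ (β : ℕ → A K) :
    Pc (adj (gen (ev v a)) (e (gi n) + θ * e (gj n))) (d1 v a β) =
      Pc (adj (gen (ev v a)) (e (gi n) + θ * e (gj n))) (ell (gen (ev v a)) 1 v a β) := by
  rw [ell_one, Pc_Pc h.M_le h.M_comm (le_adj _ _)]

theorem lift_UU {β : ℕ → A K} (hβ : β ∈ VV S (n + 1) v) : ∃ u' ∈ UU S (n + 1) w a,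
    RA PL u' (Pc (adj (gen (ev v a)) (e (gi n) + θ * e (gj n))) (d1 v a β)) := by
  obtain ⟨β1, -, e1, β', h1, h2⟩ := h.mv.toPreMove.lift_ell h.wf h.st h.tight_auxQ h.bp hβ
  refine ⟨_, mem_UU.2 ⟨β', h1, rfl⟩, ?_⟩
  rw [ell_one, h.Pc_ell_auxQ, ← e1, ← h.Pc_ell_auxQ]
  exact h.redC.Pc (plc K) h.L'_le (comm_gen _) h.M_le h.M_comm h.deg_le
    (d1_mem h.mv.mem (fun i _ => (VV_le _ _ _ h1 i).1) h.ha)
    (d1_RA (plc K) h.mv.toPreMove.ra (fun i _ => h2 i) h.ha)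

theorem Pc_one {l : A K} (hl : l ∈ gen (ev v a)) :
    Pc (adj (gen (ev v a)) (e (gi n) + θ * e (gj n))) l = l := by
  exact Pc_self h.M_le h.M_comm fun x hx => h.M_comm x hx l (le_adj _ _ hl)

theorem nrm_ne : (c K (gi n) (gi n) • 1 + c K (gj n) (gj n) • (θ * θ) : A K) ≠ 0 := by
  rw [← h.u_sq_auxQ]
  exact mul_ne_zero h.u_ne_auxQ h.u_ne_auxQ

theorem Pc_anti_auxQ {y : A K}
    (hy' : (e (gi n) + θ * e (gj n)) * y = -(y * (e (gi n) + θ * e (gj n)))) :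
    Pc (adj (gen (ev v a)) (e (gi n) + θ * e (gj n))) y = 0 := by
  have := charZero K
  have hu := fun x hx => h.M_comm x hx _ (mem_adj _ _)
  have h1 := Pc_mul_left hu y
  rw [hy', map_neg, Pc_mul_right hu, ← Pc_comm h.M_le h.M_comm y (mem_adj _ _), neg_eq_iff_add_eq_zero,
    ← two_smul K, smul_eq_zero, mul_eq_zero] at h1
  exact (h1.resolve_left two_ne_zero).resolve_left h.u_ne_auxQ

theorem Pc_gen_auxQ {y z l : A K} (hz : z ∈ gen (ev v a)) (hl : l ∈ gen (ev v a)) {r : K}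
    (hy : (e (gi n) + θ * e (gj n)) * y + y * (e (gi n) + θ * e (gj n)) = (2 * r) • z) :
    Pc (adj (gen (ev v a)) (e (gi n) + θ * e (gj n))) (l * y) = r • (z * l *
      (c K (gi n) (gi n) • 1 + c K (gj n) (gj n) • (θ * θ))⁻¹ * (e (gi n) + θ * e (gj n))) := by
  have hx := mul_mem hz h.nrm_inv_auxQ
  have h1 := h.u_comm_auxQ hx
  have h2 : z * (c K (gi n) (gi n) • 1 + c K (gj n) (gj n) • (θ * θ))⁻¹ *
      ((e (gi n) + θ * e (gj n)) * (e (gi n) + θ * e (gj n))) = z := by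
    rw [h.u_sq_auxQ, inv_mul_cancel_right₀ h.nrm_ne]
  rw [comm_gen _ z hz l hl, mul_assoc l, mul_assoc l]
  generalize z * (c K (gi n) (gi n) • 1 + c K (gj n) (gj n) • (θ * θ))⁻¹ = x at hx h1 h2
  have h3 := h.Pc_anti_auxQ (y := y - r • (x * (e (gi n) + θ * e (gj n)))) (by
    rw [mul_sub, sub_mul, mul_smul_comm, smul_mul_assoc, ← mul_assoc, ← h1, mul_assoc, h2,
      eq_sub_of_add_eq hy, two_mul, add_smul]
    abel)
  have h4 : x * (e (gi n) + θ * e (gj n)) ∈ adj (gen (ev v a)) (e (gi n) + θ * e (gj n)) :=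
    mul_mem (le_adj _ _ hx) (mem_adj _ _)
  rw [map_sub, map_smul, Pc_self h.M_le h.M_comm fun t ht => h.M_comm t ht _ h4, sub_eq_zero] at h3
  rw [Pc_mul_left fun t ht => h.M_comm t ht _ (le_adj _ _ hl), h3, mul_smul_comm]

theorem Pc_i {l : A K} (hl : l ∈ gen (ev v a)) :
    Pc (adj (gen (ev v a)) (e (gi n) + θ * e (gj n))) (l * e (gi n)) = c K (gi n) (gi n) • (l *
      (c K (gi n) (gi n) • 1 + c K (gj n) (gj n) • (θ * θ))⁻¹ * (e (gi n) + θ * e (gj n))) := by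
  simpa only [one_mul] using h.Pc_gen_auxQ (one_mem _) hl h.u_i_auxQ

theorem Pc_j {l : A K} (hl : l ∈ gen (ev v a)) :
    Pc (adj (gen (ev v a)) (e (gi n) + θ * e (gj n))) (l * e (gj n)) = c K (gj n) (gj n) • (θ * l *
      (c K (gi n) (gi n) • 1 + c K (gj n) (gj n) • (θ * θ))⁻¹ * (e (gi n) + θ * e (gj n))) := by
  exact h.Pc_gen_auxQ h.theta_L_auxQ hl h.u_j_auxQ

theorem Pc_anti {y : A K} (hy : y ∈ D K (n + 1))
    (hy' : (e (gi n) + θ * e (gj n)) * y = -(y * (e (gi n) + θ * e (gj n)))) :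
    Pc (adj (gen (ev v a)) (e (gi n) + θ * e (gj n))) y = 0 := by
  have _ := hy
  exact h.Pc_anti_auxQ hy'

theorem UU_le_auxQ {u : A K} (hu : u ∈ UU S n v a) : u ∈ (VV S (n + 1) v).map
    (Pc (adj (gen (ev v a)) (e (gi n) + θ * e (gj n))) ∘ₗ d1 v a) := by
  obtain ⟨β, hβ, e1⟩ := mem_UU.1 hu
  refine ⟨β, VV_mono h.wf h.st.mem n.le_succ hβ, ?_⟩
  rw [LinearMap.comp_apply, h.Pc_ell_auxQ, e1, h.Pc_one (h.dx.sub u hu)]

theorem UU_mul_auxQ {u z : A K} (hu : u ∈ UU S n v a) (hz : z ∈ DS K n (n + 1)) :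
    Pc (adj (gen (ev v a)) (e (gi n) + θ * e (gj n))) (u * z) ∈ (VV S (n + 1) v).map
    (Pc (adj (gen (ev v a)) (e (gi n) + θ * e (gj n))) ∘ₗ d1 v a) := by
  obtain ⟨β, hβ, e1⟩ := mem_UU.1 hu
  refine ⟨_, mul_mem_VV h.wf h.st.mem n.le_succ hβ hz, ?_⟩
  rw [LinearMap.comp_apply, h.Pc_ell_auxQ, ell_mul h.ha h.st.mem h.L_le (one_mem _) β hz, e1]

theorem UU_i_auxQ {u : A K} (hu : u ∈ UU S n v a) :
    u * (c K (gi n) (gi n) • 1 + c K (gj n) (gj n) • (θ * θ))⁻¹ * (e (gi n) + θ * e (gj n)) ∈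
      (VV S (n + 1) v).map (Pc (adj (gen (ev v a)) (e (gi n) + θ * e (gj n))) ∘ₗ d1 v a) := by
  have := h.UU_mul_auxQ hu (e_mem (gi_mem n))
  rwa [h.Pc_i (h.dx.sub u hu), Submodule.smul_mem_iff _ (c_ne_zero _ _)] at this

theorem UU_j_auxQ {u : A K} (hu : u ∈ UU S n v a) :
    θ * u * (c K (gi n) (gi n) • 1 + c K (gj n) (gj n) • (θ * θ))⁻¹ * (e (gi n) + θ * e (gj n)) ∈
      (VV S (n + 1) v).map (Pc (adj (gen (ev v a)) (e (gi n) + θ * e (gj n))) ∘ₗ d1 v a) := by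
  have := h.UU_mul_auxQ hu (e_mem (gj_mem n))
  rwa [h.Pc_j (h.dx.sub u hu), Submodule.smul_mem_iff _ (c_ne_zero _ _)] at this

theorem deg_auxQ : finrank (LS K) (gen (ev w a)) * μ = 2 ^ (n + 1) := by
  refine le_antisymm (h.loc _ _ _ h.mv h.act).1 ?_
  have h1 := h.dbl_auxQ.trans (h.redC.le (plc K) h.L'_le (comm_gen _) h.M_le h.M_comm)
  rw [pow_succ, ← h.dx.deg]
  exact le_trans (le_of_eq (by ring)) (Nat.mul_le_mul_right μ h1)

theorem sub_auxQ : ∀ u ∈ UU S (n + 1) w a, u ∈ gen (ev w a) := by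
  rintro _ ⟨z, hz, rfl⟩
  exact ((h.loc _ _ _ h.mv h.act).2 h.deg_auxQ).1 z hz

theorem L0'_le_auxQ : Rat' (UU S (n + 1) w a) ≤ D (LS K) (n + 1) :=
  (Rat_le h.L'_le h.sub_auxQ).trans h.L'_le

theorem red_auxQ : Rat' (UU S n v a) ≤ redS (plc K) (Rat' (UU S (n + 1) w a)) ∧
    e (gi n) + θ * e (gj n) ∈ redS (plc K) (Rat' (UU S (n + 1) w a)) := by
  have h1 : Rat' ((VV S (n + 1) v).map
      (Pc (adj (gen (ev v a)) (e (gi n) + θ * e (gj n))) ∘ₗ d1 v a)) ≤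
      redS (plc K) (Rat' (UU S (n + 1) w a)) := by
    refine Rat_le_red (plc K) ?_
    rintro _ ⟨β, hβ, rfl⟩
    exact h.lift_UU hβ
  have h2 : Rat' (UU S n v a) ≤ redS (plc K) (Rat' (UU S (n + 1) w a)) := by
    refine le_trans (Algebra.adjoin_le ?_) h1
    rintro _ ⟨u, hu, u', hu', rfl⟩
    exact ratio_mem (h.UU_le_auxQ hu) (h.UU_le_auxQ hu')
  refine ⟨h2, ?_⟩
  have h3 := mul_mem (h2 h.nrm_mem_auxQ) (h1 (ratio_mem (h.UU_le_auxQ h.eta) (h.UU_i_auxQ h.eta)))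
  rwa [mul_assoc η, inv_mul_cancel_left₀ h.eta0, mul_inv_cancel_left₀ h.nrm_ne] at h3

theorem rat_auxQ : finrank (LS K) (Rat' (UU S (n + 1) w a)) * ν = 2 ^ (n + 1) := by
  refine le_antisymm ((h.loc _ _ _ h.mv h.act).2 h.deg_auxQ).2 ?_
  have h1 := dbl (redS_le (plc K) h.L0'_le_auxQ) h.red_auxQ.1 h.red_auxQ.2
    fun H => h.u_notMem_auxQ (h.L_le (h.L0_le H))
  rw [finrank_redS (plc K) h.L0'_le_auxQ] at h1
  rw [pow_succ, ← h.dx.rat]
  exact le_trans (le_of_eq (by ring)) (Nat.mul_le_mul_right ν h1)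

theorem dx' : DX S (n + 1) w a μ ν := by
  exact ⟨h.act, h.deg_auxQ, h.sub_auxQ, h.rat_auxQ⟩

theorem rat' : finrank (LS K) (Rat' (UU S (n + 1) w a)) = 2 * finrank K (Rat' (UU S n v a)) := by
  have h1 := h.rat_auxQ
  have h2 := h.dx.rat
  have h3 : 0 < ν := Nat.pos_of_ne_zero fun H => by
    rw [H, mul_zero] at h2
    exact (pow_pos two_pos n).ne h2
  rw [pow_succ, ← h2] at h1
  exact Nat.eq_of_mul_eq_mul_right h3 (h1.trans (by ring))

theorem red_rat {x : A (LS K)} {y : A K} (hx : x ∈ Rat' (UU S (n + 1) w a)) (hy : RA PL x y) :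
    ∃ f ∈ Rat' (UU S n v a), ∃ g ∈ Rat' (UU S n v a), y = f + g * (e (gi n) + θ * e (gj n)) := by
  let B : Subalgebra K (A K) :=
    { carrier := {y | ∃ f ∈ Rat' (UU S n v a), ∃ g ∈ Rat' (UU S n v a),
        y = f + g * (e (gi n) + θ * e (gj n))}
      add_mem' := by
        rintro _ _ ⟨f, hf, g, hg, rfl⟩ ⟨f', hf', g', hg', rfl⟩
        exact ⟨f + f', add_mem hf hf', g + g', add_mem hg hg', by rw [add_mul]; abel⟩
      mul_mem' := by
        rintro _ _ ⟨f, hf, g, hg, rfl⟩ ⟨f', hf', g', hg', rfl⟩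
        refine ⟨_, add_mem (mul_mem hf hf') (mul_mem (mul_mem hg hg') h.nrm_mem_auxQ),
          _, add_mem (mul_mem hf hg') (mul_mem hg hf'), ?_⟩
        have h1 := h.u_comm_auxQ (h.L0_le hf')
        have h2 := h.u_comm_auxQ (h.L0_le hg')
        rw [← h.u_sq_auxQ]
        generalize e (gi n) + θ * e (gj n) = u at h1 h2
        rw [add_mul, mul_add, mul_add, mul_assoc g u, ← h1, mul_assoc g u, ← mul_assoc u, ← h2]
        noncomm_ring
      algebraMap_mem' := fun r => ⟨_, Subalgebra.algebraMap_mem _ r, 0, zero_mem _, by simp⟩ }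
  have h1 : B ≤ redS (plc K) (Rat' (UU S (n + 1) w a)) := by
    rintro _ ⟨f, hf, g, hg, rfl⟩
    exact add_mem (h.red_auxQ.1 hf) (mul_mem (h.red_auxQ.1 hg) h.red_auxQ.2)
  have h2 := redS_le (plc K) h.L0'_le_auxQ
  have h3 : 2 * finrank K (Rat' (UU S n v a)) ≤ finrank K B :=
    dbl (h1.trans h2) (fun f hf => ⟨f, hf, 0, zero_mem _, by simp⟩)
      (y := e (gi n) + θ * e (gj n)) ⟨0, zero_mem _, 1, one_mem _, by simp⟩
      fun H => h.u_notMem_auxQ (h.L_le (h.L0_le H))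
  have h4 := eq_of_finrank_le h2 h1 (by rw [finrank_redS (plc K) h.L0'_le_auxQ, h.rat']; exact h3)
  exact h4.ge ⟨x, hx, hy⟩

theorem rho_bar : finrank K (UU S n v a) +
    finrank K (Lam S n v a η ⊔ (Lam S n v a η).map (LinearMap.mulLeft K θ) : Submodule K (A K)) ≤
    finrank K ((VB S (n + 1) v σ).map
      (Pc (adj (gen (ev v a)) (e (gi n) + θ * e (gj n))) ∘ₗ d1 v a)) := by
  let φ : A K →ₗ[K] A K := LinearMap.mulRight K ((c K (gi n) (gi n) • 1 + c K (gj n) (gj n) •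
    (θ * θ))⁻¹ * (e (gi n) + θ * e (gj n))) ∘ₗ LinearMap.mulLeft K η
  have hφ : ∀ l, φ l = η * l * (c K (gi n) (gi n) • 1 + c K (gj n) (gj n) • (θ * θ))⁻¹ *
      (e (gi n) + θ * e (gj n)) := fun l => (mul_assoc _ _ _).symm
  have hi : Function.Injective φ := by
    rw [injective_iff_map_eq_zero]
    intro l hl
    simpa only [hφ, mul_eq_zero, h.eta0, h.u_ne_auxQ, inv_eq_zero, h.nrm_ne, false_or, or_false]
      using hl
  have hΛ : ∀ l ∈ Lam S n v a η, l ∈ gen (ev v a) := fun l hl => by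
    have := mul_mem (inv_mem_of_le h.L_le h.eta_L_auxQ) (h.dx.sub _ ((mem_Lam h.eta0).1 hl))
    rwa [inv_mul_cancel_left₀ h.eta0] at this
  have h1 : (VV S (n + 1) v).map (Pc (adj (gen (ev v a)) (e (gi n) + θ * e (gj n))) ∘ₗ d1 v a) ≤
      (VB S (n + 1) v σ).map (Pc (adj (gen (ev v a)) (e (gi n) + θ * e (gj n))) ∘ₗ d1 v a) := by
    rintro _ ⟨β, hβ, rfl⟩
    obtain ⟨β1, h1, e1, -⟩ := h.mv.toPreMove.lift_ell h.wf h.st h.tight_auxQ h.bp hβ
    refine ⟨β1, h1, ?_⟩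
    rw [LinearMap.comp_apply, LinearMap.comp_apply, h.Pc_ell_auxQ, e1, ← h.Pc_ell_auxQ]
  rw [(Submodule.equivMapOfInjective φ hi
    (Lam S n v a η ⊔ (Lam S n v a η).map (LinearMap.mulLeft K θ))).finrank_eq]
  refine disj_aux (le_trans (fun u hu => h.UU_le_auxQ hu) h1) (le_trans ?_ h1) ?_
  · rw [Submodule.map_sup, sup_le_iff]
    constructor
    · rintro _ ⟨l, hl, rfl⟩
      rw [hφ]
      exact h.UU_i_auxQ ((mem_Lam h.eta0).1 hl)
    · rintro _ ⟨_, ⟨l, hl, rfl⟩, rfl⟩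
      rw [hφ, LinearMap.mulLeft_apply, ← mul_assoc η,
        comm_gen _ η h.eta_L_auxQ θ h.theta_L_auxQ, mul_assoc θ]
      exact h.UU_j_auxQ ((mem_Lam h.eta0).1 hl)
  · rw [Submodule.disjoint_def]
    rintro _ hx ⟨l, hl, rfl⟩
    have hl' : l ∈ (gen (ev v a)).toSubmodule := by
      refine (sup_le hΛ ?_ : _ ≤ (gen (ev v a)).toSubmodule) hl
      rintro _ ⟨l, hl, rfl⟩
      exact (gen (ev v a)).mul_mem h.theta_L_auxQ (hΛ l hl)
    have hy := mul_mem ((gen (ev v a)).mul_mem h.eta_L_auxQ hl') h.nrm_inv_auxQ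
    rw [hφ] at hx ⊢
    generalize η * l * (c K (gi n) (gi n) • 1 + c K (gj n) (gj n) • (θ * θ))⁻¹ = y at hx hy
    by_contra H
    have := mul_mem (inv_mem_of_le h.L_le hy) (h.dx.sub _ hx)
    rw [inv_mul_cancel_left₀ (left_ne_zero_of_mul H)] at this
    exact h.u_notMem_auxQ (h.L_le this)

theorem rho' : finrank K (UU S n v a) +
    finrank K (Lam S n v a η ⊔ (Lam S n v a η).map (LinearMap.mulLeft K θ) : Submodule K (A K)) ≤
    finrank (LS K) (UU S (n + 1) w a) := by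
  have h1 : UU S (n + 1) w a ≤ (D (LS K) (n + 1)).toSubmodule :=
    fun u hu => h.L'_le (h.sub_auxQ u hu)
  have := finite_of_le (redA_le (plc K) h1)
  refine h.rho_bar.trans ((Submodule.finrank_mono ?_).trans_eq (finrank_redA (plc K) h1))
  rintro _ ⟨β, hβ, rfl⟩
  exact h.lift_UU (VB_le _ _ _ _ hβ)

end QSet

end Vale.Agent.P199
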