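import Vale.Agent.P199.Final1
import Vale.Agent.P199.QMove

/-! The new relations have large rank. -/

namespace Vale.Agent.P199

open Finset Module

set_option linter.unusedSectionVars false

variable {K : Type} [Field K] [Algebra K0 K] [Dom K] {S : Sys} {n : ℕ} {v σ : ℕ → A K}
  {w : ℕ → A (LS K)} {a : Ex} {μ ν : ℕ} {η θ : A K}

theorem rk_of_red {X Y X' : Type*} [AddCommGroup X] [Module K X] [AddCommGroup Y] [Module K Y]
    [AddCommGroup X'] [Module (LS K) X'] {B : X →ₗ[K] Y →ₗ[K] K} {U : Submodule K X}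
    {V : Submodule K Y} [Module.Finite K U] {R : ℕ} (h : RkGe B U V R)
    {B' : X' →ₗ[LS K] X' →ₗ[LS K] LS K} {U' : Submodule (LS K) X'} [Module.Finite (LS K) U']
    {RL : X → X' → Prop} {RR : Y → X' → Prop} (hL : ∀ x ∈ U, ∃ x' ∈ U', RL x x')
    (hR : ∀ y ∈ V, ∃ y' ∈ U', RR y y') {c : LS K}
    (hv : ∀ x ∈ U, ∀ y ∈ V, ∀ x' y', RL x x' → RR y y' → PL (c * B' x' y') (B x y)) :
    RkGe B' U' U' R := by
  obtain ⟨x, y, hx, hy, hxy⟩ := h.family
  choose x' hx' hx'' using fun i => hL _ (hx i)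
  choose y' hy' hy'' using fun i => hR _ (hy i)
  refine RkGe.of_family x' y' hx' hy' fun l hl => ?_
  by_contra h0
  obtain ⟨b, -, l0, hl0, hb⟩ := (plc K).exists_norm' l h0
  refine hl0 (funext fun j => (plc K).fn ?_)
  have := (plc K).sum Finset.univ fun i _ =>
    (plc K).mul (hb i) (hv _ (hx i) _ (hy j) _ _ (hx'' i) (hy'' j))
  simp only [hxy, mul_ite, mul_one, mul_zero, Finset.sum_ite_eq', Finset.mem_univ, if_true] at this
  convert this using 1
  rw [← mul_zero (b * c), ← hl j, Finset.mul_sum]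
  exact Finset.sum_congr rfl fun i _ => by ring

namespace QSet

variable (h : QSet S n v a μ ν η θ σ w)
include h

theorem eta_L : η ∈ gen (ev v a) := h.dx.sub η h.eta

theorem L_le' : gen (ev v a) ≤ D K (n + 1) := h.L_le.trans (D_mono (Nat.le_succ n))

theorem L_Cn : gen (ev v a) ≤ Cn (n + 1) (gen (ev v a)) := le_Cn h.L_le' (comm_gen _)

theorem DS_Cn {x : A K} (hx : x ∈ DS K n (n + 1)) : x ∈ Cn (n + 1) (gen (ev v a)) :=
  mem_Cn.2 ⟨DS_le_D hx, fun _ hy => comm_DS (h.L_le hy) hx⟩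

theorem u_Cn : e (gi n) + θ * e (gj n) ∈ Cn (n + 1) (gen (ev v a)) :=
  add_mem (h.DS_Cn (e_mem (gi_mem n)))
    (mul_mem (h.L_Cn (h.L0_le h.theta_mem)) (h.DS_Cn (e_mem (gj_mem n))))

theorem Pc_M_self {x : A K} (hx : x ∈ Cn (n + 1) (gen (ev v a)))
    (hu : η * (e (gi n) + θ * e (gj n)) * x = x * (η * (e (gi n) + θ * e (gj n)))) :
    Pc (adj (gen (ev v a)) (e (gi n) + θ * e (gj n))) x = x := by
  refine Pc_self h.M_le h.M_comm (mem_Cn.1 (mem_Cn_adj.2 ⟨hx, ?_⟩)).2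
  rw [← mul_assoc, ← (mem_Cn.1 hx).2 η h.eta_L, mul_assoc, mul_assoc] at hu
  exact mul_left_cancel₀ h.eta0 hu

theorem pole_aux {y z' : A (LS K)} {x z : A K} (hy : y ∈ D (LS K) (n + 1))
    (h0 : Pc (gen (ev w a)) y = 0) (hb : ev w a * y - y * ev w a = -(eps K • z'))
    (hz : RA PL z' z) (hx : RA PL y x) : x ∈ Cn (n + 1) (gen (ev v a)) ∧
      Pc (adj (gen (ev v a)) (e (gi n) + θ * e (gj n))) x = 0 ∧
      η * (e (gi n) + θ * e (gj n)) * x - x * (η * (e (gi n) + θ * e (gj n))) =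
        -Pc (gen (ev v a)) z := by
  have hP := plc K
  have h1 : x ∈ Cn (n + 1) (gen (ev v a)) := by
    refine mem_Cn_gen.2 ⟨hx.mem hP hy, sub_eq_zero.1 ?_⟩
    have := (h.ld.ra.mul hP hx).sub hP (hx.mul hP h.ld.ra)
    rw [hb] at this
    simpa using this.unique hP ((RA.smul hP PL_eps hz).neg hP)
  refine ⟨h1, ?_, ?_⟩
  · have := h.redC.Pc hP h.L'_le (comm_gen _) h.M_le h.M_comm h.deg_le hy hx
    rw [h0] at this
    exact this.eq_zero hP
  · have e1 := ((RA.mul hP h.ld hx).sub hP (hx.mul hP h.ld)).Pc_bc hP h.L_le (comm_gen _)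
    have e2 : (eps K ^ 1)⁻¹ • (ev w a - map (io K) (ev v a)) * y -
        y * (eps K ^ 1)⁻¹ • (ev w a - map (io K) (ev v a)) =
        -z' - (eps K)⁻¹ • (map (io K) (ev v a) * y - y * map (io K) (ev v a)) := by
      rw [pow_one, smul_mul_assoc, mul_smul_comm, ← smul_sub, sub_mul, mul_sub,
        sub_sub_sub_comm, hb, smul_sub, smul_neg, smul_smul, inv_mul_cancel₀ eps_ne_zero, one_smul]
    rw [e2, map_sub (Pc (bc _ _)), map_smul, Pc_bracket (bc_le _ h.L_le) ((comm_gen _).bc _)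
      (map_mem_bc _ (mem_gen _)), smul_zero, sub_zero, map_sub, Pc_mul_right (mem_Cn.1 h1).2,
      Pc_mul_left (mem_Cn.1 h1).2, ← ell_one, h.dir] at e1
    rw [← map_neg]
    exact e1.unique hP ((hz.neg hP).Pc_bc hP h.L_le (comm_gen _))

theorem pole {y z' : A (LS K)} {z : A K}
    (hy : y ∈ D (LS K) (n + 1)) (h0 : Pc (gen (ev w a)) y = 0)
    (hb : ev w a * y - y * ev w a = -z') (hz : RA PL z' z) :
    ∃ x, RA PL (eps K • y) x ∧ x ∈ Cn (n + 1) (gen (ev v a)) ∧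
      Pc (adj (gen (ev v a)) (e (gi n) + θ * e (gj n))) x = 0 ∧
      η * (e (gi n) + θ * e (gj n)) * x - x * (η * (e (gi n) + θ * e (gj n))) =
        -Pc (gen (ev v a)) z := by
  have hP := plc K
  suffices H : ∃ x, RA PL (eps K • y) x by
    obtain ⟨x, hx⟩ := H
    exact ⟨x, hx, h.pole_aux (Subalgebra.smul_mem _ hy _) (by rw [map_smul, h0, smul_zero])
      (by rw [mul_smul_comm, smul_mul_assoc, ← smul_sub, hb, smul_neg]) hz hx⟩
  by_cases hy0 : y = 0
  · exact ⟨0, by simpa [hy0] using RA.zero hP⟩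
  obtain ⟨b, hb0, x, hx0, hx⟩ := RA.norm hP hy0
  rcases hP.tot (eps K / b) with ⟨t, ht⟩ | ht
  · exact ⟨_, by simpa [smul_smul, hb0] using RA.smul hP ht hx⟩
  obtain ⟨h1, h2, h3⟩ := h.pole_aux (Subalgebra.smul_mem _ hy b) (by rw [map_smul, h0, smul_zero])
    (by rw [mul_smul_comm, smul_mul_assoc, ← smul_sub, hb, smul_neg, smul_smul, inv_div,
      mul_div_cancel₀ _ eps_ne_zero]) (RA.smul hP ht hz) hx
  rw [zero_smul, map_zero, neg_zero, sub_eq_zero] at h3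
  exact absurd ((h.Pc_M_self h1 h3).symm.trans h2) hx0

theorem u_ne : (e (gi n) + θ * e (gj n) : A K) ≠ 0 := fun H => by
  have := congrArg (cp n (gi n)) H
  rw [map_add, cp_mul_e (gi_mem n) (gj_mem n) (h.L_le (h.L0_le h.theta_mem)),
    if_neg (gi_ne_gj n).symm, cp_e (gi_mem n) (gi_mem n), if_pos rfl, map_zero, add_zero] at this
  exact one_ne_zero this

theorem solve_x {x y : A K} (hx : x ∈ Cn (n + 1) (gen (ev v a)))
    (hy : y ∈ Cn (n + 1) (gen (ev v a)))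
    (h0 : Pc (adj (gen (ev v a)) (e (gi n) + θ * e (gj n))) x = 0)
    (hb : η * (e (gi n) + θ * e (gj n)) * x - x * (η * (e (gi n) + θ * e (gj n))) = -y)
    (ha : (e (gi n) + θ * e (gj n)) * y = -(y * (e (gi n) + θ * e (gj n)))) :
    x = -((2 : K)⁻¹ • ((η * (e (gi n) + θ * e (gj n)))⁻¹ * y)) := by
  have := charZero K
  set u0 : A K := e (gi n) + θ * e (gj n) with hu0
  have hu : η * u0 ≠ 0 := mul_ne_zero h.eta0 h.u_ne
  have huC : η * u0 ∈ Cn (n + 1) (gen (ev v a)) := mul_mem (h.L_Cn h.eta_L) h.u_Cn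
  have hz : (η * u0)⁻¹ * y ∈ Cn (n + 1) (gen (ev v a)) :=
    mul_mem (inv_mem_of_le (Cn_le _ _) huC) hy
  have e0 : η * u0 = u0 * η := (mem_Cn.1 h.u_Cn).2 η h.eta_L
  have e1 : y * (η * u0) = -(η * u0 * y) := by
    rw [mul_assoc η, ha, ← mul_assoc, ← (mem_Cn.1 hy).2 η h.eta_L, mul_neg, neg_neg, mul_assoc]
  have e2 : (η * u0)⁻¹ * y * (η * u0) = -y := by
    rw [mul_assoc, e1, mul_neg, ← mul_assoc, inv_mul_cancel₀ hu, one_mul]
  have e3 : u0 * ((η * u0)⁻¹ * y) = -((η * u0)⁻¹ * y * u0) := by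
    refine mul_left_cancel₀ h.eta0 ?_
    rw [← mul_assoc, ← mul_assoc, mul_inv_cancel₀ hu, one_mul, mul_neg, ← mul_assoc,
      (mem_Cn.1 hz).2 η h.eta_L, mul_assoc, e2, neg_neg]
  have e4 := h.Pc_M_self (add_mem hx (Subalgebra.smul_mem _ hz (2 : K)⁻¹)) (by
    rw [mul_add, add_mul, mul_smul_comm, smul_mul_assoc, e2, ← mul_assoc _ _ y,
      mul_inv_cancel₀ hu, one_mul, sub_eq_iff_eq_add.1 hb, smul_neg]
    have : (2 : K)⁻¹ • y = y - (2 : K)⁻¹ • y := by
      rw [eq_sub_iff_add_eq, ← add_smul]; norm_num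
    conv_lhs => rw [this]
    abel)
  rw [map_add, h0, map_smul, h.Pc_anti (Cn_le _ _ hz) e3, smul_zero, add_zero] at e4
  exact eq_neg_of_add_eq_zero_left e4.symm

theorem value {c l l' x x' : A K} (hc : c ∈ gen (ev v a)) (hl : l ∈ gen (ev v a))
    (hl' : l' ∈ gen (ev v a)) {k j : A K} (hk : k ∈ Cn (n + 1) (gen (ev v a)))
    (hj : j ∈ Cn (n + 1) (gen (ev v a))) {t : K}
    (ak : (e (gi n) + θ * e (gj n)) * k = -(k * (e (gi n) + θ * e (gj n))))
    (aj : (e (gi n) + θ * e (gj n)) * j = -(j * (e (gi n) + θ * e (gj n))))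
    (kj : k * j - j * k = (2 * t) • (e (gi n) + θ * e (gj n)))
    (hx : x = -((2 : K)⁻¹ • ((η * (e (gi n) + θ * e (gj n)))⁻¹ * (η * l * k))))
    (hx' : x' = -((2 : K)⁻¹ • ((η * (e (gi n) + θ * e (gj n)))⁻¹ * (η * l' * j)))) :
    c * (η * l * k * x' - η * l' * j * x) = t • (η * c * l * l') := by
  have := charZero K
  set u0 : A K := e (gi n) + θ * e (gj n) with hu0
  have hu : u0 ≠ 0 := h.u_ne
  have hi : ∀ y : A K, (η * u0)⁻¹ * (η * y) = u0⁻¹ * y := fun y => by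
    rw [mul_inv_rev, mul_assoc, ← mul_assoc η⁻¹, inv_mul_cancel₀ h.eta0, one_mul]
  have an : ∀ y : A K, u0 * y = -(y * u0) → y * u0⁻¹ = -(u0⁻¹ * y) := fun y H => by
    refine mul_left_cancel₀ hu (mul_right_cancel₀ hu ?_)
    rw [mul_assoc, mul_assoc, inv_mul_cancel₀ hu, mul_one, mul_neg, ← mul_assoc,
      mul_inv_cancel₀ hu, one_mul, H, neg_mul]
  have hui : u0⁻¹ ∈ Cn (n + 1) (gen (ev v a)) := inv_mem_of_le (Cn_le _ _) h.u_Cn
  have e1 : ∀ p p' y y' : A K, p ∈ gen (ev v a) → p' ∈ gen (ev v a) →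
      y ∈ Cn (n + 1) (gen (ev v a)) → u0 * y = -(y * u0) →
      η * p * y * (u0⁻¹ * (p' * y')) = -(η * p * p' * (u0⁻¹ * (y * y'))) := by
    intro p p' y y' hp hp' hy H
    rw [← mul_assoc u0⁻¹, ← (mem_Cn.1 hui).2 p' hp', mul_assoc (η * p) y, ← mul_assoc y,
      ← mul_assoc y, ← (mem_Cn.1 hy).2 p' hp', mul_assoc p' y, an y H]
    noncomm_ring
  rw [hx, hx', mul_assoc η l k, mul_assoc η l' j, hi, hi, ← mul_assoc η l k, ← mul_assoc η l' j,
    mul_neg, mul_neg, mul_smul_comm, mul_smul_comm, e1 l l' k j hl hl' hk ak,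
    e1 l' l j k hl' hl hj aj, smul_neg, smul_neg, neg_neg, neg_neg, ← smul_sub, mul_assoc η l' l,
    comm_gen _ l' hl' l hl, ← mul_assoc η l l', ← mul_sub, ← mul_sub, kj, mul_smul_comm (2 * t),
    inv_mul_cancel₀ hu, mul_smul_comm (2 * t), mul_one, smul_smul, mul_smul_comm,
    ← mul_assoc (2 : K)⁻¹, inv_mul_cancel₀ two_ne_zero, one_mul, ← mul_assoc, ← mul_assoc,
    comm_gen _ c hc η h.eta_L]

end QSet

theorem UU_eq : UU S n v a = (VV S n v).map (ell (gen (ev v a)) 1 v a) := by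
  ext u; rw [mem_UU, Submodule.mem_map]

theorem pj_ei_mul {m : ℕ} {g : G} (hg : g ∈ GS n m) {x : A K} (hx : x ∈ D K m) :
    pj n (ei g * x) = cp n g x := by
  classical
  conv_lhs => rw [sum_cp n hx]
  rw [Finset.mul_sum, map_sum, Finset.sum_eq_single_of_mem g hg]
  · rw [← mul_assoc, ← comm_DS (cp_mem n g x) (ei_mem hg), mul_assoc, ei_mul_e, mul_one,
      pj_of_mem (cp_mem n g x)]
  · intro k hk hne
    rw [← mul_assoc, ← comm_DS (cp_mem n k x) (ei_mem hg), mul_assoc, pj_mul_left (cp_mem n k x),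
      pj_ei_e_auxT hg hk, if_neg hne, mul_zero]

theorem rho_le {m : ℕ} (h0 : η ≠ 0) (hη : η ∈ UU S n v a) (hD : Rat' (UU S n v a) ≤ D K m) :
    finrank K (UU S n v a) ≤ finrank K (Rat' (UU S n v a)) := by
  have : Module.Finite K (Rat' (UU S n v a)).toSubmodule := finite_sub hD
  rw [← finrank_Lam h0]
  refine Submodule.finrank_mono (t := (Rat' (UU S n v a)).toSubmodule) ?_
  rintro _ ⟨u, hu, rfl⟩
  exact ratio_mem hη hu

/-- Right multiplication of vectors. -/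
noncomputable def mulV (z : A K) : (ℕ → A K) →ₗ[K] (ℕ → A K) :=
  LinearMap.pi fun i => LinearMap.mulRight K z ∘ₗ LinearMap.proj i

theorem mulV_apply (z : A K) (β : ℕ → A K) : mulV z β = fun i => β i * z := rfl

/-- The reduction of the tangent vectors which extend. -/
noncomputable def Upl (S : Sys) (n : ℕ) (w : ℕ → A (LS K)) (a : Ex) : Submodule K (ℕ → A K) :=
  redV (plc K) (VV S (n + 1) w ⊓ LinearMap.ker (ell (gen (ev w a)) 1 w a))

/-- Lifts of tangent vectors to the extended system. -/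
structure Lift (S : Sys) (n : ℕ) (v : ℕ → A K) (w : ℕ → A (LS K)) (a : Ex) (η θ : A K)
    (β : ℕ → A K) (x : A K) (X : ℕ → A (LS K)) : Prop where
  ex : ∃ β' y, X = Function.update β' S.N y ∧ β' ∈ XS (LS K) S.W (n + 1) ∧ RV PL β' β ∧
    y ∈ D (LS K) (n + 1) ∧ Pc (gen (ev w a)) y = 0 ∧ RA PL (eps K • y) x
  cn : x ∈ Cn (n + 1) (gen (ev v a))
  pc : Pc (adj (gen (ev v a)) (e (gi n) + θ * e (gj n))) x = 0
  br : η * (e (gi n) + θ * e (gj n)) * x - x * (η * (e (gi n) + θ * e (gj n))) =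
    -ell (gen (ev v a)) 1 v a β

namespace QSet

variable (h : QSet S n v a μ ν η θ σ w) {η' : A (LS K)} {r κ q : ℕ}
  (hb : BSet S a r κ q (n + 1) w η')
include h

theorem del_eq : del S (n + 1) w = del S n v :=
  le_antisymm (h.mv.del_le h.wf h.st) h.tight_auxQ

theorem Upl_VB : Upl S n w a ≤ VB S (n + 1) v σ := fun _ ⟨_, hβ, hr⟩ =>
  h.mv.redV h.wf h.st hβ.1 hr

theorem Upl_VV : Upl S n w a ≤ VV S (n + 1) v := h.Upl_VB.trans (VB_le _ _ _ _)

theorem ra_w : ∀ i ∈ Set.Iio S.N, RA PL (w i) (v i) := h.mv.ra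

theorem finrank_Upl : finrank K (Upl S n w a) + finrank (LS K) (UU S (n + 1) w a) =
    finrank (LS K) (VV S (n + 1) w) := by
  rw [Upl, finrank_redV (plc K) (inf_le_left.trans (VV_le _ _ _)), UU_eq]
  exact finrank_ker_map _ _

include hb in
theorem lift_ex {β : ℕ → A K} (hβ : β ∈ Upl S n w a) :
    ∃ x, ∃ X ∈ VV (S.plus a r κ q) (n + 1) w, Lift S n v w a η θ β x X := by
  obtain ⟨β', ⟨h1, h2⟩, h3⟩ := hβ
  obtain ⟨y, hy, hy0, hyb, hX⟩ := hb.extend h1 h2
  obtain ⟨x, k1, k2, k3, k4⟩ := h.pole hy hy0 hyb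
    (d1_RA (plc K) h.ra_w (fun i _ => h3 i) h.ha)
  exact ⟨x, _, hX, ⟨β', y, rfl, VV_le _ _ _ h1, h3, hy, hy0, k1⟩, k2, k3, by rw [k4, ell_one]⟩

include hb in
theorem val {c : ℕ → A (LS K)} {b : LS K} {c0 : ℕ → A K} {ch : A K}
    (hc : ∀ j ∈ S.J, RA PL (b • c j) (c0 j)) (hch : RA PL ((b * (eps K)⁻¹) • c S.j0) ch)
    (hC : ∀ y ∈ gen (ev v a), y * ch = ch * y) {β γ : ℕ → A K} {x x' : A K}
    {X X' : ℕ → A (LS K)} (hX : Lift S n v w a η θ β x X) (hX' : Lift S n v w a η θ γ x' X') :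
    PL (b * om (S.plus a r κ q) w c X X') (om S v c0 β γ +
      tr (ch * (ell (gen (ev v a)) 1 v a β * x' - ell (gen (ev v a)) 1 v a γ * x))) := by
  have hP := plc K
  obtain ⟨β', y, rfl, b1, b2, y1, y2, y3⟩ := hX.ex
  obtain ⟨γ', y', rfl, c1, c2, z1, z2, z3⟩ := hX'.ex
  have hO : ∀ {β γ : ℕ → A K} {β' γ' : ℕ → A (LS K)}, RV PL β' β → RV PL γ' γ →
      PL (b * Om S w c β' γ') (Om S v c0 β γ) := fun {β γ β' γ'} k1 k2 => by
    have := Om_RA hP h.wf (c' := b • c) h.ra_w hc (fun i _ => k1 i) fun i _ => k2 i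
    rwa [map_smul] at this
  have e1 := hP.sub (hO b2 c2) (hO c2 b2)
  have e2 := ((RA.smul hP PL_eps hch).mul hP
    ((d2_RA hP h.ra_w (fun i _ => b2 i) (fun i _ => c2 i) h.ha).sub hP
      (d2_RA hP h.ra_w (fun i _ => c2 i) (fun i _ => b2 i) h.ha))).tr
  have e3 := (hch.mul hP (((d1_RA hP h.ra_w (fun i _ => b2 i) h.ha).mul hP z3).sub hP
    ((d1_RA hP h.ra_w (fun i _ => c2 i) h.ha).mul hP y3))).tr
  have e4 : ∀ (β : ℕ → A K) (x : A K), x ∈ Cn (n + 1) (gen (ev v a)) →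
      tr (ch * (ell (gen (ev v a)) 1 v a β * x)) = tr (ch * (d1 v a β * x)) := fun β x hx => by
    rw [ell_one, ← Pc_mul_right (mem_Cn.1 hx).2, tr_mul_Pc h.L_le (comm_gen _) hC]
  have := hP.add (hP.add e1 e2) e3
  rw [hb.om_eq c b1 c1 y1 z1 y2 z2]
  convert this using 1
  · rw [om_apply, smul_smul, mul_smul_comm, mul_smul_comm, ← smul_sub, smul_mul_assoc,
      smul_mul_assoc, mul_smul_comm, smul_smul, map_smul, map_smul, smul_eq_mul, smul_eq_mul]
    have := eps_ne_zero (K := K)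
    field_simp
  · rw [zero_smul, zero_mul, map_zero, add_zero, om_apply, mul_sub, mul_sub, map_sub, map_sub,
      e4 β x' hX'.cn, e4 γ x hX.cn]

theorem kappa_le : finrank K (Rat' (UU S n v a)) ≤ 2 ^ n :=
  Nat.le_of_dvd (by positivity)
    (finrank_dvd (h.L0_le.trans h.L_le) ((comm_gen _).mono h.L0_le))

theorem rho_kappa : finrank K (UU S n v a) ≤ finrank K (Rat' (UU S n v a)) :=
  rho_le h.eta0 h.eta (h.L0_le.trans h.L_le)

include hb in
theorem rho_kappa' : finrank (LS K) (UU S (n + 1) w a) ≤ 2 * finrank K (Rat' (UU S n v a)) :=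
  h.rat' ▸ rho_le hb.cst.eta0 hb.eta (hb.cst.L0_le.trans hb.cst.L_le)

include hb in
theorem case_old {Y R : ℕ} (hg : Good S n v Y) (hY : 6 * 2 ^ n + 3 * del S n v + R ≤ Y)
    {c : ℕ → A (LS K)} (hcO : c ∈ OO (S.plus a r κ q) (n + 1) w) {b : LS K} {c0 : ℕ → A K}
    {ch : A K} (hc : ∀ j ∈ S.J, RA PL (b • c j) (c0 j))
    (hch : RA PL ((b * (eps K)⁻¹) • c S.j0) ch) (hC : ∀ y ∈ gen (ev v a), y * ch = ch * y)
    (hX : c0 ∈ XS K S.J (n + 1)) (h0 : c0 ≠ 0) :
    RkGe (om (S.plus a r κ q) w c) (VV (S.plus a r κ q) (n + 1) w)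
      (VV (S.plus a r κ q) (n + 1) w) R := by
  have hP := plc K
  have hO : c0 ∈ OO S (n + 1) v := by
    refine ⟨hX, fun β hβ => ?_⟩
    have e0 := hb.lin hcO (β := fun i => map (io K) (β i)) fun i =>
      ⟨map_mem _ (hβ i).1, fun hi => by simp only [(hβ i).2 hi, map_zero]⟩
    have e1 := LB_RA hP h.wf (c' := b • c) h.ra_w hc fun i _ => RA.of hP (β i)
    have e2 := ((RA.smul hP PL_eps hch).mul hP
      (d1_RA hP h.ra_w (fun i _ => RA.of hP (β i)) h.ha)).tr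
    have e3 := hP.add e1 e2
    rw [smul_smul, mul_comm b, mul_inv_cancel_left₀ eps_ne_zero, map_smul, smul_mul_assoc,
      map_smul, LinearMap.smul_apply, ← smul_add, e0, smul_zero, zero_smul, zero_mul, map_zero,
      add_zero] at e3
    exact hP.fn e3
  rw [OO_up h.wf h.st.mem (Nat.le_succ n)] at hO
  obtain ⟨g, hg1, hg2⟩ : ∃ g ∈ GS n (n + 1), (fun j => cp n g (c0 j)) ≠ 0 := by
    by_contra! H
    exact h0 (funext fun j => eq_zero_of_cp n (hX j).1 fun g hg => congrFun (H g hg) j)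
  have k0 := finrank_ker_map (ell (gen (ev v a)) 1 v a) (VV S n v)
  rw [← UU_eq] at k0
  have k1 := h.mv.dimV h.wf h.st
  have k2 := h.finrank_Upl
  have k3 := h.rho_kappa
  have k4 := h.rho_kappa' hb
  have k5 := h.kappa_le
  rw [h.del_eq, Nat.add_sub_cancel_left, pow_one] at k1
  have kk : ∀ z ∈ DS K n (n + 1), finrank K (VV S n v) ≤
      finrank K ((VV S n v ⊓ LinearMap.ker (ell (gen (ev v a)) 1 v a)) ⊓
        (Upl S n w a).comap (mulV z) : Submodule K (ℕ → A K)) + (3 * 2 ^ n + 3 * del S n v) := by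
    intro z hz
    have := codim (mulV z) (VV S n v ⊓ LinearMap.ker (ell (gen (ev v a)) 1 v a))
      (VV S (n + 1) v) _ (fun β hβ => mul_mem_VV h.wf h.st.mem (Nat.le_succ n) hβ.1 hz) h.Upl_VV
    omega
  have rk := RkGe.sub (R := R) ((hg.h2 _ (hO.2 g hg1) hg2).mono (by omega))
    (inf_le_left.trans inf_le_left) (inf_le_left.trans inf_le_left) (kk _ (ei_mem hg1))
    (kk _ (one_mem _))
  refine rk_of_red rk (RL := fun β X => ∃ x, Lift S n v w a η θ (mulV (ei g) β) x X)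
    (RR := fun β X => ∃ x, Lift S n v w a η θ (mulV 1 β) x X) (c := b) (fun β hβ => ?_)
    (fun β hβ => ?_) ?_
  · obtain ⟨x, X, p1, p2⟩ := h.lift_ex hb hβ.2
    exact ⟨X, p1, x, p2⟩
  · obtain ⟨x, X, p1, p2⟩ := h.lift_ex hb hβ.2
    exact ⟨X, p1, x, p2⟩
  rintro β ⟨⟨b1, b2⟩, -⟩ γ ⟨⟨c1, c2⟩, -⟩ X X' ⟨x, hx⟩ ⟨x', hx'⟩
  have := h.val hb hc hch hC hx hx'
  have mb : ∀ i < S.N, β i ∈ D K n := fun i _ => (VV_le _ _ _ b1 i).1
  have mc : ∀ i < S.N, γ i ∈ D K n := fun i _ => (VV_le _ _ _ c1 i).1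
  rw [mulV_apply, mulV_apply, ell_mul h.ha h.st.mem h.L_le (one_mem _) β (ei_mem hg1),
    ell_mul h.ha h.st.mem h.L_le (one_mem _) γ (one_mem (DS K n (n + 1))), LinearMap.mem_ker.1 b2,
    LinearMap.mem_ker.1 c2, om_apply S, Om_mul h.wf h.st.mem c0 β mc (ei_mem hg1) (one_mem _),
    Om_mul h.wf h.st.mem c0 γ mb (one_mem _) (ei_mem hg1), ← Om_pj h.wf h.st.mem _ mb mc,
    ← Om_pj h.wf h.st.mem _ mc mb] at this
  simpa only [zero_mul, sub_self, mul_zero, map_zero, add_zero, mul_one, one_mul, om_apply S,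
    pj_ei_mul hg1 (hX _).1] using this

theorem Lam_le : Lam S n v a η ≤ (Rat' (UU S n v a)).toSubmodule := by
  rintro _ ⟨u, hu, rfl⟩
  exact ratio_mem h.eta hu

theorem Lam_L {l : A K} (hl : l ∈ Lam S n v a η) : l ∈ gen (ev v a) := h.L0_le (h.Lam_le hl)

theorem ell_up {l z : A K} (hl : l ∈ Lam S n v a η) (hz : z ∈ DS K n (n + 1)) :
    η * l * z ∈ (VV S (n + 1) v).map (ell (gen (ev v a)) 1 v a) := by
  obtain ⟨β, h1, h2⟩ := mem_UU.1 ((mem_Lam h.eta0).1 hl)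
  exact ⟨_, mul_mem_VV h.wf h.st.mem (Nat.le_succ n) h1 hz, by
    rw [ell_mul h.ha h.st.mem h.L_le (one_mem _) β hz, h2]⟩

include hb in
theorem new_orth {c : ℕ → A (LS K)} (hcO : c ∈ OO (S.plus a r κ q) (n + 1) w) {b : LS K}
    {ch : A K} (hc : ∀ j ∈ S.J, RA PL (b • c j) 0)
    (hch : RA PL ((b * (eps K)⁻¹) • c S.j0) ch) (hC : ∀ y ∈ gen (ev v a), y * ch = ch * y)
    {y : A K} (hy : y ∈ (VV S (n + 1) v).map (ell (gen (ev v a)) 1 v a)) : tr (ch * y) = 0 := by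
  have hP := plc K
  obtain ⟨β, hβ, rfl⟩ := hy
  have hX := VV_le _ _ _ hβ
  have e0 := hb.lin hcO (β := fun i => map (io K) (β i)) fun i =>
    ⟨map_mem _ (hX i).1, fun hi => by simp only [(hX i).2 hi, map_zero]⟩
  have e1 := h.mv.LB_eps h.wf h.st (c' := b • c) (c := 0) hc hβ
  have e2 := (hch.mul hP (d1_RA hP h.ra_w (fun i _ => RA.of hP (β i)) h.ha)).tr
  have e3 := hP.add e1 e2
  rw [map_smul, smul_mul_assoc, map_smul, LinearMap.smul_apply, smul_eq_mul, smul_eq_mul,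
    ← mul_assoc, mul_comm _ b, ← mul_add, e0, mul_zero, map_zero, LinearMap.zero_apply,
    zero_add] at e3
  rw [ell_one, tr_mul_Pc h.L_le (comm_gen _) hC]
  exact hP.fn e3

theorem codim_U0 {k : ℕ} (hk : finrank (LS K) (UU S (n + 1) w a) ≤ finrank K (UU S n v a) +
      finrank K (Lam S n v a η ⊔ (Lam S n v a η).map (LinearMap.mulLeft K θ) :
        Submodule K (A K)) + k) {T : Submodule K (A K)} [Module.Finite K T] (φ : A K →ₗ[K] A K)
    (h1 : ∀ l ∈ T, φ l ∈ (VV S (n + 1) v).map (ell (gen (ev v a)) 1 v a))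
    (h2 : ∀ l ∈ T, (e (gi n) + θ * e (gj n)) * φ l = -(φ l * (e (gi n) + θ * e (gj n)))) :
    finrank K T ≤ finrank K (T ⊓ ((Upl S n w a).map (ell (gen (ev v a)) 1 v a)).comap φ :
      Submodule K (A K)) + k := by
  have hP := plc K
  set U0 : Submodule K (ℕ → A K) := VB S (n + 1) v σ ⊓
    LinearMap.ker (Pc (adj (gen (ev v a)) (e (gi n) + θ * e (gj n))) ∘ₗ d1 v a) with hU0
  have : Module.Finite K U0 := Submodule.finiteDimensional_of_le inf_le_left
  have hle : Upl S n w a ≤ U0 := by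
    intro β hβ
    refine ⟨h.Upl_VB hβ, ?_⟩
    obtain ⟨β', ⟨p1, p2⟩, p3⟩ := hβ
    have := h.redC.Pc hP h.L'_le (comm_gen _) h.M_le h.M_comm h.deg_le
      (d1_mem h.mv.mem (fun i _ => (VV_le _ _ _ p1 i).1) h.ha)
      (d1_RA hP h.ra_w (fun i _ => p3 i) h.ha)
    rw [← ell_one, LinearMap.mem_ker.1 p2] at this
    exact this.eq_zero hP
  have k1 := finrank_ker_map
    (Pc (adj (gen (ev v a)) (e (gi n) + θ * e (gj n))) ∘ₗ d1 v a) (VB S (n + 1) v σ)
  have k2 := h.rho_bar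
  have k3 : finrank K (VB S (n + 1) v σ) ≤ finrank (LS K) (VV S (n + 1) w) := by
    rw [← finrank_redV hP (VV_le S (n + 1) w)]
    have : Module.Finite K (redV hP (VV S (n + 1) w)) :=
      Submodule.finiteDimensional_of_le (redV_le hP (VV_le S (n + 1) w))
    exact Submodule.finrank_mono fun β hβ => h.mv.tightV h.wf h.st h.tight_auxQ hβ
  have k4 := h.finrank_Upl
  have k5 := finrank_map_codim (ell (gen (ev v a)) 1 v a) hle
  have k6 := codim φ T (U0.map (ell (gen (ev v a)) 1 v a)) _ (fun l hl => by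
    obtain ⟨β0, p1, p2⟩ := h1 l hl
    obtain ⟨β, q1, q2, -⟩ := h.mv.lift_ell h.wf h.st h.tight_auxQ h.bp p1
    refine ⟨β, ⟨q1, ?_⟩, q2.trans p2⟩
    change Pc _ (d1 v a β) = 0
    rw [h.Pc_ell_auxQ, q2, p2]
    exact h.Pc_anti_auxQ (h2 l hl)) (Submodule.map_mono hle)
  rw [← hU0] at k1
  omega

theorem anti_mul {l y : A K} (hl : l ∈ gen (ev v a))
    (hy : (e (gi n) + θ * e (gj n)) * y = -(y * (e (gi n) + θ * e (gj n)))) :
    (e (gi n) + θ * e (gj n)) * (l * y) = -(l * y * (e (gi n) + θ * e (gj n))) := by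
  rw [← mul_assoc, ← h.u_comm_auxQ hl, mul_assoc, hy, mul_neg, mul_assoc]

theorem quat : ∃ k ∈ DS K n (n + 1), ∃ s t : K, t ≠ 0 ∧
    (e (gi n) + θ * e (gj n)) * k = -(k * (e (gi n) + θ * e (gj n))) ∧
    (e (gi n) + θ * e (gj n)) * (e (gj n) - s • (θ * e (gi n))) =
      -((e (gj n) - s • (θ * e (gi n))) * (e (gi n) + θ * e (gj n))) ∧
    k * (e (gj n) - s • (θ * e (gi n))) - (e (gj n) - s • (θ * e (gi n))) * k =
      (2 * t) • (e (gi n) + θ * e (gj n)) := by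
  have hi := e_sq (K := K) (gi n)
  have hj := e_sq (K := K) (gj n)
  have hij := e_gi_gj (K := K) n
  have ti := comm_DS (h.L_le h.theta_L_auxQ) (e_mem (gi_mem n))
  have tj := comm_DS (h.L_le h.theta_L_auxQ) (e_mem (gj_mem n))
  have hs := c_ne_zero (K := K) (gi n) (gi n)
  refine ⟨e (gi n) * e (gj n), mul_mem (e_mem (gi_mem n)) (e_mem (gj_mem n)),
    c K (gj n) (gj n) / c K (gi n) (gi n), c K (gj n) (gj n), c_ne_zero _ _, ?_⟩
  generalize (e (gi n) : A K) = i at *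
  generalize (e (gj n) : A K) = j at *
  generalize c K (gi n) (gi n) = s at *
  generalize c K (gj n) (gj n) = t at *
  have a1 : i * (i * j) = s • j := by rw [← mul_assoc, hi, smul_mul_assoc, one_mul]
  have a2 : j * (i * j) = -(t • i) := by
    rw [← mul_assoc, hij, neg_mul, mul_assoc, hj, mul_smul_comm, mul_one]
  have a3 : i * j * i = -(s • j) := by rw [mul_assoc, hij, mul_neg, a1]
  have a4 : i * j * j = t • i := by rw [mul_assoc, hj, mul_smul_comm, mul_one]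
  have a5 : ∀ y : A K, i * j * (θ * y) = θ * (i * j * y) := fun y => by
    rw [mul_assoc, ← mul_assoc j, ← tj, mul_assoc, ← mul_assoc i, ← ti]; simp only [mul_assoc]
  have a6 : t / s * s = t := div_mul_cancel₀ t hs
  refine ⟨?_, ?_, ?_⟩
  · rw [add_mul, mul_add, a5, mul_assoc θ, a1, a2, a3, a4, mul_neg]; abel
  · have b1 : i * (θ * i) = s • θ := by
      rw [← mul_assoc, ← ti, mul_assoc, hi, mul_smul_comm, mul_one]
    have b2 : θ * j * (θ * i) = -(θ * i * (θ * j)) := by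
      rw [mul_assoc, mul_assoc, ← mul_assoc j, ← tj, ← mul_assoc i, ← ti, mul_assoc, mul_assoc, hij,
        mul_neg, mul_neg]
    have b3 : j * (θ * j) = t • θ := by
      rw [← mul_assoc, ← tj, mul_assoc, hj, mul_smul_comm, mul_one]
    rw [add_mul, mul_sub, mul_sub, sub_mul, mul_add, smul_mul_assoc, mul_add, mul_smul_comm,
      mul_smul_comm, b1, b2, b3, mul_assoc θ j j, mul_assoc θ i i, hi, hj, hij, mul_smul_comm,
      mul_smul_comm, mul_one, smul_add, smul_smul, a6, smul_neg]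
    abel
  · rw [mul_sub, sub_mul, mul_smul_comm, smul_mul_assoc, a5, mul_assoc θ, a1, a2, a3, a4,
      mul_neg, mul_smul_comm, smul_neg, smul_smul, a6, two_mul, add_smul, smul_add]
    abel

theorem g_zero
    (surj : Lam S n v a η ⊔ (Lam S n v a η).map (LinearMap.mulLeft K θ) =
      (Rat' (UU S n v a)).toSubmodule) {f g : A K} (hf : f ∈ Rat' (UU S n v a))
    (hg : g ∈ Rat' (UU S n v a)) (o1 : ∀ z ∈ GS n (n + 1), ∀ l ∈ Lam S n v a η,
      tr (cp n z (f + g * (e (gi n) + θ * e (gj n))) * l) = 0) : g = 0 := by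
  classical
  have hD : Rat' (UU S n v a) ≤ D K n := h.L0_le.trans h.L_le
  have hθ := h.theta_mem
  have f0 : f = f * e 0 := by rw [e_zero, mul_one]
  refine nondeg hD hg fun y hy => ?_
  have hy' : y ∈ (Rat' (UU S n v a)).toSubmodule := hy
  rw [← surj] at hy'
  obtain ⟨l, hl, _, ⟨l', hl', rfl⟩, rfl⟩ := Submodule.mem_sup.1 hy'
  have p1 := o1 _ (gi_mem n) l hl
  have p2 := o1 _ (gj_mem n) l' hl'
  rw [mul_add, ← mul_assoc, map_add, map_add, f0] at p1 p2
  rw [cp_mul_e (gi_mem n) (zero_mem_GS _ _) (hD hf), cp_mul_e (gi_mem n) (gi_mem n) (hD hg),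
    cp_mul_e (gi_mem n) (gj_mem n) (hD (mul_mem hg hθ)), if_neg (gi_ne_zero n).symm, if_pos rfl,
    if_neg (gi_ne_gj n).symm, zero_add, add_zero] at p1
  rw [cp_mul_e (gj_mem n) (zero_mem_GS _ _) (hD hf), cp_mul_e (gj_mem n) (gi_mem n) (hD hg),
    cp_mul_e (gj_mem n) (gj_mem n) (hD (mul_mem hg hθ)), if_neg (gj_ne_zero n).symm, if_pos rfl,
    if_neg (gi_ne_gj n), zero_add, zero_add] at p2
  rw [tr_comm, mul_add, map_add, p1, LinearMap.mulLeft_apply, ← mul_assoc, p2, add_zero]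

theorem rk_L0 {f : A K} (hf : f ∈ Rat' (UU S n v a)) (hf0 : f ≠ 0) {t : K} (ht : t ≠ 0) :
    RkGe (t • (LinearMap.mul K (A K)).compr₂ (tr ∘ₗ LinearMap.mulLeft K f))
      (Rat' (UU S n v a)).toSubmodule (Rat' (UU S n v a)).toSubmodule
      (finrank K (Rat' (UU S n v a))) := by
  have : lrad (t • (LinearMap.mul K (A K)).compr₂ (tr ∘ₗ LinearMap.mulLeft K f))
      (Rat' (UU S n v a)).toSubmodule (Rat' (UU S n v a)).toSubmodule = ⊥ := by
    refine (Submodule.eq_bot_iff _).2 fun x hx => ?_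
    refine (mul_eq_zero.1 (nondeg (h.L0_le.trans h.L_le) (mul_mem hf hx.1)
      fun y hy => ?_)).resolve_left hf0
    have : t * tr (f * (x * y)) = 0 := hx.2 y hy
    rw [← mul_assoc, tr_comm] at this
    exact (mul_eq_zero.1 this).resolve_left ht
  rw [RkGe, this, finrank_bot, zero_add]
  exact le_rfl

include hb in
theorem dims {Δ : ℕ}
    (surj : Lam S n v a η ⊔ (Lam S n v a η).map (LinearMap.mulLeft K θ) =
      (Rat' (UU S n v a)).toSubmodule)
    (hΔ : finrank K (Rat' (UU S n v a)) = finrank K (UU S n v a) + Δ) {k : A K}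
    (hk : k ∈ DS K n (n + 1)) {s : K}
    (ak : (e (gi n) + θ * e (gj n)) * k = -(k * (e (gi n) + θ * e (gj n))))
    (aj : (e (gi n) + θ * e (gj n)) * (e (gj n) - s • (θ * e (gi n))) =
      -((e (gj n) - s • (θ * e (gi n))) * (e (gi n) + θ * e (gj n)))) :
    finrank K (Rat' (UU S n v a)).toSubmodule ≤ finrank K (Lam S n v a η ⊓
      ((Upl S n w a).map (ell (gen (ev v a)) 1 v a)).comap
        (LinearMap.mulRight K k ∘ₗ LinearMap.mulLeft K η) : Submodule K (A K)) + 2 * Δ ∧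
    finrank K (Rat' (UU S n v a)).toSubmodule ≤ finrank K (kk_aux (Lam S n v a η) θ ⊓
      ((Upl S n w a).map (ell (gen (ev v a)) 1 v a)).comap
        (LinearMap.mulRight K (e (gj n) - s • (θ * e (gi n))) ∘ₗ LinearMap.mulLeft K η) :
          Submodule K (A K)) + 3 * Δ := by
  have : Module.Finite K (Rat' (UU S n v a)).toSubmodule := finite_sub (h.L0_le.trans h.L_le)
  have : Module.Finite K (Lam S n v a η) := Submodule.finiteDimensional_of_le h.Lam_le
  have : Module.Finite K (kk_aux (Lam S n v a η) θ) :=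
    Submodule.finiteDimensional_of_le (kk_le_aux _ _)
  have k2 := h.rho_kappa' hb
  have k3 := kk_dim_aux (Lam S n v a η) θ
  have k4 := finrank_Lam (S := S) (n := n) (v := v) (a := a) h.eta0
  have k5 : finrank K (Lam S n v a η ⊔ (Lam S n v a η).map (LinearMap.mulLeft K θ) :
      Submodule K (A K)) = finrank K (Rat' (UU S n v a)) := by rw [surj]; rfl
  have k6 : finrank K (Rat' (UU S n v a)).toSubmodule = finrank K (Rat' (UU S n v a)) := rfl
  have hφ : ∀ y l : A K, (LinearMap.mulRight K y ∘ₗ LinearMap.mulLeft K η) l = η * l * y :=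
    fun _ _ => rfl
  have c1 := h.codim_U0 (k := Δ) (by omega) (T := Lam S n v a η)
    (LinearMap.mulRight K k ∘ₗ LinearMap.mulLeft K η)
    (fun l hl => by rw [hφ]; exact h.ell_up hl hk)
    fun l hl => by rw [hφ]; exact h.anti_mul (mul_mem h.eta_L (h.Lam_L hl)) ak
  have c2 := h.codim_U0 (k := Δ) (by omega) (T := kk_aux (Lam S n v a η) θ)
    (LinearMap.mulRight K (e (gj n) - s • (θ * e (gi n))) ∘ₗ LinearMap.mulLeft K η)
    (fun l hl => by
      rw [hφ, mul_sub, mul_smul_comm, ← mul_assoc, mul_assoc η l θ,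
        ← comm_gen _ θ h.theta_L_auxQ l (h.Lam_L hl.1)]
      exact sub_mem (h.ell_up hl.1 (e_mem (gj_mem n)))
        (Submodule.smul_mem _ _ (h.ell_up hl.2 (e_mem (gi_mem n)))))
    fun l hl => by rw [hφ]; exact h.anti_mul (mul_mem h.eta_L (h.Lam_L hl.1)) aj
  refine ⟨le_trans ?_ ((Nat.add_le_add_right c1 Δ).trans_eq (by rw [add_assoc, two_mul])),
    le_trans ?_ ((Nat.add_le_add_right c2 (2 * Δ)).trans_eq (by rw [add_assoc]; congr 1; ring))⟩
  · clear c1 c2; omega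
  · clear c1 c2; omega

include hb in
theorem case_new {R : ℕ}
    (surj : Lam S n v a η ⊔ (Lam S n v a η).map (LinearMap.mulLeft K θ) =
      (Rat' (UU S n v a)).toSubmodule)
    (hR : R + 4 * finrank K (Rat' (UU S n v a)) ≤ 5 * finrank K (UU S n v a))
    {c : ℕ → A (LS K)} (hcO : c ∈ OO (S.plus a r κ q) (n + 1) w) {b : LS K} {ch f g : A K}
    (hc : ∀ j ∈ S.J, RA PL (b • c j) 0) (hch : RA PL ((b * (eps K)⁻¹) • c S.j0) ch)
    (hC : ∀ y ∈ gen (ev v a), y * ch = ch * y) (h0 : ch ≠ 0) (hf : f ∈ Rat' (UU S n v a))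
    (hg : g ∈ Rat' (UU S n v a)) (hfg : η * ch = f + g * (e (gi n) + θ * e (gj n))) :
    RkGe (om (S.plus a r κ q) w c) (VV (S.plus a r κ q) (n + 1) w)
      (VV (S.plus a r κ q) (n + 1) w) R := by
  have : Module.Finite K (Rat' (UU S n v a)).toSubmodule := finite_sub (h.L0_le.trans h.L_le)
  have g0 : g = 0 := h.g_zero surj hf hg fun z hz l hl => by
    rw [← hfg, tr_cp_mul hz (h.L_le (h.Lam_L hl)), hC η h.eta_L, mul_assoc, ← mul_assoc η]
    exact h.new_orth hb hcO hc hch hC (h.ell_up hl (ei_mem hz))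
  rw [g0, zero_mul, add_zero] at hfg
  have hf0 : f ≠ 0 := hfg ▸ mul_ne_zero h.eta0 h0
  have hchL : ch ∈ gen (ev v a) := by
    rw [← inv_mul_cancel_left₀ h.eta0 ch, hfg]
    exact mul_mem (inv_mem_of_le h.L_le h.eta_L) (h.L0_le hf)
  obtain ⟨k, hk, s, t, ht, ak, aj, kj⟩ := h.quat
  obtain ⟨Δ, hΔ⟩ := Nat.exists_eq_add_of_le h.rho_kappa
  obtain ⟨c1, c2⟩ := h.dims hb surj hΔ hk ak aj
  have hkC := h.DS_Cn hk
  have hjC : e (gj n) - s • (θ * e (gi n)) ∈ Cn (n + 1) (gen (ev v a)) :=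
    sub_mem (h.DS_Cn (e_mem (gj_mem n))) (Subalgebra.smul_mem _
      (mul_mem (h.L_Cn h.theta_L_auxQ) (h.DS_Cn (e_mem (gi_mem n)))) _)
  generalize e (gj n) - s • (θ * e (gi n)) = j' at *
  have rk := RkGe.sub (R := R) ((h.rk_L0 hf hf0 ht).mono (by omega)) (inf_le_left.trans h.Lam_le)
    (inf_le_left.trans ((kk_le_aux _ θ).trans h.Lam_le)) c1 c2
  have : Module.Finite K (Lam S n v a η ⊓ ((Upl S n w a).map (ell (gen (ev v a)) 1 v a)).comap
      (LinearMap.mulRight K k ∘ₗ LinearMap.mulLeft K η) : Submodule K (A K)) :=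
    Submodule.finiteDimensional_of_le (inf_le_left.trans h.Lam_le)
  refine rk_of_red rk
    (RL := fun l X => ∃ β x, Lift S n v w a η θ β x X ∧ ell (gen (ev v a)) 1 v a β = η * l * k)
    (RR := fun l X => ∃ β x, Lift S n v w a η θ β x X ∧ ell (gen (ev v a)) 1 v a β = η * l * j')
    (c := b) (fun l hl => ?_) (fun l hl => ?_) ?_
  · obtain ⟨β, p0, p3⟩ := hl.2
    obtain ⟨x, X, p1, p2⟩ := h.lift_ex hb p0
    exact ⟨X, p1, β, x, p2, p3⟩
  · obtain ⟨β, p0, p3⟩ := hl.2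
    obtain ⟨x, X, p1, p2⟩ := h.lift_ex hb p0
    exact ⟨X, p1, β, x, p2, p3⟩
  rintro l ⟨hl, -⟩ l' ⟨⟨hl', -⟩, -⟩ X X' ⟨β, x, hx, e1⟩ ⟨γ, x', hx', e2⟩
  have := h.val hb (c0 := 0) hc hch hC hx hx'
  have q1 := mul_mem h.eta_L (h.Lam_L hl)
  have q2 := mul_mem h.eta_L (h.Lam_L hl')
  rw [e1, e2, h.value hchL (h.Lam_L hl) (h.Lam_L hl') hkC hjC ak aj kj
    (h.solve_x hx.cn (mul_mem (h.L_Cn q1) hkC) hx.pc (e1 ▸ hx.br) (h.anti_mul q1 ak))
    (h.solve_x hx'.cn (mul_mem (h.L_Cn q2) hjC) hx'.pc (e2 ▸ hx'.br) (h.anti_mul q2 aj)),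
    hfg, map_zero, LinearMap.zero_apply, LinearMap.zero_apply, zero_add, map_smul, smul_eq_mul,
    mul_assoc] at this
  exact this

end QSet

theorem good_plus (h : QSet S n v a μ ν η θ σ w) {Y : ℕ} (hg : Good S n v Y)
    (hY : 9 * 2 ^ n + 6 * del S n v + 1 ≤ Y)
    (surj : Lam S n v a η ⊔ (Lam S n v a η).map (LinearMap.mulLeft K θ) =
      (Rat' (UU S n v a)).toSubmodule)
    (hκ : 7 * finrank K (Rat' (UU S n v a)) + (3 * del S n v + 1) ≤ 8 * finrank K (UU S n v a))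
    {η' : A (LS K)} (hη : RA PL η' η) {r κ q : ℕ} (hb : BSet S a r κ q (n + 1) w η') :
    Good (S.plus a r κ q) (n + 1) w 1 := by
  have hP := plc K
  have hg' := h.mv.good h.wf hg
  have k1 := h.del_eq
  have k2 := h.rat'
  have k3 := h.rho'
  have k4 := hb.del_le
  have k5 := h.kappa_le
  have k6 := h.rho_kappa
  have k7 := h.rho_kappa' hb
  have k8 : finrank K (Lam S n v a η ⊔ (Lam S n v a η).map (LinearMap.mulLeft K θ) :
      Submodule K (A K)) = finrank K (Rat' (UU S n v a)) := by rw [surj]; rfl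
  refine ⟨hb.st', hb.h1' hg'.h1, fun c hc hc0 => ?_, ?_⟩
  swap
  · have p1 := hg'.h4
    have p2 := hb.msk_le
    rw [Nat.add_sub_cancel_left, pow_one] at p1
    omega
  have hX := OO_le _ _ _ hc
  have hX' : Function.update c S.j0 ((eps K)⁻¹ • c S.j0) ∈
      XS (LS K) (S.plus a r κ q).J (n + 1) := fun i => by
    by_cases hi : i = S.j0
    · subst hi
      rw [Function.update_self]
      exact ⟨Subalgebra.smul_mem _ (hX _).1 _, fun H => absurd (Finset.mem_insert_self _ _) H⟩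
    · rw [Function.update_of_ne hi]; exact hX i
  obtain ⟨b, -, cb, hcb, hr⟩ := RV.norm hP hX' fun H => hc0 (funext fun i => by
    have := congrFun H i
    by_cases hi : i = S.j0
    · subst hi
      rw [Function.update_self] at this
      exact (smul_eq_zero.1 this).resolve_left (inv_ne_zero eps_ne_zero)
    · rwa [Function.update_of_ne hi] at this)
  have r1 : ∀ j ∈ S.J, RA PL (b • c j) (msk S.J cb j) := fun j hj => by
    have := hr j
    rw [Pi.smul_apply, Function.update_of_ne fun H : j = S.j0 => S.j0_notMem (H ▸ hj)] at this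
    rwa [msk_apply, if_pos hj]
  have r2 : RA PL ((b * (eps K)⁻¹) • c S.j0) (cb S.j0) := by
    have := hr S.j0
    rwa [Pi.smul_apply, Function.update_self, smul_smul] at this
  have hXb := hr.mem hP (Submodule.smul_mem _ b hX')
  obtain ⟨f, hf, g, hg0, hfg⟩ := h.red_rat (y := η * cb S.j0)
    (Subalgebra.smul_mem _ (hb.new_mem hc) (b * (eps K)⁻¹))
    (by rw [← mul_smul_comm]; exact hη.mul hP r2)
  have hC : ∀ y ∈ gen (ev v a), y * cb S.j0 = cb S.j0 * y := by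
    rw [← inv_mul_cancel_left₀ h.eta0 (cb S.j0), hfg]
    exact (mem_Cn.1 (mul_mem (h.L_Cn (inv_mem_of_le h.L_le h.eta_L))
      (add_mem (h.L_Cn (h.L0_le hf)) (mul_mem (h.L_Cn (h.L0_le hg0)) h.u_Cn)))).2
  by_cases h0 : msk S.J cb = 0
  · refine h.case_new hb surj (by omega) hc (fun j hj => by simpa only [h0, Pi.zero_apply] using r1 j hj) r2 hC
      (fun H => hcb (funext fun i => ?_)) hf hg0 hfg
    by_cases hi : i ∈ S.J
    · simpa only [msk_apply, if_pos hi] using congrFun h0 i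
    · by_cases hi' : i = S.j0
      · rw [hi', H]; rfl
      · exact (hXb i).2 fun H' => (Finset.mem_insert.1 H').elim hi' hi
  · exact h.case_old hb hg (by omega) hc r1 r2 hC (msk_XS_auxT hXb) h0

end Vale.Agent.P199
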