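import Vale.Agent.P199.QMove

/-! Existence of extremal states with small defect. -/

namespace Vale.Agent.P199

open Finset Module

/-- The class of descendants of `s` is extremal for `a`. -/
def ExtAll (S : Sys) (s : St) (a : Ex) (μ ν : ℕ) : Prop :=
  ∀ t, Desc S s t → Act S t.n t.v a → Ext μ ν t.n (gen (ev t.v a)) (ZA S t.n t.v a)

theorem ExtAll.desc {S : Sys} {s t : St} {a : Ex} {μ ν : ℕ} (h : ExtAll S s a μ ν)
    (h' : Desc S s t) : ExtAll S t a μ ν := fun u hu => h u (h'.trans hu)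

theorem ExtAll.loc {S : Sys} {s : St} {a : Ex} {μ ν : ℕ} (h : ExtAll S s a μ ν) :
    LocExt S s.n s.v a μ ν := fun m _ w hm => h (s.child m w) (Desc.refl.step hm)

theorem Stab.tt {S : Sys} {s : St} (h : Stab S s) (h1 : H1 S s.n s.v) : Tt S s.n s.v :=
  fun m _ w hm => h1.del_le.trans (h (s.child m w) (Desc.refl.step hm))

theorem Good.desc {S : Sys} (hS : S.WF) {s t : St} {Y : ℕ} (h : Good S s.n s.v Y)
    (h' : Desc S s t) : Good S t.n t.v Y := by
  induction h' with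
  | refl => exact h
  | step _ hm ih => exact (hm.good hS ih).mono (Nat.le_mul_of_pos_left _ (by positivity))

/-- Good with a margin exceeding `C * 2 ^ n + C'`. -/
def Big (S : Sys) (s : St) (C C' : ℕ) : Prop := Good S s.n s.v (C * 2 ^ s.n + C')

theorem Big.desc {S : Sys} (hS : S.WF) {s t : St} {C C' : ℕ} (h : Big S s C C')
    (h' : Desc S s t) : Big S t C C' := by
  induction h' with
  | refl => exact h
  | @step t m σ w _ hm ih =>
    refine (hm.good hS ih).mono ?_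
    obtain ⟨k, rfl⟩ := Nat.exists_eq_add_of_le hm.le
    have h1 : 2 ^ k ≤ 4 ^ k := Nat.pow_le_pow_left (by norm_num) k
    have h2 : 1 ≤ 4 ^ k := Nat.one_le_pow _ _ (by norm_num)
    show C * 2 ^ (t.n + k) + C' ≤ _
    rw [Nat.add_sub_cancel_left, pow_add, mul_add, ← mul_assoc, mul_comm (4 ^ k)]
    exact add_le_add (Nat.mul_le_mul_left _ h1) (Nat.le_mul_of_pos_left _ h2)

theorem exists_big {S : Sys} (hS : S.WF) {s : St} (hg : Good S s.n s.v 1) (hs : Stab S s)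
    (C C' : ℕ) : ∃ t, Desc S s t ∧ Big S t C C' := by
  have key : ∀ k, ∃ t, Desc S s t ∧ t.n = s.n + k ∧ Good S t.n t.v (4 ^ k) := by
    intro k
    induction k with
    | zero => exact ⟨s, Desc.refl, rfl, hg⟩
    | succ k ih =>
      obtain ⟨t, h1, h2, h3⟩ := ih
      obtain ⟨p, p', w, -, -, hm, -⟩ := exists_qmove hS h3 ((hs.desc h1).tt h3.h1) le_rfl (ρ := 0)
        le_rfl (Nat.zero_le _) (zero_mem _) (zero_mem _)
      refine ⟨_, h1.step hm, congrArg (· + 1) h2, (hm.good hS h3).mono (le_of_eq ?_)⟩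
      rw [Nat.add_sub_cancel_left, pow_succ, pow_one, mul_comm]
  obtain ⟨k, h4⟩ : ∃ k, C * 2 ^ s.n + C' ≤ 2 ^ k := ⟨_, Nat.lt_two_pow_self.le⟩
  obtain ⟨t, h1, h2, h3⟩ := key k
  refine ⟨t, h1, h3.mono ?_⟩
  have h5 : 1 ≤ 2 ^ k := Nat.one_le_two_pow
  rw [h2, show 4 = 2 * 2 by norm_num, mul_pow, pow_add, ← mul_assoc]
  refine le_trans ?_ (Nat.mul_le_mul_right _ h4)
  rw [add_mul]
  exact Nat.add_le_add_left (Nat.le_mul_of_pos_right _ h5) _

theorem exists_extremal {S : Sys} (hS : S.WF) {a : Ex} (ha : a.In (Set.Iio S.N)) {s : St}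
    (hg : Good S s.n s.v 0) (hs : Stab S s) (hact : ∃ t, Desc S s t ∧ Act S t.n t.v a) :
    ∃ μ ν, ExtAll S s a μ ν ∧ ∃ t, Desc S s t ∧ DX S t.n t.v a μ ν := by
  classical
  have hL : ∀ t, Desc S s t → gen (ev t.v a) ≤ D t.K t.n := fun t ht =>
    gen_le (ev_mem (hg.desc hS ht).st.mem ha)
  have e1 : ∀ t, Desc S s t → ∃ μ, finrank t.K (gen (ev t.v a)) * μ = 2 ^ t.n := fun t ht => by
    obtain ⟨μ, h⟩ := finrank_dvd (hL t ht) (comm_gen _)
    exact ⟨μ, h.symm⟩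
  have h1 : ∃ μ, ∃ t, Desc S s t ∧ Act S t.n t.v a ∧ finrank t.K (gen (ev t.v a)) * μ = 2 ^ t.n := by
    obtain ⟨t, ht, h⟩ := hact
    obtain ⟨μ, h'⟩ := e1 t ht
    exact ⟨μ, t, ht, h, h'⟩
  have m1 : ∀ t, Desc S s t → Act S t.n t.v a →
      finrank t.K (gen (ev t.v a)) * Nat.find h1 ≤ 2 ^ t.n := fun t ht h => by
    obtain ⟨μ, h'⟩ := e1 t ht
    rw [← h']
    exact Nat.mul_le_mul_left _ (Nat.find_min' h1 ⟨t, ht, h, h'⟩)
  have s1 := Nat.find_spec h1
  generalize Nat.find h1 = μ at m1 s1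
  have sub : ∀ t, Desc S s t → Act S t.n t.v a → finrank t.K (gen (ev t.v a)) * μ = 2 ^ t.n →
      ∀ u ∈ UU S t.n t.v a, u ∈ gen (ev t.v a) := fun t ht h h' => by
    have g := hg.desc hS ht
    refine sub_of_max hS ha g.st g.h1 ((hs.desc ht).tt g.h1) h fun σ w hm hw => ?_
    have h3 : 0 < μ := Nat.pos_of_ne_zero fun H => by
      rw [H, mul_zero] at h'
      exact (pow_pos two_pos _).ne h'
    exact Nat.le_of_mul_le_mul_right ((m1 _ (ht.step hm) hw).trans_eq h'.symm) h3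
  have e2 : ∀ t, Desc S s t → Act S t.n t.v a → finrank t.K (gen (ev t.v a)) * μ = 2 ^ t.n →
      ∃ ν, finrank t.K (Rat' (UU S t.n t.v a)) * ν = 2 ^ t.n := fun t ht h h' => by
    have h3 := Rat_le (hL t ht) (sub t ht h h')
    obtain ⟨ν, h⟩ := finrank_dvd (h3.trans (hL t ht)) ((comm_gen _).mono h3)
    exact ⟨ν, h.symm⟩
  have h2 : ∃ ν, ∃ t, Desc S s t ∧ DX S t.n t.v a μ ν := by
    obtain ⟨t, ht, h, h'⟩ := s1
    obtain ⟨ν, h''⟩ := e2 t ht h h'
    exact ⟨ν, t, ht, h, h', sub t ht h h', h''⟩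
  refine ⟨μ, Nat.find h2, fun t ht h => ⟨m1 t ht h, fun h' =>
    ⟨fun z hz => sub t ht h h' _ ⟨z, hz, rfl⟩, ?_⟩⟩, Nat.find_spec h2⟩
  obtain ⟨ν, h''⟩ := e2 t ht h h'
  rw [← h'']
  exact Nat.mul_le_mul_left _ (Nat.find_min' h2 ⟨t, ht, h, h', sub t ht h h', h''⟩)

theorem step_auxF {S : Sys} (hS : S.WF) {a : Ex} (ha : a.In (Set.Iio S.N)) {s : St} {C C' : ℕ}
    (hC : 2 ≤ C) (hg : Big S s C C') (hs : Stab S s) {μ ν : ℕ} (hE : ExtAll S s a μ ν)
    (hd : DX S s.n s.v a μ ν) : 1 ≤ finrank s.K (UU S s.n s.v a) ∧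
    finrank s.K (UU S s.n s.v a) ≤ finrank s.K (Rat' (UU S s.n s.v a)) ∧
    ∃ t, Desc S s t ∧ DX S t.n t.v a μ ν ∧
      finrank t.K (Rat' (UU S t.n t.v a)) = 2 * finrank s.K (Rat' (UU S s.n s.v a)) ∧
      (finrank s.K (UU S s.n s.v a) + finrank s.K (Rat' (UU S s.n s.v a)) ≤
          finrank t.K (UU S t.n t.v a) ∨
        (3 * finrank s.K (UU S s.n s.v a) < 2 * finrank s.K (Rat' (UU S s.n s.v a)) ∧
          9 * finrank s.K (UU S s.n s.v a) ≤ 4 * finrank t.K (UU S t.n t.v a))) := by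
  have := charZero s.K
  have hL : gen (ev s.v a) ≤ D s.K s.n := gen_le (ev_mem hg.st.mem ha)
  have h0 := Rat_le hL hd.sub
  have := finite_sub (h0.trans hL)
  obtain ⟨η, hη, hη0⟩ := hd.exists_eta ha hg.st.mem
  have h1 : (1 : A s.K) ∈ Lam S s.n s.v a η := (mem_Lam hη0).2 (by rwa [mul_one])
  have h2 : Algebra.adjoin s.K (Lam S s.n s.v a η : Set (A s.K)) = Rat' (UU S s.n s.v a) :=
    Rat_eq hL (comm_gen _) hd.sub hη hη0
  have h3 : Lam S s.n s.v a η ≤ (Rat' (UU S s.n s.v a)).toSubmodule := fun x hx =>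
    h2.le (Algebra.subset_adjoin hx)
  have hf : Module.Finite s.K (Rat' (UU S s.n s.v a)).toSubmodule := this
  have := Submodule.finiteDimensional_of_le h3
  have h4 := finrank_Lam (S := S) (n := s.n) (v := s.v) (a := a) hη0
  refine ⟨?_, h4.ge.trans (Submodule.finrank_mono h3), ?_⟩
  · rw [← h4]
    exact Module.finrank_pos_iff_exists_ne_zero.2
      ⟨⟨1, h1⟩, fun H => one_ne_zero (congrArg Subtype.val H)⟩
  obtain ⟨θ, hθ, H⟩ := approx_subfield _ ((comm_gen _).mono h0) _ h1 h2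
  obtain ⟨σ, w, q⟩ := exists_qset hS ha hg
    ((Nat.mul_le_mul_right _ hC).trans (Nat.le_add_right _ _)) (hs.tt hg.h1) hE.loc hd hη hη0
    ((mem_Lam hη0).1 hθ)
  have h5 := q.rho'
  refine ⟨_, Desc.refl.step q.mv, q.dx', q.rat', H.imp (fun H => ?_) fun H => ?_⟩
  · rw [H] at h5
    exact h5
  · rw [h4] at H
    refine ⟨H.1, ?_⟩
    have h6 := H.2
    show _ ≤ 4 * finrank (LS s.K) (UU S (s.n + 1) w a)
    omega

theorem exists_full {S : Sys} (hS : S.WF) {a : Ex} (ha : a.In (Set.Iio S.N)) {s : St} {C C' : ℕ}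
    (hC : 2 ≤ C) (hg : Big S s C C') (hs : Stab S s) {μ ν : ℕ} (hE : ExtAll S s a μ ν)
    (hd : DX S s.n s.v a μ ν) (B : ℕ) : ∃ t, Desc S s t ∧ DX S t.n t.v a μ ν ∧
      7 * finrank t.K (Rat' (UU S t.n t.v a)) + B ≤ 8 * finrank t.K (UU S t.n t.v a) := by
  have step := fun t (ht : Desc S s t) => step_auxF hS ha hC (hg.desc hS ht) (hs.desc ht) (hE.desc ht)
  have p1 : ∃ t, Desc S s t ∧ DX S t.n t.v a μ ν ∧
      2 * finrank t.K (Rat' (UU S t.n t.v a)) ≤ 3 * finrank t.K (UU S t.n t.v a) := by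
    by_contra H
    push Not at H
    have key : ∀ k, ∃ t, Desc S s t ∧ DX S t.n t.v a μ ν ∧
        (8 + k) * finrank t.K (Rat' (UU S t.n t.v a)) ≤
          8 * finrank s.K (Rat' (UU S s.n s.v a)) * finrank t.K (UU S t.n t.v a) := by
      intro k
      induction k with
      | zero => exact ⟨s, Desc.refl, hd, Nat.le_mul_of_pos_right _ (step s Desc.refl hd).1⟩
      | succ k ih =>
        obtain ⟨t, h1, h2, h3⟩ := ih
        obtain ⟨-, -, u, h4, h5, h6, h7⟩ := step t h1 h2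
        have h8 := H t h1 h2
        have h9 : 9 * finrank t.K (UU S t.n t.v a) ≤ 4 * finrank u.K (UU S u.n u.v a) := by omega
        refine ⟨u, h1.trans h4, h5, ?_⟩
        rw [h6]
        have := Nat.mul_le_mul_left (8 * finrank s.K (Rat' (UU S s.n s.v a))) h9
        nlinarith [Nat.zero_le (k * finrank t.K (Rat' (UU S t.n t.v a)))]
    obtain ⟨t, h1, h2, h3⟩ := key (8 * finrank s.K (Rat' (UU S s.n s.v a)))
    obtain ⟨h4, h5, -⟩ := step t h1 h2
    have := Nat.mul_le_mul_left (8 * finrank s.K (Rat' (UU S s.n s.v a))) h5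
    nlinarith
  obtain ⟨t0, g1, g2, g3⟩ := p1
  have key : ∀ k, ∃ t, Desc S s t ∧ DX S t.n t.v a μ ν ∧
      2 * finrank t.K (Rat' (UU S t.n t.v a)) ≤ 3 * finrank t.K (UU S t.n t.v a) ∧
      finrank t.K (Rat' (UU S t.n t.v a)) ≤
        finrank t.K (UU S t.n t.v a) + finrank t0.K (Rat' (UU S t0.n t0.v a)) ∧
      k ≤ finrank t.K (Rat' (UU S t.n t.v a)) := by
    intro k
    induction k with
    | zero => exact ⟨t0, g1, g2, g3, Nat.le_add_left _ _, Nat.zero_le _⟩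
    | succ k ih =>
      obtain ⟨t, h1, h2, h3, h4, h5⟩ := ih
      obtain ⟨h6, h7, u, h8, h9, h10, h11⟩ := step t h1 h2
      exact ⟨u, h1.trans h8, h9, by omega, by omega, by omega⟩
  obtain ⟨t, h1, h2, -, h4, h5⟩ := key (8 * finrank t0.K (Rat' (UU S t0.n t0.v a)) + B)
  exact ⟨t, h1, h2, by omega⟩

end Vale.Agent.P199
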