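import Vale.Agent.P199.Newton
import Vale.Agent.P199.Ext

/-! Extremal states and special quaternion moves. -/

namespace Vale.Agent.P199

open Finset Module

set_option linter.unusedSectionVars false

noncomputable section

variable {K : Type} [Field K] [Algebra K0 K] [Dom K] {S : Sys} {n m : ℕ} {v σ : ℕ → A K}
  {w : ℕ → A (LS K)} {a : Ex} {μ ν : ℕ}

/-- The variations of `a`. -/
def ZA (S : Sys) (n : ℕ) (v : ℕ → A K) (a : Ex) : Submodule K (A K) := (VV S n v).map (d1 v a)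

/-- The variations of `a` inside its centralizer. -/
def UU (S : Sys) (n : ℕ) (v : ℕ → A K) (a : Ex) : Submodule K (A K) :=
  (ZA S n v a).map (Pc (gen (ev v a)))

/-- The variation of a conjugate of `a` inside the centralizer of `L`. -/
def ell (L : Subalgebra K (A K)) (g : A K) (v : ℕ → A K) (a : Ex) : (ℕ → A K) →ₗ[K] A K :=
  Pc L ∘ₗ cj g ∘ₗ d1 v a

theorem ell_apply (L : Subalgebra K (A K)) (g : A K) (v : ℕ → A K) (a : Ex) (β : ℕ → A K) :
    ell L g v a β = Pc L (g⁻¹ * (d1 v a β * g)) := rfl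

theorem ell_one (L : Subalgebra K (A K)) (v : ℕ → A K) (a : Ex) (β : ℕ → A K) :
    ell L 1 v a β = Pc L (d1 v a β) := by simp [ell_apply]

theorem mem_UU {u : A K} :
    u ∈ UU S n v a ↔ ∃ β ∈ VV S n v, ell (gen (ev v a)) 1 v a β = u := by
  simp [UU, ZA, ell_one]

theorem ZA_le (ha : a.In (Set.Iio S.N)) (hv : ∀ i < S.N, v i ∈ D K n) :
    ∀ z ∈ ZA S n v a, z ∈ D K n := by
  rintro _ ⟨β, hβ, rfl⟩
  exact d1_mem hv (fun i _ => (VV_le S n v hβ i).1) ha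

theorem ell_mul {L : Subalgebra K (A K)} {g : A K} (ha : a.In (Set.Iio S.N))
    (hv : ∀ i < S.N, v i ∈ D K n) (hL : L ≤ D K n) (hg : g ∈ D K n) (β : ℕ → A K) {z : A K}
    (hz : z ∈ DS K n m) : ell L g v a (fun i => β i * z) = ell L g v a β * z := by
  rw [ell_apply, ell_apply, d1_mul_DS β hv ha hz, mul_assoc, ← comm_DS hg hz, ← mul_assoc _ g,
    ← mul_assoc, Pc_mul_right fun x hx => comm_DS (hL hx) hz]

theorem ell_cp {L : Subalgebra K (A K)} {g : A K} (ha : a.In (Set.Iio S.N))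
    (hv : ∀ i < S.N, v i ∈ D K n) (hL : L ≤ D K n) (hc : Comm L) (hg : g ∈ D K n) (β : ℕ → A K)
    {h : G} (hh : h ∈ GS n m) : ell L g v a (fun i => cp n h (β i)) = cp n h (ell L g v a β) := by
  obtain ⟨b, b', hb⟩ := exists_dual hL
  rw [ell_apply, ell_apply, d1_cp β hv ha hh, ← cp_mul_right hh hg,
    ← cp_mul_left h (inv_mem_of_le le_rfl hg), hb.Pc_eq hL hc, hb.Pc_eq hL hc, map_smul, map_sum]
  simp only [cp_mul_right hh (hL (hb.mem' _)), cp_mul_left h (hL (hb.mem _))]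

/-- All active children are extremal. -/
def LocExt (S : Sys) (n : ℕ) (v : ℕ → A K) (a : Ex) (μ ν : ℕ) : Prop :=
  ∀ m σ w, Move S n v m σ w → Act S m w a → Ext μ ν m (gen (ev w a)) (ZA S m w a)

/-- Doubly extremal states. -/
structure DX (S : Sys) (n : ℕ) (v : ℕ → A K) (a : Ex) (μ ν : ℕ) : Prop where
  act : Act S n v a
  deg : finrank K (gen (ev v a)) * μ = 2 ^ n
  sub : ∀ u ∈ UU S n v a, u ∈ gen (ev v a)
  rat : finrank K (Rat' (UU S n v a)) * ν = 2 ^ n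

theorem DX.exists_eta (hd : DX S n v a μ ν) (ha : a.In (Set.Iio S.N))
    (hv : ∀ i < S.N, v i ∈ D K n) : ∃ η ∈ UU S n v a, η ≠ 0 := by
  obtain ⟨y, hy, β, hβ, h⟩ := hd.act
  refine ⟨_, mem_UU.2 ⟨β, hβ, rfl⟩, fun h0 => h ?_⟩
  rw [← tr_mul_Pc (gen_le (ev_mem hv ha)) (comm_gen _) fun x hx => comm_gen _ x hx y hy,
    ← ell_one, h0, mul_zero, map_zero]

theorem PreMove.lift_ell (hS : S.WF) (hv : IsSt S n v) (hm : PreMove S n v m σ w)
    (ht : del S n v ≤ del S m w) {L : Subalgebra K (A K)} {g : A K}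
    (hb : BP S n m v σ (VV S m v ⊓ LinearMap.ker (ell L g v a))) {β0 : ℕ → A K}
    (hβ : β0 ∈ VV S m v) :
    ∃ β ∈ VB S m v σ, ell L g v a β = ell L g v a β0 ∧ ∃ β' ∈ VV S m w, RV PL β' β := by
  obtain ⟨β1, h1, h2⟩ := hm.adjust hS hv ht inf_le_left hb hβ
  exact ⟨_, h2, by rw [map_add, LinearMap.mem_ker.1 h1.2, add_zero], hm.tightV hS hv ht h2⟩

/-- Extremality of a child, read at the parent. -/
theorem ext_of_move (hS : S.WF) (ha : a.In (Set.Iio S.N)) (hv : IsSt S n v) (ht : Tt S n v)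
    (hE : LocExt S n v a μ ν) (hm : Move S n v m σ w) {g : A K} (hg0 : g ≠ 0)
    (hg : g ∈ D K n)
    (hb : BP S n m v σ (VV S m v ⊓ LinearMap.ker (ell (gen (cj g (ev v a))) g v a)))
    (hact : ∃ y ∈ gen (cj g (ev v a)), ∃ β ∈ VV S m v,
      tr (y * ell (gen (cj g (ev v a))) g v a β) ≠ 0)
    {g' α' : A (LS K)} (hg' : g' ∈ D (LS K) m) (hgg : RA PL g' g)
    (hα : α' ∈ bc (io K) (gen (cj g (ev v a)))) (hα' : RA PL α' (cj g (ev v a))) {k : ℕ}
    (hk : 1 ≤ k) {y : A K} (hy : Ld k (cj g' (ev w a) - α') y) :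
    Ext μ ν m (adj (gen (cj g (ev v a))) (Pc (gen (cj g (ev v a))) y))
      ((VV S m v).map (ell (gen (cj g (ev v a))) g v a)) := by
  have hP := plc K
  have hd := ht m σ w hm
  have ha1 : cj g (ev v a) ∈ D K m := D_mono hm.le (cj_mem hg (ev_mem hv.mem ha))
  have haw : ev w a ∈ D (LS K) m := ev_mem hm.mem ha
  have hL := gen_le ha1
  have hA : Act S m w a := by
    obtain ⟨y, hy, β0, hβ0, h⟩ := hact
    obtain ⟨β, -, e, β', hβ', hr⟩ := hm.lift_ell hS hv hd hb hβ0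
    refine hm.act hS ha hβ' hr (cj_mem_gen hg0 hy) ?_
    rw [← e, ell_apply, tr_mul_Pc hL (comm_gen _) fun x hx => comm_gen _ x hx y hy,
      ← mul_assoc g⁻¹, ← mul_assoc, tr_comm] at h
    simpa only [cj_apply, inv_inv, mul_assoc] using h
  have hg0' : g' ≠ 0 := fun h => hg0 (RA.eq_zero hP (h ▸ hgg))
  have hy' : y ∈ D K m := hy.mem (sub_mem (cj_mem hg' haw) (bc_le _ hL hα))
  have hM := adj_le hL (Pc_mem_sub hL hy')
  have hc := (comm_gen _).adj fun x hx => Pc_comm hL (comm_gen _) y hx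
  refine ((hE m σ w hm hA).conj haw hg' hg0' (ZA_le ha hm.mem)).transfer
    (redC_of_ld ha1 hα hα' hk hy) hP (gen_le (cj_mem hg' haw)) (comm_gen _) hM hc ?_ ?_
  · rintro _ ⟨z, hz, rfl⟩
    exact cj_mem hg' (ZA_le ha hm.mem z hz)
  · rintro _ ⟨β0, hβ0, rfl⟩
    obtain ⟨β, -, e, β', hβ', hr⟩ := hm.lift_ell hS hv hd hb hβ0
    refine ⟨_, ⟨_, ⟨β', hβ', rfl⟩, rfl⟩, _, (hgg.inv hP hg0).mul hP
      ((d1_RA hP hm.ra (fun i _ => hr i) ha).mul hP hgg), ?_⟩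
    rw [← e, ell_apply, Pc_Pc hM hc (le_adj _ _)]

theorem sub_of_max (hS : S.WF) (ha : a.In (Set.Iio S.N)) (hv : IsSt S n v) (h1 : H1 S n v)
    (ht : Tt S n v) (hact : Act S n v a)
    (hmax : ∀ σ w, Move S n v n σ w → Act S n w a →
      finrank (LS K) (gen (ev w a)) ≤ finrank K (gen (ev v a))) :
    ∀ u ∈ UU S n v a, u ∈ gen (ev v a) := by
  intro u hu
  obtain ⟨β, hβ, rfl⟩ := mem_UU.1 hu
  obtain ⟨w, hm⟩ := exists_cmove hS hv h1 hβ
  have hP := plc K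
  have ha0 : ev v a ∈ D K n := ev_mem hv.mem ha
  have hL := gen_le ha0
  have hA : Act S n w a := by
    obtain ⟨y, hy, β1, hβ1, h⟩ := hact
    obtain ⟨β', hβ', hr⟩ := hm.tightV hS hv (ht n β w hm)
      (mem_VB.2 ⟨hβ1, fun c hc => ht.symm_zero hS hv h1 hc hβ hβ1⟩)
    exact hm.act hS ha hβ' hr hy h
  have hy := ev_Ld (k := 0) (w := fun i => map (io K) (v i)) (fun i _ => RA.of hP (v i)) hm.ld ha
  rw [ev_hom] at hy
  have hM := adj_le hL (Pc_mem_sub hL (ZA_le ha hv.mem _ ⟨β, hβ, rfl⟩))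
  have h2 := (redC_of_ld ha0 (map_mem_bc _ (mem_gen _)) (RA.of hP _) le_rfl hy).le hP
    (gen_le (ev_mem hm.mem ha)) (comm_gen _) hM
    ((comm_gen _).adj fun x hx => Pc_comm hL (comm_gen _) _ hx)
  rw [ell_one]
  exact (eq_of_finrank_le hM (le_adj _ _) (h2.trans (hmax β w hm hA))).ge (mem_adj _ _)

/-- The data of a special quaternion move. -/
structure QSet (S : Sys) (n : ℕ) (v : ℕ → A K) (a : Ex) (μ ν : ℕ) (η θ : A K) (σ : ℕ → A K)
    (w : ℕ → A (LS K)) : Prop where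
  wf : S.WF
  ha : a.In (Set.Iio S.N)
  st : IsSt S n v
  tt : Tt S n v
  loc : LocExt S n v a μ ν
  dx : DX S n v a μ ν
  eta : η ∈ UU S n v a
  eta0 : η ≠ 0
  theta : η * θ ∈ UU S n v a
  mv : Move S n v (n + 1) σ w
  bp : BP S n (n + 1) v σ (VV S (n + 1) v ⊓ LinearMap.ker (ell (gen (ev v a)) 1 v a))
  dir : ell (gen (ev v a)) 1 v a σ = η * (e (gi n) + θ * e (gj n))

theorem exists_qset (hS : S.WF) (ha : a.In (Set.Iio S.N)) {Y : ℕ} (hg : Good S n v Y)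
    (hY : 2 * 2 ^ n ≤ Y) (ht : Tt S n v) (hE : LocExt S n v a μ ν) (hd : DX S n v a μ ν)
    {η θ : A K} (hη : η ∈ UU S n v a) (h0 : η ≠ 0) (hθ : η * θ ∈ UU S n v a) :
    ∃ σ w, QSet S n v a μ ν η θ σ w := by
  have hv := hg.st.mem
  have hL := gen_le (ev_mem hv ha)
  obtain ⟨p0, hp0, e0⟩ := mem_UU.1 hη
  obtain ⟨p0', hp0', e0'⟩ := mem_UU.1 hθ
  have h1 : finrank K ((VV S n v).map (ell (gen (ev v a)) 1 v a)) ≤ 2 ^ n := by
    have := finite_sub hL
    refine le_trans (Submodule.finrank_mono (t := (gen (ev v a)).toSubmodule) ?_)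
      (Nat.le_of_dvd (pow_pos two_pos n) (finrank_dvd hL (comm_gen _)))
    rintro _ ⟨β, hβ, rfl⟩
    exact hd.sub _ (mem_UU.2 ⟨β, hβ, rfl⟩)
  obtain ⟨p, p', w, hp, hp', hm, hb⟩ := exists_qmove hS hg ht inf_le_left
    ((finrank_ker_map (ell (gen (ev v a)) 1 v a) (VV S n v)).ge.trans (Nat.add_le_add_left h1 _))
    hY hp0 hp0'
  refine ⟨_, w, hS, ha, hg.st, ht, hE, hd, hη, h0, hθ, hm, hb.mono fun β hβ => ⟨?_, ?_⟩, ?_⟩
  · rw [VV_up hS hv n.le_succ]
    exact ⟨hβ.1, fun h hh => (hβ.2 h hh).1⟩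
  · have hL' := hL.trans (D_mono n.le_succ)
    refine eq_zero_of_cp n (m := n + 1) ?_ fun h hh => ?_
    · rw [ell_one]
      exact Pc_mem_sub hL' (d1_mem (fun i hi => D_mono n.le_succ (hv i hi))
        (fun i _ => (hβ.1 i).1) ha)
    · rw [← ell_cp ha hv hL (comm_gen _) (one_mem _) β hh]
      exact (hβ.2 h hh).2
  · have e1 := LinearMap.mem_ker.1 hp.2
    have e2 := LinearMap.mem_ker.1 hp'.2
    rw [map_sub, e0, sub_eq_zero] at e1
    rw [map_sub, e0', sub_eq_zero] at e2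
    rw [mul_add, ← mul_assoc, ← e2, ← e1, ← ell_mul ha hv hL (one_mem _) p (e_mem (gi_mem n)),
      ← ell_mul ha hv hL (one_mem _) p' (e_mem (gj_mem n)), ← map_add]
    rfl

/-- The normalized space of variations. -/
def Lam (S : Sys) (n : ℕ) (v : ℕ → A K) (a : Ex) (η : A K) : Submodule K (A K) :=
  (UU S n v a).map (LinearMap.mulLeft K η⁻¹)

theorem mem_Lam {η l : A K} (h0 : η ≠ 0) : l ∈ Lam S n v a η ↔ η * l ∈ UU S n v a := by
  refine ⟨?_, fun h => ⟨_, h, inv_mul_cancel_left₀ h0 l⟩⟩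
  rintro ⟨u, hu, rfl⟩
  rwa [LinearMap.mulLeft_apply, mul_inv_cancel_left₀ h0]

theorem finrank_Lam {η : A K} (h0 : η ≠ 0) :
    finrank K (Lam S n v a η) = finrank K (UU S n v a) := by
  exact (Submodule.equivMapOfInjective _ (mul_right_injective₀ (inv_ne_zero h0)) _).finrank_eq.symm

end

end Vale.Agent.P199
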