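import Vale.Agent.P199.Place

/-! Laurent series extensions. -/

namespace Vale.Agent.P199

open Finset Module

set_option linter.unusedSectionVars false

noncomputable section

/-- The order of a scalar. -/
def od_aux (a : K0) : Gam := HahnSeries.order (Γ := Gam) (R := ℚ) a

/-- The integer lift of a group element. -/
def hat_aux (g : G) : Gam := toLex (g.mapRange (fun x => (x.val : ℤ)) (by simp))

theorem hat_add_aux (g h : G) :
    2 • toLex (gam g h) + hat_aux (g + h) = hat_aux g + hat_aux h := by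
  refine ofLex.injective (Finsupp.ext fun b => ?_)
  simp only [hat_aux, gam, ofLex_add, ofLex_toLex, two_nsmul, Finsupp.add_apply,
    Finsupp.zipWith_apply, Finsupp.mapRange_apply]
  generalize g b = x; generalize h b = y
  revert x y; decide

theorem hat_inj_aux {a b : Gam} {g h : G} (H : 2 • a + hat_aux g = 2 • b + hat_aux h) : g = h := by
  ext k
  have := DFunLike.congr_fun (congrArg ofLex H) k
  simp only [hat_aux, ofLex_add, ofLex_toLex, two_nsmul, Finsupp.add_apply,
    Finsupp.mapRange_apply] at this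
  have h1 := (g k).val_lt
  have h2 := (h k).val_lt
  exact ZMod.val_injective 2 (by omega)

theorem od_term_aux (g h : G) {a b : K0} (ha : a ≠ 0) (hb : b ≠ 0) :
    2 • od_aux (c K0 g h * (a * b)) + hat_aux (g + h) =
      (2 • od_aux a + hat_aux g) + (2 • od_aux b + hat_aux h) := by
  have e0 : ∀ {a b : K0}, a ≠ 0 → b ≠ 0 → od_aux (a * b) = od_aux a + od_aux b :=
    fun ha hb => HahnSeries.order_mul (Γ := Gam) (R := ℚ) ha hb
  have e1 := e0 (c_ne_zero g h) (mul_ne_zero ha hb)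
  have e2 := e0 ha hb
  have e3 : od_aux (c K0 g h) = toLex (gam g h) :=
    HahnSeries.order_single (by exact_mod_cast sg_ne_zero _)
  rw [e1, e2, e3, add_add_add_comm, ← hat_add_aux, nsmul_add, nsmul_add]
  abel

instance : Dom K0 := by
  refine ⟨fun x y h => ?_⟩
  by_contra! H
  have ne : ∀ x : A K0, x ≠ 0 → (sup x).Nonempty := fun x hx => Finsupp.support_nonempty_iff.2 hx
  obtain ⟨g0, hg0, m1⟩ := exists_min_image (sup x) (fun g => 2 • od_aux (co g x) + hat_aux g)
    (ne x H.1)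
  obtain ⟨h0, hh0, m2⟩ := exists_min_image (sup y) (fun g => 2 • od_aux (co g y) + hat_aux g)
    (ne y H.2)
  have e := co_mul x y (g0 + h0) (S := sup x) fun g hg => by simpa [mem_sup] using hg
  rw [h, map_zero] at e
  have e' := congrArg (fun a : K0 => HahnSeries.coeff (Γ := Gam) (R := ℚ) a
    (od_aux (c K0 g0 h0 * (co g0 x * co h0 y)))) e
  refine absurd (e'.trans ((HahnSeries.coeff_sum _).trans (sum_eq_single_of_mem g0 hg0 ?_))).symm ?_
  · intro g hg hne
    by_cases hy : co (g + (g0 + h0)) y = 0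
    · rw [hy, mul_zero, mul_zero]; rfl
    refine HahnSeries.coeff_eq_zero_of_lt_order (lt_of_nsmul_lt_nsmul_right 2
      (lt_of_add_lt_add_right (a := hat_aux (g0 + h0)) ?_))
    have e1 := od_term_aux g (g + (g0 + h0)) (mem_sup.1 hg) hy
    rw [G.add_add] at e1
    refine (od_term_aux g0 h0 (mem_sup.1 hg0) (mem_sup.1 hh0)).trans_lt (lt_of_lt_of_eq ?_ e1.symm)
    exact add_lt_add_of_lt_of_le ((m1 g hg).lt_of_ne fun H => hne (hat_inj_aux H).symm)
      (m2 _ (mem_sup.2 hy))
  · rw [G.add_add]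
    have : c K0 g0 h0 * (co g0 x * co h0 y) ≠ 0 :=
      mul_ne_zero (c_ne_zero _ _) (mul_ne_zero (mem_sup.1 hg0) (mem_sup.1 hh0))
    exact HahnSeries.coeff_order_eq_zero.not.2 this

/-- The Laurent series field. -/
def LS (K : Type) [Field K] : Type := HahnSeries ℤ K

variable {K : Type} [Field K]

instance : Field (LS K) := inferInstanceAs (Field (HahnSeries ℤ K))

/-- Constants. -/
def ioR : K →+* LS K := (HahnSeries.C : K →+* HahnSeries ℤ K)

variable [Algebra K0 K]

instance : Algebra K0 (LS K) := (ioR.comp (algebraMap K0 K)).toAlgebra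

/-- Constants. -/
def io (K : Type) [Field K] [Algebra K0 K] : K →ₐ[K0] LS K where
  __ := ioR
  commutes' _ := rfl

/-- The uniformizer. -/
def eps (K : Type) [Field K] : LS K := (HahnSeries.single 1 1 : HahnSeries ℤ K)

/-- The canonical place. -/
def PL (x : LS K) (y : K) : Prop :=
  (∀ k < 0, HahnSeries.coeff (Γ := ℤ) (R := K) x k = 0) ∧ HahnSeries.coeff (Γ := ℤ) (R := K) x 0 = y

/-- Coefficients. -/
def cf_aux (k : ℤ) : LS K →+ K := HahnSeries.coeff.addMonoidHom k

theorem cf_ext_aux {x y : LS K} (h : ∀ k, cf_aux k x = cf_aux k y) : x = y :=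
  HahnSeries.ext (funext h)

theorem PL_def_aux {x : LS K} {y : K} : PL x y ↔ (∀ k < 0, cf_aux k x = 0) ∧ cf_aux 0 x = y :=
  Iff.rfl

/-- Power series as Laurent series. -/
def ps_aux : PowerSeries K →+* LS K := HahnSeries.ofPowerSeries ℤ K

theorem PL_iff_aux {x : LS K} {y : K} :
    PL x y ↔ ∃ f, x = ps_aux f ∧ PowerSeries.constantCoeff f = y := by
  have key : ∀ f k, cf_aux k (ps_aux f : LS K) = if k < 0 then 0 else
      PowerSeries.coeff k.natAbs f := fun f k => PowerSeries.coeff_coe f k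
  rw [PL_def_aux]
  constructor
  · rintro ⟨h, rfl⟩
    refine ⟨PowerSeries.mk fun n => cf_aux n x, cf_ext_aux fun k => ?_, by simp⟩
    rw [key]
    split_ifs with hk
    · exact h k hk
    · rw [PowerSeries.coeff_mk, Int.natAbs_of_nonneg (not_lt.1 hk)]
  · rintro ⟨f, rfl, rfl⟩
    exact ⟨fun k hk => by rw [key, if_pos hk], by simp [key]⟩

theorem cf_io_aux (k : ℤ) (y : K) : cf_aux k (io K y) = if k = 0 then y else 0 := by
  have := HahnSeries.coeff_single (a := (0 : ℤ)) (b := k) (r := y)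
  exact (show cf_aux k (io K y) = _ from this).trans (by split_ifs <;> rfl)

theorem cf_eps_aux (k : ℕ) (l : ℤ) (x : LS K) :
    cf_aux l ((eps K ^ k)⁻¹ * x) = cf_aux (l + k) x := by
  have e : (eps K ^ k)⁻¹ = (HahnSeries.single (-k : ℤ) 1 : HahnSeries ℤ K) := by
    have := HahnSeries.single_pow (1 : ℤ) k (1 : K)
    rw [show eps K ^ k = _ from this]
    refine (HahnSeries.inv_single _ _).trans ?_
    simp
  rw [e]
  refine (HahnSeries.coeff_single_mul (x := x)).trans ?_
  rw [one_mul, sub_neg_eq_add]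
  rfl

theorem pos_of_neg_of_add_eq_zero_aux {a b : ℤ} (h : a < 0) (e : 0 = a + b) : 0 < b := by omega

theorem plc (K : Type) [Field K] [Algebra K0 K] : IsPlace (io K) PL := by
  refine ⟨fun y => PL_def_aux.2 ⟨fun k hk => by rw [cf_io_aux, if_neg hk.ne], by
    simp [cf_io_aux]⟩, fun h h' => ?_, fun h h' => ?_, fun h => h.2.symm, fun h hy => ?_,
    fun x => ?_⟩
  · obtain ⟨f, rfl, rfl⟩ := PL_iff_aux.1 h
    obtain ⟨g, rfl, rfl⟩ := PL_iff_aux.1 h'
    exact PL_iff_aux.2 ⟨f + g, by simp, by simp⟩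
  · obtain ⟨f, rfl, rfl⟩ := PL_iff_aux.1 h
    obtain ⟨g, rfl, rfl⟩ := PL_iff_aux.1 h'
    exact PL_iff_aux.2 ⟨f * g, by simp, by simp⟩
  · obtain ⟨f, rfl, rfl⟩ := PL_iff_aux.1 h
    refine PL_iff_aux.2 ⟨f⁻¹, inv_eq_of_mul_eq_one_right ?_, by simp⟩
    rw [← map_mul, PowerSeries.mul_inv_cancel f hy, map_one]
  · by_cases h : 0 ≤ HahnSeries.order (Γ := ℤ) (R := K) x
    · exact Or.inl ⟨_, fun k hk => HahnSeries.coeff_eq_zero_of_lt_order (hk.trans_le h), rfl⟩
    · have hx : x ≠ 0 := by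
        rintro rfl
        exact h (HahnSeries.order_zero (Γ := ℤ) (R := K)).ge
      have e := HahnSeries.order_mul (Γ := ℤ) (R := K) hx (inv_ne_zero hx)
      have e1 : HahnSeries.order (Γ := ℤ) (R := K) (x * x⁻¹ : LS K) = 0 := by
        rw [mul_inv_cancel₀ hx]; exact HahnSeries.order_one
      have e2 := e1.symm.trans e
      have e3 := pos_of_neg_of_add_eq_zero_aux (not_le.1 h) e2
      exact Or.inr ⟨fun k hk => HahnSeries.coeff_eq_zero_of_lt_order (hk.trans e3),
        HahnSeries.coeff_eq_zero_of_lt_order e3⟩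

theorem eps_ne_zero : eps K ≠ 0 := by
  exact HahnSeries.single_ne_zero one_ne_zero

theorem PL_eps : PL (eps K) 0 := by
  exact ⟨fun k hk => HahnSeries.coeff_single_of_ne (by omega),
    HahnSeries.coeff_single_of_ne (by omega)⟩

theorem PL.div_eps {x : LS K} (h : PL x 0) : ∃ y, PL (x / eps K) y := by
  refine ⟨_, PL_def_aux.2 ⟨fun k hk => ?_, rfl⟩⟩
  rw [div_eq_inv_mul, ← pow_one (eps K), cf_eps_aux]
  rcases (show k + (1 : ℕ) < 0 ∨ k + (1 : ℕ) = 0 by omega) with H | H
  · exact h.1 _ H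
  · rw [H]; exact h.2

instance [Dom K] : Dom (LS K) := dom_of_place (plc K)

/-- `x` has order at least `k`, with coefficient `y` in degree `k`. -/
def Ld (k : ℕ) (x : A (LS K)) (y : A K) : Prop := RA PL ((eps K ^ k)⁻¹ • x) y

/-- `x` has order at least `k`. -/
def Ord (k : ℕ) (x : A (LS K)) : Prop := ∃ y, Ld k x y

theorem Ld.ord {k x} {y : A K} (h : Ld k x y) : Ord k x := ⟨y, h⟩

theorem Ld_zero_iff {x} {y : A K} : Ld 0 x y ↔ RA PL x y := by simp [Ld]

theorem Ld.zero (k : ℕ) : Ld k (0 : A (LS K)) 0 := by simpa [Ld] using RA.zero (plc K)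

theorem Ld.add {k x x'} {y y' : A K} (h : Ld k x y) (h' : Ld k x' y') :
    Ld k (x + x') (y + y') := by simpa [Ld] using RA.add (plc K) h h'

theorem Ld.neg {k x} {y : A K} (h : Ld k x y) : Ld k (-x) (-y) := by
  simpa [Ld] using RA.neg (plc K) h

theorem Ld.sub {k x x'} {y y' : A K} (h : Ld k x y) (h' : Ld k x' y') :
    Ld k (x - x') (y - y') := by simpa [Ld, smul_sub] using RA.sub (plc K) h h'

theorem Ld_iff_aux {k : ℕ} {x} {y : A K} :
    Ld k x y ↔ ∀ g, (∀ l < (k : ℤ), cf_aux l (co g x) = 0) ∧ cf_aux k (co g x) = co g y := by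
  refine forall_congr' fun g => ?_
  simp only [PL_def_aux, map_smul, smul_eq_mul, cf_eps_aux, zero_add]
  exact and_congr_left' ⟨fun h l hl => by simpa using h (l - k) (by omega),
    fun h l hl => h _ (by omega)⟩

theorem Ord_iff_aux {k : ℕ} {x : A (LS K)} :
    Ord k x ↔ ∀ g, ∀ l < (k : ℤ), cf_aux l (co g x) = 0 := by
  refine ⟨fun ⟨y, h⟩ g => (Ld_iff_aux.1 h g).1, fun h => ?_⟩
  exact ⟨Finsupp.mapRange.addMonoidHom (cf_aux k) x, Ld_iff_aux.2 fun g => ⟨h g, rfl⟩⟩

theorem Ld.mul {k l x x'} {y y' : A K} (h : Ld k x y) (h' : Ld l x' y') :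
    Ld (k + l) (x * x') (y * y') := by
  have := RA.mul (plc K) h h'
  rwa [smul_mul_smul_comm, ← mul_inv, ← pow_add] at this

theorem Ld.smul {k x} {a : LS K} {b : K} {y : A K} (ha : PL a b) (h : Ld k x y) : Ld k (a • x) (b • y) := by
  have := RA.smul (plc K) ha h
  rwa [smul_comm] at this

theorem Ld.sum {k} {ι : Type*} (s : Finset ι) {x : ι → A (LS K)} {y : ι → A K}
    (h : ∀ i ∈ s, Ld k (x i) (y i)) : Ld k (∑ i ∈ s, x i) (∑ i ∈ s, y i) := by
  unfold Ld
  rw [smul_sum]
  exact RA.sum (plc K) s h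

theorem Ld.unique {k x} {y y' : A K} (h : Ld k x y) (h' : Ld k x y') : y = y' :=
  RA.unique (plc K) h h'

theorem Ld.mem {k x a b} {y : A K} (h : Ld k x y) (hx : x ∈ DS (LS K) a b) : y ∈ DS K a b :=
  RA.mem (plc K) h (Subalgebra.smul_mem _ hx _)

theorem Ld.eps_smul {k l x} {y : A K} (h : Ld k x y) : Ld (l + k) (eps K ^ l • x) y := by
  unfold Ld
  rwa [smul_smul, pow_add, mul_inv, mul_right_comm, inv_mul_cancel₀ (pow_ne_zero _ eps_ne_zero),
    one_mul]

theorem Ld.of (k : ℕ) (y : A K) : Ld k (eps K ^ k • map (io K) y) y := by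
  exact (Ld_zero_iff.2 (RA.of (plc K) y)).eps_smul (l := k)

theorem Ld.succ {k} {x : A (LS K)} (h : Ld k x 0) : Ord (k + 1) x := by
  refine Ord_iff_aux.2 fun g l hl => ?_
  rcases (show l < k ∨ l = k by omega) with H | rfl
  · exact (Ld_iff_aux.1 h g).1 l H
  · exact (Ld_iff_aux.1 h g).2

theorem Ord.ld {k l} {x : A (LS K)} (h : Ord l x) (hk : k < l) : Ld k x 0 := by
  exact Ld_iff_aux.2 fun g => ⟨fun m hm => Ord_iff_aux.1 h g m (by omega),
    Ord_iff_aux.1 h g k (by omega)⟩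

theorem Ord.mono {k l} {x : A (LS K)} (h : Ord l x) (hk : k ≤ l) : Ord k x := by
  exact Ord_iff_aux.2 fun g m hm => Ord_iff_aux.1 h g m (by omega)

theorem Ord.zero (k : ℕ) : Ord k (0 : A (LS K)) := (Ld.zero k).ord

theorem Ord.add {k} {x x' : A (LS K)} (h : Ord k x) (h' : Ord k x') : Ord k (x + x') :=
  let ⟨_, h⟩ := h; let ⟨_, h'⟩ := h'; (h.add h').ord

theorem Ord.neg {k} {x : A (LS K)} (h : Ord k x) : Ord k (-x) := let ⟨_, h⟩ := h; h.neg.ord

theorem Ord.sub {k} {x x' : A (LS K)} (h : Ord k x) (h' : Ord k x') : Ord k (x - x') :=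
  let ⟨_, h⟩ := h; let ⟨_, h'⟩ := h'; (h.sub h').ord

theorem Ord.mul {k l} {x x' : A (LS K)} (h : Ord k x) (h' : Ord l x') : Ord (k + l) (x * x') :=
  let ⟨_, h⟩ := h; let ⟨_, h'⟩ := h'; (h.mul h').ord

theorem Ord.of (y : A K) : Ord 0 (map (io K) y) := (Ld_zero_iff.2 (RA.of (plc K) y)).ord

theorem Ld.add_ord {k x x'} {y : A K} (h : Ld k x y) (h' : Ord (k + 1) x') :
    Ld k (x + x') y := by simpa using h.add (h'.ld (Nat.lt_succ_self k))

theorem Ld.sub_of {k x} {y : A K} (h : Ld k x y) :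
    Ord (k + 1) (x - eps K ^ k • map (io K) y) := Ld.succ (by simpa using h.sub (Ld.of k y))

theorem Ld.ra {x} {y z : A K} (h : Ld 1 (x - map (io K) y) z) : RA PL x y := by
  simpa [Ld_zero_iff] using (Ld_zero_iff.2 (RA.of (plc K) y)).add_ord h.ord

theorem Ld.tr {k x} {y : A K} (h : Ld k x y) : PL ((eps K ^ k)⁻¹ * tr x) (tr y) := by
  simpa using RA.tr h

theorem eq_zero_of_ord {x : A (LS K)} (h : ∀ k, Ord k x) : x = 0 := by
  exact A.ext' fun g => cf_ext_aux fun l => Ord_iff_aux.1 (h (l.toNat + 1)) g l (by omega)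

theorem Ord.lead {k} {x : A (LS K)} (h : Ord k x) (hx : x ≠ 0) :
    ∃ a, k ≤ a ∧ ∃ y, y ≠ 0 ∧ Ld a x y := by
  classical
  have hex : ∃ a, ¬Ord (a + 1) x := by
    by_contra! H
    exact hx (eq_zero_of_ord fun a => (H a).mono a.le_succ)
  have h1 := Nat.find_spec hex
  have h2 : Ord (Nat.find hex) x := by
    rcases (Nat.find hex).eq_zero_or_pos with H | H
    · rw [H]; exact h.mono k.zero_le
    · have := not_not.1 (Nat.find_min hex (Nat.sub_one_lt H.ne'))
      rwa [Nat.sub_add_cancel H] at this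
  obtain ⟨y, hy⟩ := h2
  exact ⟨_, not_lt.1 fun H => h1 (h.mono H), y, fun H => h1 (Ld.succ (H ▸ hy)), hy⟩

theorem exists_limit {n : ℕ} (x : ℕ → A (LS K)) (hx : ∀ j, x j ∈ D (LS K) n)
    (h : ∀ j, Ord j (x (j + 1) - x j)) : ∃ l ∈ D (LS K) n, ∀ j, Ord j (l - x j) := by
  have st : ∀ g (l : ℤ) (i j : ℕ), l < i → i ≤ j → cf_aux l (co g (x j)) = cf_aux l (co g (x i)) := by
    intro g l i j hl hij
    induction j, hij using Nat.le_induction with
    | base => rfl
    | succ j hj ih =>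
      have := Ord_iff_aux.1 (h j) g l (by omega)
      rw [map_sub, map_sub, sub_eq_zero] at this
      rw [this, ih]
  have bd : ∀ g, BddBelow (Function.support fun l : ℤ => cf_aux l (co g (x (l.toNat + 1)))) := by
    refine fun g => ⟨min 0 (HahnSeries.order (Γ := ℤ) (R := K) (co g (x 0))), fun l hl => ?_⟩
    by_contra! H
    refine hl ((st g l 0 _ (by omega) (Nat.zero_le _)).trans ?_)
    exact HahnSeries.coeff_eq_zero_of_lt_order (H.trans_le (min_le_right _ _))
  obtain ⟨l, h1, h2⟩ := exists_co (K := LS K) (GS 0 n) fun g => HahnSeries.ofSuppBddBelow _ (bd g)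
  refine ⟨l, h2, fun j => Ord_iff_aux.2 fun g m hm => ?_⟩
  rw [map_sub, map_sub, sub_eq_zero]
  by_cases hg : g ∈ GS 0 n
  · rw [h1 g hg]
    exact (st g m _ (max j (m.toNat + 1)) (by omega) (le_max_right _ _)).symm.trans
      (st g m j _ hm (le_max_left _ _))
  · rw [h2 g hg, hx j g hg]

/-- The Euler derivation on scalars. -/
def dS : LS K →+ LS K where
  toFun x := (⟨fun k => k • HahnSeries.coeff (Γ := ℤ) (R := K) x k,
    (HahnSeries.isPWO_support (Γ := ℤ) (R := K) x).mono fun k hk h => hk (by simp [h])⟩ :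
      HahnSeries ℤ K)
  map_zero' := by
    exact HahnSeries.ext (funext fun k => smul_zero k)
  map_add' := by
    exact fun x y => HahnSeries.ext (funext fun k => smul_add k _ _)

theorem cf_dS_aux (k : ℤ) (x : LS K) : cf_aux k (dS x) = k • cf_aux k x := rfl

theorem dS_mul (x y : LS K) : dS (x * y) = dS x * y + x * dS y := by
  refine cf_ext_aux fun k => ?_
  have s : ∀ x : LS K, HahnSeries.support (Γ := ℤ) (R := K) (dS x) ⊆
      HahnSeries.support (Γ := ℤ) (R := K) x := fun x k hk h =>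
    hk ((cf_dS_aux k x).trans ((congrArg (k • ·) h).trans (smul_zero k)))
  have e1 := HahnSeries.coeff_mul (Γ := ℤ) (R := K) (x := x) (y := y) (a := k)
  have e2 := HahnSeries.coeff_mul_left' (Γ := ℤ) (R := K) (y := y) (a := k)
    (HahnSeries.isPWO_support (Γ := ℤ) (R := K) x) (s x)
  have e3 := HahnSeries.coeff_mul_right' (Γ := ℤ) (R := K) (x := x) (a := k)
    (HahnSeries.isPWO_support (Γ := ℤ) (R := K) y) (s y)
  rw [map_add, cf_dS_aux, show cf_aux k (x * y) = _ from e1, show cf_aux k (dS x * y) = _ from e2,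
    show cf_aux k (x * dS y) = _ from e3, smul_sum, ← sum_add_distrib]
  refine sum_congr rfl fun p hp => ?_
  rw [← (mem_antidiagonal.1 hp).2.2]
  change _ = p.1 • cf_aux p.1 x * cf_aux p.2 y + cf_aux p.1 x * p.2 • cf_aux p.2 y
  rw [smul_mul_assoc, mul_smul_comm, add_smul]
  rfl

theorem dS_io (y : K) : dS (io K y) = 0 := by
  refine cf_ext_aux fun k => ?_
  rw [cf_dS_aux, cf_io_aux, map_zero]
  split_ifs with h <;> simp [h]

theorem eq_io_of_dS {x : LS K} {y : K} (h : dS x = 0) (hy : PL x y) : x = io K y := by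
  have := charZero K
  refine cf_ext_aux fun k => ?_
  rw [cf_io_aux]
  split_ifs with hk
  · rw [hk]; exact hy.2
  · have e := cf_dS_aux k x
    rw [h, map_zero, zsmul_eq_mul] at e
    exact (mul_eq_zero.1 e.symm).resolve_left (Int.cast_ne_zero.2 hk)

/-- The Euler derivation on the algebra. -/
def dA : A (LS K) →+ A (LS K) := Finsupp.mapRange.addMonoidHom dS

theorem co_dA (g : G) (x : A (LS K)) : co g (dA x) = dS (co g x) := rfl

theorem tr_dA (x : A (LS K)) : tr (dA x) = dS (tr x) := rfl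

theorem dA_mul (x y : A (LS K)) : dA (x * y) = dA x * y + x * dA y := by
  refine A.ext' fun k => ?_
  have hx : ∀ g, g ∉ sup x → co g x = 0 := fun g hg => by simpa [mem_sup] using hg
  rw [co_dA, map_add, co_mul x y k hx, co_mul x _ k hx,
    co_mul _ y k (S := sup x) fun g hg => by rw [co_dA, hx g hg, map_zero], map_sum,
    ← sum_add_distrib]
  refine sum_congr rfl fun g _ => ?_
  rw [dS_mul, dS_mul, ← c_map (io K), dS_io, co_dA, co_dA]
  ring

theorem dA_map (y : A K) : dA (map (io K) y) = 0 :=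
  A.ext' fun g => by rw [co_dA, co_map, dS_io, map_zero]

theorem dA_mem {a b : ℕ} {x : A (LS K)} (hx : x ∈ DS (LS K) a b) : dA x ∈ DS (LS K) a b :=
  fun g hg => by rw [co_dA, hx g hg, map_zero]

theorem eq_map_of_dA {x : A (LS K)} {y : A K} (h : dA x = 0) (hy : RA PL x y) :
    x = map (io K) y :=
  A.ext' fun g => eq_io_of_dS (by rw [← co_dA, h, map_zero]) (hy g)

end

end Vale.Agent.P199
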