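import Vale.Agent.P199.Base

/-! Finite levels of the twisted group algebra. -/

namespace Vale.Agent.P199

open Finset Module

noncomputable section

/-- Group elements supported on the quaternion factors `a, …, b-1`. -/
def GS (a b : ℕ) : Finset G := (Finset.Ico (2 * a) (2 * b)).finsupp fun _ => Finset.univ

theorem mem_GS {a b : ℕ} {g : G} : g ∈ GS a b ↔ ∀ k, k < 2 * a ∨ 2 * b ≤ k → g k = 0 := by
  simp only [GS, Finset.mem_finsupp_iff, Finset.mem_univ, implies_true, and_true]
  constructor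
  · intro h k hk
    by_contra H
    have := Finset.mem_Ico.1 (h (Finsupp.mem_support_iff.2 H))
    omega
  · intro h k hk
    rw [Finset.mem_Ico]
    by_contra H
    exact Finsupp.mem_support_iff.1 hk (h k (by omega))

theorem card_GS (a b : ℕ) : (GS a b).card = 4 ^ (b - a) := by
  rw [GS, Finset.card_finsupp, Finset.prod_const, Nat.card_Ico, Finset.card_univ, ZMod.card,
    show 2 * b - 2 * a = 2 * (b - a) by omega, pow_mul]
  norm_num

theorem zero_mem_GS (a b : ℕ) : (0 : G) ∈ GS a b := mem_GS.2 fun _ _ => rfl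

theorem add_mem_GS {a b : ℕ} {g h : G} (hg : g ∈ GS a b) (hh : h ∈ GS a b) : g + h ∈ GS a b :=
  mem_GS.2 fun k hk => by simp [mem_GS.1 hg k hk, mem_GS.1 hh k hk]

theorem GS_mono {a b a' b' : ℕ} (ha : a' ≤ a) (hb : b ≤ b') : GS a b ⊆ GS a' b' := fun _ hg =>
  mem_GS.2 fun k hk => mem_GS.1 hg k (by omega)

theorem eq_zero_of_GS {n m : ℕ} {g : G} (h1 : g ∈ GS 0 n) (h2 : g ∈ GS n m) : g = 0 := by
  ext k
  by_cases h : k < 2 * n
  · exact mem_GS.1 h2 k (Or.inl h)
  · exact mem_GS.1 h1 k (Or.inr (by omega))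

theorem single_mem_GS {a b k : ℕ} (h1 : 2 * a ≤ k) (h2 : k < 2 * b) :
    (Finsupp.single k 1 : G) ∈ GS a b :=
  mem_GS.2 fun l hl => Finsupp.single_eq_of_ne (by omega)

theorem exists_GS (g : G) : ∃ n, g ∈ GS 0 n :=
  ⟨g.support.sup id + 1, mem_GS.2 fun k hk => by
    by_contra H
    have : id k ≤ g.support.sup id := Finset.le_sup (Finsupp.mem_support_iff.2 H)
    simp only [id] at this
    omega⟩

theorem split_GS {n m : ℕ} {g : G} (hg : g ∈ GS 0 m) :
    ∃ g1 ∈ GS 0 n, ∃ g2 ∈ GS n m, g = g1 + g2 := by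
  refine ⟨g.filter (· < 2 * n), mem_GS.2 fun k hk => ?_, g.filter (fun k => ¬ k < 2 * n),
    mem_GS.2 fun k hk => ?_, (Finsupp.filter_add_filter_not g _).symm⟩
  · rw [Finsupp.filter_apply_neg]; omega
  · rcases hk with hk | hk
    · rw [Finsupp.filter_apply_neg]; omega
    · rw [Finsupp.filter_apply]; split_ifs
      · rfl
      · exact mem_GS.1 hg k (Or.inr hk)

theorem sym_eq_zero {n m : ℕ} {g h : G} (hg : g ∈ GS 0 n) (hh : h ∈ GS n m) : sym g h = 0 := by
  have key : ∀ g h : G, (∀ b, g b ≠ 0 → b % 2 = 1 → h (b - 1) = 0) → beta g h = 0 := by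
    intro g h H
    refine Finset.sum_eq_zero fun b hb => ?_
    beta_reduce
    split_ifs with h1
    · rw [H b (Finsupp.mem_support_iff.1 hb) h1, mul_zero]
    · rw [mul_zero]
  rw [sym, key g h, key h g, add_zero]
  · intro b hb h1
    refine mem_GS.1 hg _ (Or.inr ?_)
    by_contra H
    exact hb (mem_GS.1 hh b (by omega))
  · intro b hb h1
    refine mem_GS.1 hh _ (Or.inl ?_)
    by_contra H
    exact hb (mem_GS.1 hg b (by omega))

theorem exists_sym {a b : ℕ} {h : G} {k : ℕ} (h1 : 2 * a ≤ k) (h2 : k < 2 * b) (hk : h k ≠ 0) :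
    ∃ g ∈ GS a b, sym g h = 1 := by
  refine ⟨Finsupp.single (mate k) 1, single_mem_GS ?_ ?_, ?_⟩
  · unfold mate; split_ifs <;> omega
  · unfold mate; split_ifs <;> omega
  · rw [sym_single, show mate (mate k) = k by unfold mate; split_ifs <;> omega]
    revert hk; generalize h k = x; revert x; decide

variable {K K' : Type} [Field K] [Field K'] [Algebra K0 K] [Algebra K0 K']

/-- The subalgebra spanned by the quaternion factors `a, …, b-1`. -/
def DS (K : Type) [Field K] [Algebra K0 K] (a b : ℕ) : Subalgebra K (A K) where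
  carrier := {x | ∀ g, g ∉ GS a b → co g x = 0}
  add_mem' hx hy g hg := by rw [map_add, hx g hg, hy g hg, add_zero]
  mul_mem' {x y} hx hy k hk := by
    rw [co_mul x y k hx]
    refine Finset.sum_eq_zero fun g hg => ?_
    rw [hy (g + k) fun H => hk (by simpa [G.add_add] using add_mem_GS hg H), mul_zero, mul_zero]
  algebraMap_mem' r g hg := by
    rw [Algebra.algebraMap_eq_smul_one, map_smul, ← e_zero, co_e, if_neg, smul_zero]
    rintro rfl; exact hg (zero_mem_GS a b)

/-- The level `n` algebra. -/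
abbrev D (K : Type) [Field K] [Algebra K0 K] (n : ℕ) : Subalgebra K (A K) := DS K 0 n

theorem mem_DS {a b : ℕ} {x : A K} : x ∈ DS K a b ↔ ∀ g, g ∉ GS a b → co g x = 0 := Iff.rfl

theorem e_mem {a b : ℕ} {g : G} (hg : g ∈ GS a b) : (e g : A K) ∈ DS K a b := fun k hk => by
  rw [co_e, if_neg]; rintro rfl; exact hk hg

theorem ei_mem {a b : ℕ} {g : G} (hg : g ∈ GS a b) : (ei g : A K) ∈ DS K a b :=
  Subalgebra.smul_mem _ (e_mem hg) _

theorem DS_mono {a b a' b' : ℕ} (ha : a' ≤ a) (hb : b ≤ b') : DS K a b ≤ DS K a' b' :=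
  fun _ hx g hg => hx g fun H => hg (GS_mono ha hb H)

theorem D_mono {n m : ℕ} (h : n ≤ m) : D K n ≤ D K m := DS_mono le_rfl h

theorem DS_le_D {a b : ℕ} : DS K a b ≤ D K b := DS_mono (Nat.zero_le _) le_rfl

theorem exists_D (x : A K) : ∃ n, x ∈ D K n := by
  induction x using A.induction with
  | h0 => exact ⟨0, zero_mem _⟩
  | hadd x y hx hy =>
    obtain ⟨n, hn⟩ := hx
    obtain ⟨m, hm⟩ := hy
    exact ⟨max n m, add_mem (D_mono (le_max_left _ _) hn) (D_mono (le_max_right _ _) hm)⟩
  | he a g =>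
    obtain ⟨n, hn⟩ := exists_GS g
    exact ⟨n, Subalgebra.smul_mem _ (e_mem hn) _⟩

theorem DS.induction {a b : ℕ} {p : A K → Prop} {x : A K} (hx : x ∈ DS K a b) (h0 : p 0)
    (hadd : ∀ x y, p x → p y → p (x + y)) (he : ∀ (r : K), ∀ g ∈ GS a b, p (r • e g)) : p x := by
  rw [sum_co x hx]
  exact Finset.sum_induction _ p hadd h0 fun g hg => he _ g hg

theorem map_mem (f : K →ₐ[K0] K') {a b : ℕ} {x : A K} (hx : x ∈ DS K a b) :
    map f x ∈ DS K' a b := fun g hg => by rw [co_map, hx g hg, map_zero]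

theorem comm_DS {n m : ℕ} {x y : A K} (hx : x ∈ D K n) (hy : y ∈ DS K n m) : x * y = y * x := by
  refine DS.induction (p := fun x => x * y = y * x) hx (by simp)
    (fun x z h1 h2 => by rw [add_mul, mul_add, h1, h2]) fun r g hg => ?_
  refine DS.induction (p := fun y => r • e g * y = y * r • e g) hy (by simp)
    (fun x z h1 h2 => by rw [add_mul, mul_add, h1, h2]) fun s h hh => ?_
  simp only [smul_mul_assoc, mul_smul_comm]
  rw [e_comm g h, sym_eq_zero hg hh, smul_comm r s]
  simp [sg]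

theorem e_anti {g h : G} (H : sym g h = 1) : (e g : A K) * e h = -(e h * e g) := by
  rw [e_comm, H]; simp [sg]

theorem e_commute {g h : G} (H : sym g h = 0) : (e g : A K) * e h = e h * e g := by
  rw [e_comm, H]; simp [sg]

theorem tr_mul_DS {n m : ℕ} {x y : A K} (hx : x ∈ D K n) (hy : y ∈ DS K n m) :
    tr (x * y) = tr x * tr y := by
  rw [tr, co_mul x y 0 hx, Finset.sum_eq_single 0]
  · simp [c, chi_zero_left]
  · intro g hg h0
    rw [add_zero, hy g fun H => h0 (eq_zero_of_GS hg H), mul_zero, mul_zero]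
  · intro h; exact absurd (zero_mem_GS 0 n) h

theorem tr_mul_e {n m : ℕ} {x : A K} (hx : x ∈ D K n) {h : G} (hh : h ∈ GS n m) (h0 : h ≠ 0) :
    tr (x * e h) = 0 := by
  rw [tr_mul_DS hx (e_mem hh), tr_e h0, mul_zero]

theorem DS_span (a b : ℕ) :
    (DS K a b).toSubmodule = Submodule.span K (Set.range fun g : GS a b => (e g : A K)) := by
  refine le_antisymm (fun x hx => ?_) (Submodule.span_le.2 ?_)
  · refine DS.induction (p := fun x => x ∈ Submodule.span K _) hx (zero_mem _)
      (fun _ _ => add_mem) fun r g hg => Submodule.smul_mem _ _ ?_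
    exact Submodule.subset_span ⟨⟨g, hg⟩, rfl⟩
  · rintro _ ⟨g, rfl⟩; exact e_mem g.2

theorem e_indep (S : Finset G) : LinearIndependent K fun g : S => (e g : A K) := by
  classical
  rw [Fintype.linearIndependent_iff]
  intro v hv g
  have := congrArg (co g.1) hv
  simp only [map_sum, map_smul, co_e, smul_eq_mul, mul_ite, mul_one, mul_zero, map_zero,
    ← Subtype.ext_iff] at this
  simpa using this

instance (a b : ℕ) : Module.Finite K (DS K a b).toSubmodule := by
  rw [DS_span]; exact Module.Finite.span_of_finite K (Set.finite_range _)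

instance (a b : ℕ) : Module.Finite K (DS K a b) :=
  inferInstanceAs (Module.Finite K (DS K a b).toSubmodule)

theorem finrank_DS (a b : ℕ) : finrank K (DS K a b).toSubmodule = 4 ^ (b - a) := by
  rw [DS_span, finrank_span_eq_card (e_indep _), Fintype.card_coe, card_GS]

theorem finrank_D (n : ℕ) : finrank K (D K n).toSubmodule = 4 ^ n := finrank_DS 0 n

theorem finite_of_le {n : ℕ} {U : Submodule K (A K)} (h : U ≤ (D K n).toSubmodule) :
    Module.Finite K U := Submodule.finiteDimensional_of_le h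

/-- Projection onto level `n`. -/
def pj (n : ℕ) : A K →ₗ[K] A K := lift fun g => if g ∈ GS 0 n then e g else 0

theorem pj_e (n : ℕ) (g : G) : pj n (e g : A K) = if g ∈ GS 0 n then e g else 0 := lift_e _ _

theorem pj_mem (n : ℕ) (x : A K) : pj n x ∈ D K n := by
  induction x using A.induction with
  | h0 => simp
  | hadd x y hx hy => rw [map_add]; exact add_mem hx hy
  | he r g =>
    rw [map_smul, pj_e]
    split_ifs with h
    · exact Subalgebra.smul_mem _ (e_mem h) _
    · simp

theorem pj_of_mem {n : ℕ} {x : A K} (hx : x ∈ D K n) : pj n x = x :=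
  DS.induction (p := fun x => pj n x = x) hx (by simp)
    (fun x y h1 h2 => by rw [map_add, h1, h2]) fun r g hg => by rw [map_smul, pj_e, if_pos hg]

theorem pj_mul_left {n : ℕ} {a : A K} (ha : a ∈ D K n) (x : A K) : pj n (a * x) = a * pj n x := by
  refine DS.induction (p := fun a => pj n (a * x) = a * pj n x) ha (by simp)
    (fun x y h1 h2 => by rw [add_mul, map_add, h1, h2, add_mul]) fun r g hg => ?_
  induction x using A.induction with
  | h0 => simp
  | hadd x y hx hy => simp only [mul_add, map_add, hx, hy]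
  | he s h =>
    simp only [smul_mul_assoc, mul_smul_comm, e_mul_e, map_smul, pj_e]
    by_cases H : h ∈ GS 0 n
    · rw [if_pos H, if_pos (add_mem_GS hg H), e_mul_e]
    · rw [if_neg H, if_neg fun H' => H (by simpa [G.add_add] using add_mem_GS hg H')]; simp

theorem pj_mul_right {n : ℕ} {a : A K} (ha : a ∈ D K n) (x : A K) : pj n (x * a) = pj n x * a := by
  refine DS.induction (p := fun a => pj n (x * a) = pj n x * a) ha (by simp)
    (fun x y h1 h2 => by rw [mul_add, map_add, h1, h2, mul_add]) fun r g hg => ?_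
  induction x using A.induction with
  | h0 => simp
  | hadd x y hx hy => simp only [add_mul, map_add, hx, hy]
  | he s h =>
    simp only [smul_mul_assoc, mul_smul_comm, e_mul_e, map_smul, pj_e]
    by_cases H : h ∈ GS 0 n
    · rw [if_pos H, if_pos (add_mem_GS H hg), e_mul_e]
    · rw [if_neg H, if_neg fun H' => H (by
        simpa [add_comm h g, G.add_add] using add_mem_GS hg H')]; simp

theorem tr_pj (n : ℕ) (x : A K) : tr (pj n x) = tr x := by
  induction x using A.induction with
  | h0 => simp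
  | hadd x y hx hy => simp only [map_add, hx, hy]
  | he s h =>
    simp only [map_smul, pj_e]
    split_ifs with H
    · rfl
    · rw [tr_e (g := h) fun H' => H (by rw [H']; exact zero_mem_GS 0 n), map_zero]

theorem tr_pj_mul {n : ℕ} {a : A K} (ha : a ∈ D K n) (x : A K) : tr (pj n x * a) = tr (x * a) := by
  rw [← pj_mul_right ha, tr_pj]

/-- The component of `x` along `e h` over level `n`. -/
def cp (n : ℕ) (h : G) : A K →ₗ[K] A K := pj n ∘ₗ LinearMap.mulRight K (ei h)

theorem cp_apply (n : ℕ) (h : G) (x : A K) : cp n h x = pj n (x * ei h) := rfl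

theorem cp_mem (n : ℕ) (h : G) (x : A K) : cp n h x ∈ D K n := pj_mem _ _

theorem cp_mul_left {n : ℕ} (h : G) {a : A K} (ha : a ∈ D K n) (x : A K) :
    cp n h (a * x) = a * cp n h x := by
  rw [cp_apply, mul_assoc, pj_mul_left ha, cp_apply]

theorem cp_mul_right {n m : ℕ} {h : G} (hh : h ∈ GS n m) {a : A K} (ha : a ∈ D K n) (x : A K) :
    cp n h (x * a) = cp n h x * a := by
  rw [cp_apply, mul_assoc, comm_DS ha (ei_mem hh), ← mul_assoc, pj_mul_right ha, cp_apply]

open Classical in
theorem cp_e {n m : ℕ} {h k : G} (hh : h ∈ GS n m) (hk : k ∈ GS n m) :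
    cp n h (e k : A K) = if k = h then 1 else 0 := by
  rw [cp_apply]
  split_ifs with H
  · rw [H, e_mul_ei, pj_of_mem (one_mem _)]
  · rw [ei, mul_smul_comm, e_mul_e, map_smul, map_smul, pj_e, if_neg, smul_zero, smul_zero]
    intro H'
    exact H (G.add_eq_zero.1 (eq_zero_of_GS H' (add_mem_GS hk hh)))

open Classical in
theorem cp_mul_e {n m : ℕ} {h k : G} (hh : h ∈ GS n m) (hk : k ∈ GS n m) {a : A K}
    (ha : a ∈ D K n) : cp n h (a * e k) = if k = h then a else 0 := by
  rw [cp_mul_left h ha, cp_e hh hk]; split_ifs <;> simp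

theorem cp_sum {n m : ℕ} {h : G} (hh : h ∈ GS n m) {a : G → A K}
    (ha : ∀ k ∈ GS n m, a k ∈ D K n) : cp n h (∑ k ∈ GS n m, a k * e k) = a h := by
  classical
  rw [map_sum, Finset.sum_congr rfl fun k hk => cp_mul_e hh hk (ha k hk), Finset.sum_ite_eq',
    if_pos hh]

theorem sum_cp (n : ℕ) {m : ℕ} {x : A K} (hx : x ∈ D K m) :
    x = ∑ h ∈ GS n m, cp n h x * e h := by
  classical
  refine DS.induction (p := fun x => x = ∑ h ∈ GS n m, cp n h x * e h) hx (by simp)
    (fun x y h1 h2 => ?_) fun r g hg => ?_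
  · simp only [map_add, add_mul, Finset.sum_add_distrib]; rw [← h1, ← h2]
  · obtain ⟨g1, h1, g2, h2, rfl⟩ := split_GS (n := n) hg
    have : (r • e (g1 + g2) : A K) = ((r * (c K g1 g2)⁻¹) • e g1) * e g2 := by
      rw [smul_mul_assoc, e_mul_e, smul_smul, mul_assoc, inv_mul_cancel₀ (c_ne_zero _ _), mul_one]
    rw [this, Finset.sum_congr rfl fun h hh => by
      rw [cp_mul_e hh h2 (Subalgebra.smul_mem _ (e_mem h1) _)]]
    simp only [ite_mul, zero_mul]
    rw [Finset.sum_ite_eq, if_pos h2]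

theorem eq_zero_of_cp (n : ℕ) {m : ℕ} {x : A K} (hx : x ∈ D K m)
    (h : ∀ g ∈ GS n m, cp n g x = 0) : x = 0 := by
  rw [sum_cp n hx]
  exact Finset.sum_eq_zero fun g hg => by rw [h g hg, zero_mul]

theorem mem_D_of_cp {n m : ℕ} {x : A K} (hx : x ∈ D K m)
    (h : ∀ g ∈ GS n m, g ≠ 0 → cp n g x = 0) : x ∈ D K n := by
  rw [sum_cp n hx]
  refine Subalgebra.sum_mem _ fun g hg => ?_
  by_cases H : g = 0
  · rw [H, e_zero, mul_one]; exact cp_mem _ _ _
  · rw [h g hg H, zero_mul]; exact zero_mem _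

theorem tr_cp_mul {n m : ℕ} {h : G} (hh : h ∈ GS n m) {a : A K} (ha : a ∈ D K n) (x : A K) :
    tr (cp n h x * a) = tr (x * (a * ei h)) := by
  rw [cp_apply, tr_pj_mul ha, mul_assoc, comm_DS ha (ei_mem hh)]

theorem eq_zero_of_tr {a b : ℕ} {x : A K} (hx : x ∈ DS K a b)
    (h : ∀ y ∈ DS K a b, tr (x * y) = 0) : x = 0 := by
  refine A.ext' fun g => ?_
  rw [map_zero]
  by_cases hg : g ∈ GS a b
  · rw [← tr_mul_ei, h _ (ei_mem hg)]
  · exact hx g hg

/-- An element commuting with the generators of the factors `n, …, m-1` lies in level `n`. -/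
theorem mem_D_of_comm {n m : ℕ} {x : A K} (hx : x ∈ D K m)
    (h : ∀ g ∈ GS n m, x * e g = e g * x) : x ∈ D K n := by
  have := charZero K
  intro g hg
  by_cases hm : g ∈ GS 0 m
  swap
  · exact hx g hm
  obtain ⟨k, hk, hk0⟩ : ∃ k, 2 * n ≤ k ∧ g k ≠ 0 := by
    by_contra H
    push Not at H
    exact hg (mem_GS.2 fun k hk => H k (by omega))
  have hkm : k < 2 * m := by
    by_contra H
    exact hk0 (mem_GS.1 hm k (by omega))
  obtain ⟨g0, h0, hs⟩ := exists_sym hk hkm hk0
  have e1 : tr (ei g * x) = tr (ei g0 * (ei g * x) * e g0) := by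
    rw [tr_comm _ (e g0), ← mul_assoc, e_mul_ei, one_mul]
  have e2 : (ei g : A K) * e g0 = -(e g0 * ei g) := by
    rw [ei, smul_mul_assoc, mul_smul_comm, e_anti (g := g) (by rw [sym_comm, hs]), smul_neg]
  rw [mul_assoc, mul_assoc, h g0 h0, ← mul_assoc (ei g), e2, neg_mul, mul_neg, mul_assoc,
    ← mul_assoc, ei_mul_e, one_mul, map_neg, tr_ei_mul] at e1
  linear_combination e1 / 2

theorem avg {n : ℕ} {a : A K} (ha : a ∈ D K n) :
    ∑ g ∈ GS 0 n, e g * a * ei g = ((4 : K) ^ n * tr a) • 1 := by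
  have := charZero K
  refine DS.induction (p := fun a => ∑ g ∈ GS 0 n, e g * a * ei g = ((4 : K) ^ n * tr a) • 1) ha
    (by simp) (fun x y h1 h2 => ?_) fun r h hh => ?_
  · simp only [mul_add, add_mul, Finset.sum_add_distrib, h1, h2, map_add, add_smul]
  have key : ∀ g, (e g * (r • e h) * ei g : A K) = ((sg (sym g h) : ℤ) : K) • r • e h := by
    intro g
    rw [mul_smul_comm, e_comm g h, smul_mul_assoc, smul_mul_assoc, mul_assoc, e_mul_ei, mul_one,
      smul_comm]
  simp only [key, ← Finset.sum_smul]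
  by_cases h0 : h = 0
  · subst h0
    have : ∀ g, sym g 0 = 0 := fun g => by simp [sym, beta_zero_left, beta_zero_right]
    simp [this, sg, card_GS, e_zero, tr_one, mul_smul]
  · obtain ⟨k, hk⟩ : ∃ k, h k ≠ 0 := by
      by_contra H
      push Not at H
      exact h0 (Finsupp.ext H)
    have hkm : k < 2 * n := by
      by_contra H
      exact hk (mem_GS.1 hh k (by omega))
    obtain ⟨g0, hg0, hs⟩ := exists_sym (a := 0) (Nat.zero_le _) hkm hk
    have : ∑ g ∈ GS 0 n, ((sg (sym g h) : ℤ) : K) = 0 := by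
      refine Finset.sum_involution (fun g _ => g0 + g) (fun g _ => ?_) (fun g _ _ H => ?_)
        (fun g hg => add_mem_GS hg0 hg) fun g _ => G.add_add _ _
      · rw [sym_add_left, hs, sg_add, show sg 1 = -1 by decide]; simp
      · rw [add_eq_right.1 H] at hs
        simp [sym, beta_zero_left, beta_zero_right] at hs
    rw [this, map_smul, tr_e h0]; simp

theorem avg' {n : ℕ} {a : A K} (ha : a ∈ D K n) :
    ∑ g ∈ GS 0 n, ei g * a * e g = ((4 : K) ^ n * tr a) • 1 := by
  rw [← avg ha]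
  refine Finset.sum_congr rfl fun g _ => ?_
  simp only [ei, smul_mul_assoc, mul_smul_comm]

/-- The first generator of the factor `n`. -/
def gi (n : ℕ) : G := Finsupp.single (2 * n) 1

/-- The second generator of the factor `n`. -/
def gj (n : ℕ) : G := Finsupp.single (2 * n + 1) 1

theorem gi_mem (n : ℕ) : gi n ∈ GS n (n + 1) := single_mem_GS le_rfl (by omega)

theorem gj_mem (n : ℕ) : gj n ∈ GS n (n + 1) := single_mem_GS (by omega) (by omega)

theorem gij_mem (n : ℕ) : gi n + gj n ∈ GS n (n + 1) := add_mem_GS (gi_mem n) (gj_mem n)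

theorem gi_ne_zero (n : ℕ) : gi n ≠ 0 := by simp [gi]

theorem gj_ne_zero (n : ℕ) : gj n ≠ 0 := by simp [gj]

theorem gi_ne_gj (n : ℕ) : gi n ≠ gj n := fun h => by
  simpa [gi, gj] using DFunLike.congr_fun h (2 * n)

theorem gij_ne_zero (n : ℕ) : gi n + gj n ≠ 0 := fun h => gi_ne_gj n (G.add_eq_zero.1 h)

theorem gij_ne_gi (n : ℕ) : gi n + gj n ≠ gi n := fun h => gj_ne_zero n (add_eq_left.1 h)

theorem gij_ne_gj (n : ℕ) : gi n + gj n ≠ gj n := fun h => gi_ne_zero n (add_eq_right.1 h)

theorem sym_gi_gj (n : ℕ) : sym (gi n) (gj n) = 1 := by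
  rw [gi, sym_single, mate, if_pos (by omega), gj, Finsupp.single_eq_same]

theorem GS_succ {n : ℕ} {g : G} (hg : g ∈ GS n (n + 1)) :
    g = 0 ∨ g = gi n ∨ g = gj n ∨ g = gi n + gj n := by
  have key : g = Finsupp.single (2 * n) (g (2 * n)) + Finsupp.single (2 * n + 1) (g (2 * n + 1)) := by
    ext k
    simp only [Finsupp.add_apply, Finsupp.single_apply]
    split_ifs with h1 h2 h2
    · omega
    · simp [h1]
    · simp [h2]
    · rw [mem_GS.1 hg k (by omega), add_zero]
  have h2 : ∀ x : ZMod 2, x = 0 ∨ x = 1 := by decide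
  rcases h2 (g (2 * n)) with h | h <;> rcases h2 (g (2 * n + 1)) with h' | h' <;>
    rw [h, h'] at key <;> simp [key, gi, gj]

theorem e_gi_gj (n : ℕ) : (e (gj n) : A K) * e (gi n) = -(e (gi n) * e (gj n)) :=
  e_anti (by rw [sym_comm, sym_gi_gj])

theorem e_sq (g : G) : (e g : A K) * e g = c K g g • 1 := by
  rw [e_mul_e, G.add_self, e_zero]

/-- The twisted group algebra over `K` has no zero divisors. -/
class Dom (K : Type) [Field K] [Algebra K0 K] : Prop where
  out : ∀ x y : A K, x * y = 0 → x = 0 ∨ y = 0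

theorem isUnit_of_ne_zero [Dom K] {x : A K} (hx : x ≠ 0) : IsUnit x := by
  have : NoZeroDivisors (A K) := ⟨Dom.out _ _⟩
  have : IsDomain (A K) := NoZeroDivisors.to_isDomain _
  obtain ⟨n, hn⟩ := exists_D x
  have : IsUnit (⟨x, hn⟩ : D K n) := by
    have hi : IsIntegral K (⟨x, hn⟩ : D K n) := Algebra.IsIntegral.isIntegral _
    exact hi.isUnit fun h => hx (congrArg Subtype.val h)
  exact this.map (D K n).val

instance [Dom K] : DivisionRing (A K) :=
  DivisionRing.ofIsUnitOrEqZero fun x => by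
    by_cases h : x = 0
    · exact Or.inr h
    · exact Or.inl (isUnit_of_ne_zero h)

theorem inv_mem_of_finite [Dom K] {B : Subalgebra K (A K)}
    [Module.Finite K B] {x : A K} (hx : x ∈ B) : x⁻¹ ∈ B := by
  have hi : IsIntegral K (⟨x, hx⟩ : B) := Algebra.IsIntegral.isIntegral _
  exact IsIntegral.inv_mem (hi.map B.val) hx

theorem inv_mem_of_le [Dom K] {n : ℕ} {B : Subalgebra K (A K)} (hB : B ≤ D K n)
    {x : A K} (hx : x ∈ B) : x⁻¹ ∈ B := by
  have : Module.Finite K B := finite_of_le (U := B.toSubmodule) hB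
  exact inv_mem_of_finite hx

theorem eq_smul_one {x : A K} (hx : x ∈ D K 0) : x = tr x • 1 := by
  have := avg hx
  rw [show GS 0 0 = {0} from Finset.eq_singleton_iff_unique_mem.2
    ⟨zero_mem_GS 0 0, fun g hg => eq_zero_of_GS hg hg⟩] at this
  simpa [e_zero, ei_zero] using this

theorem comm_of_D0 {x : A K} (hx : x ∈ D K 0) (y : A K) : x * y = y * x := by
  rw [eq_smul_one hx]; simp

end

end Vale.Agent.P199
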