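import Mathlib

/-! Linear algebra lemmas. -/

namespace Vale.Agent.P199

open Finset Module

variable {K X Y Z : Type*} [Field K] [AddCommGroup X] [Module K X] [AddCommGroup Y] [Module K Y]
  [AddCommGroup Z] [Module K Z]

/-- The left radical of a pairing restricted to `U × V`. -/
def lrad (B : X →ₗ[K] Y →ₗ[K] K) (U : Submodule K X) (V : Submodule K Y) : Submodule K X where
  carrier := {x | x ∈ U ∧ ∀ y ∈ V, B x y = 0}
  add_mem' hx hy := ⟨add_mem hx.1 hy.1, fun y h => by simp [hx.2 y h, hy.2 y h]⟩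
  zero_mem' := ⟨zero_mem _, fun y _ => by simp⟩
  smul_mem' r x hx := ⟨U.smul_mem r hx.1, fun y h => by simp [hx.2 y h]⟩

theorem mem_lrad {B : X →ₗ[K] Y →ₗ[K] K} {U : Submodule K X} {V : Submodule K Y} {x : X} :
    x ∈ lrad B U V ↔ x ∈ U ∧ ∀ y ∈ V, B x y = 0 := Iff.rfl

theorem lrad_le (B : X →ₗ[K] Y →ₗ[K] K) (U : Submodule K X) (V : Submodule K Y) :
    lrad B U V ≤ U := fun _ h => h.1

/-- The pairing has rank at least `R` on `U × V`. -/
def RkGe (B : X →ₗ[K] Y →ₗ[K] K) (U : Submodule K X) (V : Submodule K Y) (R : ℕ) : Prop :=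
  finrank K (lrad B U V) + R ≤ finrank K U

theorem RkGe.mono {B : X →ₗ[K] Y →ₗ[K] K} {U : Submodule K X} {V : Submodule K Y} {R R' : ℕ}
    (h : RkGe B U V R) (h' : R' ≤ R) : RkGe B U V R' := by
  unfold RkGe at *; omega

theorem finrank_ker_map_aux (φ : X →ₗ[K] Y) (S : Submodule K X) [Module.Finite K S] :
    finrank K (S ⊓ LinearMap.ker φ : Submodule K X) + finrank K (S.map φ) = finrank K S := by
  have h := LinearMap.finrank_range_add_finrank_ker (φ.domRestrict S)
  rw [LinearMap.range_domRestrict, LinearMap.ker_domRestrict] at h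
  have h2 := Submodule.finrank_map_subtype_eq S ((LinearMap.ker φ).comap S.subtype)
  rw [Submodule.map_comap_subtype] at h2
  omega

theorem compl_aux {W U : Submodule K X} [Module.Finite K U] (h : W ≤ U) :
    ∃ U1 : Submodule K X, U1 ≤ U ∧ Disjoint U1 W ∧ finrank K U1 + finrank K W = finrank K U := by
  obtain ⟨W', hW⟩ := W.exists_isCompl
  have h1 : W' ⊓ U ≤ U := inf_le_right
  have hd : Disjoint (W' ⊓ U) W := hW.disjoint.symm.mono_left inf_le_left
  refine ⟨W' ⊓ U, h1, hd, ?_⟩
  have := Submodule.finiteDimensional_of_le h1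
  have := Submodule.finiteDimensional_of_le h
  have e := Submodule.finrank_sup_add_finrank_inf_eq (W' ⊓ U) W
  have e2 : W' ⊓ U ⊔ W = U := by
    rw [sup_comm, ← sup_inf_assoc_of_le _ h, hW.sup_eq_top, top_inf_eq]
  rw [e2, hd.eq_bot, finrank_bot] at e
  omega

theorem disj_aux {W W' U : Submodule K X} [Module.Finite K U] (h : W ≤ U) (h' : W' ≤ U)
    (hd : Disjoint W W') : finrank K W + finrank K W' ≤ finrank K U := by
  have := Submodule.finiteDimensional_of_le h
  have := Submodule.finiteDimensional_of_le h'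
  have e := Submodule.finrank_sup_add_finrank_inf_eq W W'
  rw [hd.eq_bot, finrank_bot] at e
  have := Submodule.finrank_mono (sup_le h h')
  omega

theorem codim (φ : X →ₗ[K] Y) (S : Submodule K X) (T T' : Submodule K Y) [Module.Finite K S]
    [Module.Finite K T] (h : ∀ x ∈ S, φ x ∈ T) (h' : T' ≤ T) :
    finrank K S + finrank K T' ≤ finrank K (S ⊓ T'.comap φ : Submodule K X) + finrank K T := by
  have e1 := finrank_ker_map_aux (T'.mkQ ∘ₗ φ) S
  have e2 := finrank_ker_map_aux T'.mkQ T
  rw [LinearMap.ker_comp, Submodule.ker_mkQ] at e1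
  rw [Submodule.ker_mkQ, inf_eq_right.2 h'] at e2
  have e3 : S.map (T'.mkQ ∘ₗ φ) ≤ T.map T'.mkQ := by
    rintro _ ⟨x, hx, rfl⟩
    exact ⟨φ x, h x hx, rfl⟩
  have := Submodule.finrank_mono e3
  omega

theorem finrank_ker_map (φ : X →ₗ[K] Y) (S : Submodule K X) [Module.Finite K S] :
    finrank K (S ⊓ LinearMap.ker φ : Submodule K X) + finrank K (S.map φ) = finrank K S := by
  exact finrank_ker_map_aux φ S

theorem finrank_map_codim (φ : X →ₗ[K] Y) {S S' : Submodule K X} [Module.Finite K S]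
    (h : S' ≤ S) : finrank K (S.map φ) + finrank K S' ≤ finrank K (S'.map φ) + finrank K S := by
  have := Submodule.finiteDimensional_of_le h
  have e1 := finrank_ker_map φ S
  have e2 := finrank_ker_map φ S'
  have : Module.Finite K (S ⊓ LinearMap.ker φ : Submodule K X) :=
    Submodule.finiteDimensional_of_le inf_le_left
  have := Submodule.finrank_mono (inf_le_inf_right (LinearMap.ker φ) h)
  omega

/-- The pairing as a map to the dual of `V`. -/
def toD_aux (B : X →ₗ[K] Y →ₗ[K] K) (V : Submodule K Y) : X →ₗ[K] Module.Dual K V :=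
  (B.flip.domRestrict V).flip

theorem toD_aux_apply (B : X →ₗ[K] Y →ₗ[K] K) (V : Submodule K Y) (x : X) (y : V) :
    toD_aux B V x y = B x y := rfl

theorem lrad_eq_aux (B : X →ₗ[K] Y →ₗ[K] K) (U : Submodule K X) (V : Submodule K Y) :
    lrad B U V = U ⊓ LinearMap.ker (toD_aux B V) := by
  ext x
  simp only [mem_lrad, Submodule.mem_inf, LinearMap.mem_ker]
  refine and_congr_right fun _ => ⟨fun h => LinearMap.ext fun y => h y y.2, fun h y hy => ?_⟩
  exact LinearMap.congr_fun h ⟨y, hy⟩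

theorem rk_aux (B : X →ₗ[K] Y →ₗ[K] K) (U : Submodule K X) (V : Submodule K Y)
    [Module.Finite K U] :
    finrank K (lrad B U V) + finrank K (U.map (toD_aux B V)) = finrank K U := by
  rw [lrad_eq_aux]; exact finrank_ker_map _ _

theorem rk_flip_aux (B : X →ₗ[K] Y →ₗ[K] K) (U : Submodule K X) (V : Submodule K Y)
    [Module.Finite K U] [Module.Finite K V] :
    finrank K (U.map (toD_aux B V)) = finrank K (V.map (toD_aux B.flip U)) := by
  rw [← LinearMap.range_domRestrict, ← LinearMap.range_domRestrict,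
    ← LinearMap.finrank_range_dualMap_eq_finrank_range ((toD_aux B V).domRestrict U)]
  have e : (toD_aux B.flip U).domRestrict V =
      ((toD_aux B V).domRestrict U).dualMap ∘ₗ Module.Dual.eval K V := by
    ext y x; rfl
  rw [e, LinearMap.range_comp_of_range_eq_top]
  exact LinearMap.range_eq_top.2 (Module.bijective_dual_eval K V).2

theorem lrad_flip (B : X →ₗ[K] Y →ₗ[K] K) (U : Submodule K X) (V : Submodule K Y)
    [Module.Finite K U] [Module.Finite K V] :
    finrank K U + finrank K (lrad B.flip V U) = finrank K V + finrank K (lrad B U V) := by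
  have e1 := rk_aux B U V
  have e2 := rk_aux B.flip V U
  have e3 := rk_flip_aux B U V
  omega

theorem solve (B : X →ₗ[K] Y →ₗ[K] K) (U : Submodule K X) (V : Submodule K Y)
    [Module.Finite K U] (φ : X →ₗ[K] K) (h : ∀ x ∈ lrad B U V, φ x = 0) :
    ∃ y ∈ V, ∀ x ∈ U, B x y = φ x := by
  have e := Subspace.dualCoannihilator_dualAnnihilator_eq (W := V.map (toD_aux B.flip U))
  have hm : φ.domRestrict U ∈ V.map (toD_aux B.flip U) := by
    rw [← e, Submodule.mem_dualAnnihilator]
    intro x hx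
    rw [Submodule.mem_dualCoannihilator] at hx
    exact h x ⟨x.2, fun y hy => hx _ ⟨y, hy, rfl⟩⟩
  obtain ⟨y, hy, hy'⟩ := hm
  exact ⟨y, hy, fun x hx => LinearMap.congr_fun hy' ⟨x, hx⟩⟩

theorem RkGe.sub {B : X →ₗ[K] Y →ₗ[K] K} {U U' : Submodule K X} {V V' : Submodule K Y}
    [Module.Finite K U] [Module.Finite K V] {R a b : ℕ} (h : RkGe B U V (R + a + b))
    (hU : U' ≤ U) (hV : V' ≤ V) (ha : finrank K U ≤ finrank K U' + a)
    (hb : finrank K V ≤ finrank K V' + b) : RkGe B U' V' R := by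
  have := Submodule.finiteDimensional_of_le hU
  have := Submodule.finiteDimensional_of_le hV
  unfold RkGe at *
  have e1 := rk_aux B U V
  have e2 := finrank_map_codim (toD_aux B V) hU
  have e3 := rk_flip_aux B U' V
  have e4 := finrank_map_codim (toD_aux B.flip U') hV
  have e5 := rk_flip_aux B U' V'
  have e6 := rk_aux B U' V'
  omega

theorem RkGe.family {B : X →ₗ[K] Y →ₗ[K] K} {U : Submodule K X} {V : Submodule K Y}
    [Module.Finite K U] {R : ℕ} (h : RkGe B U V R) :
    ∃ (x : Fin R → X) (y : Fin R → Y), (∀ i, x i ∈ U) ∧ (∀ j, y j ∈ V) ∧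
      ∀ i j, B (x i) (y j) = if i = j then 1 else 0 := by
  obtain ⟨U1, h1, hd, hf⟩ := compl_aux (lrad_le B U V)
  have := Submodule.finiteDimensional_of_le h1
  have hR : R ≤ finrank K U1 := by unfold RkGe at h; omega
  let b := Module.finBasis K U1
  have key : ∀ j : Fin (finrank K U1), ∃ y ∈ V, ∀ i, B (b i) y = if i = j then 1 else 0 := by
    intro j
    obtain ⟨φ, hφ⟩ := LinearMap.exists_extend (b.coord j)
    obtain ⟨y, hy, hy'⟩ := solve B U1 V φ fun x hx => by
      have : x = 0 := (Submodule.disjoint_def.1 hd) x hx.1 ⟨h1 hx.1, hx.2⟩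
      rw [this, map_zero]
    refine ⟨y, hy, fun i => ?_⟩
    rw [hy' _ (b i).2]
    have := LinearMap.congr_fun hφ (b i)
    simp only [LinearMap.comp_apply, Submodule.subtype_apply, Basis.coord_apply, Basis.repr_self,
      Finsupp.single_apply] at this
    exact this
  choose y hy hy' using key
  refine ⟨fun i => b (Fin.castLE hR i), fun j => y (Fin.castLE hR j), fun i => h1 (b _).2,
    fun j => hy _, fun i j => ?_⟩
  rw [hy']
  simp only [(Fin.castLE_injective hR).eq_iff]

theorem RkGe.of_family {B : X →ₗ[K] Y →ₗ[K] K} {U : Submodule K X} {V : Submodule K Y}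
    [Module.Finite K U] {R : ℕ} (x : Fin R → X) (y : Fin R → Y) (hx : ∀ i, x i ∈ U)
    (hy : ∀ j, y j ∈ V) (h : ∀ a : Fin R → K, (∀ j, ∑ i, a i * B (x i) (y j) = 0) → a = 0) :
    RkGe B U V R := by
  let L : (Fin R → K) →ₗ[K] X := Fintype.linearCombination K x
  have hL : ∀ a, L a = ∑ i, a i • x i := fun a => Fintype.linearCombination_apply K x a
  have key : ∀ a, (∀ y ∈ V, B (L a) y = 0) → a = 0 := fun a ha => h a fun j => by
    have := ha _ (hy j)
    rw [hL] at this
    simpa [LinearMap.sum_apply] using this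
  have hinj : Function.Injective L := by
    rw [← LinearMap.ker_eq_bot, LinearMap.ker_eq_bot']
    intro a ha
    exact key a fun y _ => by simp [ha]
  have e1 := LinearMap.finrank_range_of_inj hinj
  rw [Module.finrank_fin_fun] at e1
  have h1 : LinearMap.range L ≤ U := by
    rintro _ ⟨a, rfl⟩
    rw [hL]
    exact Submodule.sum_mem _ fun i _ => U.smul_mem _ (hx i)
  have hd : Disjoint (lrad B U V) (LinearMap.range L) := by
    rw [Submodule.disjoint_def]
    rintro _ h2 ⟨a, rfl⟩
    rw [key a h2.2, map_zero]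
  have := disj_aux (lrad_le B U V) h1 hd
  unfold RkGe
  omega

theorem pencil_aux (S T : X →ₗ[K] Y) (U : Submodule K X) [Module.Finite K U]
    (hd : Disjoint U (LinearMap.ker S)) :
    {t : K | ¬ Disjoint U (LinearMap.ker (S + t • T))}.Finite := by
  obtain ⟨r, hr⟩ := LinearMap.exists_leftInverse_of_injective (S.domRestrict U) (by
    rw [LinearMap.ker_eq_bot']
    intro x hx
    exact Subtype.ext (Submodule.disjoint_def.1 hd x x.2 hx))
  let E : Module.End K U := r ∘ₗ T.domRestrict U
  refine ((Module.End.finite_hasEigenvalue E).image fun μ => -μ⁻¹).subset fun t ht => ?_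
  simp only [Set.mem_ofPred_eq, Submodule.disjoint_def] at ht
  push Not at ht
  obtain ⟨x, hx, h0, hne⟩ := ht
  have h1 : S x + t • T x = 0 := h0
  have h2 : (⟨x, hx⟩ : U) + t • E ⟨x, hx⟩ = 0 := by
    have := congrArg r h1
    rw [map_add, map_smul, map_zero] at this
    have e : r (S x) = ⟨x, hx⟩ := LinearMap.congr_fun hr ⟨x, hx⟩
    rw [e] at this
    exact this
  have hne' : (⟨x, hx⟩ : U) ≠ 0 := fun h => hne (congrArg Subtype.val h)
  have ht : t ≠ 0 := by
    rintro rfl
    rw [zero_smul, add_zero] at h2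
    exact hne' h2
  refine ⟨-t⁻¹, ?_, by simp⟩
  refine Module.End.hasEigenvalue_of_hasEigenvector (x := ⟨x, hx⟩) ⟨?_, hne'⟩
  rw [Module.End.mem_eigenspace_iff]
  have : t • E ⟨x, hx⟩ = -⟨x, hx⟩ := eq_neg_of_add_eq_zero_right h2
  rw [neg_smul, ← smul_neg, ← this, smul_smul, inv_mul_cancel₀ ht, one_smul]

theorem pencil (S T : X →ₗ[K] Y) (U : Submodule K X) [Module.Finite K U] :
    {t : K | finrank K (U ⊓ LinearMap.ker S : Submodule K X) <
      finrank K (U ⊓ LinearMap.ker (S + t • T) : Submodule K X)}.Finite := by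
  obtain ⟨U1, h1, hd, hf⟩ := compl_aux (inf_le_left : U ⊓ LinearMap.ker S ≤ U)
  have := Submodule.finiteDimensional_of_le h1
  have hd' : Disjoint U1 (LinearMap.ker S) :=
    Submodule.disjoint_def.2 fun x hx h0 => Submodule.disjoint_def.1 hd x hx ⟨h1 hx, h0⟩
  refine (pencil_aux S T U1 hd').subset fun t ht hc => ?_
  have := disj_aux h1 (inf_le_left : U ⊓ LinearMap.ker (S + t • T) ≤ U)
    (hc.mono_right inf_le_right)
  simp only [Set.mem_ofPred_eq] at ht
  omega

theorem maxrank (S T : X →ₗ[K] Y) (U : Submodule K X) [Module.Finite K U]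
    (h : {t : K | finrank K (U ⊓ LinearMap.ker S : Submodule K X) ≤
      finrank K (U ⊓ LinearMap.ker (S + t • T) : Submodule K X)}.Infinite)
    {x : X} (hx : x ∈ U) (h0 : S x = 0) : ∃ y ∈ U, S y = T x := by
  by_contra H
  push Not at H
  obtain ⟨U1, h1, hd, hf⟩ := compl_aux (inf_le_left : U ⊓ LinearMap.ker S ≤ U)
  have := Submodule.finiteDimensional_of_le h1
  have hd' : Disjoint U1 (LinearMap.ker S) :=
    Submodule.disjoint_def.2 fun x hx h0 => Submodule.disjoint_def.1 hd x hx ⟨h1 hx, h0⟩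
  have hx0 : x ≠ 0 := by
    rintro rfl
    exact H 0 (zero_mem _) (by simp)
  let S' : U1 × K →ₗ[K] Y := (S.domRestrict U1).coprod (LinearMap.toSpanSingleton K Y (T x))
  let T' : U1 × K →ₗ[K] Y := T.domRestrict U1 ∘ₗ LinearMap.fst K U1 K
  have hS' : ∀ u s, S' (u, s) = S u + s • T x := fun _ _ => rfl
  have hT' : ∀ u s, T' (u, s) = T u := fun _ _ => rfl
  have hd2 : Disjoint (⊤ : Submodule K (U1 × K)) (LinearMap.ker S') := by
    rw [Submodule.disjoint_def]
    rintro ⟨u, s⟩ - h2
    rw [LinearMap.mem_ker, hS'] at h2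
    have hs : s = 0 := by
      by_contra hs
      refine H (-s⁻¹ • (u : X)) (U.smul_mem _ (h1 u.2)) ?_
      rw [map_smul, eq_neg_of_add_eq_zero_left h2, smul_neg, neg_smul, neg_neg, smul_smul,
        inv_mul_cancel₀ hs, one_smul]
    rw [hs, zero_smul, add_zero] at h2
    have : u = 0 := Subtype.ext (Submodule.disjoint_def.1 hd' u u.2 h2)
    rw [this, hs]; rfl
  refine h (((pencil_aux S' T' ⊤ hd2).union (Set.finite_singleton 0)).subset fun t ht => ?_)
  by_contra hc
  simp only [Set.mem_union, Set.mem_ofPred_eq, Set.mem_singleton_iff, not_or, not_not] at hc ht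
  obtain ⟨hc, ht0⟩ := hc
  have hd3 : Disjoint (U1 ⊔ K ∙ x) (U ⊓ LinearMap.ker (S + t • T)) := by
    rw [Submodule.disjoint_def]
    intro z hz hz'
    obtain ⟨u, hu, w, hw, rfl⟩ := Submodule.mem_sup.1 hz
    obtain ⟨s, rfl⟩ := Submodule.mem_span_singleton.1 hw
    have h3 : (S + t • T) (u + s • x) = 0 := hz'.2
    have h4 : ((⟨u, hu⟩, s * t) : U1 × K) = 0 := by
      refine Submodule.disjoint_def.1 hc _ trivial ?_
      rw [LinearMap.mem_ker, LinearMap.add_apply, LinearMap.smul_apply, hS', hT', ← h3]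
      simp only [LinearMap.add_apply, LinearMap.smul_apply, map_add, map_smul, h0, mul_smul]
      module
    have h5 : u = 0 := congrArg (fun p : U1 × K => (p.1 : X)) h4
    have h6 : s * t = 0 := congrArg Prod.snd h4
    rw [h5, (mul_eq_zero.1 h6).resolve_right ht0]; simp
  have h7 : U1 ⊔ K ∙ x ≤ U := sup_le h1 ((Submodule.span_singleton_le_iff_mem _ _).2 hx)
  have e1 := disj_aux h7 inf_le_left hd3
  have := Submodule.finiteDimensional_of_le h7
  have e2 := disj_aux (le_sup_left : U1 ≤ U1 ⊔ K ∙ x) le_sup_right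
    (hd'.mono_right ((Submodule.span_singleton_le_iff_mem _ _).2 h0))
  rw [finrank_span_singleton hx0] at e2
  omega

theorem finrank_le_card {ι : Type*} (O : Submodule K X) (T : Finset ι) (φ : ι → X →ₗ[K] K)
    (h : ∀ c ∈ O, (∀ t ∈ T, φ t c = 0) → c = 0) : finrank K O ≤ T.card := by
  let L : O →ₗ[K] (T → K) := LinearMap.pi fun t => (φ t).domRestrict O
  have hinj : Function.Injective L := by
    rw [← LinearMap.ker_eq_bot, LinearMap.ker_eq_bot']
    intro c hc
    exact Subtype.ext (h c c.2 fun t ht => congrFun hc ⟨t, ht⟩)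
  simpa using LinearMap.finrank_le_finrank_of_injective hinj

theorem exists_subset {ι : Type*} (O : Submodule K X) [Module.Finite K O] (T : Finset ι)
    (φ : ι → X →ₗ[K] K) (h : ∀ c ∈ O, (∀ t ∈ T, φ t c = 0) → c = 0) :
    ∃ T' ⊆ T, T'.card ≤ finrank K O ∧ ∀ c ∈ O, (∀ t ∈ T', φ t c = 0) → c = 0 := by
  classical
  induction hn : finrank K O using Nat.strong_induction_on generalizing O with
  | _ n ih =>
  by_cases hO : ∀ c ∈ O, c = 0
  · exact ⟨∅, Finset.empty_subset _, by simp, fun c hc _ => hO c hc⟩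
  push Not at hO
  obtain ⟨c, hc, hc0⟩ := hO
  obtain ⟨t, ht, ht0⟩ : ∃ t ∈ T, φ t c ≠ 0 := by
    by_contra H
    push Not at H
    exact hc0 (h c hc H)
  have hlt : O ⊓ LinearMap.ker (φ t) < O :=
    lt_of_le_of_ne inf_le_left fun e => ht0 (e.ge hc).2
  have := Submodule.finiteDimensional_of_le hlt.le
  have hlt' := Submodule.finrank_lt_finrank_of_lt hlt
  obtain ⟨T', h1, h2, h3⟩ := ih _ (hn ▸ hlt') (O ⊓ LinearMap.ker (φ t))
    (fun c hc => h c hc.1) rfl
  refine ⟨insert t T', Finset.insert_subset ht h1, ?_, fun c hc H => ?_⟩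
  · have := Finset.card_insert_le t T'
    omega
  · exact h3 c ⟨hc, H t (Finset.mem_insert_self _ _)⟩ fun s hs => H s (Finset.mem_insert_of_mem hs)

theorem eq_zero_of_tight {ι : Type*} (O : Submodule K X) (T : Finset ι) (φ : ι → X →ₗ[K] K)
    (h : ∀ c ∈ O, (∀ t ∈ T, φ t c = 0) → c = 0) (hT : T.card ≤ finrank K O) (a : ι → K)
    (ha : ∀ c ∈ O, ∑ t ∈ T, a t * φ t c = 0) : ∀ t ∈ T, a t = 0 := by
  classical
  intro t ht
  by_contra H
  have := finrank_le_card O (T.erase t) φ fun c hc h0 => h c hc fun s hs => by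
    by_cases e : s = t
    · have h1 := ha c hc
      rw [← Finset.add_sum_erase T _ ht, Finset.sum_eq_zero fun s hs => by rw [h0 s hs, mul_zero],
        add_zero] at h1
      rw [e]; exact (mul_eq_zero.1 h1).resolve_left H
    · exact h0 s (Finset.mem_erase.2 ⟨e, hs⟩)
  have := Finset.card_erase_lt_of_mem ht
  omega

end Vale.Agent.P199
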