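import Vale.Agent.P199.LinAlg

/-! Selection lemmas. -/

namespace Vale.Agent.P199

open Finset Module

variable {K X Y : Type*} [Field K] [AddCommGroup X] [Module K X] [AddCommGroup Y] [Module K Y]

theorem exists_min_aux {α : Type*} (s : Set α) (hs : s.Nonempty) (f : α → ℕ) :
    ∃ a ∈ s, ∀ b ∈ s, f a ≤ f b :=
  ⟨Function.argminOn f s hs, Function.argminOn_mem f s hs, fun _ hb =>
    Function.argminOn_le f s hb⟩

theorem sel_aux [Infinite K] (Ω : X →ₗ[K] Y →ₗ[K] Y →ₗ[K] K) (O : Submodule K X)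
    (U : Submodule K Y) [Module.Finite K O] [Module.Finite K U]
    (rk : ∀ c ∈ O, c ≠ 0 → RkGe (Ω c) U U (finrank K O)) (p0 : Y) :
    ∃ p, p - p0 ∈ U ∧ ∀ c ∈ O, (∀ v ∈ U, Ω c p v = 0) → c = 0 := by
  let φ : Y → X →ₗ[K] Module.Dual K U := fun p => toD_aux (Ω.flip p) U
  have hφ : ∀ p q (t : K), φ (p + t • q) = φ p + t • φ q := fun p q t => by
    ext c v
    simp [φ, toD_aux_apply]
  obtain ⟨p1, h1, hmin⟩ := exists_min_aux (U : Set Y) ⟨0, zero_mem U⟩
    fun p => finrank K (O ⊓ LinearMap.ker (φ p) : Submodule K X)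
  have hd : Disjoint O (LinearMap.ker (φ p1)) := by
    rw [Submodule.disjoint_def]
    intro c hc h0
    by_contra hc0
    have hle : U.map (toD_aux (Ω c) U) ≤ O.map (φ p1) := by
      rintro _ ⟨p2, h2, rfl⟩
      obtain ⟨y, hy, hy'⟩ := maxrank (φ p1) (φ p2) O (by
        refine Set.infinite_univ.mono fun t _ => ?_
        have := hmin (p1 + t • p2) (add_mem h1 (U.smul_mem t h2))
        rwa [hφ] at this) hc h0
      exact ⟨y, hy, hy'⟩
    have e1 := Submodule.finrank_mono hle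
    have e2 := finrank_ker_map (φ p1) O
    have e3 := rk_aux (Ω c) U U
    have e4 := rk c hc hc0
    have : Module.Finite K (O ⊓ LinearMap.ker (φ p1) : Submodule K X) :=
      Submodule.finiteDimensional_of_le inf_le_left
    have e5 : 0 < finrank K (O ⊓ LinearMap.ker (φ p1) : Submodule K X) :=
      Module.finrank_pos_iff_exists_ne_zero.2 ⟨⟨c, hc, h0⟩, fun h => hc0 (congrArg Subtype.val h)⟩
    unfold RkGe at e4
    omega
  obtain ⟨t, ht⟩ := ((pencil_aux (φ p1) (φ p0) O hd).union (Set.finite_singleton 0)).exists_notMem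
  simp only [Set.mem_union, Set.mem_ofPred_eq, Set.mem_singleton_iff, not_or, not_not] at ht
  refine ⟨p0 + t⁻¹ • p1, by simpa using U.smul_mem _ h1, fun c hc h => ?_⟩
  refine Submodule.disjoint_def.1 ht.1 c hc (LinearMap.ext fun v => ?_)
  have h2 := h v v.2
  simp only [map_add, map_smul, LinearMap.add_apply, LinearMap.smul_apply, smul_eq_mul] at h2
  have h3 : ((φ p1 + t • φ p0) c) v = Ω c p1 v + t * Ω c p0 v := rfl
  rw [h3, LinearMap.zero_apply]
  have h4 := mul_inv_cancel₀ ht.2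
  linear_combination t * h2 - Ω c p1 v * h4

theorem sel [Infinite K] (Ω : X →ₗ[K] Y →ₗ[K] Y →ₗ[K] K) (O : Submodule K X)
    (V V1 : Submodule K Y) [Module.Finite K O] [Module.Finite K V] (h1 : V1 ≤ V) {ρ : ℕ}
    (hρ : finrank K V ≤ finrank K V1 + ρ)
    (rk : ∀ c ∈ O, c ≠ 0 → RkGe (Ω c) V V (3 * finrank K O + 2 * ρ)) (p0 p0' : Y) :
    ∃ p p', p - p0 ∈ V1 ∧ p' - p0' ∈ V1 ∧ (∀ c ∈ O, Ω c p p' = 0) ∧
      ∀ c ∈ O, ∀ c' ∈ O, (∀ v ∈ V1, Ω c p v + Ω c' p' v = 0) → c = 0 ∧ c' = 0 := by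
  have := Submodule.finiteDimensional_of_le h1
  obtain ⟨p, hp, hp'⟩ := sel_aux Ω O V1 (fun c hc h0 =>
    (RkGe.sub (R := 3 * finrank K O) (a := ρ) (b := ρ) ((rk c hc h0).mono (by omega)) h1 h1
      hρ hρ).mono (by omega)) p0
  have hl : ∀ c ∈ lrad (Ω.flip p) O V1, c = 0 := fun c hc => hp' c hc.1 hc.2
  have h2 : lrad (Ω.flip p).flip V1 O ≤ V1 := lrad_le _ _ _
  have := Submodule.finiteDimensional_of_le h2
  have e1 := lrad_flip (Ω.flip p) O V1
  obtain ⟨y, hy, hy'⟩ := solve (Ω.flip p) O V1 ((Ω.flip p).flip p0') fun c hc => by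
    rw [hl c hc, map_zero]
  have e2 : finrank K V ≤ finrank K (lrad (Ω.flip p).flip V1 O) + (finrank K O + ρ) := by omega
  obtain ⟨p', hq, hq'⟩ := sel_aux Ω O (lrad (Ω.flip p).flip V1 O) (fun c hc h0 =>
    RkGe.sub ((rk c hc h0).mono (by omega)) (h2.trans h1) (h2.trans h1) e2 e2) (p0' - y)
  refine ⟨p, p', hp, ?_, fun c hc => ?_, fun c hc c' hc' h => ?_⟩
  · have := sub_mem hq.1 hy
    rwa [show p' - (p0' - y) - y = p' - p0' by abel] at this
  · have h3 : Ω c p (p' - (p0' - y)) = 0 := hq.2 c hc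
    have h4 : Ω c p y = Ω c p p0' := hy' c hc
    simp only [map_sub] at h3
    linear_combination h3 - h4
  · have h3 : c' = 0 := hq' c' hc' fun v hv => by
      have h4 : Ω c p v = 0 := hv.2 c hc
      have := h v hv.1
      rwa [h4, zero_add] at this
    refine ⟨hp' c hc fun v hv => ?_, h3⟩
    simpa [h3] using h v hv

section

variable {R : Type*} [DivisionRing R] [Algebra K R]

/-- Elements of `Λ` mapped into `Λ` by `z`. -/
def kk_aux (Λ : Submodule K R) (z : R) : Submodule K R := Λ ⊓ Λ.comap (LinearMap.mulLeft K z)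

theorem mem_kk_aux {Λ : Submodule K R} {z x : R} : x ∈ kk_aux Λ z ↔ x ∈ Λ ∧ z * x ∈ Λ := Iff.rfl

theorem kk_le_aux (Λ : Submodule K R) (z : R) : kk_aux Λ z ≤ Λ := inf_le_left

theorem kk_eq_aux (Λ : Submodule K R) (z : R) :
    Λ ⊓ LinearMap.ker (Λ.mkQ ∘ₗ LinearMap.mulLeft K z) = kk_aux Λ z := by
  rw [LinearMap.ker_comp, Submodule.ker_mkQ]; rfl

theorem kk_dim_aux (Λ : Submodule K R) [Module.Finite K Λ] (z : R) :
    finrank K (Λ ⊔ Λ.map (LinearMap.mulLeft K z) : Submodule K R) + finrank K (kk_aux Λ z) =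
      2 * finrank K Λ := by
  have e1 := finrank_ker_map Λ.mkQ (Λ ⊔ Λ.map (LinearMap.mulLeft K z))
  have e2 := finrank_ker_map (Λ.mkQ ∘ₗ LinearMap.mulLeft K z) Λ
  rw [Submodule.ker_mkQ, inf_eq_right.2 le_sup_left, Submodule.map_sup, Submodule.mkQ_map_self,
    bot_sup_eq, ← Submodule.map_comp] at e1
  rw [kk_eq_aux] at e2
  omega

theorem kk_max_aux [Infinite K] (Λ W : Submodule K R) [Module.Finite K Λ] :
    ∃ θ ∈ W, (∀ z ∈ W, finrank K (kk_aux Λ θ) ≤ finrank K (kk_aux Λ z)) ∧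
      ∀ z ∈ W, ∀ x ∈ kk_aux Λ θ, z * x ∈ Λ ⊔ Λ.map (LinearMap.mulLeft K θ) := by
  obtain ⟨θ, h1, hmin⟩ := exists_min_aux (W : Set R) ⟨0, zero_mem W⟩
    fun z => finrank K (kk_aux Λ z)
  refine ⟨θ, h1, hmin, fun z hz x hx => ?_⟩
  obtain ⟨y, hy, hy'⟩ := maxrank (Λ.mkQ ∘ₗ LinearMap.mulLeft K θ)
    (Λ.mkQ ∘ₗ LinearMap.mulLeft K z) Λ (by
      refine Set.infinite_univ.mono fun t _ => ?_
      have e : Λ.mkQ ∘ₗ LinearMap.mulLeft K θ + t • Λ.mkQ ∘ₗ LinearMap.mulLeft K z =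
          Λ.mkQ ∘ₗ LinearMap.mulLeft K (θ + t • z) := by
        ext w
        simp [add_mul]
      rw [Set.mem_ofPred_eq, e, kk_eq_aux, kk_eq_aux]
      exact hmin _ (add_mem h1 (W.smul_mem t hz))) hx.1
    ((Submodule.Quotient.mk_eq_zero Λ).2 hx.2)
  have h2 : θ * y - z * x ∈ Λ := (Submodule.Quotient.eq Λ).1 hy'
  rw [show z * x = -(θ * y - z * x) + θ * y by abel]
  exact Submodule.add_mem_sup (neg_mem h2) ⟨y, hy, rfl⟩

theorem kk_add_aux (Λ : Submodule K R) [Module.Finite K Λ] (z w : R) :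
    finrank K (kk_aux Λ z) + finrank K (kk_aux Λ w) ≤
      finrank K (kk_aux Λ (z + w)) + finrank K Λ := by
  have := Submodule.finiteDimensional_of_le (kk_le_aux Λ z)
  have := Submodule.finiteDimensional_of_le (kk_le_aux Λ w)
  have := Submodule.finiteDimensional_of_le (kk_le_aux Λ (z + w))
  have e1 := Submodule.finrank_sup_add_finrank_inf_eq (kk_aux Λ z) (kk_aux Λ w)
  have e2 := Submodule.finrank_mono (sup_le (kk_le_aux Λ z) (kk_le_aux Λ w))
  have e3 : kk_aux Λ z ⊓ kk_aux Λ w ≤ kk_aux Λ (z + w) := fun x hx =>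
    mem_kk_aux.2 ⟨hx.1.1, by
      rw [add_mul]; exact add_mem (mem_kk_aux.1 hx.1).2 (mem_kk_aux.1 hx.2).2⟩
  have := Submodule.finrank_mono e3
  omega

theorem kk_mul_aux (Λ : Submodule K R) [Module.Finite K Λ] (z w : R) :
    finrank K (kk_aux Λ z) + finrank K (kk_aux Λ w) ≤
      finrank K (kk_aux Λ (z * w)) + finrank K Λ := by
  have := Submodule.finiteDimensional_of_le (kk_le_aux Λ w)
  have := Submodule.finiteDimensional_of_le (kk_le_aux Λ (z * w))
  have e1 := codim (LinearMap.mulLeft K w) (kk_aux Λ w) Λ (kk_aux Λ z) (fun x hx => hx.2)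
    (kk_le_aux Λ z)
  have e3 : kk_aux Λ w ⊓ (kk_aux Λ z).comap (LinearMap.mulLeft K w) ≤ kk_aux Λ (z * w) :=
    fun x hx => mem_kk_aux.2 ⟨hx.1.1, by rw [mul_assoc]; exact (mem_kk_aux.1 hx.2).2⟩
  have := Submodule.finrank_mono e3
  omega

theorem kk_inv_aux (Λ : Submodule K R) [Module.Finite K Λ] {z : R} (hz : z ≠ 0) :
    finrank K (kk_aux Λ z) ≤ finrank K (kk_aux Λ z⁻¹) := by
  have := Submodule.finiteDimensional_of_le (kk_le_aux Λ z)
  have := Submodule.finiteDimensional_of_le (kk_le_aux Λ z⁻¹)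
  have e1 := finrank_ker_map (LinearMap.mulLeft K z) (kk_aux Λ z)
  have e2 : LinearMap.ker (LinearMap.mulLeft K z) = ⊥ :=
    LinearMap.ker_eq_bot'.2 fun x hx => (mul_eq_zero.1 hx).resolve_left hz
  rw [e2, inf_bot_eq, finrank_bot] at e1
  have e3 : (kk_aux Λ z).map (LinearMap.mulLeft K z) ≤ kk_aux Λ z⁻¹ := by
    rintro _ ⟨x, hx, rfl⟩
    refine mem_kk_aux.2 ⟨hx.2, ?_⟩
    rw [LinearMap.mulLeft_apply, inv_mul_cancel_left₀ hz]
    exact hx.1
  have := Submodule.finrank_mono e3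
  omega

theorem exists_ne_aux {W : Submodule K R} (h : 0 < finrank K W) : ∃ x ∈ W, x ≠ 0 := by
  by_contra H
  push Not at H
  rw [(Submodule.eq_bot_iff W).2 H, finrank_bot] at h
  exact lt_irrefl _ h

end

/-- A subspace of a field which generates it either fills it up after one step, or grows. -/
theorem approx_subfield [Infinite K] {R : Type*} [DivisionRing R] [Algebra K R]
    (L : Subalgebra K R) [Module.Finite K L] (hc : ∀ x ∈ L, ∀ y ∈ L, x * y = y * x)
    (Λ : Submodule K R) (h1 : (1 : R) ∈ Λ) (hg : Algebra.adjoin K (Λ : Set R) = L) :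
    ∃ θ ∈ Λ, Λ ⊔ Λ.map (LinearMap.mulLeft K θ) = L.toSubmodule ∨
      (3 * finrank K Λ < 2 * finrank K L ∧
        5 * finrank K Λ ≤ 4 * finrank K (Λ ⊔ Λ.map (LinearMap.mulLeft K θ) : Submodule K R)) := by
  have hΛ : Λ ≤ L.toSubmodule := fun x hx => hg ▸ Algebra.subset_adjoin hx
  have : Module.Finite K L.toSubmodule := inferInstanceAs (Module.Finite K L)
  have eL : finrank K L.toSubmodule = finrank K L := rfl
  have := Submodule.finiteDimensional_of_le hΛ
  obtain ⟨θ, hθ, hmin, hmax⟩ := kk_max_aux Λ Λ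
  refine ⟨θ, hθ, ?_⟩
  by_cases hE : Λ ⊔ Λ.map (LinearMap.mulLeft K θ) = L.toSubmodule
  · exact Or.inl hE
  right
  have hle : Λ ⊔ Λ.map (LinearMap.mulLeft K θ) ≤ L.toSubmodule :=
    sup_le hΛ (by rintro _ ⟨x, hx, rfl⟩; exact L.mul_mem (hΛ hθ) (hΛ hx))
  have hlt := lt_of_le_of_ne hle hE
  have e1 := Submodule.finrank_lt_finrank_of_lt hlt
  have e2 := kk_dim_aux Λ θ
  obtain ⟨v, hv, hv'⟩ := SetLike.exists_of_lt hlt
  obtain ⟨f, hf, hf'⟩ := Submodule.exists_le_ker_of_notMem hv'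
  let B : R →ₗ[K] R →ₗ[K] K := (LinearMap.mul K R).compr₂ f
  have hB : ∀ x y, B x y = f (x * y) := fun _ _ => rfl
  have e3 := lrad_flip B L.toSubmodule Λ
  have e4 : lrad B.flip Λ L.toSubmodule = ⊥ := by
    rw [Submodule.eq_bot_iff]
    intro l hl
    by_contra h0
    have hi : l⁻¹ ∈ L := by
      have hi : IsIntegral K (⟨l, hΛ hl.1⟩ : L) := Algebra.IsIntegral.isIntegral _
      exact IsIntegral.inv_mem (hi.map L.val) (hΛ hl.1)
    have := hl.2 (v * l⁻¹) (L.mul_mem hv hi)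
    rw [LinearMap.flip_apply, hB, inv_mul_cancel_right₀ h0] at this
    exact hf this
  rw [e4, finrank_bot] at e3
  have e5 : kk_aux Λ θ ≤ lrad B L.toSubmodule Λ := fun x hx =>
    ⟨hΛ hx.1, fun y hy => by
      rw [hB, hc x (hΛ hx.1) y (hΛ hy)]
      exact hf' (hmax y hy x hx)⟩
  have := Submodule.finiteDimensional_of_le (lrad_le B L.toSubmodule Λ)
  have e6 := Submodule.finrank_mono e5
  have e7 := Submodule.finrank_mono (kk_le_aux Λ θ)
  refine ⟨by omega, ?_⟩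
  by_contra H
  have hall : ∀ a : K, finrank K (kk_aux Λ (algebraMap K R a)) = finrank K Λ := fun a => by
    have : kk_aux Λ (algebraMap K R a) = Λ := by
      refine le_antisymm (kk_le_aux _ _) fun x hx => mem_kk_aux.2 ⟨hx, ?_⟩
      rw [← Algebra.smul_def]; exact Λ.smul_mem a hx
    rw [this]
  have boot : ∀ z, 0 < finrank K (kk_aux Λ z) →
      2 * finrank K (kk_aux Λ θ) ≤ finrank K (kk_aux Λ z) + finrank K Λ := by
    intro z hz
    obtain ⟨l, hl, hl0⟩ := exists_ne_aux hz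
    have a1 := kk_mul_aux Λ (z * l) l⁻¹
    have a2 := kk_inv_aux Λ hl0
    have a3 := hmin l hl.1
    have a4 := hmin (z * l) hl.2
    rw [mul_inv_cancel_right₀ hl0] at a1
    omega
  have hM : ∀ z ∈ L, 2 * finrank K (kk_aux Λ θ) ≤ finrank K (kk_aux Λ z) + finrank K Λ := by
    intro z hz
    rw [← hg] at hz
    induction hz using Algebra.adjoin_induction with
    | mem x hx => have := hmin x hx; omega
    | algebraMap a => rw [hall]; omega
    | add x y _ _ h1 h2 => have := kk_add_aux Λ x y; exact boot _ (by omega)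
    | mul x y _ _ h1 h2 => have := kk_mul_aux Λ x y; exact boot _ (by omega)
  obtain ⟨z, hz, -, hmax'⟩ := kk_max_aux Λ L.toSubmodule
  have e8 := hM z hz
  have e9 := kk_dim_aux Λ z
  obtain ⟨l, hl, hl0⟩ := exists_ne_aux (W := kk_aux Λ z) (by omega)
  have a1 := finrank_ker_map (LinearMap.mulRight K l) L.toSubmodule
  have a2 : LinearMap.ker (LinearMap.mulRight K l) = ⊥ :=
    LinearMap.ker_eq_bot'.2 fun x hx => (mul_eq_zero.1 hx).resolve_right hl0
  rw [a2, inf_bot_eq, finrank_bot] at a1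
  have a3 : L.toSubmodule.map (LinearMap.mulRight K l) ≤ Λ ⊔ Λ.map (LinearMap.mulLeft K z) := by
    rintro _ ⟨x, hx, rfl⟩
    exact hmax' x hx l hl
  have a4 := Submodule.finrank_mono a3
  omega

end Vale.Agent.P199
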