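import Vale.Agent.P199.Tangent

/-! What is inherited along a move. -/

namespace Vale.Agent.P199

open Finset Module

set_option linter.unusedSectionVars false

variable {K : Type} [Field K] [Algebra K0 K] {S : Sys} {n m : ℕ} {v σ : ℕ → A K}
  {w : ℕ → A (LS K)}

theorem map_XS_auxM {K' : Type} [Field K'] [Algebra K0 K'] (f : K →ₐ[K0] K') {W : Finset ℕ}
    {β : ℕ → A K} (hβ : β ∈ XS K W m) : (fun i => map f (β i)) ∈ XS K' W m :=
  fun i => ⟨map_mem f (hβ i).1, fun h => by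
    show map f (β i) = 0
    rw [(hβ i).2 h, map_zero]⟩

theorem LB_congr_auxM (hS : S.WF) (c : ℕ → A K) {β β' : ℕ → A K} (h : ∀ i < S.N, β i = β' i) :
    LB S v c β = LB S v c β' := by
  rw [LB_apply, LB_apply]
  exact Finset.sum_congr rfl fun j hj => by rw [d1_congr (fun _ _ => rfl) h (hS.F_in j hj)]

theorem single_RA_auxM {K' : Type} [Field K'] [Algebra K0 K'] {f : K →ₐ[K0] K'}
    {P : K' → K → Prop} (hP : IsPlace f P) (t i : ℕ) :
    RA P ((Pi.single t 1 : ℕ → A K') i) ((Pi.single t 1 : ℕ → A K) i) := by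
  by_cases h : i = t
  · subst h
    rw [Pi.single_eq_same, Pi.single_eq_same]
    exact RA.one hP
  · rw [Pi.single_eq_of_ne h, Pi.single_eq_of_ne h]
    exact RA.zero hP

theorem LB_RA {K' : Type} [Field K'] [Algebra K0 K'] {f : K →ₐ[K0] K'} {P : K' → K → Prop}
    (hP : IsPlace f P) (hS : S.WF) {v' c' β' : ℕ → A K'} {c β : ℕ → A K}
    (hv : ∀ i < S.N, RA P (v' i) (v i)) (hc : ∀ j ∈ S.J, RA P (c' j) (c j))
    (hβ : ∀ i < S.N, RA P (β' i) (β i)) : P (LB S v' c' β') (LB S v c β) := by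
  rw [LB_apply, LB_apply]
  exact hP.sum _ fun j hj => ((hc j hj).mul hP (d1_RA hP hv hβ (hS.F_in j hj))).tr

theorem Om_RA {K' : Type} [Field K'] [Algebra K0 K'] {f : K →ₐ[K0] K'} {P : K' → K → Prop}
    (hP : IsPlace f P) (hS : S.WF) {v' c' β' γ' : ℕ → A K'} {c β γ : ℕ → A K}
    (hv : ∀ i < S.N, RA P (v' i) (v i)) (hc : ∀ j ∈ S.J, RA P (c' j) (c j))
    (hβ : ∀ i < S.N, RA P (β' i) (β i)) (hγ : ∀ i < S.N, RA P (γ' i) (γ i)) :
    P (Om S v' c' β' γ') (Om S v c β γ) := by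
  rw [Om_apply, Om_apply]
  exact hP.sum _ fun j hj => ((hc j hj).mul hP (d2_RA hP hv hβ hγ (hS.F_in j hj))).tr

theorem PreMove.LB_eps (hS : S.WF) (hv : IsSt S n v) (hm : PreMove S n v m σ w)
    {c' : ℕ → A (LS K)} {c β : ℕ → A K} (hc : ∀ j ∈ S.J, RA PL (c' j) (c j))
    (hβ : β ∈ VV S m v) :
    PL ((eps K)⁻¹ * LB S w c' fun i => map (io K) (β i)) (Bs S v σ c β) := by
  rw [LB_apply, Bs_apply, Om_apply, Om_apply, ← Finset.sum_add_distrib, Finset.mul_sum]
  refine (plc K).sum _ fun j hj => ?_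
  have h1 := d1_Ld1 hm.ld β (hS.F_in j hj)
  rw [((mem_VV hS fun i hi => D_mono hm.le (hv.mem i hi)).1 hβ).2 j hj, map_zero, sub_zero] at h1
  have h2 := ((Ld_zero_iff.2 (hc j hj)).mul h1).tr
  rwa [zero_add, pow_one, mul_add, map_add] at h2

theorem PreMove.redO (hS : S.WF) (hv : IsSt S n v) (hm : PreMove S n v m σ w)
    {c' : ℕ → A (LS K)} {c : ℕ → A K} (hc' : c' ∈ OO S m w) (hc : RV PL c' c) :
    c ∈ OO S n v ∧ ∀ β ∈ VV S m v, Bs S v σ c β = 0 := by
  have h1 : c ∈ OO S m v := ⟨hc.mem (plc K) hc'.1, fun β hβ => by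
    have := LB_RA (plc K) hS hm.ra (fun j _ => hc j) fun i _ => RA.of (plc K) (β i)
    rw [hc'.2 _ (map_XS_auxM _ hβ)] at this
    exact (plc K).fn this⟩
  have h2 : ∀ β ∈ VV S m v, Bs S v σ c β = 0 := fun β hβ => by
    have := hm.LB_eps hS hv (fun j _ => hc j) hβ
    rw [hc'.2 _ (map_XS_auxM _ hβ.1), mul_zero] at this
    exact (plc K).fn this
  exact ⟨mem_OO_of_XS hm.le h1 (hm.bp c h1 h2), h2⟩

theorem PreMove.redV (hS : S.WF) (hv : IsSt S n v) (hm : PreMove S n v m σ w)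
    {β' : ℕ → A (LS K)} {β : ℕ → A K} (hβ' : β' ∈ VV S m w) (hβ : RV PL β' β) :
    β ∈ VB S m v σ := by
  have h0 : β ∈ XS K S.W m := hβ.mem (plc K) hβ'.1
  have h1 : β ∈ VV S m v := ⟨h0, fun c hc => by
    have := LB_RA (plc K) hS hm.ra (fun j _ => RA.of (plc K) (c j)) fun i _ => hβ i
    rw [show LB S w (fun j => map (io K) (c j)) β' = 0 from hβ'.2 _ (map_XS_auxM _ hc)] at this
    exact (plc K).fn this⟩
  refine ⟨h1, fun c hc => ?_⟩
  have h2 : ∀ i, ∃ y, Ld 1 (β' i - map (io K) (β i)) y := fun i => by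
    have := (hβ i).sub (plc K) (RA.of (plc K) (β i))
    rw [sub_self] at this
    exact (Ld_zero_iff.2 this).succ
  choose β1 hβ1 using h2
  have h3 : β1 ∈ XS K S.W m := fun i =>
    ⟨(hβ1 i).mem (sub_mem (hβ'.1 i).1 (map_mem _ (h0 i).1)), fun h => by
      have := hβ1 i
      rw [(hβ'.1 i).2 h, (h0 i).2 h, map_zero, sub_zero] at this
      exact this.unique (Ld.zero 1)⟩
  have h4 := hm.LB_eps hS hv (fun j _ => RA.of (plc K) (c j)) h1
  have h5 := LB_RA (plc K) hS hm.ra (fun j _ => RA.of (plc K) (c j))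
    (β' := (eps K ^ 1)⁻¹ • (β' - fun i => map (io K) (β i))) (β := β1) fun i _ => hβ1 i
  have h6 := (plc K).add h4 h5
  rw [map_smul, map_sub, show LB S w (fun j => map (io K) (c j)) β' = 0 from
    hβ'.2 _ (map_XS_auxM _ hc.1), hc.2 _ h3, pow_one, smul_eq_mul, ← mul_add, add_zero,
    add_sub_cancel, mul_zero] at h6
  exact (plc K).fn h6

theorem PreMove.del_le (hS : S.WF) (hv : IsSt S n v) (hm : PreMove S n v m σ w) :
    del S m w ≤ del S n v := by
  rw [del, ← finrank_redV (plc K) (OO_le S m w)]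
  exact Submodule.finrank_mono fun c ⟨_, hc', h⟩ => (hm.redO hS hv hc' h).1

theorem PreMove.dimV (hS : S.WF) (hv : IsSt S n v) (hm : PreMove S n v m σ w) :
    finrank K (VV S m v) + del S m w =
      finrank (LS K) (VV S m w) + 4 ^ (m - n) * del S n v := by
  have h1 := dim_VV_OO S m v
  have h2 := dim_VV_OO S m w
  have h3 := del_up hS hv.mem hm.le
  omega

theorem Move.good (hS : S.WF) {Y : ℕ} (hg : Good S n v Y) (hm : Move S n v m σ w) :
    Good S m w (4 ^ (m - n) * Y) := by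
  have hv := hg.st
  have hp := hm.toPreMove
  have hd := hp.del_le hS hv
  have hdim := hp.dimV hS hv
  have hU : redV (plc K) (VV S m w) ≤ VV S m v :=
    fun β ⟨_, hβ', h⟩ => (hp.redV hS hv hβ' h).1
  have hUd := finrank_redV (plc K) (VV_le S m w)
  have h4k : del S n v ≤ 4 ^ (m - n) * del S n v := Nat.le_mul_of_pos_left _ (by positivity)
  refine ⟨hm.st, fun c' hc' h => ?_, fun c' hc' h0 => ?_, ?_⟩
  · by_contra h0
    obtain ⟨a, -, y, hy, hay⟩ := RV.norm (plc K) hc'.1 h0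
    refine hy (hg.h1 y (hp.redO hS hv (Submodule.smul_mem _ a hc') hay).1 fun t ht => ?_)
    have := LB_RA (plc K) hS hp.ra (fun j _ => hay j) fun i _ => single_RA_auxM (plc K) t i
    rw [map_smul, LinearMap.smul_apply, h t ht, smul_zero] at this
    exact (plc K).fn this
  · obtain ⟨a, -, c, hc0, hac⟩ := RV.norm (plc K) hc'.1 h0
    have hc := (hp.redO hS hv (Submodule.smul_mem _ a hc') hac).1
    have h1 := rk_up hS hv.mem hm.le hc.1 (hg.h2 c hc hc0)
    have h2 := RkGe.sub (R := 3 * del S m w + 4 ^ (m - n) * Y)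
      (a := 4 ^ (m - n) * del S n v - del S m w) (b := 4 ^ (m - n) * del S n v - del S m w)
      (h1.mono (by rw [mul_add, mul_left_comm]; omega)) hU hU (by omega) (by omega)
    have h3 : redV (plc K) (lrad (om S w c') (VV S m w) (VV S m w))
        ≤ lrad (om S v c) (redV (plc K) (VV S m w)) (redV (plc K) (VV S m w)) := by
      rintro x ⟨x', hx', hx⟩
      refine ⟨⟨x', hx'.1, hx⟩, fun y ⟨y', hy', hy⟩ => ?_⟩
      have := (plc K).sub
        (Om_RA (plc K) hS hp.ra (fun j _ => hac j) (fun i _ => hx i) fun i _ => hy i)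
        (Om_RA (plc K) hS hp.ra (fun j _ => hac j) (fun i _ => hy i) fun i _ => hx i)
      rw [← om_apply, map_smul, LinearMap.smul_apply, LinearMap.smul_apply, hx'.2 y' hy',
        smul_zero] at this
      exact (plc K).fn this
    have : Module.Finite K (lrad (om S v c) (redV (plc K) (VV S m w)) (redV (plc K) (VV S m w))) :=
      Submodule.finiteDimensional_of_le ((lrad_le _ _ _).trans hU)
    have h4 := Submodule.finrank_mono h3
    rw [finrank_redV (plc K) ((lrad_le _ _ _).trans (VV_le S m w))] at h4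
    unfold RkGe at h2 ⊢
    omega
  · have h1 := (Nat.mul_le_mul_left _ hg.h4).trans (msk_up hS hv.mem hm.le {0, 1})
    have h2 := finrank_map_codim (msk {0, 1}) hU
    have h5 : (VV S m w).map (msk {0, 1}) ≤ XS (LS K) {0, 1} m := by
      rintro _ ⟨β, hβ, rfl⟩
      exact msk_XS_auxT hβ.1
    have h3 : (redV (plc K) (VV S m w)).map (msk {0, 1})
        ≤ redV (plc K) ((VV S m w).map (msk {0, 1})) := by
      rintro _ ⟨β, ⟨β', hβ', h⟩, rfl⟩
      refine ⟨_, ⟨β', hβ', rfl⟩, fun i => ?_⟩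
      rw [msk_apply, msk_apply]
      split_ifs
      · exact h i
      · exact RA.zero (plc K)
    have : Module.Finite K (redV (plc K) ((VV S m w).map (msk {0, 1}))) :=
      Submodule.finiteDimensional_of_le (redV_le _ h5)
    have h4 := Submodule.finrank_mono h3
    rw [finrank_redV (plc K) h5] at h4
    rw [mul_add, mul_add, ← pow_add, Nat.sub_add_cancel hm.le, mul_left_comm] at h1
    omega

theorem PreMove.tightO (hS : S.WF) (hv : IsSt S n v) (hm : PreMove S n v m σ w)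
    (ht : del S n v ≤ del S m w) : ∀ c ∈ OO S n v, ∀ β ∈ VV S m v, Bs S v σ c β = 0 := by
  have h1 : P199.redV (plc K) (OO S m w) = OO S n v :=
    Submodule.eq_of_le_of_finrank_le (fun c ⟨_, hc', h⟩ => (hm.redO hS hv hc' h).1)
      (by rw [finrank_redV (plc K) (OO_le S m w)]; exact ht)
  intro c hc
  obtain ⟨c', hc', h⟩ : c ∈ P199.redV (plc K) (OO S m w) := h1 ▸ hc
  exact (hm.redO hS hv hc' h).2

theorem PreMove.tightV (hS : S.WF) (hv : IsSt S n v) (hm : PreMove S n v m σ w)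
    (ht : del S n v ≤ del S m w) {β : ℕ → A K} (hβ : β ∈ VB S m v σ) :
    ∃ β' ∈ VV S m w, RV PL β' β := by
  have h0 := lrad_flip (Bs S v σ) (OO S m v) (VV S m v)
  have h2 : finrank K (lrad (Bs S v σ) (OO S m v) (VV S m v)) ≤ del S n v :=
    Submodule.finrank_mono fun c hc => mem_OO_of_XS hm.le hc.1 (hm.bp c hc.1 hc.2)
  have h3 := hm.dimV hS hv
  have h4 := del_up hS hv.mem hm.le
  have h1 : P199.redV (plc K) (VV S m w) = VB S m v σ :=
    Submodule.eq_of_le_of_finrank_le (fun c ⟨_, hc', h⟩ => hm.redV hS hv hc' h) (by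
      rw [finrank_redV (plc K) (VV_le S m w)]
      unfold del at h2 h3 h4 ht
      unfold VB
      omega)
  rw [← h1] at hβ
  exact hβ

theorem PreMove.adjust (hS : S.WF) (hv : IsSt S n v) (hm : PreMove S n v m σ w)
    (ht : del S n v ≤ del S m w) {U : Submodule K (ℕ → A K)} (hU : U ≤ VV S m v)
    (hb : BP S n m v σ U) {β : ℕ → A K} (hβ : β ∈ VV S m v) :
    ∃ β1 ∈ U, β + β1 ∈ VB S m v σ := by
  obtain ⟨β1, h1, h2⟩ := solve (Bs S v σ) (OO S m v) U (-(Bs S v σ).flip β) fun c hc => by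
    rw [LinearMap.neg_apply, LinearMap.flip_apply,
      hm.tightO hS hv ht c (mem_OO_of_XS hm.le hc.1 (hb c hc.1 hc.2)) β hβ, neg_zero]
  refine ⟨β1, h1, add_mem hβ (hU h1), fun c hc => ?_⟩
  rw [LinearMap.flip_apply, map_add, h2 c hc, LinearMap.neg_apply, LinearMap.flip_apply,
    add_neg_cancel]

theorem msk_dA_auxM (hS : S.WF) (hm : Move S n v m σ w) :
    msk S.W (fun i => dA (w i)) ∈ XS (LS K) S.W m := by
  intro i
  rw [msk_apply]
  split_ifs with H
  · exact ⟨dA_mem (hm.mem i (hS.W_lt i H)), fun H' => absurd H H'⟩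
  · exact ⟨zero_mem _, fun _ => rfl⟩

theorem Move.const (hS : S.WF) (hm : Move S n v m σ w) (h1 : H1 S m w)
    (ht : S.T.card ≤ del S m w) : ∀ i < S.N, i ∉ S.W → w i = map (io K) (v i) := by
  have h2 : ∀ i < S.N, dA (w i) = (msk S.W (fun i => dA (w i))
      + ∑ t ∈ S.T, tr (dA (w t)) • (Pi.single t 1 : ℕ → A (LS K))) i := by
    intro i hi
    rw [Pi.add_apply, Finset.sum_apply, msk_apply]
    simp only [Pi.smul_apply, Pi.single_apply, smul_ite, smul_zero, Finset.sum_ite_eq]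
    by_cases hT : i ∈ S.T
    · rw [if_neg (hS.disj i (hS.T_sub hT)), if_pos hT, zero_add]
      exact eq_smul_one (dA_mem (hm.sc i (hS.T_sub hT)))
    · rw [if_neg hT, add_zero]
      split_ifs with hW
      · rfl
      · rw [hm.cst i hi hW hT, dA_map]
  have h3 := eq_zero_of_tight (OO S m w) S.T (fun t => (LB S w).flip (Pi.single t 1)) h1 ht
    (fun t => tr (dA (w t))) fun c hc => by
      have h4 : LB S w c (fun i => dA (w i)) = 0 := by
        rw [LB_apply]
        exact Finset.sum_eq_zero fun j hj => by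
          rw [← dA_ev, hm.eq j hj, map_zero, mul_zero, map_zero]
      rw [LB_congr_auxM hS c h2, map_add, hc.2 _ (msk_dA_auxM hS hm), zero_add, map_sum] at h4
      simpa only [map_smul, smul_eq_mul, LinearMap.flip_apply] using h4
  intro i hi hW
  by_cases hT : i ∈ S.T
  · refine eq_map_of_dA ?_ (hm.toPreMove.ra i hi)
    rw [eq_smul_one (dA_mem (hm.sc i (hS.T_sub hT))), h3 i hT, zero_smul]
  · exact hm.cst i hi hW hT

theorem Move.dA_tangent (hS : S.WF) (hm : Move S n v m σ w) (h1 : H1 S m w)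
    (ht : S.T.card ≤ del S m w) : ∃ β ∈ VV S m w, ∀ a : Ex, a.In (Set.Iio S.N) →
      dA (ev w a) = d1 w a β := by
  have h2 : ∀ a : Ex, a.In (Set.Iio S.N) →
      dA (ev w a) = d1 w a (msk S.W fun i => dA (w i)) := by
    intro a ha
    rw [dA_ev]
    refine d1_congr (fun _ _ => rfl) (fun i hi => ?_) ha
    rw [msk_apply]
    split_ifs with H
    · rfl
    · rw [hm.const hS h1 ht i hi H, dA_map]
  refine ⟨_, (mem_VV hS hm.mem).2 ⟨msk_dA_auxM hS hm, fun j hj => ?_⟩, h2⟩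
  rw [← h2 _ (hS.F_in j hj), hm.eq j hj, map_zero]

variable [Dom K]

/-- The eigenvalues of `a` vary to first order. -/
def Act (S : Sys) (n : ℕ) (v : ℕ → A K) (a : Ex) : Prop :=
  ∃ y ∈ gen (ev v a), ∃ β ∈ VV S n v, tr (y * d1 v a β) ≠ 0

theorem Move.poly (hS : S.WF) (hm : Move S n v m σ w) (h1 : H1 S m w)
    (ht : S.T.card ≤ del S m w) {a : Ex} (ha : a.In (Set.Iio S.N)) (hna : ¬ Act S m w a) {r : ℕ}
    {κ : ℕ → K} (h : ev v a ^ r + ∑ l ∈ range r, κ l • ev v a ^ l = 0) :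
    ev w a ^ r + ∑ l ∈ range r, io K (κ l) • ev w a ^ l = 0 := by
  obtain ⟨β, hβ, hd⟩ := hm.dA_tangent hS h1 ht
  have h2 : ∀ y ∈ gen (ev w a), tr (y * dA (ev w a)) = 0 := fun y hy => by
    rw [hd a ha]
    exact by_contra fun H => hna ⟨y, hy, β, hβ, H⟩
  have h3 : ∀ k : ℕ, ∀ y ∈ gen (ev w a), tr (y * dA (ev w a ^ k)) = 0 := by
    intro k
    induction k with
    | zero =>
      intro y _
      rw [pow_zero, ← map_one (map (io K)), dA_map, mul_zero, map_zero]
    | succ k ih =>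
      intro y hy
      rw [pow_succ, dA_mul, mul_add, map_add, ← mul_assoc, tr_comm, ← mul_assoc,
        ih _ (mul_mem (mem_gen _) hy), ← mul_assoc,
        h2 _ (mul_mem hy (pow_mem (mem_gen _) k)), add_zero]
  have h4 : ∀ k : ℕ, tr (ev w a ^ k) = io K (tr (ev v a ^ k)) := fun k => by
    refine eq_io_of_dS ?_ ((ev_RA (plc K) hm.toPreMove.ra ha).pow (plc K) k).tr
    rw [← tr_dA, ← one_mul (dA _)]
    exact h3 k 1 (one_mem _)
  refine nondeg (B := gen (ev w a)) (gen_le (ev_mem (B := D (LS K) m) hm.mem ha))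
    (add_mem (pow_mem (mem_gen _) r) (Subalgebra.sum_mem _ fun l _ =>
      Subalgebra.smul_mem _ (pow_mem (mem_gen _) l) _)) fun y hy => ?_
  rw [gen, Algebra.adjoin_singleton_eq_range_aeval] at hy
  obtain ⟨q, rfl⟩ := hy
  rw [AlgHom.toRingHom_eq_coe, RingHom.coe_coe, Polynomial.aeval_eq_sum_range, Finset.sum_mul,
    map_sum]
  refine Finset.sum_eq_zero fun k _ => ?_
  have h5 := congrArg (fun x => io K (tr (ev v a ^ k * x))) h
  simp only [mul_add, Finset.mul_sum, mul_smul_comm, ← pow_add, map_add, map_sum, map_smul,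
    smul_eq_mul, map_mul, mul_zero, map_zero] at h5
  rw [smul_mul_assoc, map_smul]
  simp only [mul_add, Finset.mul_sum, mul_smul_comm, ← pow_add, map_add, map_sum, map_smul,
    smul_eq_mul, h4]
  rw [← Finset.mul_sum, ← mul_add, h5, mul_zero]

theorem PreMove.act (hS : S.WF) (hm : PreMove S n v m σ w) {a : Ex} (ha : a.In (Set.Iio S.N))
    {β' : ℕ → A (LS K)} {β : ℕ → A K} (hβ' : β' ∈ VV S m w) (hβ : RV PL β' β) {y : A K}
    (hy : y ∈ gen (ev v a)) (h : tr (y * d1 v a β) ≠ 0) : Act S m w a := by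
  have _ := hS
  obtain ⟨y', hy', H⟩ : y ∈ redS (plc K) (gen (ev w a)) :=
    gen_le (B := redS (plc K) (gen (ev w a))) ⟨_, mem_gen _, ev_RA (plc K) hm.ra ha⟩ hy
  refine ⟨y', hy', β', hβ', fun h0 => h ?_⟩
  have := (H.mul (plc K) (d1_RA (plc K) hm.ra (fun i _ => hβ i) ha)).tr
  rw [h0] at this
  exact (plc K).fn this

theorem PreMove.finrank_adjoin (hS : S.WF) (hm : PreMove S n v m σ w) :
    finrank K (Algebra.adjoin K ({v 0, v 1} : Set (A K))) ≤
      finrank (LS K) (Algebra.adjoin (LS K) ({w 0, w 1} : Set (A (LS K)))) := by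
  have h0 := hS.W_lt 0 hS.zero_mem
  have h1 := hS.W_lt 1 hS.one_mem
  have h2 : Algebra.adjoin (LS K) ({w 0, w 1} : Set (A (LS K))) ≤ D (LS K) m :=
    Algebra.adjoin_le (Set.insert_subset (hm.mem 0 h0) (Set.singleton_subset_iff.2 (hm.mem 1 h1)))
  rw [← finrank_redS (plc K) h2]
  refine finrank_mono (redS_le _ h2) (Algebra.adjoin_le (Set.insert_subset ?_
    (Set.singleton_subset_iff.2 ?_)))
  · exact ⟨w 0, Algebra.subset_adjoin (by simp), hm.ra 0 h0⟩
  · exact ⟨w 1, Algebra.subset_adjoin (by simp), hm.ra 1 h1⟩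

end Vale.Agent.P199
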