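import Vale.Agent.P199.Move

/-! Existence of moves. -/

namespace Vale.Agent.P199

open Finset Module

set_option linter.unusedSectionVars false

variable {K : Type} [Field K] [Algebra K0 K] {S : Sys} {n m : ℕ} {v σ : ℕ → A K}
  {w : ℕ → A (LS K)}

/-- Admissible corrections. -/
def YT_auxN (K : Type) [Field K] [Algebra K0 K] (S : Sys) (m : ℕ) : Submodule K (ℕ → A K) where
  carrier := {y | ∀ i, y i ∈ D K m ∧ (i ∈ S.Sc → y i ∈ D K 0) ∧ (i ∉ S.W → i ∉ S.T → y i = 0)}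
  add_mem' hx hy i := ⟨add_mem (hx i).1 (hy i).1, fun h => add_mem ((hx i).2.1 h) ((hy i).2.1 h),
    fun h h' => by rw [Pi.add_apply, (hx i).2.2 h h', (hy i).2.2 h h', add_zero]⟩
  zero_mem' _ := ⟨zero_mem _, fun _ => zero_mem _, fun _ _ => rfl⟩
  smul_mem' r x hx i := ⟨Subalgebra.smul_mem _ (hx i).1 r,
    fun h => Subalgebra.smul_mem _ ((hx i).2.1 h) r,
    fun h h' => by rw [Pi.smul_apply, (hx i).2.2 h h', smul_zero]⟩

theorem XS_YT_auxN (hS : S.WF) {β : ℕ → A K} (hβ : β ∈ XS K S.W m) : β ∈ YT_auxN K S m :=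
  fun i => ⟨(hβ i).1, fun h => by rw [(hβ i).2 (hS.disj i h)]; exact zero_mem _,
    fun h _ => (hβ i).2 h⟩

theorem single_YT_auxN {t : ℕ} (ht : t ∈ S.T) :
    (Pi.single t 1 : ℕ → A K) ∈ YT_auxN K S m := by
  intro i
  by_cases h : i = t
  · subst h
    rw [Pi.single_eq_same]
    exact ⟨one_mem _, fun _ => one_mem _, fun _ h => absurd ht h⟩
  · rw [Pi.single_eq_of_ne h]
    exact ⟨zero_mem _, fun _ => zero_mem _, fun _ _ => rfl⟩

theorem map_YT_auxN {y : ℕ → A K} (hy : y ∈ YT_auxN K S m) :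
    (fun i => map (io K) (y i)) ∈ YT_auxN (LS K) S m :=
  fun i => ⟨map_mem _ (hy i).1, fun h => map_mem _ ((hy i).2.1 h), fun h h' => by
    show map (io K) (y i) = 0
    rw [(hy i).2.2 h h', map_zero]⟩

/-- Pairing with a fixed vector. -/
noncomputable def phi_auxN (J : Finset ℕ) (z : ℕ → A K) : (ℕ → A K) →ₗ[K] K :=
  ∑ j ∈ J, tr ∘ₗ LinearMap.mulRight K (z j) ∘ₗ LinearMap.proj j

theorem phi_apply_auxN (J : Finset ℕ) (z c : ℕ → A K) :
    phi_auxN J z c = ∑ j ∈ J, tr (c j * z j) := by simp [phi_auxN]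

theorem eq_of_phi_auxN {J : Finset ℕ} {x z : ℕ → A K} (hx : ∀ j ∈ J, x j ∈ D K m)
    (hz : ∀ j ∈ J, z j ∈ D K m)
    (h : ∀ c ∈ XS K J m, ∑ j ∈ J, tr (c j * x j) = phi_auxN J z c) : ∀ j ∈ J, x j = z j := by
  intro j hj
  refine sub_eq_zero.1 (eq_zero_of_tr (sub_mem (hx j hj) (hz j hj)) fun y hy => ?_)
  have h1 := h _ (single_mem_XS_auxT hj hy)
  have h2 : ∀ u : ℕ → A K, ∑ i ∈ J, tr ((Pi.single j y : ℕ → A K) i * u i) = tr (y * u j) := by
    intro u
    rw [Finset.sum_eq_single_of_mem j hj, Pi.single_eq_same]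
    intro i _ h
    rw [Pi.single_eq_of_ne h, zero_mul, map_zero]
  rw [phi_apply_auxN, h2, h2] at h1
  rw [tr_comm, mul_sub, map_sub, h1, sub_self]

theorem lin0_auxN (hS : S.WF) (hv : ∀ i < S.N, v i ∈ D K m) {z : ℕ → A K}
    (hz : ∀ j ∈ S.J, z j ∈ D K m)
    (hz0 : ∀ c ∈ OO S m v, (∀ t ∈ S.T, LB S v c (Pi.single t 1) = 0) →
      ∑ j ∈ S.J, tr (c j * z j) = 0) :
    ∃ y ∈ YT_auxN K S m, ∀ j ∈ S.J, d1 v (S.F j) y = z j := by
  obtain ⟨y, hy, h⟩ := solve (LB S v) (XS K S.J m) (YT_auxN K S m) (phi_auxN S.J z)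
    fun c hc => by
      rw [phi_apply_auxN]
      exact hz0 c ⟨hc.1, fun β hβ => hc.2 β (XS_YT_auxN hS hβ)⟩
        fun t ht => hc.2 _ (single_YT_auxN ht)
  refine ⟨y, hy, eq_of_phi_auxN (fun j hj => d1_mem (B := D K m) hv (fun i _ => (hy i).1)
    (hS.F_in j hj)) hz fun c hc => ?_⟩
  rw [← h c hc, LB_apply]

theorem Bs_sum_auxN (c β : ℕ → A K) : Bs S v σ c β
    = ∑ j ∈ S.J, tr (c j * (d2 v (S.F j) σ β + d2 v (S.F j) β σ)) := by
  simp only [Bs_apply, Om_apply, mul_add, map_add, Finset.sum_add_distrib]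

theorem lin1_auxN (hS : S.WF) (hv : IsSt S n v) (h1 : H1 S n v) (hp : PreMove S n v m σ w)
    {z : ℕ → A K} (hz : ∀ j ∈ S.J, z j ∈ D K m) :
    ∃ y ∈ YT_auxN K S m, ∃ β ∈ VV S m v, ∀ j ∈ S.J,
      d1 v (S.F j) y + (d2 v (S.F j) σ β + d2 v (S.F j) β σ) = z j := by
  have hv' : ∀ i < S.N, v i ∈ D K m := fun i hi => D_mono hp.le (hv.mem i hi)
  obtain ⟨y, hy, h⟩ := solve (LinearMap.coprod (LB S v).flip (Bs S v σ).flip).flip (XS K S.J m)
    ((YT_auxN K S m).prod (VV S m v)) (phi_auxN S.J z) fun c hc => by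
      have a1 : ∀ y ∈ YT_auxN K S m, LB S v c y = 0 := fun y hy => by
        simpa using hc.2 (y, 0) ⟨hy, zero_mem _⟩
      have a2 : ∀ β ∈ VV S m v, Bs S v σ c β = 0 := fun β hβ => by
        simpa using hc.2 (0, β) ⟨zero_mem _, hβ⟩
      have a3 : c ∈ OO S m v := ⟨hc.1, fun β hβ => a1 β (XS_YT_auxN hS hβ)⟩
      rw [h1 c (mem_OO_of_XS hp.le a3 (hp.bp c a3 a2)) fun t ht => a1 _ (single_YT_auxN ht),
        map_zero]
  refine ⟨y.1, hy.1, y.2, hy.2, eq_of_phi_auxN (fun j hj => add_mem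
    (d1_mem (B := D K m) hv' (fun i _ => (hy.1 i).1) (hS.F_in j hj)) (add_mem
    (d2_mem (B := D K m) hv' (fun i _ => (hp.sig.1 i).1) (fun i _ => (hy.2.1 i).1) (hS.F_in j hj))
    (d2_mem (B := D K m) hv' (fun i _ => (hy.2.1 i).1) (fun i _ => (hp.sig.1 i).1) (hS.F_in j hj))))
    hz fun c hc => ?_⟩
  rw [← h c hc, LinearMap.flip_apply, LinearMap.coprod_apply, LinearMap.add_apply,
    LinearMap.flip_apply, LinearMap.flip_apply, LB_apply, Bs_sum_auxN, ← Finset.sum_add_distrib]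
  exact Finset.sum_congr rfl fun j _ => by rw [mul_add, map_add]

theorem PreMove.add_auxN (hp : PreMove S n v m σ w) {δ : ℕ → A (LS K)}
    (hδ : δ ∈ YT_auxN (LS K) S m) (ho : ∀ i, Ord 2 (δ i)) : PreMove S n v m σ (w + δ) := by
  refine ⟨hp.le, fun i hi => add_mem (hp.mem i hi) (hδ i).1,
    fun i hi => add_mem (hp.sc i hi) ((hδ i).2.1 hi), hp.sig, fun i hi => ?_,
    fun i hi h h' => ?_, hp.bp⟩
  · rw [Pi.add_apply, add_sub_right_comm]
    exact (hp.ld i hi).add_ord (ho i)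
  · rw [Pi.add_apply, (hδ i).2.2 h h', add_zero, hp.cst i hi h h']

theorem d1_eps_auxN (hS : S.WF) (hv : IsSt S n v) (hp : PreMove S n v m σ w) {β : ℕ → A K}
    (hβ : β ∈ VV S m v) (l : ℕ) {j : ℕ} (hj : j ∈ S.J) :
    Ld (l + 1) (d1 w (S.F j) (eps K ^ l • fun i => map (io K) (β i)))
      (d2 v (S.F j) σ β + d2 v (S.F j) β σ) := by
  have h1 := d1_Ld1 hp.ld β (hS.F_in j hj)
  rw [((mem_VV hS fun i hi => D_mono hp.le (hv.mem i hi)).1 hβ).2 j hj, map_zero, sub_zero] at h1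
  rw [map_smul]
  exact h1.eps_smul

theorem step1_auxN (hS : S.WF) (hv : IsSt S n v) (h1 : H1 S n v) (hp : PreMove S n v m σ w)
    {l : ℕ} (hl : 2 ≤ l) (ho : ∀ j ∈ S.J, Ord (l + 1) (ev w (S.F j))) :
    ∃ δ ∈ YT_auxN (LS K) S m, (∀ i, Ord l (δ i)) ∧
      ∀ j ∈ S.J, Ord (l + 2) (ev (w + δ) (S.F j)) := by
  choose! z hz using ho
  obtain ⟨y, hy, β, hβ, h⟩ := lin1_auxN hS hv h1 hp (z := fun j => -z j) fun j hj =>
    neg_mem ((hz j hj).mem (ev_mem (B := D (LS K) m) hp.mem (hS.F_in j hj)))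
  have ho : ∀ i, Ord l (((eps K ^ (l + 1) • fun i => map (io K) (y i))
      + eps K ^ l • fun i => map (io K) (β i)) i) := fun i =>
    ((Ld.of (l + 1) (y i)).ord.mono (Nat.le_succ l)).add (Ld.of l (β i)).ord
  refine ⟨_, add_mem (Submodule.smul_mem _ _ (map_YT_auxN hy))
    (Submodule.smul_mem _ _ (map_YT_auxN (XS_YT_auxN hS hβ.1))), ho, fun j hj => ?_⟩
  have h2 := taylor1 (w' := w + ((eps K ^ (l + 1) • fun i => map (io K) (y i))
      + eps K ^ l • fun i => map (io K) (β i))) (k := l)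
    (fun i hi => (Ld_zero_iff.2 (hp.ra i hi)).ord)
    (fun i _ => by rw [Pi.add_apply w, add_sub_cancel_left]; exact ho i) (hS.F_in j hj)
  have h3 := d1_Ld (β' := eps K ^ (l + 1) • fun i => map (io K) (y i)) hp.ra
    (fun i _ => Ld.of (l + 1) (y i)) (hS.F_in j hj)
  have h4 := (hz j hj).add (h3.add (d1_eps_auxN hS hv hp hβ l hj))
  rw [h j hj, add_neg_cancel, ← map_add] at h4
  have h5 := (h2.mono (show l + 2 ≤ l + l by omega)).add h4.succ
  rwa [add_sub_cancel_left, sub_sub, sub_add_cancel] at h5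

theorem seq_auxN {α : Type} (P : ℕ → α → Prop) (R : ℕ → α → α → Prop) {a : α} (h0 : P 0 a)
    (h : ∀ j x, P j x → ∃ y, P (j + 1) y ∧ R j x y) :
    ∃ x : ℕ → α, ∀ j, P j (x j) ∧ R j (x j) (x (j + 1)) := by
  choose! f hf using h
  have key : ∀ j, P j (Nat.rec a f j : α) := fun j => by
    induction j with
    | zero => exact h0
    | succ j ih => exact (hf j _ ih).1
  exact ⟨fun j => Nat.rec a f j, fun j => ⟨key j, (hf j _ (key j)).2⟩⟩

theorem newton (hS : S.WF) (hv : IsSt S n v) (h1 : H1 S n v) (hp : PreMove S n v m σ w) {k : ℕ}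
    (hk : 2 ≤ k) {z : ℕ → A K} (hz : ∀ j ∈ S.J, Ld k (ev w (S.F j)) (z j))
    (hz0 : ∀ c ∈ OO S m v, (∀ t ∈ S.T, LB S v c (Pi.single t 1) = 0) →
      ∑ j ∈ S.J, tr (c j * z j) = 0) :
    ∃ w', Move S n v m σ w' ∧ ∀ i < S.N, Ord k (w' i - w i) := by
  obtain ⟨y, hy, h⟩ := lin0_auxN hS (fun i hi => D_mono hp.le (hv.mem i hi)) (z := fun j => -z j)
    (fun j hj => neg_mem ((hz j hj).mem (ev_mem (B := D (LS K) m) hp.mem (hS.F_in j hj))))
    fun c hc h => by
      simp only [mul_neg, map_neg, Finset.sum_neg_distrib, hz0 c hc h, neg_zero]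
  obtain ⟨x, hx⟩ := seq_auxN (fun j x => x ∈ YT_auxN (LS K) S m ∧ (∀ i, Ord k (x i)) ∧
      ∀ a ∈ S.J, Ord (k + j + 1) (ev (w + x) (S.F a)))
    (fun j x x' => ∀ i, Ord j (x' i - x i)) (a := eps K ^ k • fun i => map (io K) (y i))
    ⟨Submodule.smul_mem _ _ (map_YT_auxN hy), fun i => (Ld.of k (y i)).ord, fun j hj => by
      obtain ⟨k, rfl⟩ : ∃ k', k = k' + 1 := ⟨k - 1, by omega⟩
      have h2 := ev_Ld (w' := w + eps K ^ (k + 1) • fun i => map (io K) (y i)) hp.ra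
        (fun i _ => by rw [Pi.add_apply w, add_sub_cancel_left]; exact Ld.of (k + 1) (y i))
        (hS.F_in j hj)
      have h3 := h2.add (hz j hj)
      rw [h j hj, neg_add_cancel, sub_add_cancel] at h3
      exact h3.succ⟩
    fun j x hx => by
      obtain ⟨δ, a1, a2, a3⟩ := step1_auxN hS hv h1 (hp.add_auxN hx.1 fun i => (hx.2.1 i).mono hk)
        (l := k + j) (by omega) hx.2.2
      refine ⟨x + δ, ⟨add_mem hx.1 a1, fun i => (hx.2.1 i).add ((a2 i).mono (by omega)),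
        fun a ha => ?_⟩, fun i => ?_⟩
      · rw [← add_assoc w]
        exact (a3 a ha).mono (by omega)
      · rw [Pi.add_apply, add_sub_cancel_left]
        exact (a2 i).mono (by omega)
  choose l hl hl' using fun i => exists_limit (fun j => x j i) (fun j => ((hx j).1.1 i).1)
    fun j => (hx j).2 i
  have hY : l ∈ YT_auxN (LS K) S m := fun i => ⟨hl i, fun hi => by
    obtain ⟨l0, a1, a2⟩ := exists_limit (fun j => x j i) (fun j => ((hx j).1.1 i).2.1 hi)
      fun j => (hx j).2 i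
    have : l i - l0 = 0 := eq_zero_of_ord fun j => by
      have := (hl' i j).sub (a2 j)
      rwa [sub_sub_sub_cancel_right] at this
    rwa [sub_eq_zero.1 this], fun a1 a2 => eq_zero_of_ord fun j => by
      have := hl' i j
      rwa [((hx j).1.1 i).2.2 a1 a2, sub_zero] at this⟩
  have ho : ∀ i, Ord k (l i) := fun i => by
    have := (hl' i k).add ((hx k).1.2.1 i)
    rwa [sub_add_cancel] at this
  refine ⟨w + l, ⟨hp.add_auxN hY fun i => (ho i).mono hk, fun a ha => eq_zero_of_ord fun j => ?_⟩,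
    fun i _ => by rw [Pi.add_apply, add_sub_cancel_left]; exact ho i⟩
  have h2 := ev_ord (w' := w + l) (k := j) (fun i hi => (Ld_zero_iff.2 ((hp.add_auxN (hx j).1.1
    fun i => ((hx j).1.2.1 i).mono hk).ra i hi)).ord) (fun i _ => by
      rw [Pi.add_apply, Pi.add_apply, add_sub_add_left_eq_sub]; exact hl' i j) (hS.F_in a ha)
  have h3 := h2.add (((hx j).1.2.2 a ha).mono (by omega))
  rwa [sub_add_cancel] at h3

theorem exists_move (hS : S.WF) (hv : IsSt S n v) (h1 : H1 S n v) (hnm : n ≤ m)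
    (hσ : σ ∈ VV S m v) (hb : BP S n m v σ (VV S m v))
    (hq : ∀ c ∈ OO S m v, (∀ t ∈ S.T, LB S v c (Pi.single t 1) = 0) → Om S v c σ σ = 0) :
    ∃ w, Move S n v m σ w := by
  have hp : PreMove S n v m σ fun i => map (io K) (v i) + eps K • map (io K) (σ i) := by
    refine ⟨hnm, fun i hi => add_mem (map_mem _ (D_mono hnm (hv.mem i hi)))
      (Subalgebra.smul_mem _ (map_mem _ (hσ.1 i).1) _), fun i hi => ?_, hσ, fun i _ => ?_,
      fun i _ h _ => ?_, hb⟩
    · rw [(hσ.1 i).2 (hS.disj i hi), map_zero, smul_zero, add_zero]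
      exact map_mem _ (hv.sc i hi)
    · rw [add_sub_cancel_left, ← pow_one (eps K)]
      exact Ld.of 1 _
    · rw [(hσ.1 i).2 h, map_zero, smul_zero, add_zero]
  obtain ⟨w, hw, -⟩ := newton hS hv h1 hp le_rfl (z := fun j => d2 v (S.F j) σ σ)
    (fun j hj => by
      have := taylor2 v σ (S.F j)
      rwa [hv.eq j hj, ((mem_VV hS fun i hi => D_mono hnm (hv.mem i hi)).1 hσ).2 j hj, map_zero,
        smul_zero, sub_zero, sub_zero] at this)
    fun c hc h => by rw [← Om_apply, hq c hc h]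
  exact ⟨w, hw⟩

theorem exists_cmove (hS : S.WF) (hv : IsSt S n v) (h1 : H1 S n v) (hσ : σ ∈ VV S n v) :
    ∃ w, Move S n v n σ w :=
  exists_move hS hv h1 le_rfl hσ (BP.refl _ _ _ _ _) fun c hc h => by simp [h1 c hc h]

theorem Move.perturb (hS : S.WF) (hv : IsSt S n v) (h1 : H1 S n v) (hm : Move S n v m σ w)
    {β : ℕ → A K} (hβ : β ∈ VB S m v σ) {k : ℕ} (hk : 2 ≤ k) :
    ∃ w', Move S n v m σ w' ∧ ∀ i < S.N, Ld k (w' i - w i) (β i) := by
  have ho : ∀ i, Ld k ((eps K ^ k • fun i => map (io K) (β i)) i) (β i) := fun i => Ld.of k (β i)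
  have hp := hm.toPreMove.add_auxN (Submodule.smul_mem _ (eps K ^ k)
    (map_YT_auxN (XS_YT_auxN hS hβ.1.1))) fun i => (ho i).ord.mono hk
  obtain ⟨w', hw, h⟩ := newton hS hv h1 hp (k := k + 1) (by omega)
    (z := fun j => d2 v (S.F j) σ β + d2 v (S.F j) β σ) (fun j hj => by
      have h2 := taylor1 (w' := w + eps K ^ k • fun i => map (io K) (β i)) (k := k)
        (fun i hi => (Ld_zero_iff.2 (hm.toPreMove.ra i hi)).ord)
        (fun i _ => by rw [Pi.add_apply w, add_sub_cancel_left]; exact (ho i).ord) (hS.F_in j hj)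
      have h3 := (d1_eps_auxN hS hv hm.toPreMove hβ.1 k hj).add_ord (h2.mono (by omega))
      rwa [add_sub_cancel_left, hm.eq j hj, sub_zero, add_sub_cancel] at h3)
    fun c hc _ => by
      rw [← Bs_sum_auxN]
      exact hβ.2 c hc
  refine ⟨w', hw, fun i hi => ?_⟩
  have := (ho i).add_ord (h i hi)
  rwa [Pi.add_apply w, ← sub_sub, add_sub_cancel] at this

/-- No move lowers the number of relations. -/
def Tt (S : Sys) (n : ℕ) (v : ℕ → A K) : Prop :=
  ∀ m σ w, Move S n v m σ w → del S n v ≤ del S m w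

theorem Tt.symm_zero (hS : S.WF) (hv : IsSt S n v) (h1 : H1 S n v) (ht : Tt S n v)
    {c p q : ℕ → A K} (hc : c ∈ OO S n v) (hp : p ∈ VV S n v) (hq : q ∈ VV S n v) :
    Om S v c p q + Om S v c q p = 0 := by
  obtain ⟨w, hw⟩ := exists_cmove hS hv h1 hp
  exact hw.toPreMove.tightO hS hv (ht _ _ _ hw) c hc q hq

theorem OmE_auxN (hS : S.WF) (hv : ∀ i < S.N, v i ∈ D K n) (c : ℕ → A K) {x y : ℕ → A K}
    (hx : x ∈ VV S n v) (hy : y ∈ VV S n v) {g k : G} (hg : g ∈ GS n m) (hk : k ∈ GS n m) :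
    Om S v c (fun i => x i * e g) (fun i => y i * e k) = P199.c K g k * P199.c K (g + k) (g + k) *
      Om S v (fun j => cp n (g + k) (c j)) x y := by
  rw [Om_apply, Om_apply, Finset.mul_sum]
  refine Finset.sum_congr rfl fun j hj => ?_
  rw [d2_mul_DS hv (fun i _ => (hy.1 i).1) (hS.F_in j hj) (e_mem hg) (e_mem hk),
    tr_cp_mul (add_mem_GS hg hk) (d2_mem (B := D K n) hv (fun i _ => (hx.1 i).1)
      (fun i _ => (hy.1 i).1) (hS.F_in j hj)), e_mul_e, e_eq_auxT, smul_smul, mul_smul_comm,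
    mul_smul_comm, map_smul, smul_eq_mul]

theorem OmA_auxN (hS : S.WF) (hv : ∀ i < S.N, v i ∈ D K n) (c : ℕ → A K) {x y : ℕ → A K}
    (hx : x ∈ VV S n v) (hy : y ∈ VV S n v) {g k : G} (hg : g ∈ GS n m) (hk : k ∈ GS n m)
    (hs : sym k g = 1) :
    Om S v c (fun i => x i * e g) (fun i => y i * e k)
      + Om S v c (fun i => y i * e k) (fun i => x i * e g)
      = om S v ((P199.c K g k * P199.c K (g + k) (g + k)) • fun j => cp n (g + k) (c j)) x y := by
  have h1 : P199.c K k g = -P199.c K g k := by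
    unfold P199.c
    rw [chi_comm k g, hs, show sg 1 = -1 by decide]
    simp
  rw [OmE_auxN hS hv c hx hy hg hk, OmE_auxN hS hv c hy hx hk hg, add_comm k g, h1, map_smul,
    LinearMap.smul_apply, LinearMap.smul_apply, om_apply, smul_eq_mul]
  ring

theorem OmS_auxN (hS : S.WF) (hv : IsSt S n v) (h1 : H1 S n v) (ht : Tt S n v) (hnm : n ≤ m)
    {c : ℕ → A K} (hc : c ∈ OO S m v) {x y : ℕ → A K} (hx : x ∈ VV S n v) (hy : y ∈ VV S n v)
    {g : G} (hg : g ∈ GS n m) :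
    Om S v c (fun i => x i * e g) (fun i => y i * e g)
      + Om S v c (fun i => y i * e g) (fun i => x i * e g) = 0 := by
  rw [OO_up hS hv.mem hnm] at hc
  rw [OmE_auxN hS hv.mem c hx hy hg hg, OmE_auxN hS hv.mem c hy hx hg hg, ← mul_add,
    ht.symm_zero hS hv h1 (hc.2 _ (add_mem_GS hg hg)) hx hy, mul_zero]

theorem exists_qmove (hS : S.WF) {Y : ℕ} (hg : Good S n v Y) (ht : Tt S n v)
    {V1 : Submodule K (ℕ → A K)} (hV : V1 ≤ VV S n v) {ρ : ℕ}
    (hρ : finrank K (VV S n v) ≤ finrank K V1 + ρ) (hY : 2 * ρ ≤ Y) {p0 p0' : ℕ → A K}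
    (hp : p0 ∈ VV S n v) (hp' : p0' ∈ VV S n v) :
    ∃ p p' w, p - p0 ∈ V1 ∧ p' - p0' ∈ V1 ∧
      Move S n v (n + 1) (fun i => p i * e (gi n) + p' i * e (gj n)) w ∧
      BP S n (n + 1) v (fun i => p i * e (gi n) + p' i * e (gj n)) (Up S.W n (n + 1) V1) := by
  classical
  have := charZero K
  have hv := hg.st
  obtain ⟨p, p', a1, a2, a3, a4⟩ := sel (om S v) (OO S n v) (VV S n v) V1 hV hρ
    (fun c hc h0 => (hg.h2 c hc h0).mono (by unfold del; omega)) p0 p0'
  have b1 : p ∈ VV S n v := by simpa using add_mem (hV a1) hp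
  have b2 : p' ∈ VV S n v := by simpa using add_mem (hV a2) hp'
  have hσ : (fun i => p i * e (gi n) + p' i * e (gj n))
      = (fun i => p i * e (gi n)) + fun i => p' i * e (gj n) := rfl
  have hle := Nat.le_succ n
  have hcp : ∀ c ∈ OO S (n + 1) v, ∀ g ∈ GS n (n + 1), (fun j => cp n g (c j)) ∈ OO S n v :=
    fun c hc => by
      rw [OO_up hS hv.mem hle] at hc
      exact hc.2
  have hκ : ∀ g k : G, P199.c K g k * P199.c K (g + k) (g + k) ≠ 0 :=
    fun g k => mul_ne_zero (c_ne_zero _ _) (c_ne_zero _ _)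
  have hb : BP S n (n + 1) v (fun i => p i * e (gi n) + p' i * e (gj n))
      (Up S.W n (n + 1) V1) := by
    intro c hc H
    have H' : ∀ x ∈ V1, ∀ g ∈ GS n (n + 1),
        (Om S v c (fun i => p i * e (gi n)) (fun i => x i * e g)
          + Om S v c (fun i => x i * e g) (fun i => p i * e (gi n)))
        + (Om S v c (fun i => p' i * e (gj n)) (fun i => x i * e g)
          + Om S v c (fun i => x i * e g) (fun i => p' i * e (gj n))) = 0 := by
      intro x hx g hg'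
      have h2 := H (fun i => x i * e g) ⟨mul_mem_XS hle (hV hx).1 (e_mem hg'), fun h hh => by
        simp only [fun i => cp_mul_e hh hg' ((hV hx).1 i).1]
        split_ifs
        · exact hx
        · exact zero_mem _⟩
      rw [Bs_apply, hσ, map_add, map_add, LinearMap.add_apply] at h2
      linear_combination h2
    have c1 := (a4 _ (Submodule.smul_mem _ _ (hcp c hc _ (gij_mem n))) 0 (zero_mem _)
      fun x hx => by
        have h2 := H' x hx _ (gj_mem n)
        rw [OmA_auxN hS hv.mem c b1 (hV hx) (gi_mem n) (gj_mem n) (by rw [sym_comm, sym_gi_gj]),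
          OmS_auxN hS hv hg.h1 ht hle hc b2 (hV hx) (gj_mem n), add_zero] at h2
        rw [h2, map_zero]
        simp).1
    have c2 := a4 _ (Submodule.smul_mem _ _ (hcp c hc _ (add_mem_GS (gi_mem n) (gij_mem n)))) _
      (Submodule.smul_mem _ _ (hcp c hc _ (add_mem_GS (gj_mem n) (gij_mem n)))) fun x hx => by
        have h2 := H' x hx _ (gij_mem n)
        rwa [OmA_auxN hS hv.mem c b1 (hV hx) (gi_mem n) (gij_mem n) (by
          rw [sym_add_left, sym_self, sym_comm, sym_gi_gj, zero_add]),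
          OmA_auxN hS hv.mem c b2 (hV hx) (gj_mem n) (gij_mem n) (by
          rw [sym_add_left, sym_self, sym_gi_gj, add_zero])] at h2
    have c3 := (smul_eq_zero.1 c1).resolve_left (hκ _ _)
    have c4 := (smul_eq_zero.1 c2.1).resolve_left (hκ _ _)
    have c5 := (smul_eq_zero.1 c2.2).resolve_left (hκ _ _)
    rw [G.add_add] at c4
    rw [add_comm (gi n), G.add_add] at c5
    refine fun j => ⟨mem_D_of_cp (hc.1 j).1 fun g hg' h0 => ?_, (hc.1 j).2⟩
    rcases GS_succ hg' with rfl | rfl | rfl | rfl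
    · exact absurd rfl h0
    · exact congrFun c5 j
    · exact congrFun c4 j
    · exact congrFun c3 j
  obtain ⟨w, hw⟩ := exists_move hS hv hg.h1 hle (σ := fun i => p i * e (gi n) + p' i * e (gj n))
    (add_mem (mul_mem_VV hS hv.mem hle b1 (e_mem (gi_mem n)))
      (mul_mem_VV hS hv.mem hle b2 (e_mem (gj_mem n))))
    (hb.mono fun β hβ => by
      rw [VV_up hS hv.mem hle]
      exact ⟨hβ.1, fun h hh => hV (hβ.2 h hh)⟩)
    fun c hc _ => by
      have d1 := OmS_auxN hS hv hg.h1 ht hle hc b1 b1 (gi_mem n)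
      have d2 := OmS_auxN hS hv hg.h1 ht hle hc b2 b2 (gj_mem n)
      have d3 := OmA_auxN hS hv.mem c b1 b2 (gi_mem n) (gj_mem n) (by rw [sym_comm, sym_gi_gj])
      rw [a3 _ (Submodule.smul_mem _ _ (hcp c hc _ (gij_mem n)))] at d3
      rw [hσ, map_add, map_add, LinearMap.add_apply, LinearMap.add_apply]
      linear_combination d1 / 2 + d2 / 2 + d3
  exact ⟨p, p', w, a1, a2, hw, hb⟩

/-- First order variations inside `B'`. -/
def Gam_auxN (n : ℕ) (B' : Subalgebra (LS K) (A (LS K))) : Submodule K (A K × A K) where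
  carrier := {q | q.1 ∈ D K n ∧ q.2 ∈ D K n ∧ ∃ z ∈ D K n, ∃ y ∈ B',
    Ld 1 (y - map (io K) q.1) (q.2 * e (gi n) + z * e (gj n))}
  add_mem' := by
    rintro q q' ⟨a1, a2, z, a3, y, a4, a5⟩ ⟨b1, b2, z', b3, y', b4, b5⟩
    refine ⟨add_mem a1 b1, add_mem a2 b2, z + z', add_mem a3 b3, y + y', add_mem a4 b4, ?_⟩
    have := a5.add b5
    rwa [sub_add_sub_comm, ← map_add, add_add_add_comm, ← add_mul, ← add_mul] at this
  zero_mem' := ⟨zero_mem _, zero_mem _, 0, zero_mem _, 0, zero_mem _, by simpa using Ld.zero 1⟩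
  smul_mem' := by
    rintro r q ⟨a1, a2, z, a3, y, a4, a5⟩
    refine ⟨Subalgebra.smul_mem _ a1 r, Subalgebra.smul_mem _ a2 r, r • z,
      Subalgebra.smul_mem _ a3 r, io K r • y, Subalgebra.smul_mem _ a4 _, ?_⟩
    have := Ld.smul ((plc K).of r) a5
    rwa [smul_sub, ← map_smul', smul_add, ← smul_mul_assoc, ← smul_mul_assoc] at this

theorem Gam_mul_auxN {B' : Subalgebra (LS K) (A (LS K))} (p : A K × A K)
    (hp : p ∈ Gam_auxN n B') (q : A K × A K) (hq : q ∈ Gam_auxN n B') :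
    (p.1 * q.1, p.2 * q.1 + p.1 * q.2) ∈ Gam_auxN n B' := by
  obtain ⟨a1, a2, z, a3, y, a4, a5⟩ := hp
  obtain ⟨b1, b2, z', b3, y', b4, b5⟩ := hq
  refine ⟨mul_mem a1 b1, add_mem (mul_mem a2 b1) (mul_mem a1 b2), z * q.1 + p.1 * z',
    add_mem (mul_mem a3 b1) (mul_mem a1 b3), y * y', mul_mem a4 b4, ?_⟩
  have h1 := a5.mul (Ld_zero_iff.2 b5.ra)
  have h2 := (Ld_zero_iff.2 (RA.of (plc K) p.1)).mul b5
  have h3 := h1.add h2
  have e1 : (y - map (io K) p.1) * y' + map (io K) p.1 * (y' - map (io K) q.1)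
      = y * y' - map (io K) (p.1 * q.1) := by
    rw [map_mul]; noncomm_ring
  have e2 : (p.2 * e (gi n) + z * e (gj n)) * q.1 + p.1 * (q.2 * e (gi n) + z' * e (gj n))
      = (p.2 * q.1 + p.1 * q.2) * e (gi n) + (z * q.1 + p.1 * z') * e (gj n) := by
    simp only [add_mul, mul_add, mul_assoc, comm_DS b1 (e_mem (gi_mem n)),
      comm_DS b1 (e_mem (gj_mem n))]
    abel
  rwa [e1, e2] at h3

/-- The algebra generated by the first two variables can be enlarged. -/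
theorem exists_bigger [Dom K] (hS : S.WF) (hg : Good S n v 2) (ht : Tt S n v) :
    ∃ m σ w, Move S n v m σ w ∧ finrank K (Algebra.adjoin K ({v 0, v 1} : Set (A K))) <
      finrank (LS K) (Algebra.adjoin (LS K) ({w 0, w 1} : Set (A (LS K)))) := by
  classical
  have hv := hg.st
  have h0 := hS.W_lt 0 hS.zero_mem
  have h1 := hS.W_lt 1 hS.one_mem
  set ψ : A K →ₗ[K] (ℕ → A K) := msk {0, 1} ∘ₗ LinearMap.pi fun i =>
    LinearMap.mulRight K (v i) - LinearMap.mulLeft K (v i) with hψ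
  obtain ⟨p0, hp0, hI⟩ : ∃ p0 ∈ VV S n v, msk {0, 1} p0 ∉ (D K n).toSubmodule.map ψ := by
    by_contra! H
    have a1 : (VV S n v).map (msk {0, 1}) ≤ (D K n).toSubmodule.map ψ := by
      rintro _ ⟨x, hx, rfl⟩
      exact H x hx
    have a2 := (Submodule.finrank_mono a1).trans (Submodule.finrank_map_le ψ _)
    have a3 := hg.h4
    rw [finrank_D] at a2
    omega
  obtain ⟨φ, hφ, hφ'⟩ := Submodule.exists_le_ker_of_notMem hI
  obtain ⟨p, p', w, a1, a2, hm, -⟩ := exists_qmove hS hg ht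
    (V1 := VV S n v ⊓ LinearMap.ker (φ ∘ₗ msk {0, 1})) inf_le_left (ρ := 1) (by
      have a1 := finrank_ker_map (φ ∘ₗ msk {0, 1}) (VV S n v)
      have a2 := Submodule.finrank_le ((VV S n v).map (φ ∘ₗ msk {0, 1}))
      rw [Module.finrank_self] at a2
      omega) le_rfl hp0 (zero_mem _)
  have b1 : p ∈ VV S n v := by simpa using add_mem a1.1 hp0
  have b2 : p' ∈ VV S n v := by simpa using a2.1
  refine ⟨_, _, w, hm, lt_of_not_ge fun hge => ?_⟩
  set B := Algebra.adjoin K ({v 0, v 1} : Set (A K)) with hB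
  set B' := Algebra.adjoin (LS K) ({w 0, w 1} : Set (A (LS K))) with hB'
  have c1 : B ≤ D K n := Algebra.adjoin_le (Set.insert_subset (hv.mem 0 h0)
    (Set.singleton_subset_iff.2 (hv.mem 1 h1)))
  have c2 : B' ≤ D (LS K) (n + 1) := Algebra.adjoin_le (Set.insert_subset (hm.mem 0 h0)
    (Set.singleton_subset_iff.2 (hm.mem 1 h1)))
  have w0 : w 0 ∈ B' := Algebra.subset_adjoin (by simp)
  have w1 : w 1 ∈ B' := Algebra.subset_adjoin (by simp)
  have c3 : B = redS (plc K) B' := eq_of_finrank_le (redS_le _ c2)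
    (Algebra.adjoin_le (Set.insert_subset ⟨w 0, w0, hm.toPreMove.ra 0 h0⟩
      (Set.singleton_subset_iff.2 ⟨w 1, w1, hm.toPreMove.ra 1 h1⟩)))
    (by rw [finrank_redS _ c2]; exact hge)
  have g0 : (v 0, p 0) ∈ Gam_auxN n B' :=
    ⟨hv.mem 0 h0, (b1.1 0).1, p' 0, (b2.1 0).1, w 0, w0, hm.ld 0 h0⟩
  have g1 : (v 1, p 1) ∈ Gam_auxN n B' :=
    ⟨hv.mem 1 h1, (b1.1 1).1, p' 1, (b2.1 1).1, w 1, w1, hm.ld 1 h1⟩
  obtain ⟨u, hu, hd⟩ := inner_der c1 (Gam_auxN n B') Gam_mul_auxN (fun z hz => by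
      induction hz using Algebra.adjoin_induction with
      | mem x hx =>
        rcases hx with rfl | rfl
        · exact ⟨_, g0⟩
        · exact ⟨_, g1⟩
      | algebraMap r =>
        refine ⟨0, algebraMap_mem _ r, zero_mem _, 0, zero_mem _, _,
          Subalgebra.smul_mem _ (one_mem _) (io K r), ?_⟩
        rw [Algebra.algebraMap_eq_smul_one, map_smul', map_one]
        simpa using Ld.zero 1
      | add x y _ _ hx hy =>
        obtain ⟨x', hx⟩ := hx
        obtain ⟨y', hy⟩ := hy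
        exact ⟨x' + y', add_mem hx hy⟩
      | mul x y _ _ hx hy =>
        obtain ⟨x', hx⟩ := hx
        obtain ⟨y', hy⟩ := hy
        exact ⟨_, Gam_mul_auxN _ hx _ hy⟩)
    (fun z' ⟨_, e2, z, e3, y, e4, e5⟩ => by
      rw [map_zero, sub_zero] at e5
      have e6 : z' * e (gi n) + z * e (gj n) ∈ D K n :=
        c1 (c3 ▸ ⟨_, Subalgebra.smul_mem _ e4 _, e5⟩)
      have e7 := cp_mul_e (gi_mem n) (zero_mem_GS n (n + 1)) e6
      rwa [e_zero, mul_one, if_neg (gi_ne_zero n).symm, map_add, cp_mul_e (gi_mem n) (gi_mem n) e2,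
        cp_mul_e (gi_mem n) (gj_mem n) e3, if_pos rfl, if_neg (gi_ne_gj n).symm, add_zero] at e7)
    fun q hq => hq.2.1
  have f1 : msk {0, 1} p = ψ u := by
    funext i
    rw [hψ, LinearMap.comp_apply, msk_apply, msk_apply]
    split_ifs with H
    · rcases Finset.mem_insert.1 H with rfl | H
      · exact hd _ (Algebra.subset_adjoin (by simp)) _ g0
      · rw [Finset.mem_singleton.1 H]
        exact hd _ (Algebra.subset_adjoin (by simp)) _ g1
    · rfl
  have f2 : φ (msk {0, 1} p) = 0 := hφ' ⟨u, hu, f1.symm⟩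
  have f3 : φ (msk {0, 1} (p - p0)) = 0 := a1.2
  rw [map_sub, map_sub, f2, zero_sub, neg_eq_zero] at f3
  exact hφ f3

end Vale.Agent.P199
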