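import Vale.Agent.P199.Level

/-! Places and reduction of subspaces. -/

namespace Vale.Agent.P199

open Finset Module

set_option linter.unusedSectionVars false

noncomputable section

variable {K K' K'' : Type} [Field K] [Field K'] [Field K''] [Algebra K0 K] [Algebra K0 K']
  [Algebra K0 K'']

/-- The graph of a place of `K'` with residue field `K`. -/
structure IsPlace (f : K →ₐ[K0] K') (P : K' → K → Prop) : Prop where
  of : ∀ y, P (f y) y
  add : ∀ {x x' y y'}, P x y → P x' y' → P (x + x') (y + y')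
  mul : ∀ {x x' y y'}, P x y → P x' y' → P (x * x') (y * y')
  fn : ∀ {y}, P 0 y → y = 0
  inv : ∀ {x y}, P x y → y ≠ 0 → P x⁻¹ y⁻¹
  tot : ∀ x, (∃ y, P x y) ∨ P x⁻¹ 0

variable {f : K →ₐ[K0] K'} {P : K' → K → Prop}

theorem IsPlace.zero (hP : IsPlace f P) : P 0 0 := by simpa using hP.of 0

theorem IsPlace.one (hP : IsPlace f P) : P 1 1 := by simpa using hP.of 1

theorem IsPlace.neg (hP : IsPlace f P) {x y} (h : P x y) : P (-x) (-y) := by
  simpa using hP.mul (hP.of (-1)) h

theorem IsPlace.sub (hP : IsPlace f P) {x x' y y'} (h : P x y) (h' : P x' y') :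
    P (x - x') (y - y') := by
  simpa [sub_eq_add_neg] using hP.add h (hP.neg h')

theorem IsPlace.unique (hP : IsPlace f P) {x y y'} (h : P x y) (h' : P x y') : y = y' :=
  sub_eq_zero.1 (hP.fn (by simpa using hP.sub h h'))

theorem IsPlace.sum (hP : IsPlace f P) {ι : Type*} (s : Finset ι) {x : ι → K'} {y : ι → K}
    (h : ∀ i ∈ s, P (x i) (y i)) : P (∑ i ∈ s, x i) (∑ i ∈ s, y i) := by
  classical
  induction s using Finset.induction_on with
  | empty => simpa using hP.zero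
  | insert a s ha ih =>
    rw [Finset.sum_insert ha, Finset.sum_insert ha]
    exact hP.add (h a (Finset.mem_insert_self _ _))
      (ih fun i hi => h i (Finset.mem_insert_of_mem hi))

theorem isPlace_refl : IsPlace (AlgHom.id K0 K) (fun x y => x = y) := by
  refine ⟨fun _ => rfl, ?_, ?_, fun h => h.symm, ?_, fun x => Or.inl ⟨x, rfl⟩⟩
  · rintro _ _ _ _ rfl rfl; rfl
  · rintro _ _ _ _ rfl rfl; rfl
  · rintro _ _ rfl _; rfl

/-- Composition of places. -/
def pcomp (Q : K'' → K' → Prop) (P : K' → K → Prop) (x : K'') (z : K) : Prop := ∃ y, Q x y ∧ P y z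

theorem IsPlace.comp (hP : IsPlace f P) {g : K' →ₐ[K0] K''} {Q : K'' → K' → Prop}
    (hQ : IsPlace g Q) : IsPlace (g.comp f) (pcomp Q P) := by
  refine ⟨fun y => ⟨f y, hQ.of _, hP.of _⟩, ?_, ?_, ?_, ?_, fun x => ?_⟩
  · rintro _ _ _ _ ⟨a, h1, h2⟩ ⟨b, h3, h4⟩
    exact ⟨a + b, hQ.add h1 h3, hP.add h2 h4⟩
  · rintro _ _ _ _ ⟨a, h1, h2⟩ ⟨b, h3, h4⟩
    exact ⟨a * b, hQ.mul h1 h3, hP.mul h2 h4⟩
  · rintro _ ⟨a, h1, h2⟩
    rw [hQ.fn h1] at h2
    exact hP.fn h2
  · rintro _ _ ⟨a, h1, h2⟩ h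
    refine ⟨a⁻¹, hQ.inv h1 ?_, hP.inv h2 h⟩
    rintro rfl
    exact h (hP.fn h2)
  · rcases hQ.tot x with ⟨y, hy⟩ | h
    · rcases hP.tot y with ⟨z, hz⟩ | h
      · exact Or.inl ⟨z, y, hy, hz⟩
      · by_cases h0 : y = 0
        · exact Or.inl ⟨0, y, hy, by rw [h0]; exact hP.zero⟩
        · exact Or.inr ⟨y⁻¹, hQ.inv hy h0, h⟩
    · exact Or.inr ⟨0, h, hP.zero⟩

theorem IsPlace.exists_norm (hP : IsPlace f P) {ι : Type*} (s : Finset ι) (x : ι → K')
    (h : ∃ i ∈ s, x i ≠ 0) : ∃ i0 ∈ s, x i0 ≠ 0 ∧ ∀ i ∈ s, ∃ y, P (x i / x i0) y := by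
  classical
  induction s using Finset.induction_on with
  | empty => simp at h
  | insert a s ha ih =>
    by_cases hs : ∃ i ∈ s, x i ≠ 0
    · obtain ⟨i0, h1, h2, h3⟩ := ih hs
      have keep : (∃ y, P (x a / x i0) y) →
          ∃ i0 ∈ insert a s, x i0 ≠ 0 ∧ ∀ i ∈ insert a s, ∃ y, P (x i / x i0) y := fun H =>
        ⟨i0, Finset.mem_insert_of_mem h1, h2, fun i hi => by
          rcases Finset.mem_insert.1 hi with rfl | hi
          · exact H
          · exact h3 i hi⟩
      by_cases h0 : x a = 0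
      · exact keep ⟨0, by rw [h0, zero_div]; exact hP.zero⟩
      rcases hP.tot (x a / x i0) with H | H
      · exact keep H
      refine ⟨a, Finset.mem_insert_self _ _, h0, fun i hi => ?_⟩
      rcases Finset.mem_insert.1 hi with rfl | hi
      · exact ⟨1, by rw [div_self h0]; exact hP.one⟩
      · obtain ⟨y, hy⟩ := h3 i hi
        refine ⟨y * 0, ?_⟩
        have := hP.mul hy H
        rwa [show x i / x i0 * (x a / x i0)⁻¹ = x i / x a by field_simp] at this
    · push Not at hs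
      obtain ⟨i, hi, h0⟩ := h
      rcases Finset.mem_insert.1 hi with rfl | hi
      · refine ⟨i, Finset.mem_insert_self _ _, h0, fun j hj => ?_⟩
        rcases Finset.mem_insert.1 hj with rfl | hj
        · exact ⟨1, by rw [div_self h0]; exact hP.one⟩
        · exact ⟨0, by rw [hs j hj, zero_div]; exact hP.zero⟩
      · exact absurd (hs i hi) h0

theorem IsPlace.exists_norm' (hP : IsPlace f P) {ι : Type*} [Fintype ι] (x : ι → K') (h : x ≠ 0) :
    ∃ a : K', a ≠ 0 ∧ ∃ y : ι → K, y ≠ 0 ∧ ∀ i, P (a * x i) (y i) := by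
  obtain ⟨i0, -, h1, h2⟩ := hP.exists_norm Finset.univ x (by
    obtain ⟨i, hi⟩ := Function.ne_iff.1 h
    exact ⟨i, Finset.mem_univ _, hi⟩)
  choose y hy using fun i => h2 i (Finset.mem_univ i)
  refine ⟨(x i0)⁻¹, inv_ne_zero h1, y, fun H => ?_, fun i => by
    rw [mul_comm, ← div_eq_mul_inv]; exact hy i⟩
  have h3 := hy i0
  rw [div_self h1, H] at h3
  exact one_ne_zero (hP.unique hP.one h3)

/-- Reduction of algebra elements. -/
def RA (P : K' → K → Prop) (x : A K') (y : A K) : Prop := ∀ g, P (co g x) (co g y)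

theorem RA.of (hP : IsPlace f P) (y : A K) : RA P (map f y) y := fun _ => hP.of _

theorem RA.zero (hP : IsPlace f P) : RA P (0 : A K') (0 : A K) := by simpa using RA.of hP 0

theorem RA.one (hP : IsPlace f P) : RA P (1 : A K') (1 : A K) := by simpa using RA.of hP 1

theorem RA.e (hP : IsPlace f P) (g : G) : RA P (e g : A K') (e g : A K) := by
  simpa [map_e] using RA.of hP (P199.e g)

theorem RA.ei (hP : IsPlace f P) (g : G) : RA P (ei g : A K') (ei g : A K) := by
  simpa [map_ei] using RA.of hP (P199.ei g)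

theorem RA.add (hP : IsPlace f P) {x x' y y'} (h : RA P x y) (h' : RA P x' y') :
    RA P (x + x') (y + y') := fun g => by simpa using hP.add (h g) (h' g)

theorem RA.neg (hP : IsPlace f P) {x y} (h : RA P x y) : RA P (-x) (-y) :=
  fun g => by simpa using hP.neg (h g)

theorem RA.sub (hP : IsPlace f P) {x x' y y'} (h : RA P x y) (h' : RA P x' y') :
    RA P (x - x') (y - y') := fun g => by simpa using hP.sub (h g) (h' g)

theorem RA.smul (hP : IsPlace f P) {a b x y} (h : P a b) (h' : RA P x y) :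
    RA P (a • x) (b • y) := fun g => by simpa using hP.mul h (h' g)

theorem RA.mul (hP : IsPlace f P) {x x' y y'} (h : RA P x y) (h' : RA P x' y') :
    RA P (x * x') (y * y') := by
  intro k
  have h0 : ∀ g, g ∉ sup x → co g x = 0 := fun g hg => by simpa [mem_sup] using hg
  rw [co_mul x x' k h0, co_mul y y' k (S := sup x) fun g hg => hP.fn (h0 g hg ▸ h g)]
  refine hP.sum _ fun g _ => hP.mul ?_ (hP.mul (h g) (h' _))
  rw [← c_map f]; exact hP.of _

theorem RA.pow (hP : IsPlace f P) {x y} (h : RA P x y) (k : ℕ) : RA P (x ^ k) (y ^ k) := by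
  induction k with
  | zero => simpa using RA.one hP
  | succ k ih => rw [pow_succ, pow_succ]; exact ih.mul hP h

theorem RA.sum (hP : IsPlace f P) {ι : Type*} (s : Finset ι) {x : ι → A K'} {y : ι → A K}
    (h : ∀ i ∈ s, RA P (x i) (y i)) : RA P (∑ i ∈ s, x i) (∑ i ∈ s, y i) := by
  intro g
  rw [map_sum, map_sum]
  exact hP.sum s fun i hi => h i hi g

theorem RA.tr {x y} (h : RA P x y) : P (tr x) (tr y) := h 0

theorem RA.unique (hP : IsPlace f P) {x y y'} (h : RA P x y) (h' : RA P x y') : y = y' :=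
  A.ext' fun g => hP.unique (h g) (h' g)

theorem RA.eq_zero (hP : IsPlace f P) {y} (h : RA P 0 y) : y = 0 := h.unique hP (RA.zero hP)

theorem RA.mem (hP : IsPlace f P) {x y} (h : RA P x y) {a b : ℕ} (hx : x ∈ DS K' a b) :
    y ∈ DS K a b := fun g hg => hP.fn (by simpa [hx g hg] using h g)

theorem co_pj_aux (n : ℕ) (g : G) (x : A K) :
    co g (pj n x) = if g ∈ GS 0 n then co g x else 0 := by
  split_ifs with H
  · induction x using A.induction with
    | h0 => simp
    | hadd x y hx hy => simp only [map_add, hx, hy]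
    | he r h =>
      simp only [map_smul, pj_e]
      split_ifs with H'
      · rfl
      · rw [co_e, if_neg, map_zero]
        rintro rfl; exact H' H
  · exact pj_mem n x g H

theorem RA.pj (hP : IsPlace f P) {x y} (h : RA P x y) (n : ℕ) : RA P (pj n x) (pj n y) := by
  intro g
  rw [co_pj_aux, co_pj_aux]
  split_ifs
  · exact h g
  · exact hP.zero

theorem RA.cp (hP : IsPlace f P) {x y} (h : RA P x y) (n : ℕ) (g : G) :
    RA P (cp n g x) (cp n g y) := (h.mul hP (RA.ei hP g)).pj hP n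

theorem RA.of_int (hP : IsPlace f P) {x : A K'} (h : ∀ g, ∃ v, P (co g x) v) : ∃ y, RA P x y := by
  choose v hv using h
  obtain ⟨y, h1, h2⟩ := exists_co (sup x) v
  refine ⟨y, fun g => ?_⟩
  by_cases hg : g ∈ sup x
  · rw [h1 g hg]; exact hv g
  · rw [h2 g hg, show co g x = 0 by simpa [mem_sup] using hg]; exact hP.zero

theorem RA.norm (hP : IsPlace f P) {x : A K'} (h : x ≠ 0) :
    ∃ a : K', a ≠ 0 ∧ ∃ y : A K, y ≠ 0 ∧ RA P (a • x) y := by
  obtain ⟨g0, -, h1, h2⟩ := hP.exists_norm (sup x) (fun g => co g x) (by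
    by_contra H
    push Not at H
    refine h (A.ext' fun g => ?_)
    rw [map_zero]
    by_contra H'
    exact H' (H g (mem_sup.2 H')))
  obtain ⟨y, hy⟩ := RA.of_int hP (x := (co g0 x)⁻¹ • x) fun g => by
    rw [map_smul, smul_eq_mul, mul_comm, ← div_eq_mul_inv]
    by_cases hg : g ∈ sup x
    · exact h2 g hg
    · exact ⟨0, by rw [show co g x = 0 by simpa [mem_sup] using hg, zero_div]; exact hP.zero⟩
  refine ⟨_, inv_ne_zero h1, y, fun H => ?_, hy⟩
  have h3 := hy g0
  rw [map_smul, smul_eq_mul, inv_mul_cancel₀ h1, H, map_zero] at h3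
  exact one_ne_zero (hP.unique hP.one h3)

theorem RA.inv [Dom K] [Dom K'] (hP : IsPlace f P) {x y}
    (h : RA P x y) (hy : y ≠ 0) : RA P x⁻¹ y⁻¹ := by
  have hx : x ≠ 0 := by
    rintro rfl
    exact hy (RA.eq_zero hP h)
  obtain ⟨a, ha, z, hz, h1⟩ := RA.norm hP (inv_ne_zero hx)
  have h2 := h.mul hP h1
  rw [mul_smul_comm, mul_inv_cancel₀ hx] at h2
  have h3 := h2.tr
  rw [map_smul, tr_one, smul_eq_mul, mul_one] at h3
  have h4 := h2.unique hP (RA.smul hP h3 (RA.one hP))
  have h5 : P199.tr (y * z) ≠ 0 := fun H => by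
    rw [H, zero_smul] at h4
    exact mul_ne_zero hy hz h4
  have h6 := RA.smul hP (hP.inv h3 h5) h1
  rw [smul_smul, inv_mul_cancel₀ ha, one_smul] at h6
  have h7 : (P199.tr (y * z))⁻¹ • z = y⁻¹ := by
    refine eq_inv_of_mul_eq_one_right ?_
    rw [mul_smul_comm]
    generalize P199.tr (y * z) = t at h4 h5
    rw [h4, smul_smul, inv_mul_cancel₀ h5, one_smul]
  rwa [h7] at h6

theorem RA.comp {Q : K'' → K' → Prop} {x y z} (h : RA Q x y) (h' : RA P y z) :
    RA (pcomp Q P) x z := fun g => ⟨_, h g, h' g⟩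

theorem RA.refl (x : A K) : RA (fun x y => x = y) x x := fun _ => rfl

theorem dom_of_place [Dom K] (hP : IsPlace f P) : Dom K' := by
  refine ⟨fun x y h => ?_⟩
  by_contra H
  push Not at H
  obtain ⟨a, -, x', hx, h1⟩ := RA.norm hP H.1
  obtain ⟨b, -, y', hy, h2⟩ := RA.norm hP H.2
  have h3 := h1.mul hP h2
  rw [smul_mul_assoc, mul_smul_comm, h, smul_zero, smul_zero] at h3
  rcases Dom.out _ _ (RA.eq_zero hP h3) with h4 | h4
  · exact hx h4
  · exact hy h4

theorem finrank_red_aux (hP : IsPlace f P) {X X' I : Type*} [AddCommGroup X] [Module K X]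
    [AddCommGroup X'] [Module K' X'] (c : I → X →ₗ[K] K) (c' : I → X' →ₗ[K'] K')
    (hc : ∀ y, (∀ i, c i y = 0) → y = 0) (Red : Submodule K' X' → Submodule K X)
    (hR : ∀ U y, y ∈ Red U ↔ ∃ x ∈ U, ∀ i, P (c' i x) (c i y)) (U : Submodule K' X')
    [Module.Finite K' U] [Module.Finite K (Red U)]
    (hn : ∀ x ∈ U, x ≠ 0 → ∃ a : K', ∃ y, y ≠ 0 ∧ ∀ i, P (c' i (a • x)) (c i y)) :
    finrank K (Red U) = finrank K' U := by
  apply le_antisymm
  · let b := Module.finBasis K (Red U)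
    choose x hx hx' using fun j => (hR U _).1 (b j).2
    have : LinearIndependent K' fun j => (⟨x j, hx j⟩ : U) := by
      rw [Fintype.linearIndependent_iff]
      intro a ha
      by_contra H
      obtain ⟨s, -, y, hy, hy'⟩ := hP.exists_norm' a fun H' => H fun j => congrFun H' j
      have h1 : ∑ j, a j • x j = 0 := by simpa using congrArg Subtype.val ha
      have h2 : ∑ j, y j • (b j : X) = 0 := hc _ fun i => hP.fn (by
        have := hP.sum Finset.univ fun j _ => hP.mul (hy' j) (hx' j i)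
        have e : ∑ j, s * a j * c' i (x j) = s * c' i (∑ j, a j • x j) := by
          simp only [map_sum, map_smul, smul_eq_mul, Finset.mul_sum, mul_assoc]
        rw [e, h1, map_zero, mul_zero] at this
        simpa only [map_sum, map_smul, smul_eq_mul] using this)
      refine hy (funext (Fintype.linearIndependent_iff.1 b.linearIndependent y ?_))
      exact Subtype.ext (by simpa using h2)
    simpa using this.fintype_card_le_finrank
  · induction hd : finrank K' U using Nat.strong_induction_on generalizing U with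
    | _ n ih =>
    by_cases hU : ∀ x ∈ U, x = 0
    · have : U = ⊥ := (Submodule.eq_bot_iff U).2 hU
      rw [← hd, this, finrank_bot]
      exact Nat.zero_le _
    push Not at hU
    obtain ⟨x, hx, hx0⟩ := hU
    obtain ⟨a, y, hy, hy'⟩ := hn x hx hx0
    obtain ⟨i, hi⟩ : ∃ i, c i y ≠ 0 := by
      by_contra H
      push Not at H
      exact hy (hc y H)
    have hlt : U ⊓ LinearMap.ker (c' i) < U := lt_of_le_of_ne inf_le_left fun e => by
      have h1 : c' i (a • x) = 0 := (e.ge (U.smul_mem a hx)).2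
      exact hi (hP.fn (h1 ▸ hy' i))
    have hlt2 : Red (U ⊓ LinearMap.ker (c' i)) < Red U := by
      refine lt_of_le_of_ne (fun z hz => ?_) fun e => ?_
      · obtain ⟨w, hw, hw'⟩ := (hR _ _).1 hz
        exact (hR _ _).2 ⟨w, hw.1, hw'⟩
      · obtain ⟨w, hw, hw'⟩ := (hR _ _).1 (e.ge ((hR _ _).2 ⟨a • x, U.smul_mem a hx, hy'⟩))
        have h1 : c' i w = 0 := hw.2
        exact hi (hP.fn (h1 ▸ hw' i))
    have := Submodule.finiteDimensional_of_le hlt.le
    have := Submodule.finiteDimensional_of_le hlt2.le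
    have e1 := Submodule.finrank_lt_finrank_of_lt hlt
    have e2 := Submodule.finrank_lt_finrank_of_lt hlt2
    have e3 := ih _ (hd ▸ e1) (U ⊓ LinearMap.ker (c' i)) (fun x hx => hn x hx.1) rfl
    have e4 := LinearMap.finrank_range_add_finrank_ker ((c' i).domRestrict U)
    rw [LinearMap.ker_domRestrict] at e4
    have e5 := Submodule.finrank_map_subtype_eq U ((LinearMap.ker (c' i)).comap U.subtype)
    rw [Submodule.map_comap_subtype] at e5
    have e6 := Submodule.finrank_le (LinearMap.range ((c' i).domRestrict U))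
    rw [Module.finrank_self] at e6
    omega

/-- Reduction of a subspace. -/
def redA (hP : IsPlace f P) (U : Submodule K' (A K')) : Submodule K (A K) where
  carrier := {y | ∃ x ∈ U, RA P x y}
  add_mem' := fun ⟨x, hx, h⟩ ⟨x', hx', h'⟩ => ⟨x + x', add_mem hx hx', h.add hP h'⟩
  zero_mem' := ⟨0, zero_mem _, RA.zero hP⟩
  smul_mem' := fun r _ ⟨x, hx, h⟩ => ⟨f r • x, U.smul_mem _ hx, RA.smul hP (hP.of r) h⟩

theorem mem_redA {hP : IsPlace f P} {U : Submodule K' (A K')} {y : A K} :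
    y ∈ redA hP U ↔ ∃ x ∈ U, RA P x y := Iff.rfl

theorem redA_le (hP : IsPlace f P) {U : Submodule K' (A K')} {n : ℕ}
    (hU : U ≤ (D K' n).toSubmodule) : redA hP U ≤ (D K n).toSubmodule :=
  fun _ ⟨_, hx, h⟩ => h.mem hP (hU hx)

theorem finrank_redA (hP : IsPlace f P) {U : Submodule K' (A K')} {n : ℕ}
    (hU : U ≤ (D K' n).toSubmodule) : finrank K (redA hP U) = finrank K' U := by
  have := finite_of_le hU
  have := finite_of_le (redA_le hP hU)
  refine finrank_red_aux hP co co (fun y hy => A.ext' fun g => by rw [hy g, map_zero]) (redA hP)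
    (fun _ _ => Iff.rfl) U fun x _ hx => ?_
  obtain ⟨a, -, y, hy, h⟩ := RA.norm hP hx
  exact ⟨a, y, hy, h⟩

/-- Reduction of a subalgebra. -/
def redS (hP : IsPlace f P) (U : Subalgebra K' (A K')) : Subalgebra K (A K) where
  carrier := {y | ∃ x ∈ U, RA P x y}
  add_mem' := fun ⟨x, hx, h⟩ ⟨x', hx', h'⟩ => ⟨x + x', add_mem hx hx', h.add hP h'⟩
  mul_mem' := fun ⟨x, hx, h⟩ ⟨x', hx', h'⟩ => ⟨x * x', mul_mem hx hx', h.mul hP h'⟩
  algebraMap_mem' r := ⟨f r • 1, U.smul_mem (one_mem _) _, by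
    rw [Algebra.algebraMap_eq_smul_one]; exact RA.smul hP (hP.of r) (RA.one hP)⟩

theorem mem_redS {hP : IsPlace f P} {U : Subalgebra K' (A K')} {y : A K} :
    y ∈ redS hP U ↔ ∃ x ∈ U, RA P x y := Iff.rfl

theorem redS_le (hP : IsPlace f P) {U : Subalgebra K' (A K')} {n : ℕ}
    (hU : U ≤ D K' n) : redS hP U ≤ D K n :=
  fun _ ⟨_, hx, h⟩ => h.mem hP (hU hx)

theorem finrank_redS (hP : IsPlace f P) {U : Subalgebra K' (A K')} {n : ℕ}
    (hU : U ≤ D K' n) : finrank K (redS hP U) = finrank K' U :=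
  finrank_redA hP (U := U.toSubmodule) hU

/-- Vectors supported on `S` with entries in level `n`. -/
def XS (K : Type) [Field K] [Algebra K0 K] (S : Finset ℕ) (n : ℕ) : Submodule K (ℕ → A K) where
  carrier := {β | ∀ i, β i ∈ D K n ∧ (i ∉ S → β i = 0)}
  add_mem' hx hy i := ⟨add_mem (hx i).1 (hy i).1, fun h => by simp [(hx i).2 h, (hy i).2 h]⟩
  zero_mem' _ := ⟨zero_mem _, fun _ => rfl⟩
  smul_mem' r x hx i := ⟨Subalgebra.smul_mem _ (hx i).1 r, fun h => by simp [(hx i).2 h]⟩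

theorem mem_XS {S : Finset ℕ} {n : ℕ} {β : ℕ → A K} :
    β ∈ XS K S n ↔ ∀ i, β i ∈ D K n ∧ (i ∉ S → β i = 0) := Iff.rfl

theorem XS_equiv_aux (S : Finset ℕ) (n : ℕ) :
    Nonempty (XS K S n ≃ₗ[K] (S → (D K n).toSubmodule)) := by
  classical
  let L : XS K S n →ₗ[K] (S → (D K n).toSubmodule) :=
    { toFun := fun β i => ⟨β.1 i, (β.2 i).1⟩
      map_add' := fun _ _ => rfl
      map_smul' := fun _ _ => rfl }
  refine ⟨LinearEquiv.ofBijective L ⟨fun β γ h => Subtype.ext (funext fun i => ?_), fun u => ?_⟩⟩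
  · by_cases hi : i ∈ S
    · exact congrArg Subtype.val (congrFun h ⟨i, hi⟩)
    · rw [(β.2 i).2 hi, (γ.2 i).2 hi]
  · refine ⟨⟨fun i => if hi : i ∈ S then (u ⟨i, hi⟩ : A K) else 0, fun i => ⟨?_, fun hi => ?_⟩⟩,
      funext fun i => Subtype.ext ?_⟩
    · beta_reduce
      split_ifs with hi
      · exact (u ⟨i, hi⟩).2
      · exact zero_mem _
    · exact dif_neg hi
    · exact dif_pos i.2

instance (S : Finset ℕ) (n : ℕ) : Module.Finite K (XS K S n) := by
  obtain ⟨e⟩ := XS_equiv_aux (K := K) S n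
  exact Module.Finite.equiv e.symm

theorem finrank_XS (S : Finset ℕ) (n : ℕ) : finrank K (XS K S n) = S.card * 4 ^ n := by
  obtain ⟨e⟩ := XS_equiv_aux (K := K) S n
  rw [e.finrank_eq, Module.finrank_pi_fintype, Finset.sum_const, finrank_D, Finset.card_univ,
    Fintype.card_coe, smul_eq_mul]

theorem XS_mono {S S' : Finset ℕ} {n m : ℕ} (hS : S ⊆ S') (h : n ≤ m) : XS K S n ≤ XS K S' m :=
  fun _ hβ i => ⟨D_mono h (hβ i).1, fun hi => (hβ i).2 fun H => hi (hS H)⟩

/-- Reduction of vectors. -/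
def RV (P : K' → K → Prop) (x : ℕ → A K') (y : ℕ → A K) : Prop := ∀ i, RA P (x i) (y i)

theorem RV.mem (hP : IsPlace f P) {x y} (h : RV P x y) {S : Finset ℕ} {n : ℕ}
    (hx : x ∈ XS K' S n) : y ∈ XS K S n :=
  fun i => ⟨(h i).mem hP (hx i).1, fun hi => RA.eq_zero hP ((hx i).2 hi ▸ h i)⟩

theorem RV.norm (hP : IsPlace f P) {S : Finset ℕ} {n : ℕ} {x : ℕ → A K'} (hx : x ∈ XS K' S n)
    (h : x ≠ 0) : ∃ a : K', a ≠ 0 ∧ ∃ y : ℕ → A K, y ≠ 0 ∧ RV P (a • x) y := by
  have h0 : ∀ p : ℕ × G, p ∉ S ×ˢ GS 0 n → co p.2 (x p.1) = 0 := fun p hp => by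
    by_cases h1 : p.1 ∈ S
    · exact (hx p.1).1 p.2 fun h2 => hp (Finset.mem_product.2 ⟨h1, h2⟩)
    · rw [(hx p.1).2 h1, map_zero]
  obtain ⟨p0, -, h1, h2⟩ := hP.exists_norm (S ×ˢ GS 0 n) (fun p => co p.2 (x p.1)) (by
    by_contra H
    push Not at H
    refine h (funext fun i => A.ext' fun g => ?_)
    rw [Pi.zero_apply, map_zero]
    by_cases hp : (i, g) ∈ S ×ˢ GS 0 n
    · exact H _ hp
    · exact h0 _ hp)
  have key : ∀ i, ∃ y, RA P (((co p0.2 (x p0.1))⁻¹ • x) i) y := fun i => RA.of_int hP fun g => by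
    rw [Pi.smul_apply, map_smul, smul_eq_mul, mul_comm, ← div_eq_mul_inv]
    by_cases hp : (i, g) ∈ S ×ˢ GS 0 n
    · exact h2 _ hp
    · exact ⟨0, by rw [h0 _ hp, zero_div]; exact hP.zero⟩
  choose y hy using key
  refine ⟨_, inv_ne_zero h1, y, fun H => ?_, hy⟩
  have h3 := hy p0.1 p0.2
  rw [Pi.smul_apply, map_smul, smul_eq_mul, inv_mul_cancel₀ h1, H, Pi.zero_apply, map_zero] at h3
  exact one_ne_zero (hP.unique hP.one h3)

/-- Reduction of a space of vectors. -/
def redV (hP : IsPlace f P) (U : Submodule K' (ℕ → A K')) : Submodule K (ℕ → A K) where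
  carrier := {y | ∃ x ∈ U, RV P x y}
  add_mem' := fun ⟨x, hx, h⟩ ⟨x', hx', h'⟩ =>
    ⟨x + x', add_mem hx hx', fun i => (h i).add hP (h' i)⟩
  zero_mem' := ⟨0, zero_mem _, fun _ => RA.zero hP⟩
  smul_mem' := fun r _ ⟨x, hx, h⟩ =>
    ⟨f r • x, U.smul_mem _ hx, fun i => RA.smul hP (hP.of r) (h i)⟩

theorem mem_redV {hP : IsPlace f P} {U : Submodule K' (ℕ → A K')} {y : ℕ → A K} :
    y ∈ redV hP U ↔ ∃ x ∈ U, RV P x y := Iff.rfl

theorem redV_le (hP : IsPlace f P) {U : Submodule K' (ℕ → A K')} {S : Finset ℕ} {n : ℕ}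
    (hU : U ≤ XS K' S n) : redV hP U ≤ XS K S n :=
  fun _ ⟨_, hx, h⟩ => h.mem hP (hU hx)

theorem finrank_redV (hP : IsPlace f P) {U : Submodule K' (ℕ → A K')} {S : Finset ℕ} {n : ℕ}
    (hU : U ≤ XS K' S n) : finrank K (redV hP U) = finrank K' U := by
  have := Submodule.finiteDimensional_of_le hU
  have := Submodule.finiteDimensional_of_le (redV_le hP hU)
  refine finrank_red_aux hP (I := ℕ × G) (fun p => co p.2 ∘ₗ LinearMap.proj p.1)
    (fun p => co p.2 ∘ₗ LinearMap.proj p.1)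
    (fun y hy => funext fun i => A.ext' fun g => by
      rw [Pi.zero_apply, map_zero]; exact hy (i, g)) (redV hP)
    (fun _ _ => ⟨fun ⟨x, hx, h⟩ => ⟨x, hx, fun p => h p.1 p.2⟩,
      fun ⟨x, hx, h⟩ => ⟨x, hx, fun i g => h (i, g)⟩⟩) U fun x hx hx0 => ?_
  obtain ⟨a, -, y, hy, h⟩ := RV.norm hP (hU hx) hx0
  exact ⟨a, y, hy, fun p => h p.1 p.2⟩

/-- Vectors all of whose components over level `n` lie in `U`. -/
def Up (S : Finset ℕ) (n m : ℕ) (U : Submodule K (ℕ → A K)) : Submodule K (ℕ → A K) where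
  carrier := {β | β ∈ XS K S m ∧ ∀ h ∈ GS n m, (fun i => cp n h (β i)) ∈ U}
  add_mem' hx hy := ⟨add_mem hx.1 hy.1, fun h hh => by
    simpa [Pi.add_def] using add_mem (hx.2 h hh) (hy.2 h hh)⟩
  zero_mem' := ⟨zero_mem _, fun h _ => by simpa [Pi.zero_def] using U.zero_mem⟩
  smul_mem' r x hx := ⟨Submodule.smul_mem _ r hx.1, fun h hh => by
    simpa [Pi.smul_def] using U.smul_mem r (hx.2 h hh)⟩

theorem mem_Up {S : Finset ℕ} {n m : ℕ} {U : Submodule K (ℕ → A K)} {β : ℕ → A K} :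
    β ∈ Up S n m U ↔ β ∈ XS K S m ∧ ∀ h ∈ GS n m, (fun i => cp n h (β i)) ∈ U := Iff.rfl

theorem finrank_Up {S : Finset ℕ} {n m : ℕ} (hnm : n ≤ m) {U : Submodule K (ℕ → A K)}
    (hU : U ≤ XS K S n) : finrank K (Up S n m U) = 4 ^ (m - n) * finrank K U := by
  classical
  have := Submodule.finiteDimensional_of_le hU
  let L : Up S n m U →ₗ[K] (GS n m → U) :=
    { toFun := fun β h => ⟨fun i => cp n h (β.1 i), β.2.2 h h.2⟩
      map_add' := fun _ _ => funext fun _ => Subtype.ext (funext fun _ => map_add _ _ _)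
      map_smul' := fun r β => funext fun h => Subtype.ext
        (funext fun i => map_smul (cp n h) r (β.1 i)) }
  have hL : Function.Bijective L := by
    constructor
    · rw [← LinearMap.ker_eq_bot, LinearMap.ker_eq_bot']
      intro β hβ
      refine Subtype.ext (funext fun i => eq_zero_of_cp n (β.2.1 i).1 fun g hg => ?_)
      exact congrFun (congrArg Subtype.val (congrFun hβ ⟨g, hg⟩)) i
    · intro u
      let v : G → ℕ → A K := fun h => if hh : h ∈ GS n m then (u ⟨h, hh⟩ : ℕ → A K) else 0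
      have hv : ∀ h, v h ∈ U := fun h => by
        simp only [v]
        split_ifs with hh
        · exact (u ⟨h, hh⟩).2
        · exact zero_mem _
      have hc : ∀ h ∈ GS n m, (fun i => cp n h (∑ k ∈ GS n m, v k i * e k)) = v h :=
        fun h hh => funext fun i => cp_sum hh (a := fun k => v k i) fun k _ => (hU (hv k) i).1
      refine ⟨⟨fun i => ∑ k ∈ GS n m, v k i * e k, fun i => ⟨?_, fun hi => ?_⟩, fun h hh => ?_⟩,
        funext fun h => Subtype.ext ?_⟩
      · exact Subalgebra.sum_mem _ fun k hk =>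
          mul_mem (D_mono hnm (hU (hv k) i).1) (DS_le_D (e_mem hk))
      · exact Finset.sum_eq_zero fun k _ => by rw [(hU (hv k) i).2 hi, zero_mul]
      · rw [hc h hh]; exact hv h
      · exact (hc h h.2).trans (dif_pos h.2)
  rw [(LinearEquiv.ofBijective L hL).finrank_eq, Module.finrank_pi_fintype, Finset.sum_const,
    Finset.card_univ, Fintype.card_coe, card_GS, smul_eq_mul]

end

end Vale.Agent.P199
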