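import Vale.Agent.P199.Grow

/-! The system extended by the constraint on `a`. -/

namespace Vale.Agent.P199

open Finset Module

set_option linter.unusedSectionVars false

/-- Sandwich expressions. -/
def sand (p p' : ℕ → ℕ) (k x : ℕ) : Ex :=
  Ex.sum (fun l => .mul (.mul (.var (p l)) (.var x)) (.var (p' l))) k

namespace Sys

variable (S : Sys)

/-- The new equation index. -/
def j0 : ℕ := S.J.sup id + 1

/-- New variables. -/
def vt (l : ℕ) : ℕ := S.N + 2 + 6 * l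
/-- New variables. -/
def vl (l : ℕ) : ℕ := S.N + 3 + 6 * l
/-- New variables. -/
def vb (l : ℕ) : ℕ := S.N + 4 + 6 * l
/-- New variables. -/
def vb' (l : ℕ) : ℕ := S.N + 5 + 6 * l
/-- New variables. -/
def vq (l : ℕ) : ℕ := S.N + 6 + 6 * l
/-- New variables. -/
def vq' (l : ℕ) : ℕ := S.N + 7 + 6 * l

/-- The conjugating element. -/
def eG (r : ℕ) : Ex := .add .one (.add (.var S.N) (.neg (sand S.vb S.vb' r S.N)))

/-- The normal form. -/
def eA (r κ q : ℕ) : Ex :=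
  .add (.var (S.N + 1)) (.add (.add (sand S.vb S.vb' r S.N) (.neg (sand S.vq S.vq' q S.N)))
    (Ex.sum (fun l => .mul (.var (S.vt l)) (.var (S.vl l))) κ))

/-- The new equation. -/
def eF (a : Ex) (r κ q : ℕ) : Ex :=
  .add (.mul a (S.eG r)) (.neg (.mul (S.eG r) (S.eA r κ q)))

/-- The extended system. -/
def plus (a : Ex) (r κ q : ℕ) : Sys where
  N := S.N + 8 + 6 * (r + κ + q)
  W := insert S.N S.W
  T := S.T ∪ (range κ).image S.vt
  Sc := S.Sc ∪ (range κ).image S.vt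
  J := insert S.j0 S.J
  F := Function.update S.F S.j0 (S.eF a r κ q)

theorem j0_notMem : S.j0 ∉ S.J := fun h => by
  have : id S.j0 ≤ S.J.sup id := Finset.le_sup h
  simp only [id, j0] at this
  omega

variable {S}

theorem F_plus_auxP (a : Ex) (r κ q : ℕ) {j : ℕ} (hj : j ∈ S.J) :
    (S.plus a r κ q).F j = S.F j :=
  Function.update_of_ne (fun H : j = S.j0 => S.j0_notMem (H ▸ hj)) _ _

theorem F_j0_auxP (a : Ex) (r κ q : ℕ) : (S.plus a r κ q).F S.j0 = S.eF a r κ q :=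
  Function.update_self _ _ _

theorem sand_in_auxP {T : Set ℕ} {p p' : ℕ → ℕ} {k x : ℕ} (hx : x ∈ T)
    (h : ∀ l < k, p l ∈ T ∧ p' l ∈ T) : (sand p p' k x).In T :=
  Ex.In.sum fun l hl => ⟨⟨(h l hl).1, hx⟩, (h l hl).2⟩

theorem eG_in_auxP (r κ q : ℕ) : (S.eG r).In (Set.Iio (S.N + 8 + 6 * (r + κ + q))) := by
  refine ⟨trivial, ?_, sand_in_auxP ?_ fun l hl => ⟨?_, ?_⟩⟩ <;>
    simp only [Ex.In, Set.mem_Iio, vb, vb'] <;> omega

theorem eA_in_auxP (r κ q : ℕ) : (S.eA r κ q).In (Set.Iio (S.N + 8 + 6 * (r + κ + q))) := by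
  refine ⟨?_, ⟨sand_in_auxP ?_ fun l hl => ⟨?_, ?_⟩, sand_in_auxP ?_ fun l hl => ⟨?_, ?_⟩⟩,
    Ex.In.sum fun l hl => ⟨?_, ?_⟩⟩ <;>
    simp only [Ex.In, Set.mem_Iio, vb, vb', vq, vq', vt, vl] <;> omega

theorem WF.le_plus (hS : S.WF) (a : Ex) (r κ q : ℕ) : S.Le (S.plus a r κ q) := by
  have _ := hS
  refine ⟨by simp only [plus]; omega, Finset.subset_insert _ _, fun i hi hl => ?_,
    Finset.subset_insert _ _, fun j hj => F_plus_auxP a r κ q hj, Finset.subset_union_left,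
    fun i hi hl => ?_⟩
  · exact (Finset.mem_insert.1 hi).resolve_left hl.ne
  · refine (Finset.mem_union.1 hi).resolve_right fun H => ?_
    obtain ⟨l, -, rfl⟩ := Finset.mem_image.1 H
    simp only [vt] at hl
    omega

theorem WF.plus (hS : S.WF) {a : Ex} (ha : a.In (Set.Iio S.N)) (r κ q : ℕ) :
    (S.plus a r κ q).WF := by
  have hN : (S.plus a r κ q).N = S.N + 8 + 6 * (r + κ + q) := rfl
  have hs : Set.Iio S.N ⊆ Set.Iio (S.plus a r κ q).N := Set.Iio_subset_Iio (by omega)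
  refine ⟨fun i hi => ?_, fun i hi => ?_, Finset.union_subset_union hS.T_sub le_rfl,
    fun i hi hi' => ?_, Finset.mem_insert_of_mem hS.zero_mem, Finset.mem_insert_of_mem hS.one_mem,
    fun j hj => ?_⟩
  · rcases Finset.mem_insert.1 hi with rfl | hi
    · omega
    · have := hS.W_lt i hi
      omega
  · rcases Finset.mem_union.1 hi with hi | hi
    · have := hS.Sc_lt i hi
      omega
    · obtain ⟨l, hl, rfl⟩ := Finset.mem_image.1 hi
      have := Finset.mem_range.1 hl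
      simp only [vt]
      omega
  · rcases Finset.mem_union.1 hi with hi | hi
    · rcases Finset.mem_insert.1 hi' with rfl | hi'
      · exact (hS.Sc_lt _ hi).false
      · exact hS.disj i hi hi'
    · obtain ⟨l, -, rfl⟩ := Finset.mem_image.1 hi
      have : S.vt l ≤ S.N := (Finset.mem_insert.1 hi').elim le_of_eq fun H => (hS.W_lt _ H).le
      simp only [vt] at this
      omega
  · rcases Finset.mem_insert.1 hj with rfl | hj
    · rw [F_j0_auxP]
      exact ⟨⟨ha.mono hs, eG_in_auxP r κ q⟩, eG_in_auxP r κ q, eA_in_auxP r κ q⟩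
    · rw [F_plus_auxP a r κ q hj]
      exact (hS.F_in j hj).mono hs

end Sys

noncomputable section

variable {K K' : Type} [Field K] [Field K'] [Algebra K0 K] [Algebra K0 K'] [Dom K] [Dom K']

/-- The operator given by the last family of constants. -/
def Qop (S : Sys) (q : ℕ) (v : ℕ → A K) : A K →ₗ[K] A K :=
  ∑ k ∈ range q, LinearMap.mulRight K (v (S.vq' k)) ∘ₗ LinearMap.mulLeft K (v (S.vq k))

theorem Qop_apply (S : Sys) (q : ℕ) (v : ℕ → A K) (z : A K) :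
    Qop S q v z = ∑ k ∈ range q, v (S.vq k) * z * v (S.vq' k) := by simp [Qop]

/-- The indices of the new constants. -/
def Sys.IsC (S : Sys) (r κ q i : ℕ) : Prop :=
  S.N < i ∧ i < (S.plus .zero r κ q).N ∧ ∀ l < κ, i ≠ S.vt l

/-- The meaning of the new constants. -/
structure Cst (S : Sys) (r κ q n0 : ℕ) (v : ℕ → A K) (L L0 : Subalgebra K (A K)) (η : A K) :
    Prop where
  L_le : L ≤ D K n0
  comm : Comm L
  L0_le : L0 ≤ L
  eta : η ∈ L
  eta0 : η ≠ 0
  va : v (S.N + 1) ∈ L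
  pi : ∀ z, ∑ l ∈ range r, v (S.vb l) * z * v (S.vb' l) = Pc L z
  vl : ∀ l < κ, η⁻¹ * v (S.vl l) ∈ L0
  q_comm : ∀ z, ∀ y ∈ L, y * Qop S q v z = Qop S q v z * y
  q_tr : ∀ z, ∀ l ∈ L0, ∀ m, ∀ x ∈ DS K n0 m,
    tr (η⁻¹ * l * x * Qop S q v z) = tr (η⁻¹ * l * x * z)

/-- Additional properties at the state where the constraint is imposed. -/
structure Base (S : Sys) (r κ q n0 : ℕ) (v : ℕ → A K) (L0 : Subalgebra K (A K)) (η : A K) :
    Prop where
  mem : ∀ i, S.N ≤ i → v i ∈ D K n0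
  vw : v S.N = 0
  vt : ∀ l < κ, v (S.vt l) = 0
  q_mem : ∀ z ∈ D K n0, η⁻¹ * Qop S q v z ∈ L0
  span : ∀ y ∈ L0, (∀ l < κ, tr (y * (η⁻¹ * v (S.vl l))) = 0) → y = 0

theorem enum_auxP {ι : Type} [Fintype ι] {B : Subalgebra K (A K)} (b b' : ι → A K)
    (hb : ∀ i, b i ∈ B) (hb' : ∀ i, b' i ∈ B) : ∃ (q : ℕ) (p p' : ℕ → A K), (∀ l, p l ∈ B) ∧
      (∀ l, p' l ∈ B) ∧ ∀ z, ∑ l ∈ range q, p l * z * p' l = ∑ i, b i * z * b' i := by
  let φ := (Fintype.equivFin ι).symm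
  refine ⟨Fintype.card ι, fun l => if h : l < Fintype.card ι then b (φ ⟨l, h⟩) else 0,
    fun l => if h : l < Fintype.card ι then b' (φ ⟨l, h⟩) else 0, fun l => ?_, fun l => ?_,
    fun z => ?_⟩
  · beta_reduce
    split_ifs
    · exact hb _
    · exact zero_mem _
  · beta_reduce
    split_ifs
    · exact hb' _
    · exact zero_mem _
  · rw [Finset.sum_range, ← φ.sum_comp]
    exact Finset.sum_congr rfl fun i _ => by simp only [dif_pos i.2]

theorem ext_auxP (S : Sys) {B : Subalgebra K (A K)} (v : ℕ → A K) {α : A K} (hα : α ∈ B)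
    (f : ℕ → ℕ → A K) (hf : ∀ k l, f k l ∈ B) : ∃ v' : ℕ → A K, (∀ i < S.N, v' i = v i) ∧
      v' S.N = 0 ∧ v' (S.N + 1) = α ∧ (∀ i, S.N ≤ i → v' i ∈ B) ∧
      ∀ k < 6, ∀ l, v' (S.N + (k + 2) + 6 * l) = f k l := by
  refine ⟨fun i => if i < S.N then v i else if i = S.N then 0 else if i = S.N + 1 then α else
    f ((i - S.N - 2) % 6) ((i - S.N - 2) / 6), fun i hi => if_pos hi, by simp, by simp,
    fun i hi => ?_, fun k hk l => ?_⟩
  · beta_reduce
    rw [if_neg (by omega)]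
    split_ifs
    · exact zero_mem _
    · exact hα
    · exact hf _ _
  · beta_reduce
    rw [if_neg (by omega), if_neg (by omega), if_neg (by omega)]
    congr 1 <;> omega

/-- Averaging over level `n`. -/
def avT_auxP (n : ℕ) (y : A K) : A K := ∑ g ∈ GS 0 n, e g * y * ei g

theorem avT_mul_auxP {n m : ℕ} {x : A K} (hx : x ∈ DS K n m) (y : A K) :
    x * avT_auxP n y = avT_auxP n (x * y) := by
  rw [avT_auxP, avT_auxP, Finset.mul_sum]
  refine Finset.sum_congr rfl fun g hg => ?_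
  rw [← mul_assoc, ← mul_assoc, ← comm_DS (e_mem hg) hx, mul_assoc _ x]

theorem avT_comm_auxP {n : ℕ} {x : A K} (hx : x ∈ D K n) (y : A K) :
    x * avT_auxP n y = avT_auxP n y * x := by
  obtain ⟨m, hm⟩ := exists_D y
  refine comm_DS hx (m := m) ?_
  rw [avT_auxP, sum_cp n hm]
  simp only [Finset.mul_sum, Finset.sum_mul]
  rw [Finset.sum_comm]
  refine Subalgebra.sum_mem _ fun h hh => ?_
  rw [Finset.sum_congr rfl fun g hg => by
      rw [← mul_assoc, mul_assoc _ (e h), ← comm_DS (ei_mem hg) (e_mem hh), ← mul_assoc],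
    ← Finset.sum_mul, avg (cp_mem n h y), smul_mul_assoc, one_mul]
  exact Subalgebra.smul_mem _ (e_mem hh) _

theorem avT_tr_auxP {n : ℕ} {x : A K} (hx : x ∈ D K n) (y : A K) :
    tr (x * avT_auxP n y) = 4 ^ n * tr x * tr y := by
  have h1 : ∀ g, tr (x * (e g * y * ei g)) = tr (ei g * x * e g * y) := fun g => by
    rw [← mul_assoc, tr_comm]
    simp only [mul_assoc]
  rw [avT_auxP, Finset.mul_sum, map_sum]
  simp only [h1]
  rw [← map_sum, ← Finset.sum_mul, avg' hx, smul_mul_assoc, one_mul, map_smul, smul_eq_mul]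

theorem exists_cst (S : Sys) {n0 : ℕ} (v : ℕ → A K) {α η : A K} (hα : α ∈ D K n0)
    {L0 : Subalgebra K (A K)} (h0 : L0 ≤ gen α) (hη : η ∈ gen α) (hη0 : η ≠ 0) :
    ∃ r κ q, ∃ v' : ℕ → A K, (∀ i < S.N, v' i = v i) ∧ v' (S.N + 1) = α ∧
      Cst S r κ q n0 v' (gen α) L0 η ∧ Base S r κ q n0 v' L0 η := by
  have := charZero K
  have hL : gen α ≤ D K n0 := gen_le hα
  have hc := comm_gen α
  have hi := inv_mem_of_le hL hη
  have h4 : (4 : K) ^ n0 ≠ 0 := pow_ne_zero _ (by norm_num)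
  obtain ⟨b, b', hb⟩ := exists_dual hL
  obtain ⟨a, a', ha⟩ := exists_dual (h0.trans hL)
  obtain ⟨r, p, p', hp, hp', e1⟩ := enum_auxP (fun i => (finrank K (gen α) : K)⁻¹ • b i) b'
    (fun i => (D K n0).smul_mem (hL (hb.mem i)) _) fun i => hL (hb.mem' i)
  obtain ⟨q, u, u', hu, hu', e2⟩ := enum_auxP (ι := Fin (finrank K L0) × GS 0 n0) (B := D K n0)
    (fun i => ((4 : K) ^ n0)⁻¹ • (η * a i.1 * (e i.2 * (a' i.1 * η⁻¹)))) (fun i => ei i.2)
    (fun i => (D K n0).smul_mem (mul_mem (hL (mul_mem hη (h0 (ha.mem _))))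
      (mul_mem (e_mem i.2.2) (hL (mul_mem (h0 (ha.mem' _)) hi)))) _) fun i => ei_mem i.2.2
  let t : ℕ → A K := fun l => if h : l < finrank K L0 then η * a ⟨l, h⟩ else 0
  have ht : ∀ l, t l ∈ D K n0 := fun l => by
    simp only [t]
    split_ifs
    · exact hL (mul_mem hη (h0 (ha.mem _)))
    · exact zero_mem _
  have ht' : ∀ l (h : l < finrank K L0), η⁻¹ * t l = a ⟨l, h⟩ := fun l h => by
    simp only [t, dif_pos h, inv_mul_cancel_left₀ hη0]
  obtain ⟨v', g1, g2, g3, g4, g5⟩ := ext_auxP S v hα (fun k => match k with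
    | 0 => 0 | 1 => t | 2 => p | 3 => p' | 4 => u | _ => u') fun k l => by
      split <;> first | exact zero_mem _ | apply ht | apply hp | apply hp' | apply hu | apply hu'
  have k0 : ∀ l, v' (S.vt l) = 0 := g5 0 (by norm_num)
  have k1 : ∀ l, v' (S.vl l) = t l := g5 1 (by norm_num)
  have k2 : ∀ l, v' (S.vb l) = p l := g5 2 (by norm_num)
  have k3 : ∀ l, v' (S.vb' l) = p' l := g5 3 (by norm_num)
  have k4 : ∀ l, v' (S.vq l) = u l := g5 4 (by norm_num)
  have k5 : ∀ l, v' (S.vq' l) = u' l := g5 5 (by norm_num)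
  have hQ : ∀ z, Qop S q v' z =
      ((4 : K) ^ n0)⁻¹ • ∑ i, η * a i * avT_auxP n0 (a' i * η⁻¹ * z) := fun z => by
    simp only [Qop_apply, k4, k5, e2, Fintype.sum_prod_type, Finset.smul_sum, avT_auxP,
      Finset.mul_sum]
    refine Finset.sum_congr rfl fun i _ => ?_
    rw [← Finset.sum_coe_sort (GS 0 n0)]
    simp only [smul_mul_assoc, mul_assoc]
  refine ⟨r, finrank K L0, q, v', g1, g3, ⟨hL, hc, h0, hη, hη0, g3 ▸ mem_gen α, fun z => ?_,
    fun l hl => ?_, fun z y hy => ?_, fun z l hl m x hx => ?_⟩,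
    g4, g2, fun l _ => k0 l, fun z hz => ?_, fun y hy H => ?_⟩
  · simp only [k2, k3, e1, hb.Pc_eq hL hc, Finset.smul_sum, smul_mul_assoc]
  · rw [k1, ht' l hl]
    exact ha.mem _
  · rw [hQ, mul_smul_comm, smul_mul_assoc, Finset.mul_sum, Finset.sum_mul]
    refine congrArg _ (Finset.sum_congr rfl fun i _ => ?_)
    rw [← mul_assoc, hc y hy _ (mul_mem hη (h0 (ha.mem i))), mul_assoc _ y, avT_comm_auxP (hL hy),
      ← mul_assoc]
  · have s1 : ∀ i, tr (η⁻¹ * l * x * (η * a i * avT_auxP n0 (a' i * η⁻¹ * z))) =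
        4 ^ n0 * tr (x * (tr (l * a i) • a' i * η⁻¹ * z)) := fun i => by
      rw [← mul_assoc, mul_assoc _ x, ← comm_DS (hL (mul_mem hη (h0 (ha.mem i)))) hx, ← mul_assoc,
        mul_assoc _ x, avT_mul_auxP hx, hc _ hi l (h0 hl), mul_assoc l, inv_mul_cancel_left₀ hη0,
        avT_tr_auxP (hL (h0 (mul_mem hl (ha.mem i))))]
      simp only [smul_mul_assoc, mul_smul_comm, map_smul, smul_eq_mul, mul_assoc]
    rw [hQ, mul_smul_comm, Finset.mul_sum, map_smul, map_sum]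
    simp only [s1]
    rw [← Finset.mul_sum, smul_eq_mul, inv_mul_cancel_left₀ h4, ← map_sum, ← Finset.mul_sum,
      ← Finset.sum_mul, ← Finset.sum_mul, ← ha.span' hl, ← mul_assoc,
      ← comm_DS (hL (mul_mem (h0 hl) hi)) hx, hc _ hi l (h0 hl)]
  · rw [hQ, mul_smul_comm, Finset.mul_sum]
    refine L0.smul_mem (Subalgebra.sum_mem _ fun i _ => ?_) _
    rw [avT_auxP, avg (mul_mem (hL (mul_mem (h0 (ha.mem' i)) hi)) hz), mul_assoc,
      inv_mul_cancel_left₀ hη0, mul_smul_comm, mul_one]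
    exact L0.smul_mem (ha.mem i) _
  · rw [ha.span' hy]
    refine Finset.sum_eq_zero fun i _ => ?_
    have := H i i.2
    rw [k1, ht' i i.2] at this
    rw [this, zero_smul]

variable {S : Sys} {r κ q n0 : ℕ} {v : ℕ → A K} {L L0 : Subalgebra K (A K)} {η : A K}

theorem isC_auxP (S : Sys) (r κ q : ℕ) : S.IsC r κ q (S.N + 1) ∧
    (∀ l < r, S.IsC r κ q (S.vb l) ∧ S.IsC r κ q (S.vb' l)) ∧ (∀ l < κ, S.IsC r κ q (S.vl l)) ∧
    ∀ l < q, S.IsC r κ q (S.vq l) ∧ S.IsC r κ q (S.vq' l) := by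
  refine ⟨⟨?_, ?_, fun l _ => ?_⟩, fun l hl => ⟨⟨?_, ?_, fun l _ => ?_⟩, ?_, ?_, fun l _ => ?_⟩,
    fun l hl => ⟨?_, ?_, fun l _ => ?_⟩, fun l hl => ⟨⟨?_, ?_, fun l _ => ?_⟩, ?_, ?_,
    fun l _ => ?_⟩⟩ <;>
  (try simp only [Sys.plus, Sys.vb, Sys.vb', Sys.vl, Sys.vq, Sys.vq', Sys.vt]) <;> omega

theorem Cst.map (h : Cst S r κ q n0 v L L0 η) (f : K →ₐ[K0] K') {v' : ℕ → A K'}
    (hv : ∀ i, S.IsC r κ q i → v' i = map f (v i)) :
    Cst S r κ q n0 v' (bc f L) (bc f L0) (map f η) := by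
  obtain ⟨c1, c2, c3, c4⟩ := isC_auxP S r κ q
  have hQ : ∀ g, Qop S q v' (e g) = P199.map f (Qop S q v (e g)) := fun g => by
    rw [Qop_apply, Qop_apply, map_sum]
    refine Finset.sum_congr rfl fun l hl => ?_
    have := c4 l (Finset.mem_range.1 hl)
    rw [hv _ this.1, hv _ this.2, map_mul, map_mul, map_e]
  refine ⟨bc_le f h.L_le, h.comm.bc f, bc_mono f h.L0_le, map_mem_bc f h.eta,
    (map_ne_zero _).2 h.eta0, hv _ c1 ▸ map_mem_bc f h.va, fun z => ?_, fun l hl => ?_,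
    fun z y hy => ?_, fun z l hl m x hx => ?_⟩
  · induction z using A.induction with
    | h0 => simp
    | hadd x y hx hy => simp only [mul_add, add_mul, Finset.sum_add_distrib, hx, hy, map_add]
    | he s g =>
      simp only [mul_smul_comm, smul_mul_assoc, ← Finset.smul_sum, map_smul]
      rw [← map_e f, ← map_Pc f h.L_le h.comm, ← h.pi, map_sum]
      refine congrArg _ (Finset.sum_congr rfl fun l hl => ?_)
      have := c2 l (Finset.mem_range.1 hl)
      rw [hv _ this.1, hv _ this.2, map_mul, map_mul]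
  · rw [hv _ (c3 l hl), ← map_inv₀, ← map_mul]
    exact map_mem_bc f (h.vl l hl)
  · refine comm_adjoin ?_ y hy
    rintro _ ⟨y, hy, rfl⟩
    induction z using A.induction with
    | h0 => simp
    | hadd x y hx hy => simp only [mul_add, add_mul, hx, hy, map_add]
    | he s g =>
      rw [map_smul, mul_smul_comm, smul_mul_assoc, hQ, ← map_mul, ← map_mul, h.q_comm _ y hy]
  · refine Submodule.span_induction (p := fun l _ => tr ((P199.map f η)⁻¹ * l * x * Qop S q v' z) =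
      tr ((P199.map f η)⁻¹ * l * x * z)) ?_ (by simp)
      (fun _ _ _ _ h1 h2 => by simp only [mul_add, add_mul, map_add, h1, h2])
      (fun _ _ _ h1 => by simp only [mul_smul_comm, smul_mul_assoc, map_smul, h1])
      (mem_span_of_bc_aux f hl)
    rintro _ ⟨l, hl, rfl⟩
    refine DS.induction (p := fun x => tr ((P199.map f η)⁻¹ * P199.map f l * x * Qop S q v' z) =
      tr ((P199.map f η)⁻¹ * P199.map f l * x * z)) hx (by simp)
      (fun _ _ h1 h2 => by simp only [mul_add, add_mul, map_add, h1, h2]) fun s k hk => ?_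
    induction z using A.induction with
    | h0 => simp
    | hadd x y hx hy => simp only [mul_add, hx, hy, map_add]
    | he s' g =>
      simp only [mul_smul_comm, smul_mul_assoc, map_smul]
      rw [hQ, ← map_e f g, ← map_e f k, ← map_inv₀]
      simp only [← map_mul, tr_map]
      rw [h.q_tr _ l hl m _ (e_mem hk)]

theorem ev_sand_auxP (v : ℕ → A K) (p p' : ℕ → ℕ) (k x : ℕ) :
    ev v (sand p p' k x) = ∑ l ∈ range k, v (p l) * v x * v (p' l) := ev_sum _ _ _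

theorem d1_sand_auxP (v : ℕ → A K) {β : ℕ → A K} {p p' : ℕ → ℕ} {k : ℕ} (x : ℕ)
    (h : ∀ l < k, β (p l) = 0 ∧ β (p' l) = 0) :
    d1 v (sand p p' k x) β = ∑ l ∈ range k, v (p l) * β x * v (p' l) := by
  rw [sand, d1_sum]
  refine Finset.sum_congr rfl fun l hl => ?_
  simp [h l (Finset.mem_range.1 hl)]

theorem d2_sand_auxP (v : ℕ → A K) {β γ : ℕ → A K} {p p' : ℕ → ℕ} {k : ℕ} (x : ℕ)
    (h : ∀ l < k, β (p l) = 0 ∧ γ (p' l) = 0) : d2 v (sand p p' k x) β γ = 0 := by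
  rw [sand, d2_sum]
  refine Finset.sum_eq_zero fun l hl => ?_
  simp [h l (Finset.mem_range.1 hl)]

theorem Cst.ev_eG (h : Cst S r κ q n0 v L L0 η) :
    ev v (S.eG r) = 1 + (v S.N - Pc L (v S.N)) := by
  simp only [Sys.eG, ev_add, ev_one, ev_var, ev_neg, ev_sand_auxP, h.pi, sub_eq_add_neg]

theorem Cst.ev_eA (h : Cst S r κ q n0 v L L0 η) :
    ev v (S.eA r κ q) = v (S.N + 1) + (Pc L (v S.N) - Qop S q v (v S.N) +
      ∑ l ∈ range κ, v (S.vt l) * v (S.vl l)) := by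
  simp only [Sys.eA, ev_add, ev_var, ev_neg, ev_sand_auxP, h.pi, sub_eq_add_neg, ev_sum, ev_mul,
    Qop_apply]

theorem Cst.d1_eG (h : Cst S r κ q n0 v L L0 η) {β : ℕ → A K}
    (hβ : ∀ i, S.IsC r κ q i → β i = 0) : d1 v (S.eG r) β = β S.N - Pc L (β S.N) := by
  obtain ⟨-, c2, -, -⟩ := isC_auxP S r κ q
  simp only [Sys.eG, d1_add, d1_one, d1_var, d1_neg, zero_add, sub_eq_add_neg,
    d1_sand_auxP v S.N fun l hl => ⟨hβ _ (c2 l hl).1, hβ _ (c2 l hl).2⟩, h.pi]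

theorem Cst.d1_eA (h : Cst S r κ q n0 v L L0 η) {β : ℕ → A K}
    (hβ : ∀ i, S.IsC r κ q i → β i = 0) :
    d1 v (S.eA r κ q) β = Pc L (β S.N) - Qop S q v (β S.N) +
      ∑ l ∈ range κ, β (S.vt l) * v (S.vl l) := by
  obtain ⟨c1, c2, c3, c4⟩ := isC_auxP S r κ q
  simp only [Sys.eA, d1_add, d1_var, d1_neg, sub_eq_add_neg, hβ _ c1, zero_add, d1_sum,
    d1_sand_auxP v S.N fun l hl => ⟨hβ _ (c2 l hl).1, hβ _ (c2 l hl).2⟩, h.pi, Qop_apply,
    d1_sand_auxP v S.N fun l hl => ⟨hβ _ (c4 l hl).1, hβ _ (c4 l hl).2⟩]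
  refine congrArg _ (Finset.sum_congr rfl fun l hl => ?_)
  simp [hβ _ (c3 l (Finset.mem_range.1 hl))]

theorem d2_eG (v : ℕ → A K) {β γ : ℕ → A K} (hβ : ∀ i, S.IsC r κ q i → β i = 0)
    (hγ : ∀ i, S.IsC r κ q i → γ i = 0) : d2 v (S.eG r) β γ = 0 := by
  obtain ⟨-, c2, -, -⟩ := isC_auxP S r κ q
  simp [Sys.eG, d2_sand_auxP v S.N fun l hl => ⟨hβ _ (c2 l hl).1, hγ _ (c2 l hl).2⟩]

theorem d2_eA (v : ℕ → A K) {β γ : ℕ → A K} (hβ : ∀ i, S.IsC r κ q i → β i = 0)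
    (hγ : ∀ i, S.IsC r κ q i → γ i = 0) : d2 v (S.eA r κ q) β γ = 0 := by
  obtain ⟨-, c2, c3, c4⟩ := isC_auxP S r κ q
  simp only [Sys.eA, d2_add, d2_var, d2_neg, zero_add, d2_sum, neg_zero,
    d2_sand_auxP v S.N fun l hl => ⟨hβ _ (c2 l hl).1, hγ _ (c2 l hl).2⟩,
    d2_sand_auxP v S.N fun l hl => ⟨hβ _ (c4 l hl).1, hγ _ (c4 l hl).2⟩]
  refine Finset.sum_eq_zero fun l hl => ?_
  simp [hγ _ (c3 l (Finset.mem_range.1 hl))]

theorem isC_zero (hS : S.WF) {a : Ex} {m : ℕ} {β : ℕ → A K}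
    (hβ : β ∈ XS K (S.plus a r κ q).W m) : ∀ i, S.N < i → β i = 0 := by
  refine fun i hi => (hβ i).2 fun H => ?_
  rcases Finset.mem_insert.1 H with rfl | H
  · exact hi.false
  · exact (hS.W_lt i H).not_gt hi

theorem eG_in (S : Sys) (a : Ex) (r κ q : ℕ) : (S.eG r).In (Set.Iio (S.plus a r κ q).N) := by
  exact Sys.eG_in_auxP r κ q

theorem eA_in (S : Sys) (a : Ex) (r κ q : ℕ) :
    (S.eA r κ q).In (Set.Iio (S.plus a r κ q).N) := by
  exact Sys.eA_in_auxP r κ q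

theorem LB_plus (S : Sys) (a : Ex) (r κ q : ℕ) (v c β : ℕ → A K) :
    LB (S.plus a r κ q) v c β = LB S v c β + tr (c S.j0 * d1 v (S.eF a r κ q) β) := by
  rw [LB_apply, LB_apply, add_comm]
  refine (Finset.sum_insert S.j0_notMem).trans ?_
  rw [Sys.F_j0_auxP]
  exact congrArg _ (Finset.sum_congr rfl fun j hj => by rw [Sys.F_plus_auxP a r κ q hj])

theorem Om_plus (S : Sys) (a : Ex) (r κ q : ℕ) (v c β γ : ℕ → A K) :
    Om (S.plus a r κ q) v c β γ = Om S v c β γ + tr (c S.j0 * d2 v (S.eF a r κ q) β γ) := by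
  rw [Om_apply, Om_apply, add_comm]
  refine (Finset.sum_insert S.j0_notMem).trans ?_
  rw [Sys.F_j0_auxP]
  exact congrArg _ (Finset.sum_congr rfl fun j hj => by rw [Sys.F_plus_auxP a r κ q hj])

end

end Vale.Agent.P199
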