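import Vale.Agent.P199.Ext

/-! The algebraic rigidity lemma. -/

namespace Vale.Agent.P199

open Finset Module

set_option linter.unusedSectionVars false

variable {K : Type} [Field K] [Algebra K0 K] [Dom K]

theorem two_ne_auxR : (2 : A K) ≠ 0 := by
  have := charZero K
  intro h
  have h2 : ((2 : K) • (1 : A K)) = 0 := by rw [two_smul, one_add_one_eq_two, h]
  simp at h2

theorem cu_auxR {ι : Type} (s : Finset ι) (u : ι → A K)
    (hc : ∀ i ∈ s, ∀ j ∈ s, u i * u j = u j * u i)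
    (hsq : ∀ i ∈ s, ∀ x, u i * u i * x = x * (u i * u i))
    (hne : ∀ t ⊆ s, t.Nonempty → ∑ i ∈ t, u i ≠ 0) {y : A K}
    (hy : (∑ i ∈ s, u i) * y = y * ∑ i ∈ s, u i) {k : ι} (hk : k ∈ s) : u k * y = y * u k := by
  classical
  set U := ∑ i ∈ s, u i with hU
  have hUu : ∀ l ∈ s, U * u l = u l * U := fun l hl => by
    rw [hU, Finset.sum_mul, Finset.mul_sum]
    exact Finset.sum_congr rfl fun i hi => hc i hi l hl
  have step : ∀ l ∈ s, ∀ w : A K, U * w = w * U →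
      U * (u l * w - w * u l) = (u l * w - w * u l) * U ∧
      u l * (u l * w - w * u l) = -((u l * w - w * u l) * u l) ∧
      ∀ j ∈ s, (u j * w = w * u j → u j * (u l * w - w * u l) = (u l * w - w * u l) * u j) ∧
        (u j * w = -(w * u j) → u j * (u l * w - w * u l) = -((u l * w - w * u l) * u j)) := by
    intro l hl w hw
    refine ⟨?_, ?_, fun j hj => ⟨fun h => ?_, fun h => ?_⟩⟩
    · rw [mul_sub, sub_mul, ← mul_assoc, hUu l hl, mul_assoc, hw, ← mul_assoc U, hw,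
        mul_assoc w, hUu l hl]
      simp only [mul_assoc]
    · have := hsq l hl w
      rw [mul_sub, sub_mul, ← mul_assoc, this]
      simp only [mul_assoc]; abel
    · rw [mul_sub, sub_mul, ← mul_assoc, hc j hj l hl, mul_assoc, h, ← mul_assoc (u j), h,
        mul_assoc w, hc j hj l hl]
      simp only [mul_assoc]
    · rw [mul_sub, sub_mul, ← mul_assoc, hc j hj l hl, mul_assoc, h, ← mul_assoc (u j), h,
        neg_mul, mul_assoc w, hc j hj l hl]
      simp only [mul_assoc, mul_neg]; abel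
  by_contra hne0
  have key : ∀ t : Finset ι, t ⊆ s → ∃ w : A K, w ≠ 0 ∧ U * w = w * U ∧ u k * w = -(w * u k) ∧
      ∀ l ∈ t, u l * w = w * u l ∨ u l * w = -(w * u l) := by
    intro t
    induction t using Finset.induction_on with
    | empty =>
      intro _
      obtain ⟨h1, h2, -⟩ := step k hk y hy
      exact ⟨_, sub_ne_zero.2 hne0, h1, h2, by simp⟩
    | insert a t _ ih =>
      intro hs
      have ha : a ∈ s := hs (Finset.mem_insert_self _ _)
      have ht : t ⊆ s := (Finset.subset_insert _ _).trans hs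
      obtain ⟨w, w0, w1, w2, w3⟩ := ih ht
      by_cases H : u a * w = w * u a
      · refine ⟨w, w0, w1, w2, fun l hl => ?_⟩
        rcases Finset.mem_insert.1 hl with rfl | hl
        · exact Or.inl H
        · exact w3 l hl
      · obtain ⟨h1, h2, h3⟩ := step a ha w w1
        refine ⟨_, sub_ne_zero.2 H, h1, (h3 k hk).2 w2, fun l hl => ?_⟩
        rcases Finset.mem_insert.1 hl with rfl | hl
        · exact Or.inr h2
        · exact (w3 l hl).imp (h3 l (ht hl)).1 (h3 l (ht hl)).2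
  obtain ⟨w, w0, w1, w2, w3⟩ := key s Finset.Subset.rfl
  have hkt : k ∈ s.filter fun l => u l * w = -(w * u l) := Finset.mem_filter.2 ⟨hk, w2⟩
  refine hne _ (Finset.filter_subset _ _) ⟨k, hkt⟩ ?_
  have e1 : U * w - w * U = ∑ l ∈ s, (u l * w - w * u l) := by
    rw [hU, Finset.sum_mul, Finset.mul_sum, Finset.sum_sub_distrib]
  have e2 : ∑ l ∈ s, (u l * w - w * u l) =
      2 * ((∑ l ∈ s.filter fun l => u l * w = -(w * u l), u l) * w) := by
    rw [Finset.sum_mul, Finset.mul_sum, Finset.sum_filter]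
    refine Finset.sum_congr rfl fun l hl => ?_
    split_ifs with H
    · rw [two_mul, sub_eq_add_neg, ← H]
    · rw [(w3 l hl).resolve_right H, sub_self]
  rw [e2, w1, sub_self] at e1
  exact ((mul_eq_zero.1 ((mul_eq_zero.1 e1.symm).resolve_left two_ne_auxR))).resolve_right w0

/-- A choice of a nonzero group element in every factor. -/
def Ch_auxR (f : ℕ → G) : Prop := ∀ k, f k ∈ GS k (k + 1) ∧ f k ≠ 0

/-- The sum of the chosen basis elements. -/
noncomputable def U_auxR (K : Type) [Field K] [Algebra K0 K] (n0 n : ℕ) (f : ℕ → G) : A K :=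
  ∑ k ∈ Finset.Ico n0 n, e (f k)

theorem Ch_auxR.notMem {f : ℕ → G} (hf : Ch_auxR f) (k : ℕ) : f k ∉ GS 0 k := fun h =>
  (hf k).2 (eq_zero_of_GS h (hf k).1)

theorem Ch_auxR.lt {f : ℕ → G} (hf : Ch_auxR f) {k l : ℕ} (h : k < l) : f k ∈ GS 0 l :=
  GS_mono (Nat.zero_le _) h (hf k).1

theorem Ch_auxR.inj {f : ℕ → G} (hf : Ch_auxR f) {k l : ℕ} (h : f k = f l) : k = l := by
  rcases lt_trichotomy k l with H | H | H
  · exact absurd (h ▸ hf.lt H) (hf.notMem l)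
  · exact H
  · exact absurd (h ▸ hf.lt H) (hf.notMem k)

theorem Ch_auxR.comm {f : ℕ → G} (hf : Ch_auxR f) (k l : ℕ) :
    (e (f k) : A K) * e (f l) = e (f l) * e (f k) := by
  rcases lt_trichotomy k l with H | H | H
  · exact e_commute (sym_eq_zero (hf.lt H) (hf l).1)
  · rw [H]
  · exact (e_commute (sym_eq_zero (hf.lt H) (hf k).1)).symm

theorem Ch_auxR.mem {f : ℕ → G} (hf : Ch_auxR f) (n0 n : ℕ) : U_auxR K n0 n f ∈ DS K n0 n :=
  sum_mem fun k hk => e_mem (GS_mono (Finset.mem_Ico.1 hk).1 (Finset.mem_Ico.1 hk).2 (hf k).1)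

theorem Ch_auxR.cu {f : ℕ → G} (hf : Ch_auxR f) {n0 n : ℕ} {y : A K}
    (hy : U_auxR K n0 n f * y = y * U_auxR K n0 n f) {k : ℕ} (hk : k ∈ Finset.Ico n0 n) :
    e (f k) * y = y * e (f k) := by
  classical
  refine cu_auxR _ (fun k => e (f k)) (fun i _ j _ => hf.comm i j) (fun i _ x => ?_)
    (fun t _ ⟨j, hj⟩ h => ?_) hy hk
  · rw [e_sq, smul_mul_assoc, mul_smul_comm, one_mul, mul_one]
  · have := congrArg (co (f j)) h
    rw [map_sum, map_zero, Finset.sum_eq_single_of_mem j hj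
      (fun l _ hl => by rw [co_e, if_neg fun H => hl (hf.inj H)]), co_e, if_pos rfl] at this
    exact one_ne_zero this

theorem Ch_auxR.tower {f : ℕ → G} (hf : Ch_auxR f) {n0 : ℕ} {L : Subalgebra K (A K)}
    (hL : L ≤ D K n0) (hc : Comm L) (j : ℕ) :
    ∃ N : Subalgebra K (A K), N ≤ D K (n0 + j) ∧ Comm N ∧ finrank K L * 2 ^ j ≤ finrank K N ∧
      ∀ x : A K, (∀ y ∈ L, y * x = x * y) →
        (∀ k ∈ Finset.Ico n0 (n0 + j), e (f k) * x = x * e (f k)) → ∀ y ∈ N, y * x = x * y := by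
  induction j with
  | zero => exact ⟨L, hL, hc, by simp, fun x hx _ => hx⟩
  | succ j ih =>
    obtain ⟨N, h1, h2, h3, h4⟩ := ih
    have hm : (e (f (n0 + j)) : A K) ∈ DS K (n0 + j) (n0 + j + 1) := e_mem (hf _).1
    have hle : adj N (e (f (n0 + j))) ≤ D K (n0 + (j + 1)) :=
      adj_le (h1.trans (D_mono (by omega))) (DS_le_D hm)
    refine ⟨adj N (e (f (n0 + j))), hle, h2.adj fun x hx => comm_DS (h1 hx) hm, ?_,
      fun x hx hx' => comm_adjoin ?_⟩
    · have := dbl hle (le_adj _ _) (mem_adj _ _) (fun H => by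
        have := h1 H _ (hf.notMem (n0 + j))
        rw [co_e, if_pos rfl] at this
        exact one_ne_zero this)
      rw [pow_succ, ← mul_assoc]; omega
    · rintro y (rfl | hy)
      · exact hx' _ (Finset.mem_Ico.2 ⟨by omega, by omega⟩)
      · exact h4 x hx (fun k hk => hx' k (Finset.mem_Ico.2
          ⟨(Finset.mem_Ico.1 hk).1, by have := (Finset.mem_Ico.1 hk).2; omega⟩)) y hy

/-- The adjoint map. -/
noncomputable def ad_auxR (x : A K) : A K →ₗ[K] A K :=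
  LinearMap.mulLeft K x - LinearMap.mulRight K x

theorem ad_auxR_apply (x y : A K) : ad_auxR x y = x * y - y * x := rfl

theorem Ch_auxR.dim {f : ℕ → G} (hf : Ch_auxR f) {n0 n : ℕ} (hn : n0 ≤ n)
    {L : Subalgebra K (A K)} (hL : L ≤ D K n0) (hc : Comm L) :
    finrank K ((Cn n L).toSubmodule ⊓ LinearMap.ker (ad_auxR (U_auxR K n0 n f)) :
      Submodule K (A K)) * (finrank K L * 2 ^ (n - n0)) ≤ 4 ^ n := by
  obtain ⟨N, h1, h2, h3, h4⟩ := hf.tower hL hc (n - n0)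
  rw [Nat.add_sub_cancel' hn] at h1 h4
  rw [← finrank_Cn h1 h2]
  refine Nat.mul_le_mul ?_ h3
  have := finite_sub (Cn_le n N)
  have : Module.Finite K (Cn n N).toSubmodule := this
  refine Submodule.finrank_mono (t := (Cn n N).toSubmodule) fun x hx => ?_
  obtain ⟨hx1, hx2⟩ := Submodule.mem_inf.1 hx
  have hx1 := mem_Cn.1 hx1
  exact mem_Cn.2 ⟨hx1.1, h4 x hx1.2 fun k hk => hf.cu (sub_eq_zero.1 hx2) hk⟩

theorem exists_ch_auxR (h : G) : ∃ f, Ch_auxR f ∧ ∀ k, sym (f k) h = 0 := by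
  have : ∀ k, ∃ g, (g ∈ GS k (k + 1) ∧ g ≠ 0) ∧ sym g h = 0 := fun k => by
    by_cases h1 : sym (gi k) h = 0
    · exact ⟨_, ⟨gi_mem k, gi_ne_zero k⟩, h1⟩
    by_cases h2 : sym (gj k) h = 0
    · exact ⟨_, ⟨gj_mem k, gj_ne_zero k⟩, h2⟩
    refine ⟨_, ⟨gij_mem k, gij_ne_zero k⟩, ?_⟩
    rw [sym_add_left]
    revert h1 h2
    generalize sym (gi k) h = a
    generalize sym (gj k) h = b
    revert a b; decide
  choose f hf using this
  exact ⟨f, fun k => (hf k).1, fun k => (hf k).2⟩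

theorem exists_ch'_auxR {k : ℕ} {g : G} (hg : g ∈ GS k (k + 1)) (h0 : g ≠ 0) :
    ∃ f, Ch_auxR f ∧ f k = g := by
  refine ⟨fun l => if l = k then g else gi l, fun l => ?_, by simp⟩
  by_cases H : l = k
  · subst H; simp only [if_true]; exact ⟨hg, h0⟩
  · simp only [if_neg H]; exact ⟨gi_mem l, gi_ne_zero l⟩

theorem mem_D_auxR {n0 : ℕ} {x : A K} (j : ℕ) (hx : x ∈ D K (n0 + j))
    (h : ∀ k ∈ Finset.Ico n0 (n0 + j), ∀ g ∈ GS k (k + 1), g ≠ 0 → e g * x = x * e g) :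
    x ∈ D K n0 := by
  induction j with
  | zero => exact hx
  | succ j ih =>
    refine ih (mem_D_of_comm (m := n0 + j + 1) hx fun g hg => ?_) fun k hk => h k
      (Finset.mem_Ico.2 ⟨(Finset.mem_Ico.1 hk).1, by have := (Finset.mem_Ico.1 hk).2; omega⟩)
    by_cases h0 : g = 0
    · rw [h0, e_zero, mul_one, one_mul]
    · exact (h _ (Finset.mem_Ico.2 ⟨by omega, by omega⟩) g hg h0).symm

theorem cp_DS_auxR {n0 n : ℕ} (B : Subalgebra K (A K)) {U : A K} (hU : U ∈ DS K n0 n) {h : G}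
    (hh : h ∈ GS n0 n) : cp n0 h U ∈ B := by
  refine DS.induction (p := fun U => cp n0 h U ∈ B) hU (by simp) (fun x y hx hy => ?_)
    fun r g hg => ?_
  · rw [map_add]; exact add_mem hx hy
  · rw [map_smul, cp_e hh hg]
    refine B.smul_mem ?_ _
    split_ifs
    · exact one_mem _
    · exact zero_mem _

theorem cp_D_auxR {n0 n : ℕ} {x : A K} (hx : x ∈ D K n0) {h : G} (hh : h ∈ GS n0 n) :
    cp n0 h x = if 0 = h then x else 0 := by
  have := cp_mul_e hh (zero_mem_GS n0 n) hx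
  rw [e_zero, mul_one] at this
  rw [this]

theorem cp_adj_auxR {n0 n : ℕ} (hn : n0 ≤ n) {L : Subalgebra K (A K)} (hL : L ≤ D K n0) {y : A K}
    (hy : y ∈ D K n) (hy' : ∀ h ∈ GS n0 n, cp n0 h y ∈ L) {x : A K} (hx : x ∈ adj L y) :
    ∀ h ∈ GS n0 n, cp n0 h x ∈ L := by
  have hD : adj L y ≤ D K n := adj_le (hL.trans (D_mono hn)) hy
  induction hx using Algebra.adjoin_induction with
  | mem x hx =>
    rcases hx with rfl | hx
    · exact hy'
    · intro h hh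
      rw [cp_D_auxR (hL hx) hh]
      split_ifs
      · exact hx
      · exact zero_mem _
  | algebraMap r => exact fun h hh => cp_DS_auxR L (Subalgebra.algebraMap_mem _ r) hh
  | add x w _ _ h1 h2 => exact fun h hh => by rw [map_add]; exact add_mem (h1 h hh) (h2 h hh)
  | mul x w hx hw h1 h2 =>
    intro h hh
    rw [sum_cp n0 (hD hx), sum_cp n0 (hD hw), Finset.sum_mul_sum, map_sum]
    refine sum_mem fun g hg => ?_
    rw [map_sum]
    refine sum_mem fun k hk => ?_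
    rw [mul_assoc, ← mul_assoc (e g), ← comm_DS (cp_mem n0 k w) (e_mem hg), mul_assoc,
      ← mul_assoc, cp_mul_left _ (mul_mem (cp_mem _ _ _) (cp_mem _ _ _))]
    exact mul_mem (mul_mem (h1 g hg) (h2 k hk))
      (cp_DS_auxR L (mul_mem (e_mem hg) (e_mem hk)) hh)

theorem orth_auxR {n0 : ℕ} {L L0 : Subalgebra K (A K)} (hL : L ≤ D K n0) (h0 : L0 ≤ L) {x : A K}
    (hx : x ∈ L) (h : ∀ ξ ∈ L, (∀ l ∈ L0, tr (l * ξ) = 0) → tr (ξ * x) = 0) : x ∈ L0 := by
  have hL0 := h0.trans hL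
  have o : ∀ y : A K, ∀ l ∈ L0, tr (l * (y - pr L0 y)) = 0 := fun y l hl => by
    rw [mul_sub, map_sub, tr_mul_pr hL0 hl, sub_self]
  have : x - pr L0 x = 0 := by
    refine nondeg hL (sub_mem hx (h0 (pr_mem _ _))) fun y hy => ?_
    have e1 : y * (x - pr L0 x) = pr L0 y * (x - pr L0 x) +
        ((y - pr L0 y) * x - (y - pr L0 y) * pr L0 x) := by noncomm_ring
    rw [e1, map_add, map_sub, o x _ (pr_mem _ _), h _ (sub_mem hy (h0 (pr_mem _ _))) (o y),
      tr_comm, o y _ (pr_mem _ _)]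
    simp
  rw [sub_eq_zero.1 this]
  exact pr_mem _ _

/-- The projection onto the tensor product of `L0` with the new factors. -/
noncomputable def P0_auxR (n0 n : ℕ) (L0 : Subalgebra K (A K)) : A K →ₗ[K] A K :=
  ∑ h ∈ GS n0 n, LinearMap.mulRight K (e h) ∘ₗ pr L0 ∘ₗ cp n0 h

theorem P0_auxR_apply (n0 n : ℕ) (L0 : Subalgebra K (A K)) (x : A K) :
    P0_auxR n0 n L0 x = ∑ h ∈ GS n0 n, pr L0 (cp n0 h x) * e h := by
  simp [P0_auxR, LinearMap.sum_apply]

theorem P0_auxR_mul {n0 n : ℕ} {L0 : Subalgebra K (A K)} (hL0 : L0 ≤ D K n0) {ξ m : A K}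
    (hξ : ξ ∈ D K n0) (hm : m ∈ D K n) (hm' : ∀ h ∈ GS n0 n, cp n0 h m ∈ L0) :
    P0_auxR n0 n L0 (ξ * m) = pr L0 ξ * m := by
  rw [P0_auxR_apply]
  conv_rhs => rw [sum_cp n0 hm, Finset.mul_sum]
  refine Finset.sum_congr rfl fun h hh => ?_
  rw [cp_mul_left _ hξ, pr_mul_right hL0 (hm' h hh), mul_assoc]

section main

variable {μ ν n0 n : ℕ} {L L0 : Subalgebra K (A K)} {η z : A K}

theorem M_auxR (hn : n0 ≤ n) (hL : L ≤ D K n0) (hc : Comm L) (hη : η ∈ L) (hz : z ∈ Cn n L)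
    {U : A K} (hU : U ∈ DS K n0 n) :
    adj L (z + η * U) ≤ D K n ∧ Comm (adj L (z + η * U)) := by
  refine ⟨adj_le (hL.trans (D_mono hn))
    (add_mem (Cn_le _ _ hz) (mul_mem (D_mono hn (hL hη)) (DS_le_D hU))), hc.adj fun x hx => ?_⟩
  rw [mul_add, add_mul, (mem_Cn.1 hz).2 x hx, ← mul_assoc, hc x hx η hη, mul_assoc,
    comm_DS (hL hx) hU, mul_assoc]

theorem ker_auxR (hη : η ∈ L) (hη0 : η ≠ 0) (U : A K) {t : K} (ht : t ≠ 0) :
    ((Cn n L).toSubmodule ⊓ LinearMap.ker (ad_auxR U + t • ad_auxR (η⁻¹ * z)) :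
      Submodule K (A K)) = (Cn n (adj L (z + η * (t⁻¹ • U)))).toSubmodule := by
  ext x
  simp only [Submodule.mem_inf, Subalgebra.mem_toSubmodule, LinearMap.mem_ker, mem_Cn_adj,
    LinearMap.add_apply, LinearMap.smul_apply, ad_auxR_apply]
  refine and_congr_right fun hx => ?_
  have h1 := (mem_Cn.1 hx).2 η hη
  have e1 : (z + η * (t⁻¹ • U)) * x - x * (z + η * (t⁻¹ • U)) =
      t⁻¹ • (η * (U * x - x * U + t • (η⁻¹ * z * x - x * (η⁻¹ * z)))) := by
    have e2 : η * (x * (η⁻¹ * z)) = x * z := by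
      rw [← mul_assoc, h1, mul_assoc, mul_inv_cancel_left₀ hη0]
    have e3 : η * (η⁻¹ * (z * x)) = z * x := mul_inv_cancel_left₀ hη0 _
    have e4 : x * (η * U) = η * (x * U) := by rw [← mul_assoc, ← h1, mul_assoc]
    simp only [mul_add, add_mul, mul_sub, mul_smul_comm, smul_mul_assoc, smul_add, smul_sub,
      smul_smul, inv_mul_cancel₀ ht, one_smul, e2, e3, e4, mul_assoc]
    abel
  rw [← sub_eq_zero (a := (z + η * (t⁻¹ • U)) * x), e1]
  simp [ht, hη0]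

theorem le_auxR (hn : n0 ≤ n) (hμ : finrank K L * μ = 2 ^ n0) {d : ℕ} (h : d * μ ≤ 2 ^ n) :
    d ≤ finrank K L * 2 ^ (n - n0) := by
  have h0 : 0 < μ := Nat.pos_of_ne_zero fun H => by
    rw [H, mul_zero] at hμ
    exact (pow_ne_zero n0 two_ne_zero) hμ.symm
  refine Nat.le_of_mul_le_mul_right (h.trans (le_of_eq ?_)) h0
  rw [mul_right_comm, hμ, ← pow_add, Nat.add_sub_cancel' hn]

theorem stepA_auxR (hn : n0 ≤ n) (hL : L ≤ D K n0) (hc : Comm L) (hη : η ∈ L) (hη0 : η ≠ 0)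
    (hμ : finrank K L * μ = 2 ^ n0) {Z : Submodule K (A K)} (hz : z ∈ Cn n L)
    (hext : ∀ U ∈ DS K n0 n, Ext μ ν n (adj L (z + η * U)) Z) {h : G} (hh : h ∈ GS n0 n) :
    cp n0 h (η⁻¹ * z) ∈ L := by
  have := charZero K
  obtain ⟨f, hf, hs⟩ := exists_ch_auxR h
  have hU := hf.mem (K := K) n0 n
  set U := U_auxR K n0 n f with hUd
  have fin : Module.Finite K (Cn n L).toSubmodule := finite_sub (Cn_le n L)
  have key : ∀ x ∈ Cn n0 L, cp n0 h (η⁻¹ * z) * x = x * cp n0 h (η⁻¹ * z) := by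
    intro x hx
    have hxD := Cn_le _ _ hx
    obtain ⟨b, -, hb⟩ := maxrank (ad_auxR U) (ad_auxR (η⁻¹ * z)) (Cn n L).toSubmodule
      (((Set.finite_singleton (0 : K)).infinite_compl).mono fun t ht => by
        have ht : t ≠ 0 := ht
        have hU' : t⁻¹ • U ∈ DS K n0 n := Subalgebra.smul_mem _ hU _
        obtain ⟨m1, m2⟩ := M_auxR hn hL hc hη hz hU'
        have d1 := hf.dim hn hL hc
        have d2 := finrank_Cn m1 m2
        have d3 := le_auxR hn hμ (hext _ hU').1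
        rw [Set.mem_ofPred_eq, ker_auxR hη hη0 U ht]
        refine Nat.le_of_mul_le_mul_right (d1.trans ?_)
          (Nat.mul_pos (finrank_pos' hL) (by positivity))
        rw [← d2]
        exact Nat.mul_le_mul_left _ d3)
      (x := x) (mem_Cn.2 ⟨D_mono hn hxD, (mem_Cn.1 hx).2⟩)
      (sub_eq_zero.2 (comm_DS hxD hU).symm)
    have hz0 : cp n0 h (ad_auxR U b) = 0 := by
      refine eq_zero_of_tr (cp_mem n0 h _) fun a ha => ?_
      have hc' : U * (a * ei h) = a * ei h * U := by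
        have : U * ei h = ei h * U := by
          rw [hUd, U_auxR, Finset.sum_mul, Finset.mul_sum]
          refine Finset.sum_congr rfl fun k _ => ?_
          rw [ei, mul_smul_comm, smul_mul_assoc, e_commute (hs k)]
        rw [← mul_assoc, ← comm_DS ha hU, mul_assoc, this, mul_assoc]
      rw [tr_cp_mul hh ha, ad_auxR_apply, sub_mul, map_sub, mul_assoc, tr_comm, mul_assoc,
        mul_assoc b, hc', sub_self]
    rw [hb, ad_auxR_apply, map_sub, cp_mul_right hh hxD, cp_mul_left _ hxD] at hz0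
    exact sub_eq_zero.1 hz0
  exact double_cent hL hc (mem_Cn.2 ⟨cp_mem _ _ _, fun y hy => (key y (le_Cn hL hc hy)).symm⟩) key

theorem good_auxR (hn : n0 ≤ n) (hL : L ≤ D K n0) (hc : Comm L) (hη : η ∈ L) (hη0 : η ≠ 0)
    (hμ : finrank K L * μ = 2 ^ n0) {Z : Submodule K (A K)} (hz : z ∈ Cn n L)
    (hext : ∀ U ∈ DS K n0 n, Ext μ ν n (adj L (z + η * U)) Z) {f : ℕ → G} (hf : Ch_auxR f) :
    ∃ s s' : K, s ≠ s' ∧
      finrank K (adj L (z + η * (s • U_auxR K n0 n f))) = finrank K L * 2 ^ (n - n0) ∧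
      finrank K (adj L (z + η * (s' • U_auxR K n0 n f))) = finrank K L * 2 ^ (n - n0) := by
  have := charZero K
  have hU := hf.mem (K := K) n0 n
  set U := U_auxR K n0 n f with hUd
  have fin : Module.Finite K (Cn n L).toSubmodule := finite_sub (Cn_le n L)
  have hp := ((pencil (ad_auxR U) (ad_auxR (η⁻¹ * z)) (Cn n L).toSubmodule).union
    (Set.finite_singleton (0 : K))).infinite_compl
  have key : ∀ t ∈ ({t : K | finrank K ((Cn n L).toSubmodule ⊓ LinearMap.ker (ad_auxR U) :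
      Submodule K (A K)) < finrank K ((Cn n L).toSubmodule ⊓
        LinearMap.ker (ad_auxR U + t • ad_auxR (η⁻¹ * z)) : Submodule K (A K))} ∪ {0})ᶜ,
      finrank K (adj L (z + η * (t⁻¹ • U))) = finrank K L * 2 ^ (n - n0) := by
    intro t ht
    simp only [Set.mem_compl_iff, Set.mem_union, Set.mem_ofPred_eq, Set.mem_singleton_iff, not_or,
      not_lt] at ht
    have hU' : t⁻¹ • U ∈ DS K n0 n := Subalgebra.smul_mem _ hU _
    obtain ⟨m1, m2⟩ := M_auxR hn hL hc hη hz hU'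
    have d1 := hf.dim hn hL hc
    have d2 := finrank_Cn m1 m2
    refine le_antisymm (le_auxR hn hμ (hext _ hU').1) ?_
    have d3 := ht.1
    rw [ker_auxR hη hη0 U ht.2] at d3
    refine Nat.le_of_mul_le_mul_left ?_ (finrank_pos' (Cn_le n (adj L (z + η * (t⁻¹ • U)))))
    rw [d2]
    exact (Nat.mul_le_mul_right _ d3).trans d1
  obtain ⟨t, ht, t', ht', hne⟩ := hp.nontrivial
  exact ⟨t⁻¹, t'⁻¹, fun H => hne (inv_injective H), key t ht, key t' ht'⟩

theorem stepB_auxR (hn : n0 ≤ n) (hL : L ≤ D K n0) (hc : Comm L) (h0 : L0 ≤ L) (hη : η ∈ L)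
    (hη0 : η ≠ 0) {Λ : Submodule K (A K)} (h1 : (1 : A K) ∈ Λ)
    (hΛ : Algebra.adjoin K (Λ : Set (A K)) = L0)
    (hμ : finrank K L * μ = 2 ^ n0) (hν : finrank K L0 * ν = 2 ^ n0) {Z : Submodule K (A K)}
    (hZ : ∀ l ∈ Λ, ∀ h ∈ GS n0 n, η * l * e h ∈ Z) (hz : z ∈ Cn n L)
    (hA : ∀ h ∈ GS n0 n, cp n0 h (η⁻¹ * z) ∈ L) {U : A K} (hU : U ∈ DS K n0 n)
    (hext : Ext μ ν n (adj L (z + η * U)) Z)
    (hd : finrank K (adj L (z + η * U)) = finrank K L * 2 ^ (n - n0)) :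
    (∀ y ∈ adj L (z + η * U), P0_auxR n0 n L0 y ∈ adj L (z + η * U)) ∧
      (z ∈ L → z ∈ Z → ∀ h ∈ GS n0 n, cp n0 h (η⁻¹ * z) ∈ L0) := by
  obtain ⟨m1, m2⟩ := M_auxR hn hL hc hη hz hU
  have hcp : ∀ y ∈ adj L (z + η * U), ∀ h ∈ GS n0 n, cp n0 h y ∈ L := fun y hy =>
    cp_adj_auxR hn hL (m1 (mem_adj _ _)) (fun h hh => by
      have : z + η * U = η * (η⁻¹ * z + U) := by rw [mul_add, mul_inv_cancel_left₀ hη0]
      rw [this, cp_mul_left _ (hL hη), map_add]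
      exact mul_mem hη (add_mem (hA h hh) (cp_DS_auxR L hU hh))) hy
  set M := adj L (z + η * U) with hM
  have hLM : L ≤ M := le_adj _ _
  obtain ⟨x1, x2⟩ := hext.2 (by rw [hd, mul_right_comm, hμ, ← pow_add, Nat.add_sub_cancel' hn])
  have x3 := le_auxR hn hν x2
  set M0 := Rat' (Z.map (Pc M)) with hM0
  have hM0M : M0 ≤ M := Rat_le m1 (by rintro _ ⟨w, hw, rfl⟩; exact x1 w hw)
  have hΛL : ∀ l ∈ Λ, l ∈ L := fun l hl => h0 (hΛ ▸ Algebra.subset_adjoin hl)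
  have cM : ∀ y ∈ M, ∀ x ∈ M, x * y = y * x := fun y hy x hx => m2 x hx y hy
  have hηZ : η ∈ Z.map (Pc M) := ⟨η, by simpa [e_zero] using hZ 1 h1 0 (zero_mem_GS _ _),
    Pc_self m1 m2 (cM _ (hLM hη))⟩
  have hrat : ∀ l ∈ Λ, ∀ h ∈ GS n0 n, l * Pc M (e h) ∈ M0 := fun l hl h hh => by
    have := ratio_mem hηZ (u' := Pc M (η * l * e h)) ⟨_, hZ l hl h hh, rfl⟩
    rwa [Pc_mul_left (cM _ (hLM (mul_mem hη (hΛL l hl)))), mul_assoc,
      inv_mul_cancel_left₀ hη0] at this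
  have hL0 : L0 ≤ M0 := hΛ ▸ Algebra.adjoin_le fun l hl => by
    have := hrat l hl 0 (zero_mem_GS _ _)
    rwa [e_zero, Pc_one_aux m1 m2, mul_one] at this
  have hPe : ∀ h ∈ GS n0 n, Pc M (e h) ∈ M0 := fun h hh => by simpa using hrat 1 h1 h hh
  have hexp : ∀ y ∈ M, y = ∑ h ∈ GS n0 n, cp n0 h y * Pc M (e h) := fun y hy => by
    conv_lhs => rw [← Pc_self m1 m2 (cM y hy), sum_cp n0 (m1 hy), map_sum]
    exact Finset.sum_congr rfl fun h hh => Pc_mul_left (cM _ (hLM (hcp y hy h hh))) _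
  have hsup : L ⊔ M0 = M := le_antisymm (sup_le hLM hM0M) fun y hy => by
    rw [hexp y hy]
    exact sum_mem fun h hh => mul_mem ((le_sup_left : L ≤ L ⊔ M0) (hcp y hy h hh))
      ((le_sup_right : M0 ≤ L ⊔ M0) (hPe h hh))
  have hcp0 : ∀ m ∈ M0, ∀ h ∈ GS n0 n, cp n0 h m ∈ L0 := fun m hm h hh => by
    refine orth_auxR hL h0 (hcp m (hM0M hm) h hh) fun ξ hξ hξ0 => ?_
    rw [tr_comm, tr_cp_mul hh (hL hξ), ← mul_assoc,
      ← tr_mul_Pc m1 m2 (cM _ (mul_mem (hM0M hm) (hLM hξ))), m2 m (hM0M hm) ξ (hLM hξ), mul_assoc]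
    refine tr_disjoint m1 m2 h0 hL0 hsup ?_ hξ hξ0 (mul_mem hm ?_)
    · rw [hd, mul_assoc, mul_comm (2 ^ (n - n0))]
      exact Nat.mul_le_mul_left _ x3
    · rw [ei, map_smul]
      exact M0.smul_mem (hPe h hh) _
  refine ⟨fun y hy => ?_, fun hzL hzZ => hcp0 _ ?_⟩
  · rw [hexp y hy, map_sum]
    refine sum_mem fun h hh => ?_
    rw [P0_auxR_mul (h0.trans hL) (cp_mem _ _ _) (m1 (hM0M (hPe h hh))) (hcp0 _ (hPe h hh))]
    exact mul_mem (hLM (h0 (pr_mem _ _))) (hM0M (hPe h hh))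
  · exact ratio_mem hηZ ⟨z, hzZ, Pc_self m1 m2 (cM _ (hLM hzL))⟩

end main

theorem rigid {μ ν n0 n : ℕ} (hn : n0 ≤ n) {L L0 : Subalgebra K (A K)} (hL : L ≤ D K n0)
    (hc : Comm L) (h0 : L0 ≤ L) {η : A K} (hη : η ∈ L) (hη0 : η ≠ 0) {Λ : Submodule K (A K)}
    (h1 : (1 : A K) ∈ Λ) (hΛ : Algebra.adjoin K (Λ : Set (A K)) = L0)
    (hμ : finrank K L * μ = 2 ^ n0) (hν : finrank K L0 * ν = 2 ^ n0) {Z : Submodule K (A K)}
    (hZ : ∀ l ∈ Λ, ∀ h ∈ GS n0 n, η * l * e h ∈ Z) {z : A K} (hz : z ∈ Cn n L)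
    (orth : ∀ l ∈ L0, ∀ h ∈ GS n0 n, h ≠ 0 → tr (η⁻¹ * l * e h * z) = 0)
    (hext : ∀ U ∈ DS K n0 n, Ext μ ν n (adj L (z + η * U)) Z) :
    z ∈ L ∧ (z ∈ Z → η⁻¹ * z ∈ L0) := by
  have hL0 := h0.trans hL
  have hηi : η⁻¹ ∈ L := inv_mem_of_le hL hη
  have hA : ∀ h ∈ GS n0 n, cp n0 h (η⁻¹ * z) ∈ L := fun h hh =>
    stepA_auxR hn hL hc hη hη0 hμ hz hext hh
  have hB := fun (U : A K) (hU : U ∈ DS K n0 n) =>
    stepB_auxR hn hL hc h0 hη hη0 h1 hΛ hμ hν hZ hz hA hU (hext U hU)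
  have hz0D : η⁻¹ * z ∈ D K n := mul_mem (D_mono hn (hL hηi)) (Cn_le _ _ hz)
  have hcp0 : ∀ h ∈ GS n0 n, h ≠ 0 → cp n0 h (η⁻¹ * z) ∈ L0 := fun h hh hne => by
    refine orth_auxR hL h0 (hA h hh) fun ξ hξ hξ0 => ?_
    have hp : pr L0 ξ = 0 := pr_unique hL0 (zero_mem _) fun w hw => by simp [hξ0 w hw]
    set ζ := P0_auxR n0 n L0 (ξ * (η⁻¹ * z)) with hζ
    have c1 : ∀ U ∈ DS K n0 n,
        finrank K (adj L (z + η * U)) = finrank K L * 2 ^ (n - n0) →
        (η⁻¹ * z + U) * ζ = ζ * (η⁻¹ * z + U) := fun U hU hd => by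
      have hm : η⁻¹ * z + U ∈ adj L (z + η * U) := by
        have : η⁻¹ * z + U = η⁻¹ * (z + η * U) := by rw [mul_add, inv_mul_cancel_left₀ hη0]
        rw [this]
        exact mul_mem (le_adj _ _ hηi) (mem_adj _ _)
      have := (hB U hU hd).1 _ (mul_mem (le_adj _ _ hξ) hm)
      rw [mul_add, map_add, P0_auxR_mul hL0 (hL hξ) (DS_le_D hU) (fun h hh => cp_DS_auxR _ hU hh),
        hp, zero_mul, add_zero] at this
      exact (M_auxR hn hL hc hη hz hU).2 _ hm _ this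
    have hζD : ζ ∈ D K n0 := by
      refine mem_D_auxR (n - n0) ?_ ?_ <;> rw [Nat.add_sub_cancel' hn]
      · rw [hζ, P0_auxR_apply]
        exact sum_mem fun g hg => mul_mem (D_mono hn (hL0 (pr_mem _ _))) (DS_le_D (e_mem hg))
      · intro k hk g hg hg0
        obtain ⟨f, hf, rfl⟩ := exists_ch'_auxR hg hg0
        obtain ⟨s, s', hs, d1, d2⟩ := good_auxR hn hL hc hη hη0 hμ hz hext hf
        have hU := hf.mem (K := K) n0 n
        have e1 := c1 _ (Subalgebra.smul_mem _ hU s) d1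
        have e2 := c1 _ (Subalgebra.smul_mem _ hU s') d2
        refine hf.cu ?_ hk
        have e3 : (s - s') • (U_auxR K n0 n f * ζ - ζ * U_auxR K n0 n f) = 0 := by
          have := congrArg₂ (· - ·) e1 e2
          simp only [add_mul, mul_add, smul_mul_assoc, mul_smul_comm, add_sub_add_left_eq_sub]
            at this
          rw [smul_sub, sub_smul, sub_smul, this, sub_self]
        exact sub_eq_zero.1 ((smul_eq_zero.1 e3).resolve_left (sub_ne_zero.2 hs))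
    have e1 := cp_D_auxR hζD hh
    rw [if_neg hne.symm, hζ, P0_auxR_apply,
      cp_sum hh (a := fun h => pr L0 (cp n0 h (ξ * (η⁻¹ * z)))) (fun k _ => hL0 (pr_mem _ _)),
      cp_mul_left _ (hL hξ)] at e1
    have := tr_mul_pr hL0 (one_mem _) (ξ * cp n0 h (η⁻¹ * z))
    rw [e1, one_mul, one_mul, map_zero] at this
    exact this.symm
  have hz0 : η⁻¹ * z ∈ D K n0 := by
    refine mem_D_of_cp hz0D fun h hh hne => nondeg hL0 (hcp0 h hh hne) fun l hl => ?_
    rw [tr_comm, tr_cp_mul hh (hL0 hl), (mem_Cn.1 hz).2 _ hηi, mul_assoc, tr_comm, ei,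
      mul_smul_comm, mul_smul_comm, smul_mul_assoc, map_smul, ← mul_assoc, orth l hl h hh hne,
      smul_zero]
  have e0 : cp n0 0 (η⁻¹ * z) = η⁻¹ * z := by
    rw [cp_D_auxR hz0 (zero_mem_GS n0 n), if_pos rfl]
  have hzL : z ∈ L := by
    have := mul_mem hη (hA 0 (zero_mem_GS _ _))
    rwa [e0, mul_inv_cancel_left₀ hη0] at this
  refine ⟨hzL, fun hzZ => ?_⟩
  obtain ⟨f, hf, -⟩ := exists_ch_auxR 0
  obtain ⟨s, -, -, d1, -⟩ := good_auxR hn hL hc hη hη0 hμ hz hext hf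
  exact e0 ▸ (hB _ (Subalgebra.smul_mem _ (hf.mem n0 n) s) d1).2 hzL hzZ 0 (zero_mem_GS _ _)

end Vale.Agent.P199
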