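import Vale.Agent.P199.Final1
import Vale.Agent.P199.Rigid

/-! After imposing the constraint the normal form stays in `L`. -/

namespace Vale.Agent.P199

open Finset Module

set_option linter.unusedSectionVars false

variable {Kb K : Type} [Field Kb] [Algebra K0 Kb] [Dom Kb] [Field K] [Algebra K0 K] [Dom K]

/-- The invariant along descendants. -/
structure Inv (S : Sys) (a : Ex) (r κ q n0 : ℕ) (vb : ℕ → A Kb) (η : A Kb) (f : Kb →ₐ[K0] K)
    (P : K → Kb → Prop) (n : ℕ) (v : ℕ → A K) : Prop where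
  plc : IsPlace f P
  le : n0 ≤ n
  cst : ∀ i, S.IsC r κ q i → v i = map f (vb i)
  small : RA P (v S.N) 0
  smallt : ∀ l < κ, RA P (v (S.vt l)) 0
  inL : ev v (S.eA r κ q) ∈ bc f (gen (ev vb a))
  h3 : ∀ l ∈ Lam S n0 vb a η, ∀ h ∈ GS n0 n, ∃ β ∈ VV S n v,
    RA P (ell (bc f (gen (ev vb a))) (ev v (S.eG r)) v a β) (η * l * e h)

variable {S : Sys} {a : Ex} {r κ q n0 μ ν : ℕ} {vb : ℕ → A Kb} {η : A Kb} {f : Kb →ₐ[K0] K}
  {P : K → Kb → Prop} {n : ℕ} {v : ℕ → A K}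

theorem isC_va (S : Sys) (r κ q : ℕ) : S.IsC r κ q (S.N + 1) :=
  ⟨by omega, by simp only [Sys.plus]; omega, fun l _ => by simp only [Sys.vt]; omega⟩

theorem isC_vl (S : Sys) (r q : ℕ) {κ l : ℕ} (hl : l < κ) : S.IsC r κ q (S.vl l) :=
  ⟨by simp only [Sys.vl]; omega, by simp only [Sys.plus, Sys.vl]; omega,
    fun l _ => by simp only [Sys.vt, Sys.vl]; omega⟩

theorem isC_vq (S : Sys) (r κ : ℕ) {q l : ℕ} (hl : l < q) : S.IsC r κ q (S.vq l) :=
  ⟨by simp only [Sys.vq]; omega, by simp only [Sys.plus, Sys.vq]; omega,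
    fun l _ => by simp only [Sys.vt, Sys.vq]; omega⟩

theorem isC_vq' (S : Sys) (r κ : ℕ) {q l : ℕ} (hl : l < q) : S.IsC r κ q (S.vq' l) :=
  ⟨by simp only [Sys.vq']; omega, by simp only [Sys.plus, Sys.vq']; omega,
    fun l _ => by simp only [Sys.vt, Sys.vq']; omega⟩

theorem adj_smul (M : Subalgebra K (A K)) {c : K} (hc : c ≠ 0) (y : A K) :
    adj M (c • y) = adj M y := by
  refine le_antisymm (adj_le (le_adj _ _) (Subalgebra.smul_mem _ (mem_adj _ _) _))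
    (adj_le (le_adj _ _) ?_)
  have := Subalgebra.smul_mem _ (mem_adj M (c • y)) c⁻¹
  rwa [smul_smul, inv_mul_cancel₀ hc, one_smul] at this

theorem RA.comm_of_bc (hP : IsPlace f P) {L : Subalgebra Kb (A Kb)} {y : A K} {z : A Kb}
    (h : RA P y z) (hy : ∀ x ∈ bc f L, x * y = y * x) : ∀ x ∈ L, x * z = z * x := fun x hx => by
  have h1 := (RA.of hP x).mul hP h
  rw [hy _ (map_mem_bc f hx)] at h1
  exact h1.unique hP (h.mul hP (RA.of hP x))

theorem RA.ne_zero (hP : IsPlace f P) {y : A K} {z : A Kb} (h : RA P y z) (hz : z ≠ 0) : y ≠ 0 :=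
  fun h0 => hz (RA.eq_zero hP (h0 ▸ h))

theorem BSet.inv (hb : BSet S a r κ q n0 vb η) :
    Inv S a r κ q n0 vb η (AlgHom.id K0 Kb) (fun x y => x = y) n0 vb := by
  refine ⟨isPlace_refl, le_rfl, fun i _ => (map_id _).symm, ?_, fun l hl => ?_, ?_,
    fun l hl h hh => ?_⟩
  · rw [hb.base.vw]; exact RA.refl _
  · rw [hb.base.vt l hl]; exact RA.refl _
  · rw [bc_id, hb.ev_eA]; exact mem_gen _
  · obtain ⟨β, hβ, h1⟩ := mem_UU.1 ((mem_Lam hb.cst.eta0).1 hl)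
    refine ⟨β, hβ, ?_⟩
    rw [bc_id, hb.ev_eG, h1, eq_zero_of_GS (GS_mono (Nat.zero_le _) le_rfl hh) hh, e_zero, mul_one]
    exact RA.refl _

/-- All hypotheses at a descendant. -/
structure RSet (S : Sys) (a : Ex) (r κ q n0 μ ν : ℕ) (vb : ℕ → A Kb) (η : A Kb)
    (f : Kb →ₐ[K0] K) (P : K → Kb → Prop) (n : ℕ) (v : ℕ → A K) : Prop where
  b : BSet S a r κ q n0 vb η
  dx : DX S n0 vb a μ ν
  inv : Inv S a r κ q n0 vb η f P n v
  st : IsSt (S.plus a r κ q) n v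
  h1 : H1 S n v
  tt : Tt S n v
  loc : LocExt S n v a μ ν

namespace RSet

variable (h : RSet S a r κ q n0 μ ν vb η f P n v)
include h

theorem cst : Cst S r κ q n0 v (bc f (gen (ev vb a))) (bc f (Rat' (UU S n0 vb a))) (map f η) :=
  h.b.cst.map f h.inv.cst

theorem le : S.Le (S.plus a r κ q) := h.b.wf.le_plus a r κ q

theorem stS : IsSt S n v := h.st.restrict h.le

theorem L1_le {m : ℕ} (hm : n ≤ m) : bc f (gen (ev vb a)) ≤ D K m :=
  h.cst.L_le.trans (D_mono (h.inv.le.trans hm))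

theorem g_ra : RA P (ev v (S.eG r)) 1 := by
  have hP := h.inv.plc
  rw [h.cst.ev_eG]
  simpa using (RA.one hP).add hP (h.inv.small.sub hP
    (h.inv.small.Pc_bc hP h.b.cst.L_le h.b.cst.comm))

theorem g_ne : ev v (S.eG r) ≠ 0 := h.g_ra.ne_zero h.inv.plc one_ne_zero

theorem g_mem : ev v (S.eG r) ∈ D K n := ev_mem h.st.mem (eG_in S a r κ q)

theorem A_ra : RA P (ev v (S.eA r κ q)) (ev vb a) := by
  have hP := h.inv.plc
  rw [h.cst.ev_eA, Qop_apply, h.inv.cst _ (isC_va S r κ q), h.b.va]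
  have h1 : RA P (∑ k ∈ range q, v (S.vq k) * v S.N * v (S.vq' k))
      (∑ k ∈ range q, vb (S.vq k) * 0 * vb (S.vq' k)) := RA.sum hP _ fun k hk => by
    rw [h.inv.cst _ (isC_vq S r κ (mem_range.1 hk)), h.inv.cst _ (isC_vq' S r κ (mem_range.1 hk))]
    exact ((RA.of hP _).mul hP h.inv.small).mul hP (RA.of hP _)
  have h2 : RA P (∑ l ∈ range κ, v (S.vt l) * v (S.vl l))
      (∑ l ∈ range κ, 0 * vb (S.vl l)) := RA.sum hP _ fun k hk => by
    rw [h.inv.cst _ (isC_vl S r q (mem_range.1 hk))]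
    exact (h.inv.smallt k (mem_range.1 hk)).mul hP (RA.of hP _)
  simpa using (RA.of hP (ev vb a)).add hP
    (((h.inv.small.Pc_bc hP h.b.cst.L_le h.b.cst.comm).sub hP h1).add hP h2)

theorem cj_eq : cj (ev v (S.eG r)) (ev v a) = ev v (S.eA r κ q) := by
  have := h.st.eq S.j0 (Finset.mem_insert_self _ _)
  simp only [Sys.plus, Function.update_self, Sys.eF, ev_add, ev_mul, ev_neg] at this
  rw [cj_apply, add_neg_eq_zero.1 this, ← mul_assoc, inv_mul_cancel₀ h.g_ne, one_mul]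

theorem gen_eq : gen (cj (ev v (S.eG r)) (ev v a)) = bc f (gen (ev vb a)) := by
  rw [h.cj_eq]
  have h1 : gen (ev v (S.eA r κ q)) ≤ bc f (gen (ev vb a)) := gen_le h.inv.inL
  refine eq_of_finrank_le h.cst.L_le h1 ?_
  rw [finrank_bc f h.b.cst.L_le, ← finrank_redS h.inv.plc (h1.trans h.cst.L_le)]
  exact finrank_mono (redS_le _ (h1.trans h.cst.L_le)) (gen_le ⟨_, mem_gen _, h.A_ra⟩)

theorem C_comm (z : A K) : ∀ x ∈ bc f (gen (ev vb a)),
    x * (Pc (bc f (gen (ev vb a))) z - Qop S q v z) =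
      (Pc (bc f (gen (ev vb a))) z - Qop S q v z) * x := fun x hx => by
  rw [mul_sub, sub_mul, Pc_comm h.cst.L_le h.cst.comm z hx, h.cst.q_comm z x hx]

theorem rel {m : ℕ} (hm : n ≤ m) {β : ℕ → A K} (hβ : β ∈ VV (S.plus a r κ q) m v) :
    ell (bc f (gen (ev vb a))) (ev v (S.eG r)) v a β =
      Pc (bc f (gen (ev vb a))) (β S.N) - Qop S q v (β S.N) := by
  have hW := h.b.wf.plus h.b.ha r κ q
  have h0 := isC_zero h.b.wf (VV_le _ _ _ hβ)
  have := ((mem_VV hW fun i hi => D_mono hm (h.st.mem i hi)).1 hβ).2 S.j0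
    (Finset.mem_insert_self _ _)
  simp only [Sys.plus, Function.update_self, Sys.eF, d1_add, d1_mul, d1_neg] at this
  rw [h.cst.d1_eA fun i hi => h0 i hi.1, Finset.sum_eq_zero fun l _ => by
    rw [h0 _ (by simp only [Sys.vt]; omega), zero_mul], add_zero] at this
  have e1 : (ev v (S.eG r))⁻¹ * ev v a = ev v (S.eA r κ q) * (ev v (S.eG r))⁻¹ := by
    rw [← h.cj_eq, cj_apply, mul_assoc, mul_assoc, mul_inv_cancel₀ h.g_ne, mul_one]
  have e2 : (ev v (S.eG r))⁻¹ * (d1 v a β * ev v (S.eG r)) =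
      (Pc (bc f (gen (ev vb a))) (β S.N) - Qop S q v (β S.N)) -
      (ev v (S.eA r κ q) * ((ev v (S.eG r))⁻¹ * d1 v (S.eG r) β) -
        ((ev v (S.eG r))⁻¹ * d1 v (S.eG r) β) * ev v (S.eA r κ q)) := by
    rw [eq_sub_of_add_eq (add_neg_eq_zero.1 this), mul_sub, mul_add, ← mul_assoc _ (ev v a), e1,
      ← mul_assoc _ (ev v (S.eG r)), inv_mul_cancel₀ h.g_ne, one_mul]
    noncomm_ring
  rw [ell_apply, e2, map_sub, Pc_bracket h.cst.L_le h.cst.comm h.inv.inL, sub_zero,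
    Pc_self h.cst.L_le h.cst.comm (h.C_comm _)]

theorem C_orth (z : A K) {l : A K} (hl : l ∈ bc f (Rat' (UU S n0 vb a))) {m : ℕ} {x : A K}
    (hx : x ∈ DS K n0 m) :
    tr ((map f η)⁻¹ * l * x * (Pc (bc f (gen (ev vb a))) z - Qop S q v z)) = 0 := by
  rw [mul_sub, map_sub, h.cst.q_tr z l hl m x hx, tr_mul_Pc h.cst.L_le h.cst.comm, sub_self]
  intro y hy
  have h1 : (map f η)⁻¹ * l ∈ bc f (gen (ev vb a)) :=
    mul_mem (inv_mem_of_le h.cst.L_le h.cst.eta) (h.cst.L0_le hl)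
  rw [← mul_assoc, h.cst.comm y hy _ h1, mul_assoc, comm_DS (h.cst.L_le hy) hx, ← mul_assoc]

theorem ell_mem {m : ℕ} (hm : n ≤ m) {β : ℕ → A K} (hβ : ∀ i < S.N, β i ∈ D K m) :
    ell (bc f (gen (ev vb a))) (ev v (S.eG r)) v a β ∈ Cn m (bc f (gen (ev vb a))) :=
  Pc_mem (h.L1_le hm) h.cst.comm (mul_mem (inv_mem_of_le le_rfl (D_mono hm h.g_mem))
    (mul_mem (d1_mem (fun i hi => D_mono hm (h.stS.mem i hi)) hβ h.b.ha) (D_mono hm h.g_mem)))

theorem h3_up {m : ℕ} (hm : n ≤ m) {l : A Kb} (hl : l ∈ Lam S n0 vb a η) {g : G}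
    (hg : g ∈ GS n0 m) : ∃ β ∈ VV S m v,
      RA P (ell (bc f (gen (ev vb a))) (ev v (S.eG r)) v a β) (η * l * e g) := by
  have hP := h.inv.plc
  obtain ⟨g1, h1, g2, h2, rfl⟩ := split_GS (n := n) (GS_mono (Nat.zero_le _) le_rfl hg)
  have h1' : g1 ∈ GS n0 n := mem_GS.2 fun k hk => by
    rcases hk with hk | hk
    · have e1 := mem_GS.1 hg k (Or.inl hk)
      have := h.inv.le
      rwa [Finsupp.add_apply, mem_GS.1 h2 k (Or.inl (by omega)), add_zero] at e1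
    · exact mem_GS.1 h1 k (Or.inr hk)
  obtain ⟨β, hβ, hr⟩ := h.inv.h3 l hl g1 h1'
  refine ⟨(c K g1 g2)⁻¹ • fun i => β i * e g2, Submodule.smul_mem _ _
    (mul_mem_VV h.b.wf h.stS.mem hm hβ (e_mem h2)), ?_⟩
  rw [map_smul, ell_mul h.b.ha h.stS.mem (h.L1_le le_rfl) h.g_mem β (e_mem h2)]
  have := RA.smul hP (hP.of (c Kb g1 g2)⁻¹) (hr.mul hP (RA.e hP g2))
  rwa [map_inv₀, c_map, mul_assoc _ (e g1), e_mul_e, mul_smul_comm, smul_smul,
    inv_mul_cancel₀ (c_ne_zero _ _), one_smul] at this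

theorem one_mem_Lam : (1 : A Kb) ∈ Lam S n0 vb a η :=
  (mem_Lam h.b.cst.eta0).2 (by rw [mul_one]; exact h.b.eta)

theorem hact {m : ℕ} (hm : n ≤ m) : ∃ y ∈ bc f (gen (ev vb a)), ∃ β ∈ VV S m v,
    tr (y * ell (bc f (gen (ev vb a))) (ev v (S.eG r)) v a β) ≠ 0 := by
  have hP := h.inv.plc
  obtain ⟨β, hβ, hr⟩ := h.h3_up hm h.one_mem_Lam (zero_mem_GS n0 m)
  refine ⟨map f η⁻¹, map_mem_bc f (inv_mem_of_le h.b.cst.L_le h.b.cst.eta), β, hβ, fun h0 => ?_⟩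
  have := ((RA.of hP η⁻¹).mul hP hr).tr
  rw [h0, e_zero, mul_one, mul_one, inv_mul_cancel₀ h.b.cst.eta0, tr_one] at this
  exact one_ne_zero (hP.fn this)

theorem core {m : ℕ} (hm : n ≤ m) {z : A K} (hz : z ∈ Cn m (bc f (gen (ev vb a)))) (hz0 : z ≠ 0)
    (orth : ∀ l ∈ bc f (Rat' (UU S n0 vb a)), ∀ g ∈ GS n0 m, g ≠ 0 →
      tr ((map f η)⁻¹ * l * e g * z) = 0)
    (hext : ∀ β ∈ VV S m v, Ext μ ν m (adj (bc f (gen (ev vb a)))
      (z + ell (bc f (gen (ev vb a))) (ev v (S.eG r)) v a β))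
      ((VV S m v).map (ell (bc f (gen (ev vb a))) (ev v (S.eG r)) v a))) :
    ∃ c : K, c ≠ 0 ∧ ∃ y, y ≠ 0 ∧ RA P (c • z) y ∧ y ∈ gen (ev vb a) ∧
      (z ∈ (VV S m v).map (ell (bc f (gen (ev vb a))) (ev v (S.eG r)) v a) →
        η⁻¹ * y ∈ Rat' (UU S n0 vb a)) := by
  have hP := h.inv.plc
  obtain ⟨c, hc, y, hy, hr⟩ := RA.norm hP hz0
  have hcz := Subalgebra.smul_mem _ hz c
  have hZ : ∀ l ∈ Lam S n0 vb a η, ∀ g ∈ GS n0 m, η * l * e g ∈ redA hP
      ((VV S m v).map (ell (bc f (gen (ev vb a))) (ev v (S.eG r)) v a)) := fun l hl g hg =>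
    let ⟨β, hβ, hr⟩ := h.h3_up hm hl hg; ⟨_, ⟨β, hβ, rfl⟩, hr⟩
  have hL : gen (ev vb a) ≤ D Kb m := h.b.cst.L_le.trans (D_mono (h.inv.le.trans hm))
  have := rigid (μ := μ) (ν := ν) (h.inv.le.trans hm) h.b.cst.L_le h.b.cst.comm h.b.cst.L0_le
    h.b.cst.eta h.b.cst.eta0 h.one_mem_Lam
    (Rat_eq h.b.cst.L_le h.b.cst.comm h.b.sub h.b.eta h.b.cst.eta0) h.dx.deg h.dx.rat hZ
    (z := y) (mem_Cn.2 ⟨hr.mem hP (Cn_le _ _ hcz), hr.comm_of_bc hP (mem_Cn.1 hcz).2⟩)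
    (fun l hl g hg g0 => ?_) fun U hU => ?_
  · exact ⟨c, hc, y, hy, hr, this.1, fun H => this.2 ⟨_, Submodule.smul_mem _ c H, hr⟩⟩
  · have := ((((RA.of hP η⁻¹).mul hP (RA.of hP l)).mul hP (RA.e hP g)).mul hP hr).tr
    rw [mul_smul_comm, map_smul, map_inv₀, orth _ (map_mem_bc f hl) g hg g0, smul_zero] at this
    exact hP.fn this
  · obtain ⟨_, ⟨β, hβ, rfl⟩, hu⟩ : η * U ∈ redA hP
        ((VV S m v).map (ell (bc f (gen (ev vb a))) (ev v (S.eG r)) v a)) := by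
      refine DS.induction (p := fun U => η * U ∈ _) hU (by simp)
        (fun x y hx hy => by rw [mul_add]; exact add_mem hx hy) fun s g hg => ?_
      rw [mul_smul_comm]
      simpa using Submodule.smul_mem _ s (hZ 1 h.one_mem_Lam g hg)
    have hE := hext _ (Submodule.smul_mem _ c⁻¹ hβ)
    rw [← adj_smul _ hc, map_smul, smul_add, smul_smul, mul_inv_cancel₀ hc, one_smul] at hE
    have hy' := add_mem hcz (h.ell_mem hm fun i _ => (VV_le _ _ _ hβ i).1)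
    have hr' := hr.add hP hu
    refine hE.transfer (redC_adj hP _ hr') hP (adj_le (h.L1_le hm) (Cn_le _ _ hy'))
      (h.cst.comm.adj (mem_Cn.1 hy').2) (adj_le hL (hr'.mem hP (Cn_le _ _ hy')))
      (h.b.cst.comm.adj (hr'.comm_of_bc hP (mem_Cn.1 hy').2)) ?_ ?_
    · rintro _ ⟨β, hβ, rfl⟩
      exact Cn_le _ _ (h.ell_mem hm fun i _ => (VV_le _ _ _ hβ i).1)
    · rintro z ⟨z', hz', hr⟩
      exact ⟨z', hz', z, hr, rfl⟩

theorem ell_msk {m : ℕ} {β : ℕ → A K} (hβ : β ∈ VV (S.plus a r κ q) m v) (L : Subalgebra K (A K))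
    (g : A K) : ell L g v a (msk S.W β) = ell L g v a β := by
  rw [ell_apply, ell_apply, d1_msk h.b.wf h.le (VV_le _ _ _ hβ) h.b.ha]

theorem zero {β : ℕ → A K} (hβ : β ∈ VV (S.plus a r κ q) n v) :
    ell (bc f (gen (ev vb a))) (ev v (S.eG r)) v a β = 0 := by
  have hP := h.inv.plc
  by_contra h0
  have hβ' := msk_mem_VV h.b.wf h.le hβ
  obtain ⟨c, -, y, hy, hr, -, hy'⟩ := h.core le_rfl
    (h.ell_mem le_rfl fun i _ => (VV_le _ _ _ hβ i).1) h0
    (fun l hl g hg _ => by rw [h.rel le_rfl hβ]; exact h.C_orth _ hl (e_mem hg)) fun β' hβ1 => by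
      obtain ⟨w, hw⟩ := exists_cmove h.b.wf h.stS h.h1 (add_mem hβ' hβ1)
      have e1 : Ld 1 (ev w a - map (io K) (ev v a)) (d1 v a (msk S.W β + β')) := by
        rw [← ev_hom]
        exact ev_Ld (k := 0) (fun i _ => RA.of (plc K) (v i)) hw.ld h.b.ha
      have e2 := ((Ld_zero_iff.2 (RA.of (plc K) (ev v (S.eG r))⁻¹)).mul
        (e1.mul (Ld_zero_iff.2 (RA.of (plc K) (ev v (S.eG r))))))
      have := ext_of_move h.b.wf h.b.ha h.stS h.tt h.loc hw h.g_ne h.g_mem (BP.refl _ _ _ _ _)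
        (h.gen_eq ▸ h.hact le_rfl) (map_mem _ h.g_mem) (RA.of (plc K) _)
        (map_mem_bc _ (mem_gen _)) (RA.of (plc K) _) le_rfl
        (y := (ev v (S.eG r))⁻¹ * (d1 v a (msk S.W β + β') * ev v (S.eG r))) (by
          convert e2 using 1
          simp only [cj_apply, map_mul, map_inv₀, sub_mul, mul_sub])
      rwa [h.gen_eq, ← ell_apply, map_add, h.ell_msk hβ] at this
  have h2 := hy' ⟨_, hβ', h.ell_msk hβ _ _⟩
  refine hy ((mul_eq_zero.1 (nondeg (h.b.cst.L0_le.trans h.b.cst.L_le) h2 fun l hl => ?_)).resolve_left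
    (inv_ne_zero h.b.cst.eta0))
  have := (((RA.of hP η⁻¹).mul hP (RA.of hP l)).mul hP hr).tr
  rw [mul_smul_comm, map_smul, map_inv₀, h.rel le_rfl hβ, ← mul_one (_ * map f l),
    h.C_orth _ (map_mem_bc f hl) (one_mem (DS K n0 n)), smul_zero] at this
  rw [← mul_assoc, h.b.cst.comm l (h.b.cst.L0_le hl) _ (inv_mem_of_le h.b.cst.L_le h.b.cst.eta)]
  exact hP.fn this

theorem zero_up {m : ℕ} (hm : n ≤ m) {β : ℕ → A K} (hβ : β ∈ VV (S.plus a r κ q) m v) :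
    ell (bc f (gen (ev vb a))) (ev v (S.eG r)) v a β = 0 := by
  refine eq_zero_of_cp n (Cn_le _ _ (h.ell_mem hm fun i _ => (VV_le _ _ _ hβ i).1)) fun g hg => ?_
  rw [VV_up (h.b.wf.plus h.b.ha r κ q) h.st.mem hm] at hβ
  rw [← ell_cp h.b.ha h.stS.mem (h.L1_le le_rfl) h.cst.comm h.g_mem β hg]
  exact h.zero (hβ.2 g hg)

theorem not_act : ¬ Act (S.plus a r κ q) n v a := by
  rintro ⟨y, hy, β, hβ, h0⟩
  have h1 : cj (ev v (S.eG r)) y ∈ bc f (gen (ev vb a)) := by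
    have := cj_mem_gen (a := cj (ev v (S.eG r)) (ev v a)) (y := y) (inv_ne_zero h.g_ne) (by
      rwa [cj_apply, cj_apply, inv_inv, mul_assoc, mul_assoc, mul_inv_cancel₀ h.g_ne, mul_one,
        ← mul_assoc, mul_inv_cancel₀ h.g_ne, one_mul])
    rwa [inv_inv, h.gen_eq] at this
  have h2 := tr_mul_Pc h.cst.L_le h.cst.comm (fun x hx => h.cst.comm x hx _ h1)
    ((ev v (S.eG r))⁻¹ * (d1 v a β * ev v (S.eG r)))
  rw [← ell_apply, h.zero hβ, mul_zero, map_zero, cj_apply, mul_assoc, mul_assoc,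
    ← mul_assoc (ev v (S.eG r)), mul_inv_cancel₀ h.g_ne, one_mul, tr_comm, mul_assoc, mul_assoc,
    mul_inv_cancel₀ h.g_ne, mul_one] at h2
  exact h0 h2.symm

theorem step {m : ℕ} {σ : ℕ → A K} {w : ℕ → A (LS K)} (hm : Move (S.plus a r κ q) n v m σ w) :
    Inv S a r κ q n0 vb η ((io K).comp f) (pcomp PL P) m w := by
  have hP := h.inv.plc
  have hW := h.b.wf.plus h.b.ha r κ q
  have hS := hm.restrict h.b.wf h.le
  have hcst : ∀ i, S.IsC r κ q i → w i = map ((io K).comp f) (vb i) := fun i hi => by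
    have h1 := hi.1
    rw [hm.cst i hi.2.1, h.inv.cst i hi, map_map]
    · simp only [Sys.plus, Finset.mem_insert, not_or]
      exact ⟨by omega, fun H => by have := h.b.wf.W_lt i H; omega⟩
    · simp only [Sys.plus, Finset.mem_union, Finset.mem_image, not_or]
      refine ⟨fun H => ?_, fun ⟨l, hl, H⟩ => hi.2.2 l (mem_range.1 hl) H.symm⟩
      have := h.b.wf.Sc_lt i (h.b.wf.T_sub H); omega
  have hb : BP S n m v (msk S.W σ) (VV S m v ⊓ LinearMap.ker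
      (ell (bc f (gen (ev vb a))) (ev v (S.eG r)) v a)) := by
    refine (BP.restrict h.b.wf h.le (VV_le _ _ _ hm.sig) hm.bp).mono ?_
    rintro _ ⟨β, hβ, rfl⟩
    exact ⟨msk_mem_VV h.b.wf h.le hβ, LinearMap.mem_ker.2 (by
      rw [h.ell_msk hβ, h.zero_up hm.le hβ])⟩
  have ht := h.tt _ _ _ hS
  have hg : RA PL (ev w (S.eG r)) (ev v (S.eG r)) := ev_RA (plc K) hm.ra (eG_in S a r κ q)
  have hg' : ev w (S.eG r) ≠ 0 := hg.ne_zero (plc K) h.g_ne
  have hbc : bc ((io K).comp f) (gen (ev vb a)) = bc (io K) (bc f (gen (ev vb a))) :=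
    (bc_bc _ _).symm
  refine ⟨hP.comp (plc K), h.inv.le.trans hm.le, hcst,
    (hm.ra _ (by simp only [Sys.plus, Set.mem_Iio]; omega)).comp h.inv.small,
    fun l hl => (hm.ra _ (by simp only [Sys.plus, Set.mem_Iio, Sys.vt]; omega)).comp
      (h.inv.smallt l hl), ?_, fun l hl g hg0 => ?_⟩
  swap
  · obtain ⟨β0, hβ0, hr⟩ := h.h3_up hm.le hl hg0
    obtain ⟨β, -, h1, β', hβ', h2⟩ := hS.toPreMove.lift_ell h.b.wf h.stS ht hb hβ0
    refine ⟨β', hβ', RA.comp ?_ hr⟩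
    rw [← h1, hbc, ell_apply, ell_apply]
    exact ((hg.inv (plc K) h.g_ne).mul (plc K) ((d1_RA (plc K) hS.ra (fun i _ => h2 i)
      h.b.ha).mul (plc K) hg)).Pc_bc (plc K) h.cst.L_le h.cst.comm
  -- the normal form stays in `L`
  have hc' := h.b.cst.map ((io K).comp f) hcst
  have hL2 := hc'.L_le
  by_contra hn
  have hx0 : ev w (S.eA r κ q) - pr (bc ((io K).comp f) (gen (ev vb a))) (ev w (S.eA r κ q)) ≠ 0 :=
    fun H => hn (by rw [sub_eq_zero.1 H]; exact pr_mem _ _)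
  have hA1 : map (io K) (ev v (S.eA r κ q)) ∈ bc ((io K).comp f) (gen (ev vb a)) :=
    hbc ▸ map_mem_bc _ h.inv.inL
  have hpr : ∀ {k x y}, Ld k x y → Ld k (pr (bc ((io K).comp f) (gen (ev vb a))) x)
      (pr (bc f (gen (ev vb a))) y) := fun H => by
    have := RA.pr_bc (plc K) h.cst.L_le H
    rwa [map_smul, ← hbc] at this
  have h2 : Ld 1 (ev w (S.eA r κ q) - map (io K) (ev v (S.eA r κ q))) 0 := by
    have := ev_Ld (k := 0) (fun i _ => RA.of (plc K) (v i)) hm.ld (eA_in S a r κ q)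
    have h0 := isC_zero h.b.wf (VV_le _ _ _ hm.sig)
    rwa [ev_hom, h.cst.d1_eA fun i hi => h0 i hi.1, Finset.sum_eq_zero fun l _ => by
      rw [h0 _ (by simp only [Sys.vt]; omega), zero_mul], add_zero, ← h.rel hm.le hm.sig,
      h.zero_up hm.le hm.sig] at this
  have h3 : Ord 2 (ev w (S.eA r κ q) -
      pr (bc ((io K).comp f) (gen (ev vb a))) (ev w (S.eA r κ q))) := by
    have := (h2.sub (hpr h2))
    rw [map_sub, pr_self hL2 hA1, map_zero, sub_zero, sub_sub_sub_cancel_right] at this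
    exact this.succ
  obtain ⟨k, hk, z, hz0, hz⟩ := h3.lead hx0
  -- decomposition of the deviation
  obtain ⟨l0, hl0, hdec⟩ : ∃ l0 ∈ bc ((io K).comp f) (gen (ev vb a)), ev w (S.eA r κ q) -
      pr (bc ((io K).comp f) (gen (ev vb a))) (ev w (S.eA r κ q)) =
      (Pc (bc ((io K).comp f) (gen (ev vb a))) (w S.N) - Qop S q w (w S.N)) + l0 := by
    refine ⟨w (S.N + 1) + ∑ l ∈ range κ, w (S.vt l) * w (S.vl l) -
      pr (bc ((io K).comp f) (gen (ev vb a))) (ev w (S.eA r κ q)),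
      sub_mem (add_mem hc'.va (Subalgebra.sum_mem _ fun l hl => ?_)) (pr_mem _ _), ?_⟩
    · rw [eq_smul_one (hm.sc _ (by
        simp only [Sys.plus, Finset.mem_union, Finset.mem_image]
        exact Or.inr ⟨l, hl, rfl⟩)), smul_mul_assoc, one_mul]
      have := mul_mem hc'.eta (hc'.L0_le (hc'.vl l (mem_range.1 hl)))
      rw [← mul_assoc, mul_inv_cancel₀ hc'.eta0, one_mul] at this
      exact Subalgebra.smul_mem _ this _
    · conv_lhs => enter [1]; rw [hc'.ev_eA]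
      abel
  have hxc : ∀ x ∈ bc (io K) (bc f (gen (ev vb a))), x * ((eps K ^ k)⁻¹ • (ev w (S.eA r κ q) -
      pr (bc ((io K).comp f) (gen (ev vb a))) (ev w (S.eA r κ q)))) = ((eps K ^ k)⁻¹ •
      (ev w (S.eA r κ q) - pr (bc ((io K).comp f) (gen (ev vb a))) (ev w (S.eA r κ q)))) * x := by
    intro x hx
    rw [← hbc] at hx
    rw [mul_smul_comm, smul_mul_assoc, hdec, mul_add, add_mul, mul_sub, sub_mul,
      Pc_comm hL2 hc'.comm _ hx, hc'.q_comm _ x hx, hc'.comm x hx l0 hl0]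
  have hAm : ev w (S.eA r κ q) ∈ D (LS K) m := ev_mem hm.mem (eA_in S a r κ q)
  have hL2m := hL2.trans (D_mono (h.inv.le.trans hm.le))
  have hzC : z ∈ Cn m (bc f (gen (ev vb a))) :=
    mem_Cn.2 ⟨hz.mem (sub_mem hAm (hL2m (pr_mem _ _))), RA.comm_of_bc (plc K) hz hxc⟩
  obtain ⟨c, -, y, hy, hr, hyL, -⟩ := h.core hm.le hzC hz0 (fun l hl g hg g0 => by
    have e1 := ((Ld_zero_iff.2 ((((RA.of (plc K) (map f η)⁻¹).mul (plc K)
      (RA.of (plc K) l)).mul (plc K) (RA.e (plc K) g)))).mul hz).tr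
    have hl' : map (io K) l ∈ bc ((io K).comp f) (Rat' (UU S n0 vb a)) :=
      bc_bc f (io K) ▸ map_mem_bc _ hl
    have hη : (map ((io K).comp f) η)⁻¹ * map (io K) l ∈ bc ((io K).comp f) (gen (ev vb a)) :=
      mul_mem (inv_mem_of_le hL2 hc'.eta) (hc'.L0_le hl')
    rw [map_inv₀, map_map, hdec, mul_add, map_add, mul_sub, map_sub,
      hc'.q_tr _ _ hl' m _ (e_mem hg), tr_mul_Pc hL2 hc'.comm fun y hy => by
        rw [← mul_assoc, hc'.comm y hy _ hη, mul_assoc, comm_DS (hL2 hy) (e_mem hg), ← mul_assoc],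
      sub_self, zero_add, mul_assoc, ← comm_DS (hL2 hl0) (e_mem hg), ← mul_assoc,
      tr_mul_e (hL2 (mul_mem hη hl0)) hg g0, add_zero, mul_zero] at e1
    exact (plc K).fn e1) fun β0 hβ0 => by
      obtain ⟨β, hβ, h1, -⟩ := hS.toPreMove.lift_ell h.b.wf h.stS ht hb hβ0
      obtain ⟨w', hw', hld⟩ := hS.perturb h.b.wf h.stS h.h1 hβ hk
      obtain ⟨k, rfl⟩ : ∃ k', k = k' + 1 := ⟨k - 1, by omega⟩
      have e1 := ev_Ld hS.ra hld h.b.ha
      have e2 := ((Ld_zero_iff.2 (hg.inv (plc K) h.g_ne)).mul (e1.mul (Ld_zero_iff.2 hg)))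
      rw [zero_add, add_zero] at e2
      have e3 : cj (ev w (S.eG r)) (ev w a) = ev w (S.eA r κ q) := by
        have := hm.eq S.j0 (Finset.mem_insert_self _ _)
        simp only [Sys.plus, Function.update_self, Sys.eF, ev_add, ev_mul, ev_neg] at this
        rw [cj_apply, add_neg_eq_zero.1 this, ← mul_assoc, inv_mul_cancel₀ hg', one_mul]
      have e4 : RA PL (pr (bc ((io K).comp f) (gen (ev vb a))) (ev w (S.eA r κ q)))
          (cj (ev v (S.eG r)) (ev v a)) := by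
        have := hpr (Ld_zero_iff.2 h2.ra)
        rwa [pr_self h.cst.L_le h.inv.inL, ← h.cj_eq, Ld_zero_iff] at this
      have := ext_of_move h.b.wf h.b.ha h.stS h.tt h.loc hw' h.g_ne h.g_mem (h.gen_eq ▸ hb)
        (h.gen_eq ▸ h.hact hm.le) (ev_mem hm.mem (eG_in S a r κ q)) hg
        (by rw [h.gen_eq, ← hbc]; exact pr_mem _ _) e4 (Nat.succ_pos k)
        (y := z + (ev v (S.eG r))⁻¹ * (d1 v a β * ev v (S.eG r))) (by
          convert hz.add e2 using 1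
          rw [← e3, cj_apply, cj_apply, sub_mul, mul_sub]; abel)
      rwa [h.gen_eq, map_add, ← ell_apply, h1,
        Pc_self h.cst.L_le h.cst.comm (mem_Cn.1 hzC).2] at this
  refine hy (nondeg h.b.cst.L_le hyL fun l hl => ?_)
  have e1 := ((Ld_zero_iff.2 (RA.of (plc K) (map f l))).mul hz).tr
  rw [mul_sub, map_sub, tr_mul_pr hL2 (hbc ▸ map_mem_bc _ (map_mem_bc f hl)), sub_self,
    mul_zero] at e1
  have e2 := ((RA.of hP l).mul hP hr).tr
  rw [mul_smul_comm, map_smul, (plc K).fn e1, smul_zero] at e2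
  exact hP.fn e2

end RSet

end Vale.Agent.P199
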