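import Vale.Agent.P199.Ex

/-! The ultraproduct construction. -/

namespace Vale.Agent.P199

open Finset Module Filter

theorem ultra_aux (R : ℕ → Type) [∀ j, DivisionRing (R j)] (U : Ultrafilter ℕ) :
    ∃ (Rh : Type) (_ : DivisionRing Rh) (π : (∀ j, R j) →+* Rh), Function.Surjective π ∧
      ∀ x y, π x = π y ↔ ∀ᶠ j in U, x j = y j := by
  let c : RingCon (∀ j, R j) :=
    { r := fun x y => ∀ᶠ j in U, x j = y j
      iseqv := ⟨fun _ => Eventually.of_forall fun _ => rfl, fun h => h.mono fun _ => Eq.symm,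
        fun h h' => (h.and h').mono fun _ H => H.1.trans H.2⟩
      add' := fun h h' => (h.and h').mono fun _ H => congrArg₂ (· + ·) H.1 H.2
      mul' := fun h h' => (h.and h').mono fun _ H => congrArg₂ (· * ·) H.1 H.2 }
  have h1 : ∀ x y, c.mk' x = c.mk' y ↔ ∀ᶠ j in U, x j = y j := fun x y => c.eq
  have h2 : Function.Surjective c.mk' := Quot.mk_surjective
  have : Nontrivial c.Quotient := ⟨⟨c.mk' 1, c.mk' 0, fun h => by
    obtain ⟨j, hj⟩ := ((h1 _ _).1 h).exists
    exact one_ne_zero hj⟩⟩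
  refine ⟨c.Quotient, DivisionRing.ofIsUnitOrEqZero fun a => ?_, c.mk', h2, h1⟩
  obtain ⟨x, rfl⟩ := h2 a
  rcases U.em (fun j => x j = 0) with h | h
  · exact Or.inr (((h1 x 0).2 h).trans (map_zero _))
  · refine Or.inl ⟨⟨c.mk' x, c.mk' fun j => (x j)⁻¹, ?_, ?_⟩, rfl⟩
    · rw [← map_mul, ← map_one c.mk', h1]
      exact h.mono fun j hj => mul_inv_cancel₀ hj
    · rw [← map_mul, ← map_one c.mk', h1]
      exact h.mono fun j hj => inv_mul_cancel₀ hj

theorem final_aux (k R : Type) [Field k] [DivisionRing R] [Algebra k R] (x y : R)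
    (hi : Algebra.IsIntegral k R) (ht : Algebra.adjoin k {x, y} = ⊤) (hf : ¬ Module.Finite k R) :
    Algebra.IsAlgebraic (Subring.center R) R ∧
      Subfield.closure ((Subring.center R : Set R) ∪ {x, y}) = ⊤ ∧
      ¬ Module.Finite (Subring.center R) R := by
  have hc : ∀ r : k, algebraMap k R r ∈ Subring.center R := fun r =>
    Subring.mem_center_iff.2 fun g => (Algebra.commutes r g).symm
  letI : Algebra k (Subring.center R) := ((algebraMap k R).codRestrict _ hc).toAlgebra
  have : IsScalarTower k (Subring.center R) R := IsScalarTower.of_algebraMap_eq fun _ => rfl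
  refine ⟨⟨fun z => (hi.isIntegral z).tower_top.isAlgebraic⟩, eq_top_iff.2 fun z _ => ?_,
    fun h => hf ?_⟩
  · have hz : z ∈ Algebra.adjoin k {x, y} := ht ▸ Algebra.mem_top
    induction hz using Algebra.adjoin_induction with
    | mem z hz => exact Subfield.subset_closure (Or.inr hz)
    | algebraMap r => exact Subfield.subset_closure (Or.inl (hc r))
    | add a b _ _ ha hb => exact add_mem (ha trivial) (hb trivial)
    | mul a b _ _ ha hb => exact mul_mem (ha trivial) (hb trivial)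
  · classical
    obtain ⟨B, hB, hB'⟩ := exists_subalgebra_of_fg k (Subring.center R) R
      ⟨{x, y}, by simpa using ht⟩ h.fg_top
    have : Algebra.IsIntegral k (Subring.center R) :=
      ⟨fun z => IsIntegral.tower_bot (B := R) Subtype.val_injective (hi.isIntegral _)⟩
    have := (Subalgebra.fg_iff_finiteType B).1 hB
    have : Algebra.IsIntegral k B := ⟨fun z =>
      (isIntegral_algHom_iff B.val Subtype.val_injective).1 (Algebra.IsIntegral.isIntegral _)⟩
    have : Module.Finite k B := Algebra.IsIntegral.finite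
    have : Module.Finite B R := ⟨hB'⟩
    exact Module.Finite.trans B R

theorem integral_aux {Rh : Type} [DivisionRing Rh] (V : ℕ → Rh) (Sc : Set ℕ)
    (hSc : ∀ i ∈ Sc, V i ∈ Subring.center Rh)
    (halg : ∀ a : Ex, a.In (insert 0 (insert 1 Sc)) → ∃ (r : ℕ) (κ : ℕ → ℕ), (∀ l < r, κ l ∈ Sc) ∧
      ev V a ^ r + ∑ l ∈ range r, V (κ l) * ev V a ^ l = 0) :
    ∃ k : Subfield (Subring.center Rh), ∀ z ∈ Algebra.adjoin k {V 0, V 1}, IsIntegral k z := by
  let s : Set (Subring.center Rh) := {z | ∃ i ∈ Sc, (z : Rh) = V i}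
  let T : Subring Rh :=
    { carrier := {r | ∃ a : Ex, a.In (insert 0 (insert 1 Sc)) ∧ ev V a = r}
      mul_mem' := fun ⟨a, ha, h⟩ ⟨b, hb, h'⟩ => ⟨.mul a b, ⟨ha, hb⟩, by rw [ev_mul, h, h']⟩
      one_mem' := ⟨.one, trivial, rfl⟩
      add_mem' := fun ⟨a, ha, h⟩ ⟨b, hb, h'⟩ => ⟨.add a b, ⟨ha, hb⟩, by rw [ev_add, h, h']⟩
      zero_mem' := ⟨.zero, trivial, rfl⟩
      neg_mem' := fun ⟨a, ha, h⟩ => ⟨.neg a, ha, by rw [ev_neg, h]⟩ }
  have h0 : ∀ c ∈ Subring.closure s, (c : Rh) ∈ T := fun c hc =>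
    (Subring.closure_le (t := T.comap (Subring.center Rh).subtype)).2
      (by rintro z ⟨i, hi, hz⟩; exact ⟨.var i, Or.inr (Or.inr hi), hz.symm⟩) hc
  refine ⟨Subfield.closure s, fun z hz => ?_⟩
  have h1 : ∀ z ∈ T, IsIntegral (Subfield.closure s) z := by
    rintro _ ⟨a, ha, rfl⟩
    obtain ⟨r, κ, hκ, h⟩ := halg a ha
    refine ⟨Polynomial.X ^ r + ∑ l : Fin r, Polynomial.C (⟨⟨V (κ l), hSc _ (hκ l l.2)⟩,
      Subfield.subset_closure ⟨_, hκ l l.2, rfl⟩⟩ : Subfield.closure s) * Polynomial.X ^ (l : ℕ),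
      Polynomial.monic_X_pow_add (Polynomial.degree_sum_fin_lt _), ?_⟩
    rw [← Polynomial.aeval_def, ← h, Finset.sum_range]
    simp only [map_add, map_pow, map_sum, map_mul, Polynomial.aeval_X, Polynomial.aeval_C]
    rfl
  have h2 : ∃ c ∈ Subring.closure s, c ≠ 0 ∧ c • z ∈ T := by
    induction hz using Algebra.adjoin_induction with
    | mem z hz =>
      refine ⟨1, one_mem _, one_ne_zero, ?_⟩
      rw [one_smul]
      rcases hz with rfl | rfl
      exacts [⟨.var 0, Or.inl rfl, rfl⟩, ⟨.var 1, Or.inr (Or.inl rfl), rfl⟩]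
    | algebraMap r =>
      obtain ⟨a, ha, b, hb, hab⟩ := Subfield.mem_closure_iff.1 r.2
      by_cases hb0 : b = 0
      · refine ⟨1, one_mem _, one_ne_zero, ?_⟩
        have : r = 0 := Subtype.ext (by rw [← hab, hb0, div_zero]; rfl)
        rw [this, map_zero, smul_zero]
        exact zero_mem _
      · refine ⟨b, hb, hb0, ?_⟩
        have : b * r.1 = a := by rw [← hab, mul_div_cancel₀ _ hb0]
        rw [← this] at ha
        exact h0 _ ha
    | add a b _ _ ha hb =>
      obtain ⟨c, hc, hc0, h⟩ := ha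
      obtain ⟨d, hd, hd0, h'⟩ := hb
      refine ⟨c * d, mul_mem hc hd, mul_ne_zero hc0 hd0, ?_⟩
      rw [smul_add, mul_smul c d b, mul_comm c d, mul_smul d c a]
      exact add_mem (mul_mem (h0 d hd) h) (mul_mem (h0 c hc) h')
    | mul a b _ _ ha hb =>
      obtain ⟨c, hc, hc0, h⟩ := ha
      obtain ⟨d, hd, hd0, h'⟩ := hb
      refine ⟨c * d, mul_mem hc hd, mul_ne_zero hc0 hd0, ?_⟩
      rw [← smul_mul_smul_comm]
      exact mul_mem h h'
  obtain ⟨c, hc, hc0, h⟩ := h2
  have hc' : c ∈ Subfield.closure s := Subfield.subring_closure_le s hc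
  have := (h1 _ h).smul (⟨c⁻¹, inv_mem hc'⟩ : Subfield.closure s)
  rwa [show (⟨c⁻¹, inv_mem hc'⟩ : Subfield.closure s) • c • z = c⁻¹ • c • z from rfl,
    inv_smul_smul₀ hc0] at this

theorem algebra_aux {Rh : Type} [DivisionRing Rh] [CharZero Rh] (x y : Rh)
    (k : Subfield (Subring.center Rh)) (hi : ∀ z ∈ Algebra.adjoin k {x, y}, IsIntegral k z)
    (hg : ∀ s : Finset Rh, 1 ∈ Submodule.span (Subring.center Rh) (s : Set Rh) →
      (∀ z ∈ s, x * z ∈ Submodule.span (Subring.center Rh) (s : Set Rh)) →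
      (∀ z ∈ s, y * z ∈ Submodule.span (Subring.center Rh) (s : Set Rh)) → False) :
    ∃ (R : Type) (_ : DivisionRing R) (x y : R), CharZero R ∧
      Algebra.IsAlgebraic (Subring.center R) R ∧
      Subfield.closure ((Subring.center R : Set R) ∪ {x, y}) = ⊤ ∧
      ¬ Module.Finite (Subring.center R) R ∧
      ∃ (k : Type) (_ : Field k) (_ : Algebra k R), Algebra.IsAlgebraic k R ∧
        Algebra.adjoin k {x, y} = ⊤ ∧ ¬ Module.Finite k R := by
  classical
  let R := Algebra.adjoin k ({x, y} : Set Rh)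
  have hx : x ∈ R := Algebra.subset_adjoin (Or.inl rfl)
  have hy : y ∈ R := Algebra.subset_adjoin (Or.inr rfl)
  have h1 : Algebra.IsIntegral k R :=
    ⟨fun z => (isIntegral_algHom_iff R.val Subtype.val_injective).1 (hi z z.2)⟩
  have h2 : Algebra.adjoin k ({⟨x, hx⟩, ⟨y, hy⟩} : Set R) = ⊤ := by
    rw [← Algebra.adjoin_adjoin_coe_preimage]
    congr 1
    ext z
    simp [Subtype.ext_iff]
  have h3 : ¬ Module.Finite k R := by
    rintro ⟨s, hs⟩
    have key : ∀ z ∈ R, z ∈ Submodule.span (Subring.center Rh)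
        ((s.image Subtype.val : Finset Rh) : Set Rh) := fun z hz => by
      refine Submodule.span_le_restrictScalars k _ _ ?_
      have := Submodule.mem_map_of_mem (f := R.val.toLinearMap)
        (hs ▸ Submodule.mem_top : (⟨z, hz⟩ : R) ∈ Submodule.span k (s : Set R))
      rw [Submodule.map_span] at this
      rw [coe_image]
      exact this
    refine hg _ (key 1 (one_mem _)) (fun z hz => key _ (mul_mem hx ?_))
      fun z hz => key _ (mul_mem hy ?_) <;>
    · obtain ⟨z, -, rfl⟩ := mem_image.1 hz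
      exact z.2
  letI : DivisionRing R := DivisionRing.ofIsUnitOrEqZero fun z => by
    by_cases h : z = 0
    · exact Or.inr h
    · exact Or.inl ((h1.isIntegral z).isUnit h)
  obtain ⟨a1, a2, a3⟩ := final_aux k R ⟨x, hx⟩ ⟨y, hy⟩ h1 h2 h3
  exact ⟨R, inferInstance, ⟨x, hx⟩, ⟨y, hy⟩, R.val.toRingHom.charZero, a1, a2, a3, k,
    inferInstance, inferInstance, h1.isAlgebraic, h2, h3⟩

theorem adjoin_le_aux {K B : Type} [Field K] [Ring B] [Algebra K B] {x y : B} (s : Finset B)
    (h1 : 1 ∈ Submodule.span K (s : Set B)) (hx : ∀ z ∈ s, x * z ∈ Submodule.span K (s : Set B))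
    (hy : ∀ z ∈ s, y * z ∈ Submodule.span K (s : Set B)) :
    finrank K (Algebra.adjoin K ({x, y} : Set B)) ≤ s.card := by
  have key : ∀ a ∈ Algebra.adjoin K ({x, y} : Set B), ∀ w ∈ Submodule.span K (s : Set B),
      a * w ∈ Submodule.span K (s : Set B) := by
    intro a ha
    induction ha using Algebra.adjoin_induction with
    | mem a ha =>
      refine fun w hw => (Submodule.span_le (p := (Submodule.span K (s : Set B)).comap
        (LinearMap.mulLeft K a))).2 (fun z hz => ?_) hw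
      rcases ha with rfl | rfl
      exacts [hx z hz, hy z hz]
    | algebraMap r => exact fun w hw => Algebra.smul_def r w ▸ Submodule.smul_mem _ r hw
    | add a b _ _ ha hb => exact fun w hw => add_mul a b w ▸ add_mem (ha w hw) (hb w hw)
    | mul a b _ _ ha hb => exact fun w hw => mul_assoc a b w ▸ ha _ (hb w hw)
  have := Module.Finite.span_of_finite K s.finite_toSet
  rw [← Subalgebra.finrank_toSubmodule]
  exact (Submodule.finrank_mono fun a ha => mul_one a ▸ key a ha 1 h1).trans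
    (finrank_span_finset_le_card s)

theorem assemble (K : ℕ → Type) [∀ j, Field (K j)] [∀ j, Algebra K0 (K j)] [∀ j, Dom (K j)]
    (v : ∀ j, ℕ → A (K j)) (Sc : Set ℕ) (hSc : ∀ i ∈ Sc, ∀ᶠ j in atTop, v j i ∈ D (K j) 0)
    (halg : ∀ a : Ex, a.In (insert 0 (insert 1 Sc)) → ∃ (r : ℕ) (κ : ℕ → ℕ), (∀ l < r, κ l ∈ Sc) ∧
      ∀ᶠ j in atTop, ev (v j) a ^ r + ∑ l ∈ range r, v j (κ l) * ev (v j) a ^ l = 0)
    (hgrow : ∀ m : ℕ, ∀ᶠ j in atTop,
      m ≤ finrank (K j) (Algebra.adjoin (K j) ({v j 0, v j 1} : Set (A (K j))))) :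
    ∃ (R : Type) (_ : DivisionRing R) (x y : R), CharZero R ∧
      Algebra.IsAlgebraic (Subring.center R) R ∧
      Subfield.closure ((Subring.center R : Set R) ∪ {x, y}) = ⊤ ∧
      ¬ Module.Finite (Subring.center R) R ∧
      ∃ (k : Type) (_ : Field k) (_ : Algebra k R), Algebra.IsAlgebraic k R ∧
        Algebra.adjoin k {x, y} = ⊤ ∧ ¬ Module.Finite k R := by
  classical
  obtain ⟨Rh, _, π, hπ, heq⟩ := ultra_aux (fun j => A (K j)) (hyperfilter ℕ)
  have hU : (hyperfilter ℕ : Filter ℕ) ≤ atTop := Nat.hyperfilter_le_atTop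
  choose σ hσ using hπ
  have : CharZero Rh := ⟨fun a b h => by
    rw [← map_natCast π, ← map_natCast π, heq] at h
    obtain ⟨j, hj⟩ := h.exists
    have := charZero (K j)
    have := charZero_of_injective_algebraMap (algebraMap (K j) (A (K j))).injective
    exact Nat.cast_injective (R := A (K j)) hj⟩
  let V : ℕ → Rh := fun i => π fun j => v j i
  have hc : ∀ i ∈ Sc, V i ∈ Subring.center Rh := fun i hi => Subring.mem_center_iff.2 fun g => by
    rw [← hσ g, ← map_mul, ← map_mul, heq]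
    exact ((hSc i hi).filter_mono hU).mono fun j hj => (comm_of_D0 hj _).symm
  have hev : ∀ a, ev V a = π fun j => ev (v j) a := fun a => by
    rw [ev_hom π (fun i j => v j i) a]
    exact congrArg π (funext fun j =>
      (ev_hom (Pi.evalRingHom (fun j => A (K j)) j) (fun i j => v j i) a).symm)
  obtain ⟨k, hk⟩ := integral_aux V Sc hc fun a ha => by
    obtain ⟨r, κ, hκ, h⟩ := halg a ha
    refine ⟨r, κ, hκ, ?_⟩
    simp only [hev, V, ← map_pow, ← map_mul, ← map_sum, ← map_add]
    rw [← map_zero π, heq]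
    exact (h.filter_mono hU).mono fun j hj => by simpa using hj
  refine algebra_aux (V 0) (V 1) k hk fun s h1 hx hy => ?_
  have hz : ∀ c : Subring.center Rh, ∀ᶠ j in (hyperfilter ℕ : Filter ℕ), σ c j ∈ D (K j) 0 := by
    intro c
    have h2 : ∀ j, ∃ w : A (K j), σ c j * w = w * σ c j → σ c j ∈ D (K j) 0 := fun j => by
      by_contra H
      push Not at H
      obtain ⟨n, hn⟩ := exists_D (σ c j)
      exact (H 0).2 (mem_D_of_comm hn fun g _ => (H _).1)
    choose w hw using h2
    have h3 : π (σ c * w) = π (w * σ c) := by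
      rw [map_mul, map_mul, hσ, Subring.mem_center_iff.1 c.2]
    exact ((heq _ _).1 h3).mono fun j hj => hw j hj
  have key : ∀ r ∈ Submodule.span (Subring.center Rh) (s : Set Rh), ∀ w, π w = r →
      ∀ᶠ j in (hyperfilter ℕ : Filter ℕ), w j ∈ Submodule.span (K j)
        ((s.image fun z => σ z j : Finset _) : Set (A (K j))) := by
    intro r hr
    induction hr using Submodule.span_induction with
    | mem r hr =>
      exact fun w hw => ((heq _ _).1 (hw.trans (hσ r).symm)).mono fun j hj =>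
        hj ▸ Submodule.subset_span (mem_image_of_mem _ hr)
    | zero =>
      exact fun w hw => ((heq _ _).1 (hw.trans (map_zero π).symm)).mono fun j hj =>
        hj ▸ zero_mem _
    | add a b _ _ ha hb =>
      intro w hw
      filter_upwards [(heq w (σ a + σ b)).1 (by rw [hw, map_add, hσ, hσ]), ha _ (hσ a),
        hb _ (hσ b)] with j h1 h2 h3 using h1 ▸ add_mem h2 h3
    | smul c a _ ha =>
      intro w hw
      filter_upwards [(heq w (σ c * σ a)).1 (by rw [hw, map_mul, hσ, hσ]; rfl), ha _ (hσ a),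
        hz c] with j h1 h2 h3
      rw [h1, Pi.mul_apply, eq_smul_one h3, smul_mul_assoc, one_mul]
      exact Submodule.smul_mem _ _ h2
  have e1 := key 1 h1 1 (map_one π)
  have e2 := (eventually_all_finset s).2 fun z hz =>
    key _ (hx z hz) ((fun j => v j 0) * σ z) (by rw [map_mul, hσ])
  have e3 := (eventually_all_finset s).2 fun z hz =>
    key _ (hy z hz) ((fun j => v j 1) * σ z) (by rw [map_mul, hσ])
  obtain ⟨j, ⟨⟨a1, a2⟩, a3⟩, a4⟩ := (((e1.and e2).and e3).and ((hgrow (s.card + 1)).filter_mono hU)).exists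
  have a5 := adjoin_le_aux (K := K j) (x := v j 0) (y := v j 1) (s.image fun z => σ z j) a1
    (forall_mem_image.2 fun z hz => a2 z hz) (forall_mem_image.2 fun z hz => a3 z hz)
  have a6 := card_image_le (s := s) (f := fun z => σ z j)
  omega

end Vale.Agent.P199
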