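import Vale.Agent.P199.Final2
import Vale.Agent.P199.Redund
import Vale.Agent.P199.Ultra
import Vale.Agent.P199.Full

/-! The tower of systems. -/

namespace Vale.Agent.P199

open Finset Module Filter

theorem UU_congr_auxS {K : Type} [Field K] [Algebra K0 K] [Dom K] {S : Sys} (hS : S.WF) {a : Ex}
    (ha : a.In (Set.Iio S.N)) {m : ℕ} {v v' : ℕ → A K} (h : ∀ i < S.N, v i = v' i) :
    UU S m v a = UU S m v' a := by
  have e : d1 v a = d1 v' a := LinearMap.ext fun β => d1_congr h (fun _ _ => rfl) ha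
  rw [UU, ZA, VV_congr hS h, e, ev_congr h ha, UU, ZA]

theorem exists_bset_auxS {K : Type} [Field K] [Algebra K0 K] [Dom K] {S : Sys} {n : ℕ}
    {v σ : ℕ → A K} {w : ℕ → A (LS K)} {a : Ex} {μ ν : ℕ} {η θ : A K}
    (h : QSet S n v a μ ν η θ σ w) : ∃ w' η' r κ q, QSet S n v a μ ν η θ σ w' ∧ RA PL η' η ∧
      BSet S a r κ q (n + 1) w' η' := by
  obtain ⟨β, hβ, e⟩ := mem_UU.1 h.eta
  obtain ⟨η', hη', hr⟩ := h.lift_UU (VV_mono h.wf h.st.mem (Nat.le_succ n) hβ)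
  rw [← Pc_Pc h.M_le h.M_comm (le_adj _ _), ← ell_one, e, h.Pc_one (h.dx.sub η h.eta)] at hr
  have h0 : η' ≠ 0 := fun H => h.eta0 (RA.eq_zero (plc K) (H ▸ hr))
  obtain ⟨r, κ, q, w', hw, hα, hc, hb⟩ := exists_cst S w (h.L'_le (mem_gen _))
    (Rat_le h.L'_le h.dx'.sub) (h.dx'.sub η' hη') h0
  have h' : QSet S n v a μ ν η θ σ w' := { h with mv := h.mv.congr h.wf hw }
  have e1 : ev w' a = ev w a := ev_congr hw h.ha
  have e2 : UU S (n + 1) w' a = UU S (n + 1) w a := UU_congr_auxS h.wf h.ha hw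
  refine ⟨w', η', r, κ, q, h', hr, h.wf, h.ha, h'.mv.st, h'.dx'.sub, ?_, ?_, ?_, ?_⟩
  · rwa [e2]
  · rwa [e1]
  · rwa [e1, e2]
  · rwa [e2]

theorem exists_theta_auxS {K : Type} [Field K] [Algebra K0 K] [Dom K] {S : Sys} {n : ℕ}
    {v : ℕ → A K} {a : Ex} {μ ν : ℕ} (ha : a.In (Set.Iio S.N)) (hv : IsSt S n v)
    (hd : DX S n v a μ ν) {B : ℕ}
    (hB : 7 * finrank K (Rat' (UU S n v a)) + B ≤ 8 * finrank K (UU S n v a)) :
    ∃ η θ, η ∈ UU S n v a ∧ η ≠ 0 ∧ η * θ ∈ UU S n v a ∧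
      Lam S n v a η ⊔ (Lam S n v a η).map (LinearMap.mulLeft K θ) =
        (Rat' (UU S n v a)).toSubmodule := by
  obtain ⟨η, hη, h0⟩ := hd.exists_eta ha hv.mem
  have hL : gen (ev v a) ≤ D K n := gen_le (ev_mem hv.mem ha)
  have hL0 : Rat' (UU S n v a) ≤ gen (ev v a) := Rat_le hL hd.sub
  have := charZero K
  have := finite_sub (hL0.trans hL)
  obtain ⟨θ, hθ, H⟩ := approx_subfield (Rat' (UU S n v a)) ((comm_gen _).mono hL0)
    (Lam S n v a η) ((mem_Lam h0).2 (by rwa [mul_one])) (Rat_eq hL (comm_gen _) hd.sub hη h0)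
  refine ⟨η, θ, hη, h0, (mem_Lam h0).1 hθ, H.resolve_right fun H' => ?_⟩
  have := H'.1
  rw [finrank_Lam h0] at this
  omega

theorem constrain {S : Sys} (hS : S.WF) {a : Ex} (ha : a.In (Set.Iio S.N)) {s : St}
    (hg : Good S s.n s.v 1) (hs : Stab S s) : ∃ S' : Sys, S.Le S' ∧ S'.WF ∧ ∃ t, Desc S s t ∧
      Good S' t.n t.v 1 ∧ ∀ u, Desc S' t u → ¬ Act S' u.n u.v a := by
  obtain ⟨s1, e1, b1⟩ := exists_big hS hg hs 9 (6 * S.T.card + 1)
  by_cases hact : ∃ t, Desc S s1 t ∧ Act S t.n t.v a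
  swap
  · exact ⟨S, Sys.Le.refl S, hS, s1, e1, hg.desc hS e1, fun u hu H => hact ⟨u, hu, H⟩⟩
  obtain ⟨μ, ν, hE, s2, e2, x2⟩ := exists_extremal hS ha (Good.mono b1 (Nat.zero_le _))
    (hs.desc e1) hact
  obtain ⟨s3, e3, x3, hB⟩ := exists_full hS ha (by norm_num) (b1.desc hS e2)
    (hs.desc (e1.trans e2)) (hE.desc e2) x2 (3 * S.T.card + 1)
  have g3 : Good S s3.n s3.v (9 * 2 ^ s3.n + (6 * S.T.card + 1)) := b1.desc hS (e2.trans e3)
  have st3 : Stab S s3 := hs.desc (e1.trans (e2.trans e3))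
  have hdel := g3.h1.del_le
  obtain ⟨η, θ, hη, h0, hθ, surj⟩ := exists_theta_auxS ha g3.st x3 hB
  obtain ⟨σ, w0, q0⟩ := exists_qset hS ha g3 (by omega) (st3.tt g3.h1) (hE.desc (e2.trans e3)).loc
    x3 hη h0 hθ
  obtain ⟨w, η', r, κ, q, hq, hr, hb⟩ := exists_bset_auxS q0
  have gp : Good (S.plus a r κ q) (s3.n + 1) w 1 :=
    good_plus hq g3 (by omega) surj (by omega) hr hb
  have e4 : Desc S s1 (s3.child (s3.n + 1) w) := (e2.trans e3).step hq.mv
  have hle := hS.le_plus a r κ q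
  have hS' := hS.plus ha r κ q
  have rs : ∀ u, Desc (S.plus a r κ q) (s3.child (s3.n + 1) w) u →
      ∀ (f : LS s3.K →ₐ[K0] u.K) (P : u.K → LS s3.K → Prop),
      Inv S a r κ q (s3.n + 1) w η' f P u.n u.v →
      RSet S a r κ q (s3.n + 1) μ ν w η' f P u.n u.v := by
    intro u hu f P hi
    have e5 : Desc S s1 u := e4.trans (hu.restrict hS hle)
    have g5 : Good S u.n u.v 1 := hg.desc hS (e1.trans e5)
    exact ⟨hb, hq.dx', hi, (Good.desc (s := s3.child (s3.n + 1) w) hS' gp hu).st, g5.h1,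
      (hs.desc (e1.trans e5)).tt g5.h1, (hE.desc e5).loc⟩
  have key : ∀ u, Desc (S.plus a r κ q) (s3.child (s3.n + 1) w) u →
      ∃ (f : LS s3.K →ₐ[K0] u.K) (P : u.K → LS s3.K → Prop),
      Inv S a r κ q (s3.n + 1) w η' f P u.n u.v := by
    intro u hu
    induction hu with
    | refl => exact ⟨_, _, hb.inv⟩
    | step hu hm ih =>
      obtain ⟨f, P, hi⟩ := ih
      exact ⟨_, _, (rs _ hu f P hi).step hm⟩
  refine ⟨S.plus a r κ q, hle, hS', s3.child (s3.n + 1) w, e1.trans e4, gp, fun u hu => ?_⟩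
  obtain ⟨f, P, hi⟩ := key u hu
  exact (rs u hu f P hi).not_act

theorem le_T_auxS (S : Sys) {T' : Finset ℕ} (h : T' ⊆ S.T) : S.Le { S with T := T' } :=
  ⟨le_rfl, le_rfl, fun _ h _ => h, le_rfl, fun _ _ => rfl, le_rfl, fun _ hi _ => h hi⟩

theorem wf_T_auxS {S : Sys} (hS : S.WF) {T' : Finset ℕ} (h : T' ⊆ S.T) :
    Sys.WF { S with T := T' } :=
  ⟨hS.W_lt, hS.Sc_lt, h.trans hS.T_sub, hS.disj, hS.zero_mem, hS.one_mem, hS.F_in⟩

theorem stabilize {S : Sys} (hS : S.WF) {s : St} (hg : Good S s.n s.v 1) :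
    ∃ T' ⊆ S.T, ∃ t, Desc S s t ∧ Good { S with T := T' } t.n t.v 1 ∧
      Stab { S with T := T' } t := by
  classical
  have hex : ∃ k, ∃ t, Desc S s t ∧ del S t.n t.v = k := ⟨_, s, Desc.refl, rfl⟩
  obtain ⟨t, ht, hk⟩ := Nat.find_spec hex
  have g := hg.desc hS ht
  obtain ⟨T', hT, hc, h1⟩ := exists_subset (OO S t.n t.v) S.T
    (fun i => (LB S t.v).flip (Pi.single i 1)) g.h1
  refine ⟨T', hT, t, ht, ⟨⟨g.st.mem, g.st.sc, g.st.eq⟩, h1, g.h2, g.h4⟩, fun u hu => ?_⟩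
  have h2 : Nat.find hex ≤ del S u.n u.v :=
    Nat.find_min' hex ⟨u, ht.trans (hu.restrict hS (le_T_auxS S hT)), rfl⟩
  exact hc.trans (hk.le.trans h2)

theorem exists_poly_auxS {K : Type} [Field K] [Algebra K0 K] {n : ℕ} {x : A K} (hx : x ∈ D K n) :
    ∃ (r : ℕ) (κ : ℕ → K), x ^ r + ∑ l ∈ range r, κ l • x ^ l = 0 := by
  have hi : IsIntegral K x :=
    (IsIntegral.of_finite K (⟨x, hx⟩ : D K n)).map (D K n).val
  obtain ⟨p, hp, h0⟩ := hi
  refine ⟨p.natDegree, p.coeff, ?_⟩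
  rw [← Polynomial.aeval_def, Polynomial.aeval_eq_sum_range, sum_range_succ, hp.coeff_natDegree,
    one_smul, add_comm] at h0
  exact h0

theorem freeze {S : Sys} (hS : S.WF) {a : Ex} (ha : a.In (Set.Iio S.N)) {s : St}
    (hg : Good S s.n s.v 1) (hs : Stab S s) (hna : ∀ u, Desc S s u → ¬ Act S u.n u.v a) :
    ∃ S' : Sys, S.Le S' ∧ S'.WF ∧ ∃ t, Desc S s t ∧ Good S' t.n t.v 1 ∧ Stab S' t ∧
      ∃ (r : ℕ) (κ : ℕ → ℕ), (∀ l < r, κ l ∈ S'.Sc) ∧ ∀ u, Desc S' t u →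
        ev u.v a ^ r + ∑ l ∈ range r, u.v (κ l) * ev u.v a ^ l = 0 := by
  obtain ⟨r, κ, hp⟩ := exists_poly_auxS (ev_mem hg.st.mem ha)
  let S' : Sys := { S with N := S.N + r, Sc := S.Sc ∪ (range r).image (S.N + ·) }
  have hle : S.Le S' := ⟨Nat.le_add_right _ _, le_rfl, fun _ h _ => h, le_rfl, fun _ _ => rfl,
    subset_union_left, fun _ h _ => h⟩
  have hnew : ∀ l < r, S.N + l ∈ S'.Sc :=
    fun l hl => mem_union_right _ (mem_image_of_mem _ (mem_range.2 hl))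
  have hS' : S'.WF := by
    refine ⟨fun i hi => (hS.W_lt i hi).trans_le hle.N_le, fun i hi => ?_,
      hS.T_sub.trans subset_union_left, fun i hi => ?_, hS.zero_mem, hS.one_mem,
      fun j hj => (hS.F_in j hj).mono fun i hi => lt_of_lt_of_le hi hle.N_le⟩
    · rcases mem_union.1 hi with hi | hi
      · exact (hS.Sc_lt i hi).trans_le hle.N_le
      · obtain ⟨l, hl, rfl⟩ := mem_image.1 hi
        exact Nat.add_lt_add_left (mem_range.1 hl) _
    · rcases mem_union.1 hi with hi | hi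
      · exact hS.disj i hi
      · obtain ⟨l, -, rfl⟩ := mem_image.1 hi
        exact fun H => absurd (hS.W_lt _ H) (by omega)
  let w : ℕ → A (LS s.K) := fun i =>
    if i < S.N then map (io s.K) (s.v i) else map (io s.K) (κ (i - S.N) • 1)
  have hw : ∀ i < S.N, w i = map (io s.K) (s.v i) := fun i hi => if_pos hi
  have hw' : ∀ l, w (S.N + l) = map (io s.K) (κ l • 1) := fun l => by
    show (if _ then _ else _) = _
    rw [if_neg (by omega), Nat.add_sub_cancel_left]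
  have hev : ∀ b : Ex, b.In (Set.Iio S.N) → ev w b = map (io s.K) (ev s.v b) := fun b hb => by
    rw [ev_congr hw hb, ev_hom]
  have hm : Move S s.n s.v s.n 0 w := by
    refine ⟨⟨le_rfl, fun i hi => ?_, fun i hi => ?_, zero_mem _, fun i hi => ?_,
      fun i hi _ _ => hw i hi, BP.refl _ _ _ _ _⟩, fun j hj => ?_⟩
    · rw [hw i hi]; exact map_mem _ (hg.st.mem i hi)
    · rw [hw i (hS.Sc_lt i hi)]; exact map_mem _ (hg.st.sc i hi)
    · rw [hw i hi, sub_self]; exact Ld.zero 1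
    · rw [hev _ (hS.F_in j hj), hg.st.eq j hj, map_zero]
  have dt : Desc S s (s.child s.n w) := Desc.refl.step hm
  have g : Good S s.n w 1 := hg.desc hS dt
  have hsc : ∀ l m, w (S.N + l) ∈ D (LS s.K) m := fun l m => by
    rw [hw']; exact map_mem _ (Subalgebra.smul_mem _ (one_mem _) _)
  have g' : Good S' s.n w 1 := by
    refine ⟨⟨fun i _ => ?_, fun i hi => ?_, g.st.eq⟩, g.h1, g.h2, g.h4⟩
    · rcases lt_or_ge i S.N with hi | hi
      · exact g.st.mem i hi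
      · obtain ⟨l, rfl⟩ := Nat.exists_eq_add_of_le hi
        exact hsc l _
    · rcases mem_union.1 hi with hi | hi
      · exact g.st.sc i hi
      · obtain ⟨l, -, rfl⟩ := mem_image.1 hi
        exact hsc l _
  have key : ∀ u, Desc S' (s.child s.n w) u →
      ev u.v a ^ r + ∑ l ∈ range r, tr (u.v (S.N + l)) • ev u.v a ^ l = 0 := by
    intro u hu
    induction hu with
    | refl =>
      show ev w a ^ r + ∑ l ∈ range r, tr (w (S.N + l)) • ev w a ^ l = 0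
      have := congrArg (map (io s.K)) hp
      rw [map_add, map_sum, map_pow, map_zero, ← hev a ha] at this
      rw [← this]
      refine congrArg _ (sum_congr rfl fun l _ => ?_)
      rw [hw', tr_map, map_smul, tr_one, smul_eq_mul, mul_one, map_smul', map_pow, hev a ha]
    | @step t m σ w' ht hm' ih =>
      have d' : Desc S s (t.child m w') := dt.trans ((ht.step hm').restrict hS hle)
      have := (hm'.restrict hS hle).poly hS (hg.desc hS d').h1 (hs _ d') ha (hna _ d') ih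
      show ev w' a ^ r + ∑ l ∈ range r, tr (w' (S.N + l)) • ev w' a ^ l = 0
      rw [← this]
      refine congrArg _ (sum_congr rfl fun l hl => ?_)
      rw [hm'.cst (S.N + l) (Nat.add_lt_add_left (mem_range.1 hl) _)
        (fun H => absurd (hS.W_lt _ H) (by omega))
        (fun H => absurd (hS.Sc_lt _ (hS.T_sub H)) (by omega)), tr_map]
  refine ⟨S', hle, hS', s.child s.n w, dt, g', fun u hu => hs u (dt.trans (hu.restrict hS hle)),
    r, fun l => S.N + l, hnew, fun u hu => ?_⟩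
  rw [← key u hu]
  refine congrArg _ (sum_congr rfl fun l hl => ?_)
  have := (Good.desc (s := s.child s.n w) hS' g' hu).st.sc _ (hnew l (mem_range.1 hl))
  conv_lhs => rw [eq_smul_one this]
  rw [smul_mul_assoc, one_mul]

/-- The dimension of the algebra generated by the first two variables. -/
noncomputable def St.dim (s : St) : ℕ :=
  finrank s.K (Algebra.adjoin s.K ({s.v 0, s.v 1} : Set (A s.K)))

theorem Desc.dim_le {S : Sys} (hS : S.WF) {s t : St} (h : Desc S s t) : s.dim ≤ t.dim := by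
  induction h with
  | refl => exact le_rfl
  | step _ hm ih => exact ih.trans (hm.toPreMove.finrank_adjoin hS)

theorem stage {S : Sys} (hS : S.WF) (a : Ex) {s : St} (hg : Good S s.n s.v 1) (hs : Stab S s) :
    ∃ S' : Sys, S.Le S' ∧ S'.WF ∧ ∃ t, Desc S s t ∧ Good S' t.n t.v 1 ∧ Stab S' t ∧
      s.dim < t.dim ∧ (a.In (Set.Iio S.N) →
      ∃ (r : ℕ) (κ : ℕ → ℕ), (∀ l < r, κ l ∈ S'.Sc) ∧ ∀ u, Desc S' t u →
        ev u.v a ^ r + ∑ l ∈ range r, u.v (κ l) * ev u.v a ^ l = 0) := by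
  obtain ⟨t1, e1, b1⟩ := exists_big hS hg hs 0 2
  have g1 : Good S t1.n t1.v 2 := Good.mono b1 (by omega)
  obtain ⟨m, σ, w, hm, hlt⟩ := exists_bigger hS g1 ((hs.desc e1).tt g1.h1)
  have e2 : Desc S s (t1.child m w) := e1.step hm
  have hd : s.dim < (t1.child m w).dim := (e1.dim_le hS).trans_lt hlt
  by_cases ha : a.In (Set.Iio S.N)
  swap
  · exact ⟨S, Sys.Le.refl S, hS, _, e2, hg.desc hS e2, hs.desc e2, hd, fun H => absurd H ha⟩
  obtain ⟨S1, l1, w1, t3, e3, g3, hna⟩ := constrain hS ha (hg.desc hS e2) (hs.desc e2)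
  obtain ⟨T', hT, t4, e4, g4, s4⟩ := stabilize w1 g3
  have l2 := le_T_auxS S1 hT
  obtain ⟨S3, l3, w3, t5, e5, g5, s5, hp⟩ := freeze (a := a) (wf_T_auxS w1 hT)
    (ha.mono fun i hi => lt_of_lt_of_le hi l1.N_le) g4 s4
    (fun u hu => hna u (e4.trans (hu.restrict w1 l2)))
  have e6 : Desc S (t1.child m w) t5 :=
    e3.trans ((e4.restrict hS l1).trans (e5.restrict hS (l1.trans l2)))
  exact ⟨S3, (l1.trans l2).trans l3, w3, t5, e2.trans e6, g5, s5, hd.trans_le (e6.dim_le hS),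
    fun _ => hp⟩

theorem exists_init : ∃ (S : Sys) (s : St), S.WF ∧ Good S s.n s.v 1 ∧ Stab S s := by
  let S : Sys := ⟨2, {0, 1}, ∅, ∅, ∅, fun _ => .zero⟩
  have hS : S.WF := ⟨by decide, by simp [S], by simp [S], by simp [S], by simp [S], by simp [S],
    by simp [S]⟩
  have hO : ∀ c ∈ OO S 0 (fun _ => (0 : A K0)), c = 0 :=
    fun c hc => funext fun i => (hc.1 i).2 (notMem_empty i)
  have hdel : del S 0 (fun _ => (0 : A K0)) = 0 := by
    rw [del, (eq_bot_iff.2 hO : OO S 0 (fun _ => (0 : A K0)) = ⊥), finrank_bot]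
  have hV : XS K0 {0, 1} 0 ≤ (VV S 0 (fun _ => (0 : A K0))).map (msk {0, 1}) := by
    intro β hβ
    refine ⟨β, (mem_VV hS fun _ _ => zero_mem _).2 ⟨hβ, fun j hj => absurd hj (notMem_empty j)⟩,
      funext fun i => ?_⟩
    rw [msk_apply]
    split_ifs with hi
    · rfl
    · exact ((hβ i).2 hi).symm
  refine ⟨S, ⟨K0, 0, fun _ => 0⟩, hS, ⟨⟨fun _ _ => zero_mem _, fun _ _ => zero_mem _,
    fun j hj => absurd hj (notMem_empty j)⟩, fun c hc _ => hO c hc,
    fun c hc h0 => absurd (hO c hc) h0, ?_⟩, fun t _ => Nat.zero_le _⟩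
  have := Submodule.finrank_mono hV
  rw [finrank_XS] at this
  show 4 ^ 0 + 3 * del S 0 (fun _ => (0 : A K0)) + 1 ≤
    finrank K0 ((VV S 0 (fun _ => (0 : A K0))).map (msk {0, 1}))
  rw [hdel]
  simpa using this

theorem exists_tower_auxS (a : ℕ → Ex) : ∃ (S : ℕ → Sys) (s : ℕ → St), ∀ j,
    ((S j).WF ∧ Good (S j) (s j).n (s j).v 1) ∧ (S j).Le (S (j + 1)) ∧
      Desc (S j) (s j) (s (j + 1)) ∧ (s j).dim < (s (j + 1)).dim ∧
      ((a j).In (Set.Iio (S j).N) → ∃ (r : ℕ) (κ : ℕ → ℕ), (∀ l < r, κ l ∈ (S (j + 1)).Sc) ∧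
        ∀ u, Desc (S (j + 1)) (s (j + 1)) u →
        ev u.v (a j) ^ r + ∑ l ∈ range r, u.v (κ l) * ev u.v (a j) ^ l = 0) := by
  let X := {p : Sys × St // p.1.WF ∧ Good p.1 p.2.n p.2.v 1 ∧ Stab p.1 p.2}
  have h : ∀ (b : Ex) (x : X), ∃ y : X, x.1.1.Le y.1.1 ∧ Desc x.1.1 x.1.2 y.1.2 ∧
      x.1.2.dim < y.1.2.dim ∧ (b.In (Set.Iio x.1.1.N) →
      ∃ (r : ℕ) (κ : ℕ → ℕ), (∀ l < r, κ l ∈ y.1.1.Sc) ∧ ∀ u, Desc y.1.1 y.1.2 u →
        ev u.v b ^ r + ∑ l ∈ range r, u.v (κ l) * ev u.v b ^ l = 0) := by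
    intro b x
    obtain ⟨S', h1, h2, t, h3, h4, h5, h6, h7⟩ := stage x.2.1 b x.2.2.1 x.2.2.2
    exact ⟨⟨(S', t), h2, h4, h5⟩, h1, h3, h6, h7⟩
  choose nx hnx using h
  obtain ⟨S0, s0, h0⟩ := exists_init
  let q : ℕ → X := fun j => Nat.rec ⟨(S0, s0), h0⟩ (fun j x => nx (a j) x) j
  exact ⟨fun j => (q j).1.1, fun j => (q j).1.2,
    fun j => ⟨⟨(q j).2.1, (q j).2.2.1⟩, hnx (a j) (q j)⟩⟩

theorem main :
    ∃ (R : Type) (_ : DivisionRing R) (x y : R), CharZero R ∧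
      Algebra.IsAlgebraic (Subring.center R) R ∧
      Subfield.closure ((Subring.center R : Set R) ∪ {x, y}) = ⊤ ∧
      ¬ Module.Finite (Subring.center R) R ∧
      ∃ (k : Type) (_ : Field k) (_ : Algebra k R), Algebra.IsAlgebraic k R ∧
        Algebra.adjoin k {x, y} = ⊤ ∧ ¬ Module.Finite k R := by
  obtain ⟨en, hen⟩ := exists_surjective_nat Ex
  obtain ⟨S, s, h⟩ := exists_tower_auxS fun j => en (Nat.unpair j).1
  have ch : ∀ j k, j ≤ k → (S j).Le (S k) ∧ Desc (S j) (s j) (s k) := by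
    intro j k hjk
    induction k, hjk using Nat.le_induction with
    | base => exact ⟨Sys.Le.refl _, Desc.refl⟩
    | succ k _ ih =>
      exact ⟨ih.1.trans (h k).2.1, ih.2.trans ((h k).2.2.1.restrict (h j).1.1 ih.1)⟩
  have hdim : ∀ j, j ≤ (s j).dim := by
    intro j
    induction j with
    | zero => exact Nat.zero_le _
    | succ j ih => exact ih.trans_lt (h j).2.2.2.1
  refine assemble (fun j => (s j).K) (fun j => (s j).v) {i | ∃ j, i ∈ (S j).Sc} ?_ ?_ ?_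
  · rintro i ⟨j, hj⟩
    exact eventually_atTop.2 ⟨j, fun k hk => (h k).1.2.st.sc i ((ch j k hk).1.Sc_sub hj)⟩
  · intro a ha
    obtain ⟨T, hT, haT⟩ := Ex.exists_finset ha
    have h1 : ∀ i ∈ T, ∀ᶠ j in atTop, i < (S j).N := by
      intro i hi
      rcases hT hi with rfl | rfl | ⟨j, hj⟩
      · exact Eventually.of_forall fun j => (h j).1.1.W_lt _ (h j).1.1.zero_mem
      · exact Eventually.of_forall fun j => (h j).1.1.W_lt _ (h j).1.1.one_mem
      · exact eventually_atTop.2 ⟨j, fun k hk => (h k).1.1.Sc_lt i ((ch j k hk).1.Sc_sub hj)⟩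
    obtain ⟨j0, hj0⟩ := eventually_atTop.1 ((eventually_all_finset T).2 h1)
    obtain ⟨i, rfl⟩ := hen a
    have h2 := (h (Nat.pair i j0)).2.2.2.2
    simp only [Nat.unpair_pair] at h2
    obtain ⟨r, κ, hκ, hp⟩ := h2 (haT.mono fun x hx => hj0 _ (Nat.right_le_pair i j0) x hx)
    exact ⟨r, κ, fun l hl => ⟨_, hκ l hl⟩,
      eventually_atTop.2 ⟨Nat.pair i j0 + 1, fun k hk => hp _ (ch _ k hk).2⟩⟩
  · intro m
    exact eventually_atTop.2 ⟨m, fun k hk => hk.trans (hdim k)⟩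

end Vale.Agent.P199
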