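import Vale.Agent.P199.Place
import Vale.Agent.P199.LinAlg

/-! Subalgebras, centralizers and projections. -/

namespace Vale.Agent.P199

open Finset Module

set_option linter.unusedSectionVars false
set_option linter.unusedVariables false

noncomputable section

variable {K K' K'' : Type} [Field K] [Field K'] [Field K''] [Algebra K0 K] [Algebra K0 K']
  [Algebra K0 K''] [Dom K] [Dom K'] [Dom K'']

/-- Commutative subalgebras. -/
def Comm (M : Subalgebra K (A K)) : Prop := ∀ x ∈ M, ∀ y ∈ M, x * y = y * x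

theorem Comm.mono {M M' : Subalgebra K (A K)} (h : Comm M') (h' : M ≤ M') : Comm M :=
  fun x hx y hy => h x (h' hx) y (h' hy)

/-- The centralizer in level `n`. -/
def Cn (n : ℕ) (M : Subalgebra K (A K)) : Subalgebra K (A K) :=
  D K n ⊓ Subalgebra.centralizer K (M : Set (A K))

theorem mem_Cn {n : ℕ} {M : Subalgebra K (A K)} {x : A K} :
    x ∈ Cn n M ↔ x ∈ D K n ∧ ∀ y ∈ M, y * x = x * y := by
  simp [Cn, Subalgebra.mem_centralizer_iff]

theorem Cn_le (n : ℕ) (M : Subalgebra K (A K)) : Cn n M ≤ D K n := fun _ h => (mem_Cn.1 h).1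

theorem le_Cn {n : ℕ} {M : Subalgebra K (A K)} (hM : M ≤ D K n) (hc : Comm M) : M ≤ Cn n M :=
  fun x hx => mem_Cn.2 ⟨hM hx, fun y hy => hc y hy x hx⟩

theorem Cn_anti {n : ℕ} {M M' : Subalgebra K (A K)} (h : M ≤ M') : Cn n M' ≤ Cn n M :=
  fun _ hx => mem_Cn.2 ⟨(mem_Cn.1 hx).1, fun y hy => (mem_Cn.1 hx).2 y (h hy)⟩

/-- The subalgebra generated by one element. -/
def gen (a : A K) : Subalgebra K (A K) := Algebra.adjoin K {a}

/-- Adjoining an element to a subalgebra. -/
def adj (M : Subalgebra K (A K)) (y : A K) : Subalgebra K (A K) :=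
  Algebra.adjoin K (insert y (M : Set (A K)))

theorem mem_gen (a : A K) : a ∈ gen a := Algebra.subset_adjoin rfl

theorem gen_le {a : A K} {B : Subalgebra K (A K)} (h : a ∈ B) : gen a ≤ B :=
  Algebra.adjoin_le (Set.singleton_subset_iff.2 h)

theorem mem_adj (M : Subalgebra K (A K)) (y : A K) : y ∈ adj M y :=
  Algebra.subset_adjoin (Set.mem_insert _ _)

theorem le_adj (M : Subalgebra K (A K)) (y : A K) : M ≤ adj M y :=
  fun _ h => Algebra.subset_adjoin (Set.mem_insert_of_mem _ h)

theorem adj_le {M B : Subalgebra K (A K)} {y : A K} (h : M ≤ B) (hy : y ∈ B) : adj M y ≤ B :=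
  Algebra.adjoin_le (Set.insert_subset hy h)

theorem comm_adjoin {s : Set (A K)} {w : A K} (h : ∀ y ∈ s, y * w = w * y) :
    ∀ y ∈ Algebra.adjoin K s, y * w = w * y := by
  intro y hy
  have : Algebra.adjoin K s ≤ Subalgebra.centralizer K {w} :=
    Algebra.adjoin_le fun y hy => (Subalgebra.mem_centralizer_iff K).2 fun v hv => by
      rw [Set.mem_singleton_iff.1 hv, h y hy]
  exact ((Subalgebra.mem_centralizer_iff K).1 (this hy) w rfl).symm

theorem comm_gen (a : A K) : Comm (gen a) := by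
  intro x hx y hy
  refine comm_adjoin (fun v hv => ?_) x hx
  rw [Set.mem_singleton_iff.1 hv]
  exact (comm_adjoin (fun v hv => by rw [Set.mem_singleton_iff.1 hv]) y hy).symm

theorem Comm.adj {M : Subalgebra K (A K)} (hc : Comm M) {y : A K} (hy : ∀ x ∈ M, x * y = y * x) :
    Comm (adj M y) := by
  intro x hx z hz
  refine comm_adjoin (fun v hv => ?_) x hx
  refine (comm_adjoin (fun u hu => ?_) z hz).symm
  rcases hv with rfl | hv <;> rcases hu with rfl | hu
  · rfl
  · exact hy u hu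
  · exact (hy v hv).symm
  · exact hc u hu v hv

theorem mem_Cn_gen {n : ℕ} {a x : A K} : x ∈ Cn n (gen a) ↔ x ∈ D K n ∧ a * x = x * a := by
  rw [mem_Cn]
  refine and_congr_right fun _ => ⟨fun h => h a (mem_gen a), fun h => ?_⟩
  exact comm_adjoin fun v hv => by rw [Set.mem_singleton_iff.1 hv, h]

theorem mem_Cn_adj {n : ℕ} {M : Subalgebra K (A K)} {y x : A K} :
    x ∈ Cn n (adj M y) ↔ x ∈ Cn n M ∧ y * x = x * y := by
  rw [mem_Cn, mem_Cn, and_assoc]
  refine and_congr_right fun _ =>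
    ⟨fun h => ⟨fun v hv => h v (le_adj M y hv), h y (mem_adj M y)⟩, fun h => ?_⟩
  refine comm_adjoin fun v hv => ?_
  rcases hv with rfl | hv
  · exact h.2
  · exact h.1 v hv

theorem nondeg {n : ℕ} {B : Subalgebra K (A K)} (hB : B ≤ D K n) {x : A K} (hx : x ∈ B)
    (h : ∀ y ∈ B, tr (y * x) = 0) : x = 0 := by
  by_contra h0
  have := h _ (inv_mem_of_le hB hx)
  rw [inv_mul_cancel₀ h0, tr_one] at this
  exact one_ne_zero this

theorem finite_sub {n : ℕ} {B : Subalgebra K (A K)} (hB : B ≤ D K n) : Module.Finite K B :=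
  finite_of_le (U := B.toSubmodule) hB

theorem finrank_mono {n : ℕ} {B B' : Subalgebra K (A K)} (hB : B' ≤ D K n) (h : B ≤ B') :
    finrank K B ≤ finrank K B' := by
  have : Module.Finite K B'.toSubmodule := finite_sub hB
  exact Submodule.finrank_mono (s := B.toSubmodule) (t := B'.toSubmodule) h

theorem eq_of_finrank_le {n : ℕ} {B B' : Subalgebra K (A K)} (hB : B' ≤ D K n) (h : B ≤ B')
    (h' : finrank K B' ≤ finrank K B) : B = B' := by
  have : Module.Finite K B'.toSubmodule := finite_sub hB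
  exact Subalgebra.toSubmodule_injective
    (Submodule.eq_of_le_of_finrank_le (S₁ := B.toSubmodule) (S₂ := B'.toSubmodule) h h')

theorem finrank_pos' {n : ℕ} {B : Subalgebra K (A K)} (hB : B ≤ D K n) : 0 < finrank K B := by
  have := finite_sub hB
  exact Module.finrank_pos

theorem dbl {n : ℕ} {B B' : Subalgebra K (A K)} (hB : B' ≤ D K n) (h : B ≤ B') {y : A K}
    (hy : y ∈ B') (hy' : y ∉ B) : 2 * finrank K B ≤ finrank K B' := by
  have := finite_sub hB
  have := finite_sub (h.trans hB)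
  let f : (B × B) →ₗ[K] B' :=
    { toFun := fun u => ⟨u.1 + u.2 * y, add_mem (h u.1.2) (mul_mem (h u.2.2) hy)⟩
      map_add' := fun u v => Subtype.ext (by
        simp only [Prod.fst_add, Prod.snd_add, Subalgebra.coe_add, add_mul]; abel)
      map_smul' := fun r u => Subtype.ext (by
        simp only [Prod.smul_fst, Prod.smul_snd, Subalgebra.coe_smul, RingHom.id_apply, smul_add,
          smul_mul_assoc]) }
  have hf : Function.Injective f := by
    rw [injective_iff_map_eq_zero]
    rintro ⟨u, v⟩ huv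
    have e1 : (u : A K) + v * y = 0 := congrArg Subtype.val huv
    have hv : (v : A K) = 0 := by
      by_contra hv
      apply hy'
      have : y = -((v : A K)⁻¹ * u) := by
        rw [eq_neg_of_add_eq_zero_left e1, mul_neg, neg_neg, ← mul_assoc, inv_mul_cancel₀ hv,
          one_mul]
      rw [this]
      exact neg_mem (mul_mem (inv_mem_of_finite v.2) u.2)
    rw [hv, zero_mul, add_zero] at e1
    exact Prod.ext (Subtype.ext e1) (Subtype.ext hv)
  have := LinearMap.finrank_le_finrank_of_injective hf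
  rw [Module.finrank_prod] at this
  omega

/-- Dual bases for the trace form. -/
structure IsDual (M : Subalgebra K (A K)) {r : ℕ} (b b' : Fin r → A K) : Prop where
  mem : ∀ i, b i ∈ M
  mem' : ∀ i, b' i ∈ M
  dual : ∀ i j, tr (b' i * b j) = if i = j then 1 else 0
  span : ∀ x ∈ M, x = ∑ i, tr (b' i * x) • b i

theorem exists_dual {n : ℕ} {B : Subalgebra K (A K)} (hB : B ≤ D K n) :
    ∃ b b' : Fin (finrank K B) → A K, IsDual B b b' := by
  have := finite_sub hB
  let β : LinearMap.BilinForm K B :=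
    ((LinearMap.mul K (A K)).compr₂ tr).compl₁₂ B.val.toLinearMap B.val.toLinearMap
  have hβ : ∀ x y : B, β x y = tr ((x : A K) * (y : A K)) := fun _ _ => rfl
  have hn : β.Nondegenerate :=
    ⟨fun x hx => Subtype.ext (nondeg hB x.2 fun y hy => by rw [tr_comm]; exact hx ⟨y, hy⟩),
      fun x hx => Subtype.ext (nondeg hB x.2 fun y hy => hx ⟨y, hy⟩)⟩
  let v := Module.finBasis K B
  have hd : ∀ i j, tr ((β.dualBasis hn v i : A K) * (v j : A K)) = if i = j then 1 else 0 := by
    intro i j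
    rw [← hβ, LinearMap.BilinForm.apply_dualBasis_left]
    simp only [eq_comm]
  refine ⟨fun i => v i, fun i => β.dualBasis hn v i, fun i => (v i).2,
    fun i => (β.dualBasis hn v i).2, hd, fun x hx => ?_⟩
  have e1 : x = ∑ i, v.repr ⟨x, hx⟩ i • (v i : A K) := by
    have := congrArg B.val (v.sum_repr ⟨x, hx⟩)
    simp only [map_sum, map_smul, Subalgebra.coe_val] at this
    exact this.symm
  refine e1.trans (Finset.sum_congr rfl fun i _ => ?_)
  congr 1
  conv_rhs => rw [e1]
  simp only [Finset.mul_sum, mul_smul_comm, map_sum, map_smul, hd, smul_eq_mul, mul_ite, mul_one,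
    mul_zero, Finset.sum_ite_eq, Finset.mem_univ, if_true]

theorem IsDual.span_aux {M : Subalgebra K (A K)} {r : ℕ} {b b' : Fin r → A K}
    (h : IsDual M b b') : M.toSubmodule = Submodule.span K (Set.range b) := by
  refine le_antisymm (fun x hx => ?_) (Submodule.span_le.2 ?_)
  · rw [h.span x hx]
    exact Submodule.sum_mem _ fun i _ =>
      Submodule.smul_mem _ _ (Submodule.subset_span ⟨i, rfl⟩)
  · rintro _ ⟨i, rfl⟩; exact h.mem i

theorem IsDual.finrank_eq {M : Subalgebra K (A K)} {r : ℕ} {b b' : Fin r → A K}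
    (h : IsDual M b b') : finrank K M = r := by
  have hi : LinearIndependent K b := by
    rw [Fintype.linearIndependent_iff]
    intro v hv i
    have := congrArg (fun x => tr (b' i * x)) hv
    simpa only [Finset.mul_sum, mul_smul_comm, map_sum, map_smul, h.dual, smul_eq_mul, mul_ite,
      mul_one, mul_zero, Finset.sum_ite_eq, Finset.mem_univ, if_true, map_zero] using this
  have := finrank_span_eq_card hi
  rw [← h.span_aux, Fintype.card_fin] at this
  exact this

theorem IsDual.span' {M : Subalgebra K (A K)} {r : ℕ} {b b' : Fin r → A K}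
    (h : IsDual M b b') {x : A K} (hx : x ∈ M) : x = ∑ i, tr (x * b i) • b' i := by
  have : Module.Finite K M := by
    have : Module.Finite K M.toSubmodule := by
      rw [h.span_aux]; exact Module.Finite.span_of_finite K (Set.finite_range _)
    exact this
  have hy : x - ∑ i, tr (x * b i) • b' i ∈ M :=
    sub_mem hx (Subalgebra.sum_mem _ fun i _ => M.smul_mem (h.mem' i) _)
  by_contra h0
  have h1 := sub_ne_zero.2 h0
  have e1 : ∀ j, tr ((x - ∑ i, tr (x * b i) • b' i) * b j) = 0 := fun j => by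
    simp only [sub_mul, Finset.sum_mul, smul_mul_assoc, map_sub, map_sum, map_smul, h.dual,
      smul_eq_mul, mul_ite, mul_one, mul_zero, Finset.sum_ite_eq', Finset.mem_univ, if_true,
      sub_self]
  generalize x - ∑ i, tr (x * b i) • b' i = y at hy h1 e1
  have e2 := congrArg (fun w => tr (y * w)) (h.span _ (inv_mem_of_finite hy))
  simp only [mul_inv_cancel₀ h1, tr_one, Finset.mul_sum, mul_smul_comm, map_sum, map_smul, e1,
    smul_zero, Finset.sum_const_zero] at e2
  exact one_ne_zero e2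

open Classical in
/-- The orthogonal projection onto `B`. -/
def pr (B : Subalgebra K (A K)) : A K →ₗ[K] A K :=
  if h : ∃ b b' : Fin (finrank K B) → A K, IsDual B b b' then
    ∑ i, (tr ∘ₗ LinearMap.mulLeft K (h.choose_spec.choose i)).smulRight (h.choose i)
  else 0

section pr

variable {n : ℕ} {B : Subalgebra K (A K)}

theorem pr_def_aux (hB : B ≤ D K n) : ∃ b b' : Fin (finrank K B) → A K, IsDual B b b' ∧
    ∀ z, pr B z = ∑ i, tr (b' i * z) • b i := by
  have h := exists_dual hB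
  refine ⟨h.choose, h.choose_spec.choose, h.choose_spec.choose_spec, fun z => ?_⟩
  unfold pr
  rw [dif_pos h]
  simp only [LinearMap.sum_apply, LinearMap.smulRight_apply, LinearMap.comp_apply,
    LinearMap.mulLeft_apply]

theorem IsDual.tr_mul_aux {r : ℕ} {b b' : Fin r → A K} (h : IsDual B b b') {y : A K} (hy : y ∈ B)
    (z : A K) : tr (y * ∑ i, tr (b' i * z) • b i) = tr (y * z) := by
  conv_rhs => rw [h.span' hy]
  simp only [Finset.mul_sum, Finset.sum_mul, mul_smul_comm, smul_mul_assoc, map_sum, map_smul,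
    smul_eq_mul]
  exact Finset.sum_congr rfl fun i _ => mul_comm _ _

theorem pr_mem (B : Subalgebra K (A K)) (z : A K) : pr B z ∈ B := by
  unfold pr
  split_ifs with h
  · simp only [LinearMap.sum_apply, LinearMap.smulRight_apply]
    exact Subalgebra.sum_mem _ fun i _ => B.smul_mem (h.choose_spec.choose_spec.mem i) _
  · exact zero_mem _

theorem tr_mul_pr (hB : B ≤ D K n) {y : A K} (hy : y ∈ B) (z : A K) :
    tr (y * pr B z) = tr (y * z) := by
  obtain ⟨b, b', h, e1⟩ := pr_def_aux hB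
  rw [e1, h.tr_mul_aux hy]

theorem pr_unique (hB : B ≤ D K n) {y z : A K} (hy : y ∈ B)
    (h : ∀ w ∈ B, tr (w * z) = tr (w * y)) : pr B z = y := by
  refine sub_eq_zero.1 (nondeg hB (sub_mem (pr_mem B z) hy) fun w hw => ?_)
  rw [mul_sub, map_sub, tr_mul_pr hB hw, h w hw, sub_self]

theorem pr_self (hB : B ≤ D K n) {y : A K} (hy : y ∈ B) : pr B y = y :=
  pr_unique hB hy fun _ _ => rfl

theorem pr_mul_left (hB : B ≤ D K n) {y : A K} (hy : y ∈ B) (z : A K) :
    pr B (y * z) = y * pr B z := by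
  refine pr_unique hB (mul_mem hy (pr_mem B z)) fun w hw => ?_
  rw [← mul_assoc, ← mul_assoc, tr_mul_pr hB (mul_mem hw hy)]

theorem pr_mul_right (hB : B ≤ D K n) {y : A K} (hy : y ∈ B) (z : A K) :
    pr B (z * y) = pr B z * y := by
  refine pr_unique hB (mul_mem (pr_mem B z) hy) fun w hw => ?_
  rw [← mul_assoc, ← mul_assoc, tr_comm, tr_comm _ y, ← mul_assoc, ← mul_assoc,
    tr_mul_pr hB (mul_mem hy hw)]

theorem IsDual.pr_eq (hB : B ≤ D K n) {r : ℕ} {b b' : Fin r → A K} (h : IsDual B b b') (z : A K) :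
    pr B z = ∑ i, tr (b' i * z) • b i := by
  refine pr_unique hB (Subalgebra.sum_mem _ fun i _ => B.smul_mem (h.mem i) _) fun w hw => ?_
  rw [h.tr_mul_aux hw]

end pr

open Classical in
/-- The projection onto the centralizer of a commutative subalgebra. -/
def Pc (M : Subalgebra K (A K)) : A K →ₗ[K] A K :=
  if h : ∃ b b' : Fin (finrank K M) → A K, IsDual M b b' then
    (finrank K M : K)⁻¹ • ∑ i, LinearMap.mulLeft K (h.choose i) ∘ₗ
      LinearMap.mulRight K (h.choose_spec.choose i)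
  else 0

section Pc

variable {n : ℕ} {M : Subalgebra K (A K)}

theorem frame_aux {X ι κ : Type*} [AddCommGroup X] [Module K X] (s : Finset ι) (t : Finset κ)
    (b : ι → X) (φ : ι → X →ₗ[K] K) (v : κ → X) (ψ : κ → X →ₗ[K] K) (T : X →ₗ[K] X)
    (h1 : ∀ j ∈ t, v j = ∑ i ∈ s, φ i (v j) • b i)
    (h2 : ∀ i ∈ s, T (b i) = ∑ j ∈ t, ψ j (T (b i)) • v j) :
    ∑ i ∈ s, φ i (T (b i)) = ∑ j ∈ t, ψ j (T (v j)) := by
  rw [Finset.sum_congr rfl fun i hi => congrArg (φ i) (h2 i hi),
    Finset.sum_congr rfl fun j hj => congrArg (fun x => ψ j (T x)) (h1 j hj)]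
  simp only [map_sum, map_smul, smul_eq_mul]
  rw [Finset.sum_comm]
  exact Finset.sum_congr rfl fun j _ => Finset.sum_congr rfl fun i _ => mul_comm _ _

theorem exists_frame_aux (hM : M ≤ D K n) :
    ∃ (k : ℕ) (u : Fin k → A K) (ψ : Fin k → A K →ₗ[K] A K), (∀ j, u j ∈ D K n) ∧
      (∀ j x, ψ j x ∈ M) ∧ (∀ j, ∀ a ∈ M, ψ j (a * u j) = a) ∧
      ∀ x ∈ D K n, x = ∑ j, ψ j x * u j := by
  let _ : DivisionRing M := DivisionRing.ofIsUnitOrEqZero fun x => by
    by_cases h : x = 0
    · exact Or.inr h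
    · have h' : (x : A K) ≠ 0 := fun H => h (Subtype.ext H)
      exact Or.inl ⟨⟨x, ⟨(x : A K)⁻¹, inv_mem_of_le hM x.2⟩, Subtype.ext (mul_inv_cancel₀ h'),
        Subtype.ext (inv_mul_cancel₀ h')⟩, rfl⟩
  let V : Submodule M (A K) :=
    { carrier := D K n
      add_mem' := fun hx hy => add_mem hx hy
      zero_mem' := zero_mem (D K n)
      smul_mem' := fun a x hx => mul_mem (hM a.2) hx }
  have hV : ∀ x, x ∈ V ↔ x ∈ D K n := fun _ => Iff.rfl
  have : Module.Finite M V := by
    have e1 : V = Submodule.span M (Set.range fun g : GS 0 n => (e g : A K)) := by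
      refine le_antisymm (fun x hx => ?_) (Submodule.span_le.2 ?_)
      · refine DS.induction (p := fun x => x ∈ Submodule.span M _) ((hV x).1 hx) (zero_mem _)
          (fun _ _ => add_mem) fun r g hg => ?_
        have : (r • e g : A K) = (algebraMap K M r) • (e g : A K) := (algebraMap_smul M r _).symm
        rw [this]
        exact Submodule.smul_mem _ _ (Submodule.subset_span ⟨⟨g, hg⟩, rfl⟩)
      · rintro _ ⟨g, rfl⟩; exact e_mem g.2
    rw [e1]; exact Module.Finite.span_of_finite M (Set.finite_range _)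
  let v := Module.finBasis M V
  choose f hf using fun j => LinearMap.exists_extend (v.coord j)
  have hf' : ∀ j (x : V), f j x = v.repr x j := fun j x => LinearMap.congr_fun (hf j) x
  refine ⟨_, fun j => v j, fun j => M.val.toLinearMap ∘ₗ (f j).restrictScalars K,
    fun j => (v j).2, fun j x => (f j x).2, fun j a ha => ?_, fun x hx => ?_⟩
  · have := hf' j ((⟨a, ha⟩ : M) • v j)
    rw [map_smul, v.repr_self, Finsupp.smul_apply, Finsupp.single_eq_same, smul_eq_mul,
      mul_one] at this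
    exact congrArg Subtype.val this
  · have := congrArg V.subtype (v.sum_repr ⟨x, hx⟩)
    rw [map_sum] at this
    refine this.symm.trans (Finset.sum_congr rfl fun j _ => ?_)
    rw [← hf' j]; rfl

theorem IsDual.trace_aux (hM : M ≤ D K n) {r : ℕ} {b b' : Fin r → A K} (h : IsDual M b b')
    {a : A K} (ha : a ∈ M) : (r : K) * tr a = ∑ i, tr (b' i * (a * b i)) := by
  have := charZero K
  obtain ⟨k, u, ψ, hu, hψ, h1, h2⟩ := exists_frame_aux hM
  have key : ∀ a ∈ M, (4 : K) ^ n * tr a = k * ∑ i, tr (b' i * (a * b i)) := by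
    intro a ha
    have := frame_aux (GS 0 n) (Finset.univ : Finset (Fin k × Fin r)) (fun g => (e g : A K))
      (fun g => co g) (fun p => b p.2 * u p.1)
      (fun p => tr ∘ₗ LinearMap.mulLeft K (b' p.2) ∘ₗ ψ p.1) (LinearMap.mulLeft K a)
      (fun p _ => sum_co _ (mul_mem (hM (h.mem _)) (hu _))) (fun g hg => by
        simp only [LinearMap.comp_apply, LinearMap.mulLeft_apply, Fintype.sum_prod_type,
          ← smul_mul_assoc, ← Finset.sum_mul, ← h.span _ (hψ _ _)]
        exact h2 _ (mul_mem (hM ha) (e_mem hg)))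
    simp only [LinearMap.comp_apply, LinearMap.mulLeft_apply, Fintype.sum_prod_type,
      ← mul_assoc a, h1 _ _ (mul_mem ha (h.mem _)), Finset.sum_const, Finset.card_univ,
      Fintype.card_fin, nsmul_eq_mul, ← tr_ei_mul] at this
    rw [← this, ← map_sum]
    simp only [← mul_assoc]
    rw [avg' (hM ha), map_smul, tr_one, smul_eq_mul, mul_one]
  have k1 := key 1 (one_mem _)
  simp only [one_mul, h.dual, if_true, Finset.sum_const, Finset.card_univ, Fintype.card_fin,
    nsmul_eq_mul, mul_one, tr_one] at k1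
  have hk : (k : K) ≠ 0 := fun H => by
    rw [H, zero_mul] at k1
    exact pow_ne_zero n (by norm_num) k1
  refine mul_left_cancel₀ hk ?_
  rw [← key a ha, k1, mul_assoc]

theorem IsDual.indep_aux {r r' : ℕ} {b b' : Fin r → A K} {v v' : Fin r' → A K}
    (h : IsDual M b b') (h' : IsDual M v v') (z : A K) :
    ∑ i, b i * z * b' i = ∑ j, v j * z * v' j := by
  rw [Finset.sum_congr rfl fun i _ => congrArg (fun x => x * z * b' i) (h'.span _ (h.mem i)),
    Finset.sum_congr rfl fun j _ => congrArg (fun x => v j * z * x) (h.span' (h'.mem' j))]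
  simp only [Finset.sum_mul, Finset.mul_sum, smul_mul_assoc, mul_smul_comm]
  exact Finset.sum_comm

theorem IsDual.comm_aux {r : ℕ} {b b' : Fin r → A K} (h : IsDual M b b') {y : A K} (hy : y ∈ M)
    (z : A K) : ∑ i, y * b i * z * b' i = ∑ i, b i * z * (b' i * y) := by
  rw [Finset.sum_congr rfl fun i _ =>
      congrArg (fun x => x * z * b' i) (h.span _ (mul_mem hy (h.mem i))),
    Finset.sum_congr rfl fun j _ =>
      congrArg (fun x => b j * z * x) (h.span' (mul_mem (h.mem' j) hy))]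
  simp only [Finset.sum_mul, Finset.mul_sum, smul_mul_assoc, mul_smul_comm, mul_assoc]
  exact Finset.sum_comm

theorem Pc_def_aux (M : Subalgebra K (A K)) : (∀ z, Pc M z = 0) ∨
    ∃ b b' : Fin (finrank K M) → A K, IsDual M b b' ∧
      ∀ z, Pc M z = (finrank K M : K)⁻¹ • ∑ i, b i * z * b' i := by
  by_cases h : ∃ b b' : Fin (finrank K M) → A K, IsDual M b b'
  · refine Or.inr ⟨h.choose, h.choose_spec.choose, h.choose_spec.choose_spec, fun z => ?_⟩
    unfold Pc
    rw [dif_pos h]
    simp only [LinearMap.smul_apply, LinearMap.sum_apply, LinearMap.comp_apply,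
      LinearMap.mulLeft_apply, LinearMap.mulRight_apply, mul_assoc]
  · refine Or.inl fun z => ?_
    unfold Pc
    rw [dif_neg h, LinearMap.zero_apply]

theorem IsDual.casimir (hM : M ≤ D K n) (hc : Comm M) {r : ℕ} {b b' : Fin r → A K}
    (h : IsDual M b b') : ∑ i, b i * b' i = (r : K) • 1 := by
  refine sub_eq_zero.1 (nondeg hM (sub_mem (Subalgebra.sum_mem _ fun i _ =>
    mul_mem (h.mem i) (h.mem' i)) (M.smul_mem (one_mem _) _)) fun y hy => ?_)
  rw [mul_sub, map_sub, mul_smul_comm, mul_one, map_smul, smul_eq_mul, h.trace_aux hM hy,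
    Finset.mul_sum, map_sum, sub_eq_zero]
  refine Finset.sum_congr rfl fun i _ => ?_
  rw [← mul_assoc, tr_comm]

theorem IsDual.Pc_eq (hM : M ≤ D K n) (hc : Comm M) {r : ℕ} {b b' : Fin r → A K}
    (h : IsDual M b b') (z : A K) : Pc M z = (r : K)⁻¹ • ∑ i, b i * z * b' i := by
  have h0 := exists_dual hM
  unfold Pc
  rw [dif_pos h0, ← h0.choose_spec.choose_spec.indep_aux h z, h.finrank_eq.symm]
  simp only [LinearMap.smul_apply, LinearMap.sum_apply, LinearMap.comp_apply,
    LinearMap.mulLeft_apply, LinearMap.mulRight_apply, mul_assoc]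

theorem Pc_comm (hM : M ≤ D K n) (hc : Comm M) (z : A K) {y : A K} (hy : y ∈ M) :
    y * Pc M z = Pc M z * y := by
  obtain ⟨b, b', h⟩ := exists_dual hM
  rw [h.Pc_eq hM hc, mul_smul_comm, smul_mul_assoc, Finset.mul_sum, Finset.sum_mul]
  have := h.comm_aux hy z
  simp only [mul_assoc] at this ⊢
  rw [this]

theorem Pc_mem_sub {B : Subalgebra K (A K)} (hM : M ≤ B) {z : A K} (hz : z ∈ B) : Pc M z ∈ B := by
  rcases Pc_def_aux M with h | ⟨b, b', h, e1⟩
  · rw [h]; exact zero_mem _
  · rw [e1]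
    exact B.smul_mem (Subalgebra.sum_mem _ fun i _ =>
      mul_mem (mul_mem (hM (h.mem i)) hz) (hM (h.mem' i))) _

theorem Pc_mem (hM : M ≤ D K n) (hc : Comm M) {z : A K} (hz : z ∈ D K n) : Pc M z ∈ Cn n M :=
  mem_Cn.2 ⟨Pc_mem_sub hM hz, fun _ hy => Pc_comm hM hc z hy⟩

theorem Pc_mul_left {y : A K} (hy : ∀ x ∈ M, x * y = y * x) (z : A K) :
    Pc M (y * z) = y * Pc M z := by
  rcases Pc_def_aux M with h | ⟨b, b', h, e1⟩
  · rw [h, h, mul_zero]
  · rw [e1, e1, mul_smul_comm, Finset.mul_sum]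
    congr 1
    refine Finset.sum_congr rfl fun i _ => ?_
    rw [← mul_assoc, hy _ (h.mem i)]
    simp only [mul_assoc]

theorem Pc_mul_right {y : A K} (hy : ∀ x ∈ M, x * y = y * x) (z : A K) :
    Pc M (z * y) = Pc M z * y := by
  rcases Pc_def_aux M with h | ⟨b, b', h, e1⟩
  · rw [h, h, zero_mul]
  · rw [e1, e1, smul_mul_assoc, Finset.sum_mul]
    congr 1
    refine Finset.sum_congr rfl fun i _ => ?_
    simp only [mul_assoc]
    rw [hy _ (h.mem' i)]

theorem finrank_ne_aux (hM : M ≤ D K n) : (finrank K M : K) ≠ 0 := by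
  have := charZero K
  exact Nat.cast_ne_zero.2 (finrank_pos' hM).ne'

theorem Pc_one_aux (hM : M ≤ D K n) (hc : Comm M) : Pc M 1 = 1 := by
  obtain ⟨b, b', h⟩ := exists_dual hM
  rw [h.Pc_eq hM hc]
  simp only [mul_one]
  rw [h.casimir hM hc, smul_smul, inv_mul_cancel₀ (finrank_ne_aux hM), one_smul]

theorem Pc_self (hM : M ≤ D K n) (hc : Comm M) {y : A K} (hy : ∀ x ∈ M, x * y = y * x) :
    Pc M y = y := by
  have := Pc_mul_left hy 1
  rwa [mul_one, Pc_one_aux hM hc, mul_one] at this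

theorem tr_Pc (hM : M ≤ D K n) (hc : Comm M) (z : A K) : tr (Pc M z) = tr z := by
  obtain ⟨b, b', h⟩ := exists_dual hM
  have e1 : ∀ i, tr (b i * z * b' i) = tr (b i * b' i * z) := fun i => by
    rw [tr_comm, ← mul_assoc, hc _ (h.mem' i) _ (h.mem i)]
  rw [h.Pc_eq hM hc, map_smul, map_sum]
  simp only [e1]
  rw [← map_sum, ← Finset.sum_mul, h.casimir hM hc, smul_mul_assoc, one_mul, map_smul, smul_smul,
    inv_mul_cancel₀ (finrank_ne_aux hM), one_smul]

theorem tr_mul_Pc (hM : M ≤ D K n) (hc : Comm M) {y : A K} (hy : ∀ x ∈ M, x * y = y * x)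
    (z : A K) : tr (y * Pc M z) = tr (y * z) := by
  rw [← Pc_mul_left hy, tr_Pc hM hc]

theorem Pc_unique (hM : M ≤ D K n) (hc : Comm M) {y z : A K} (hy : y ∈ Cn n M) (hz : z ∈ D K n)
    (h : ∀ w ∈ Cn n M, tr (w * z) = tr (w * y)) : Pc M z = y := by
  refine sub_eq_zero.1 (nondeg (Cn_le n M) (sub_mem (Pc_mem hM hc hz) hy) fun w hw => ?_)
  rw [mul_sub, map_sub, tr_mul_Pc hM hc (mem_Cn.1 hw).2, h w hw, sub_self]

theorem Pc_bracket (hM : M ≤ D K n) (hc : Comm M) {y : A K} (hy : y ∈ M) (z : A K) :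
    Pc M (y * z - z * y) = 0 := by
  rw [map_sub, Pc_mul_left fun x hx => hc x hx y hy, Pc_mul_right fun x hx => hc x hx y hy,
    Pc_comm hM hc z hy, sub_self]

theorem finrank_Cn (hM : M ≤ D K n) (hc : Comm M) :
    finrank K (Cn n M) * finrank K M = 4 ^ n := by
  have := charZero K
  obtain ⟨b, b', h⟩ := exists_dual hM
  obtain ⟨v, v', h'⟩ := exists_dual (Cn_le n M)
  have e1 : ∑ g ∈ GS 0 n, tr (ei g * Pc M (e g)) = (finrank K M : K)⁻¹ * 4 ^ n := by
    simp only [h.Pc_eq hM hc, mul_smul_comm, map_smul, smul_eq_mul,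
      ← Finset.mul_sum (GS 0 n)]
    congr 1
    simp only [Finset.mul_sum, map_sum]
    rw [Finset.sum_comm]
    have : ∀ i, ∑ g ∈ GS 0 n, tr (ei g * (b i * e g * b' i)) =
        4 ^ n * tr (tr (b' i * 1) • b i) := fun i => by
      simp only [← mul_assoc]
      rw [← map_sum, ← Finset.sum_mul, avg' (hM (h.mem i))]
      simp only [smul_mul_assoc, one_mul, mul_one, map_smul, smul_eq_mul]
      ring
    simp only [this]
    rw [← Finset.mul_sum, ← map_sum, ← h.span 1 (one_mem _), tr_one, mul_one]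
  have e2 : ∑ g ∈ GS 0 n, tr (ei g * Pc M (e g)) = (finrank K (Cn n M) : K) := by
    have : ∀ g ∈ GS 0 n, tr (ei g * Pc M (e g)) = ∑ j, tr (v' j * (co g (v j) • e g)) := by
      intro g hg
      rw [← pr_unique (Cn_le n M) (Pc_mem hM hc (e_mem hg)) fun w hw =>
        (tr_mul_Pc hM hc (mem_Cn.1 hw).2 _).symm, h'.pr_eq (Cn_le n M), tr_ei_mul]
      simp only [map_sum, map_smul, mul_smul_comm, smul_eq_mul]
      exact Finset.sum_congr rfl fun j _ => mul_comm _ _
    rw [Finset.sum_congr rfl this, Finset.sum_comm]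
    have : ∀ j, ∑ g ∈ GS 0 n, tr (v' j * (co g (v j) • e g)) = 1 := fun j => by
      rw [← map_sum, ← Finset.mul_sum, ← sum_co (v j) (Cn_le n M (h'.mem j)), h'.dual, if_pos rfl]
    simp only [this, Finset.sum_const, Finset.card_univ, Fintype.card_fin, nsmul_eq_mul, mul_one]
  have e3 : ((finrank K (Cn n M) * finrank K M : ℕ) : K) = ((4 ^ n : ℕ) : K) := by
    push_cast
    rw [← e2, e1, mul_comm, ← mul_assoc, mul_inv_cancel₀ (finrank_ne_aux hM), one_mul]
  exact Nat.cast_injective e3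

theorem finrank_dvd (hM : M ≤ D K n) (hc : Comm M) : finrank K M ∣ 2 ^ n := by
  have e1 := finrank_Cn hM hc
  have e2 := finrank_mono (Cn_le n M) (le_Cn hM hc)
  have e3 : (4 : ℕ) ^ n = 2 ^ (2 * n) := by rw [pow_mul]; norm_num
  obtain ⟨k, -, hk⟩ := (Nat.dvd_prime_pow Nat.prime_two).1
    (show finrank K M ∣ 2 ^ (2 * n) from e3 ▸ Dvd.intro_left _ e1)
  rw [hk] at e1 e2 ⊢
  refine pow_dvd_pow 2 ?_
  have : 2 ^ (2 * k) ≤ 2 ^ (2 * n) := by
    rw [← e3, ← e1, two_mul, pow_add]
    exact Nat.mul_le_mul_right _ e2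
  have := (Nat.pow_le_pow_iff_right (by norm_num : 1 < 2)).1 this
  omega

theorem double_cent (hM : M ≤ D K n) (hc : Comm M) {y : A K} (hy : y ∈ Cn n M)
    (h : ∀ w ∈ Cn n M, y * w = w * y) : y ∈ M := by
  have hc' : Comm (adj M y) := hc.adj (mem_Cn.1 hy).2
  have hM' : adj M y ≤ D K n := adj_le hM (mem_Cn.1 hy).1
  have e1 : Cn n (adj M y) = Cn n M :=
    le_antisymm (Cn_anti (le_adj M y)) fun w hw => mem_Cn_adj.2 ⟨hw, h w hw⟩
  have e2 := finrank_Cn hM' hc'
  rw [e1, ← finrank_Cn hM hc] at e2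
  have e3 := Nat.eq_of_mul_eq_mul_left (finrank_pos' (Cn_le n M)) e2
  rw [eq_of_finrank_le hM' (le_adj M y) e3.le]
  exact mem_adj M y

theorem exists_bracket {a z : A K} (ha : a ∈ D K n) (hz : z ∈ D K n) (h : Pc (gen a) z = 0) :
    ∃ y ∈ D K n, Pc (gen a) y = 0 ∧ z = a * y - y * a := by
  have hM : gen a ≤ D K n := gen_le ha
  have hc := comm_gen a
  let β : A K →ₗ[K] A K →ₗ[K] K := ((LinearMap.mul K (A K)).compr₂ tr).compl₂
    (LinearMap.mulLeft K a - LinearMap.mulRight K a)
  have hβ : ∀ x y, β x y = tr (x * (a * y - y * a)) := fun _ _ => rfl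
  obtain ⟨y, hy, H⟩ := solve β (D K n).toSubmodule (D K n).toSubmodule
    (tr ∘ₗ LinearMap.mulRight K z) fun x hx => by
      obtain ⟨hx, hx'⟩ := mem_lrad.1 hx
      have e1 : x * a - a * x = 0 :=
        eq_zero_of_tr (sub_mem (mul_mem hx ha) (mul_mem ha hx)) fun y hy => by
          have := hx' y hy
          rw [hβ, mul_sub, map_sub, ← mul_assoc, ← mul_assoc, tr_comm _ a, ← mul_assoc] at this
          rw [sub_mul, map_sub, this]
      have e2 : x ∈ Cn n (gen a) := mem_Cn_gen.2 ⟨hx, (sub_eq_zero.1 e1).symm⟩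
      rw [LinearMap.comp_apply, LinearMap.mulRight_apply, ← tr_mul_Pc hM hc (mem_Cn.1 e2).2, h,
        mul_zero, map_zero]
  have hy' : y ∈ D K n := hy
  have e1 : z = a * y - y * a := by
    refine sub_eq_zero.1 (nondeg le_rfl (sub_mem hz (sub_mem (mul_mem ha hy') (mul_mem hy' ha)))
      fun w hw => ?_)
    rw [mul_sub, map_sub, ← hβ, H w hw, LinearMap.comp_apply, LinearMap.mulRight_apply, sub_self]
  refine ⟨y - Pc (gen a) y, sub_mem hy' (Pc_mem_sub hM hy'), ?_, ?_⟩
  · rw [map_sub, Pc_self hM hc fun x hx => Pc_comm hM hc y hx, sub_self]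
  · rw [mul_sub, sub_mul, Pc_comm hM hc y (mem_gen a), e1]
    abel

end Pc

end

end Vale.Agent.P199
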