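import Vale.Agent.P199.Ex
import Vale.Agent.P199.LinSel
import Vale.Agent.P199.SubAlg2

/-! Systems of equations, states and moves. -/

namespace Vale.Agent.P199

open Finset Module

set_option linter.unusedSectionVars false

/-- A system: variables below `N` are in use, `W` are the free ones, `Sc` the scalar ones,
`T` the central parameters, and `F j` for `j ∈ J` the equations. -/
structure Sys where
  N : ℕ
  W : Finset ℕ
  T : Finset ℕ
  Sc : Finset ℕ
  J : Finset ℕ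
  F : ℕ → Ex

/-- Well formed systems. -/
structure Sys.WF (S : Sys) : Prop where
  W_lt : ∀ i ∈ S.W, i < S.N
  Sc_lt : ∀ i ∈ S.Sc, i < S.N
  T_sub : S.T ⊆ S.Sc
  disj : ∀ i ∈ S.Sc, i ∉ S.W
  zero_mem : 0 ∈ S.W
  one_mem : 1 ∈ S.W
  F_in : ∀ j ∈ S.J, (S.F j).In (Set.Iio S.N)

/-- Extension of systems. -/
structure Sys.Le (S S' : Sys) : Prop where
  N_le : S.N ≤ S'.N
  W_sub : S.W ⊆ S'.W
  W_new : ∀ i ∈ S'.W, i < S.N → i ∈ S.W
  J_sub : S.J ⊆ S'.J
  F_eq : ∀ j ∈ S.J, S'.F j = S.F j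
  Sc_sub : S.Sc ⊆ S'.Sc
  T_new : ∀ i ∈ S'.T, i < S.N → i ∈ S.T

theorem Sys.Le.refl (S : Sys) : S.Le S :=
  ⟨le_rfl, le_rfl, fun _ h _ => h, le_rfl, fun _ _ => rfl, le_rfl, fun _ h _ => h⟩

theorem Sys.Le.trans {S S' S'' : Sys} (h : S.Le S') (h' : S'.Le S'') : S.Le S'' :=
  ⟨h.N_le.trans h'.N_le, h.W_sub.trans h'.W_sub,
    fun i hi hl => h.W_new i (h'.W_new i hi (hl.trans_le h.N_le)) hl, h.J_sub.trans h'.J_sub,
    fun j hj => (h'.F_eq j (h.J_sub hj)).trans (h.F_eq j hj), h.Sc_sub.trans h'.Sc_sub,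
    fun i hi hl => h.T_new i (h'.T_new i hi (hl.trans_le h.N_le)) hl⟩

noncomputable section

variable {K : Type} [Field K] [Algebra K0 K]

/-- Solutions of a system in level `n`. -/
structure IsSt (S : Sys) (n : ℕ) (v : ℕ → A K) : Prop where
  mem : ∀ i < S.N, v i ∈ D K n
  sc : ∀ i ∈ S.Sc, v i ∈ D K 0
  eq : ∀ j ∈ S.J, ev v (S.F j) = 0

/-- The pairing of a functional with the linearized equations. -/
def LB (S : Sys) (v : ℕ → A K) : (ℕ → A K) →ₗ[K] (ℕ → A K) →ₗ[K] K where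
  toFun c := ∑ j ∈ S.J, tr ∘ₗ LinearMap.mulLeft K (c j) ∘ₗ d1 v (S.F j)
  map_add' c c' := by ext β; simp [add_mul, Finset.sum_add_distrib]
  map_smul' r c := by ext β; simp [Finset.mul_sum]

theorem LB_apply (S : Sys) (v c β : ℕ → A K) :
    LB S v c β = ∑ j ∈ S.J, tr (c j * d1 v (S.F j) β) := by simp [LB]

/-- The pairing of a functional with the second order terms. -/
def Om (S : Sys) (v : ℕ → A K) : (ℕ → A K) →ₗ[K] (ℕ → A K) →ₗ[K] (ℕ → A K) →ₗ[K] K where
  toFun c := ∑ j ∈ S.J, (d2 v (S.F j)).compr₂ (tr ∘ₗ LinearMap.mulLeft K (c j))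
  map_add' c c' := by ext β γ; simp [add_mul, Finset.sum_add_distrib]
  map_smul' r c := by ext β γ; simp [Finset.mul_sum]

theorem Om_apply (S : Sys) (v c β γ : ℕ → A K) :
    Om S v c β γ = ∑ j ∈ S.J, tr (c j * d2 v (S.F j) β γ) := by simp [Om]

/-- The antisymmetric part. -/
def om (S : Sys) (v : ℕ → A K) : (ℕ → A K) →ₗ[K] (ℕ → A K) →ₗ[K] (ℕ → A K) →ₗ[K] K where
  toFun c := Om S v c - (Om S v c).flip
  map_add' c c' := by ext β γ; simp; ring
  map_smul' r c := by ext β γ; simp; ring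

theorem om_apply (S : Sys) (v c β γ : ℕ → A K) :
    om S v c β γ = Om S v c β γ - Om S v c γ β := rfl

/-- The derivative of the quadratic obstruction at `σ`. -/
def Bs (S : Sys) (v σ : ℕ → A K) : (ℕ → A K) →ₗ[K] (ℕ → A K) →ₗ[K] K where
  toFun c := Om S v c σ + (Om S v c).flip σ
  map_add' c c' := by ext β; simp; ring
  map_smul' r c := by ext β; simp

theorem Bs_apply (S : Sys) (v σ c β : ℕ → A K) :
    Bs S v σ c β = Om S v c σ β + Om S v c β σ := rfl

/-- The space of relations. -/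
def OO (S : Sys) (m : ℕ) (v : ℕ → A K) : Submodule K (ℕ → A K) :=
  lrad (LB S v) (XS K S.J m) (XS K S.W m)

/-- The tangent space. -/
def VV (S : Sys) (m : ℕ) (v : ℕ → A K) : Submodule K (ℕ → A K) :=
  lrad (LB S v).flip (XS K S.W m) (XS K S.J m)

/-- The unobstructed part of the tangent space. -/
def VB (S : Sys) (m : ℕ) (v σ : ℕ → A K) : Submodule K (ℕ → A K) :=
  lrad (Bs S v σ).flip (VV S m v) (OO S m v)

theorem OO_le (S : Sys) (m : ℕ) (v : ℕ → A K) : OO S m v ≤ XS K S.J m := lrad_le _ _ _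

theorem VV_le (S : Sys) (m : ℕ) (v : ℕ → A K) : VV S m v ≤ XS K S.W m := lrad_le _ _ _

theorem VB_le (S : Sys) (m : ℕ) (v σ : ℕ → A K) : VB S m v σ ≤ VV S m v := lrad_le _ _ _

instance (S : Sys) (m : ℕ) (v : ℕ → A K) : Module.Finite K (OO S m v) :=
  Submodule.finiteDimensional_of_le (OO_le S m v)

instance (S : Sys) (m : ℕ) (v : ℕ → A K) : Module.Finite K (VV S m v) :=
  Submodule.finiteDimensional_of_le (VV_le S m v)

instance (S : Sys) (m : ℕ) (v σ : ℕ → A K) : Module.Finite K (VB S m v σ) :=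
  Submodule.finiteDimensional_of_le (VB_le S m v σ)

theorem mem_OO {S : Sys} {m : ℕ} {v c : ℕ → A K} :
    c ∈ OO S m v ↔ c ∈ XS K S.J m ∧ ∀ β ∈ XS K S.W m, LB S v c β = 0 := Iff.rfl

theorem mem_VB {S : Sys} {m : ℕ} {v σ β : ℕ → A K} :
    β ∈ VB S m v σ ↔ β ∈ VV S m v ∧ ∀ c ∈ OO S m v, Bs S v σ c β = 0 := Iff.rfl

/-- The number of relations. -/
def del (S : Sys) (m : ℕ) (v : ℕ → A K) : ℕ := finrank K (OO S m v)

/-- Restriction of a vector to a set of variables. -/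
def msk (W : Finset ℕ) : (ℕ → A K) →ₗ[K] (ℕ → A K) :=
  LinearMap.pi fun i => if i ∈ W then LinearMap.proj i else 0

theorem msk_apply (W : Finset ℕ) (β : ℕ → A K) (i : ℕ) :
    msk W β i = if i ∈ W then β i else 0 := by
  unfold msk; rw [LinearMap.pi_apply]; split_ifs <;> rfl

/-- The parameters kill all relations. -/
def H1 (S : Sys) (n : ℕ) (v : ℕ → A K) : Prop :=
  ∀ c ∈ OO S n v, (∀ t ∈ S.T, LB S v c (Pi.single t 1) = 0) → c = 0

/-- Good states with margin `Y`. -/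
structure Good (S : Sys) (n : ℕ) (v : ℕ → A K) (Y : ℕ) : Prop where
  st : IsSt S n v
  h1 : H1 S n v
  h2 : ∀ c ∈ OO S n v, c ≠ 0 → RkGe (om S v c) (VV S n v) (VV S n v) (3 * del S n v + Y)
  h4 : 4 ^ n + 3 * del S n v + Y ≤ finrank K ((VV S n v).map (msk {0, 1}))

theorem Good.mono {S : Sys} {n : ℕ} {v : ℕ → A K} {Y Y' : ℕ} (h : Good S n v Y) (h' : Y' ≤ Y) :
    Good S n v Y' :=
  ⟨h.st, h.h1, fun c hc h0 => (h.h2 c hc h0).mono (by omega), by have := h.h4; omega⟩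

/-- The obstruction map restricted to `U` hits all traceless directions. -/
def BP (S : Sys) (n m : ℕ) (v σ : ℕ → A K) (U : Submodule K (ℕ → A K)) : Prop :=
  ∀ c ∈ OO S m v, (∀ β ∈ U, Bs S v σ c β = 0) → c ∈ XS K S.J n

theorem BP.mono {S : Sys} {n m : ℕ} {v σ : ℕ → A K} {U U' : Submodule K (ℕ → A K)}
    (h : BP S n m v σ U) (h' : U ≤ U') : BP S n m v σ U' :=
  fun c hc H => h c hc fun β hβ => H β (h' hβ)

theorem BP.refl (S : Sys) (n : ℕ) (v σ : ℕ → A K) (U : Submodule K (ℕ → A K)) :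
    BP S n n v σ U := fun _ hc _ => OO_le S n v hc

/-- First order data of a deformation. -/
structure PreMove (S : Sys) (n : ℕ) (v : ℕ → A K) (m : ℕ) (σ : ℕ → A K) (w : ℕ → A (LS K)) :
    Prop where
  le : n ≤ m
  mem : ∀ i < S.N, w i ∈ D (LS K) m
  sc : ∀ i ∈ S.Sc, w i ∈ D (LS K) 0
  sig : σ ∈ VV S m v
  ld : ∀ i < S.N, Ld 1 (w i - map (io K) (v i)) (σ i)
  cst : ∀ i < S.N, i ∉ S.W → i ∉ S.T → w i = map (io K) (v i)
  bp : BP S n m v σ (VV S m v)

/-- A move from the state `(K, n, v)` to the state `(LS K, m, w)`. -/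
structure Move (S : Sys) (n : ℕ) (v : ℕ → A K) (m : ℕ) (σ : ℕ → A K) (w : ℕ → A (LS K)) :
    Prop extends PreMove S n v m σ w where
  eq : ∀ j ∈ S.J, ev w (S.F j) = 0

theorem Move.st {S : Sys} {n m : ℕ} {v σ : ℕ → A K} {w : ℕ → A (LS K)}
    (h : Move S n v m σ w) : IsSt S m w := ⟨h.mem, h.sc, h.eq⟩

theorem PreMove.ra {S : Sys} {n m : ℕ} {v σ : ℕ → A K} {w : ℕ → A (LS K)}
    (h : PreMove S n v m σ w) : ∀ i ∈ Set.Iio S.N, RA PL (w i) (v i) :=
  fun i hi => (h.ld i hi).ra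

end

/-- Bundled states. -/
structure St : Type 1 where
  K : Type
  [fld : Field K]
  [alg : Algebra K0 K]
  [dom : Dom K]
  n : ℕ
  v : ℕ → A K

attribute [instance] St.fld St.alg St.dom

/-- The state reached by a move. -/
noncomputable def St.child (s : St) (m : ℕ) (w : ℕ → A (LS s.K)) : St := ⟨LS s.K, m, w⟩

/-- Descendants of a state. -/
inductive Desc (S : Sys) (s : St) : St → Prop
  | refl : Desc S s s
  | step {t : St} {m : ℕ} {σ : ℕ → A t.K} {w : ℕ → A (LS t.K)} :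
      Desc S s t → Move S t.n t.v m σ w → Desc S s (t.child m w)

theorem Desc.trans {S : Sys} {s t u : St} (h : Desc S s t) (h' : Desc S t u) : Desc S s u := by
  induction h' with
  | refl => exact h
  | step _ hm ih => exact ih.step hm

/-- The number of relations cannot drop. -/
def Stab (S : Sys) (s : St) : Prop := ∀ t, Desc S s t → S.T.card ≤ del S t.n t.v

theorem Stab.desc {S : Sys} {s t : St} (h : Stab S s) (h' : Desc S s t) : Stab S t :=
  fun u hu => h u (h'.trans hu)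

end Vale.Agent.P199
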