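import Vale.Agent.P199.Sys

/-! Basic properties of tangent and relation spaces. -/

namespace Vale.Agent.P199

open Finset Module

set_option linter.unusedSectionVars false

variable {K : Type} [Field K] [Algebra K0 K] {S : Sys} {n m : ℕ} {v : ℕ → A K}

theorem single_mem_XS_auxT {J : Finset ℕ} {j : ℕ} (hj : j ∈ J) {y : A K} (hy : y ∈ D K m) :
    (Pi.single j y : ℕ → A K) ∈ XS K J m := by
  intro i
  by_cases h : i = j
  · subst h
    rw [Pi.single_eq_same]
    exact ⟨hy, fun h => absurd hj h⟩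
  · rw [Pi.single_eq_of_ne h]
    exact ⟨zero_mem _, fun _ => rfl⟩

theorem LB_single_auxT {j : ℕ} (hj : j ∈ S.J) (y : A K) (β : ℕ → A K) :
    LB S v (Pi.single j y) β = tr (y * d1 v (S.F j) β) := by
  rw [LB_apply, Finset.sum_eq_single_of_mem j hj, Pi.single_eq_same]
  intro i _ h
  rw [Pi.single_eq_of_ne h, zero_mul, map_zero]

theorem e_eq_auxT (h : G) : (e h : A K) = c K h h • ei h := by
  rw [ei, smul_smul, mul_inv_cancel₀ (c_ne_zero h h), one_smul]

theorem vec_sum_auxT (n : ℕ) {W : Finset ℕ} {β : ℕ → A K} (hβ : β ∈ XS K W m) :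
    β = ∑ h ∈ GS n m, fun i => cp n h (β i) * e h := by
  funext i
  rw [Finset.sum_apply]
  exact sum_cp n (hβ i).1

open Classical in
theorem pj_ei_e_auxT {h k : G} (hh : h ∈ GS n m) (hk : k ∈ GS n m) :
    pj n (ei h * e k : A K) = if k = h then 1 else 0 := by
  split_ifs with H
  · rw [H, ei_mul_e, pj_of_mem (one_mem _)]
  · rw [ei, smul_mul_assoc, e_mul_e, map_smul, map_smul, pj_e, if_neg, smul_zero, smul_zero]
    intro H'
    exact H (G.add_eq_zero.1 (eq_zero_of_GS H' (add_mem_GS hh hk))).symm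

theorem mem_VV (hS : S.WF) (hv : ∀ i < S.N, v i ∈ D K m) {β : ℕ → A K} :
    β ∈ VV S m v ↔ β ∈ XS K S.W m ∧ ∀ j ∈ S.J, d1 v (S.F j) β = 0 := by
  refine and_congr_right fun hβ => ⟨fun h j hj => ?_, fun h c _ => ?_⟩
  · refine eq_zero_of_tr (d1_mem (B := D K m) hv (fun i _ => (hβ i).1) (hS.F_in j hj))
      fun y hy => ?_
    rw [tr_comm, ← LB_single_auxT hj]
    exact h _ (single_mem_XS_auxT hj hy)
  · rw [LinearMap.flip_apply, LB_apply]
    exact Finset.sum_eq_zero fun j hj => by rw [h j hj, mul_zero, map_zero]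

theorem dim_VV_OO (S : Sys) (m : ℕ) (v : ℕ → A K) :
    finrank K (VV S m v) + S.J.card * 4 ^ m = S.W.card * 4 ^ m + del S m v := by
  have := lrad_flip (LB S v) (XS K S.J m) (XS K S.W m)
  rw [finrank_XS, finrank_XS] at this
  rw [add_comm]
  exact this

theorem mul_mem_XS {W : Finset ℕ} (hnm : n ≤ m) {β : ℕ → A K} (hβ : β ∈ XS K W n) {z : A K}
    (hz : z ∈ DS K n m) : (fun i => β i * z) ∈ XS K W m := by
  exact fun i => ⟨mul_mem (D_mono hnm (hβ i).1) (DS_le_D hz), fun h => by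
    show β i * z = 0
    rw [(hβ i).2 h, zero_mul]⟩

theorem cp_mem_XS {W : Finset ℕ} {β : ℕ → A K} (hβ : β ∈ XS K W m) (n : ℕ) (h : G) :
    (fun i => cp n h (β i)) ∈ XS K W n := by
  exact fun i => ⟨cp_mem _ _ _, fun H => by
    show cp n h (β i) = 0
    rw [(hβ i).2 H, map_zero]⟩

theorem LB_cp (hS : S.WF) (hv : ∀ i < S.N, v i ∈ D K n) (c : ℕ → A K) {β : ℕ → A K}
    (hβ : ∀ i < S.N, β i ∈ D K n) {h : G} (hh : h ∈ GS n m) :
    LB S v c (fun i => β i * ei h) = LB S v (fun j => cp n h (c j)) β := by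
  rw [LB_apply, LB_apply]
  refine Finset.sum_congr rfl fun j hj => ?_
  rw [d1_mul_DS β hv (hS.F_in j hj) (ei_mem hh),
    tr_cp_mul hh (d1_mem (B := D K n) hv hβ (hS.F_in j hj))]

theorem Om_mul (hS : S.WF) (hv : ∀ i < S.N, v i ∈ D K n) (c β : ℕ → A K) {γ : ℕ → A K}
    (hγ : ∀ i < S.N, γ i ∈ D K n) {z z' : A K} (hz : z ∈ DS K n m) (hz' : z' ∈ DS K n m) :
    Om S v c (fun i => β i * z) (fun i => γ i * z') = Om S v (fun j => z * z' * c j) β γ := by
  rw [Om_apply, Om_apply]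
  refine Finset.sum_congr rfl fun j hj => ?_
  rw [d2_mul_DS hv hγ (hS.F_in j hj) hz hz', ← mul_assoc, tr_comm, ← mul_assoc]

theorem Om_pj (hS : S.WF) (hv : ∀ i < S.N, v i ∈ D K n) (c : ℕ → A K) {β γ : ℕ → A K}
    (hβ : ∀ i < S.N, β i ∈ D K n) (hγ : ∀ i < S.N, γ i ∈ D K n) :
    Om S v (fun j => pj n (c j)) β γ = Om S v c β γ := by
  rw [Om_apply, Om_apply]
  exact Finset.sum_congr rfl fun j hj =>
    tr_pj_mul (d2_mem (B := D K n) hv hβ hγ (hS.F_in j hj)) _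

theorem VV_up (hS : S.WF) (hv : ∀ i < S.N, v i ∈ D K n) (hnm : n ≤ m) :
    VV S m v = Up S.W n m (VV S n v) := by
  ext β
  have hv' : ∀ i < S.N, v i ∈ D K m := fun i hi => D_mono hnm (hv i hi)
  rw [mem_VV hS hv', mem_Up]
  refine and_congr_right fun hβ => ⟨fun h g hg => ?_, fun h j hj => ?_⟩
  · refine (mem_VV hS hv).2 ⟨cp_mem_XS hβ n g, fun j hj => ?_⟩
    rw [d1_cp β hv (hS.F_in j hj) hg, h j hj, map_zero]
  · refine eq_zero_of_cp n (d1_mem (B := D K m) hv' (fun i _ => (hβ i).1) (hS.F_in j hj))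
      fun g hg => ?_
    rw [← d1_cp β hv (hS.F_in j hj) hg]
    exact ((mem_VV hS hv).1 (h g hg)).2 j hj

theorem OO_up (hS : S.WF) (hv : ∀ i < S.N, v i ∈ D K n) (hnm : n ≤ m) :
    OO S m v = Up S.J n m (OO S n v) := by
  ext c
  rw [mem_OO, mem_Up]
  refine and_congr_right fun hc => ⟨fun h g hg => ⟨cp_mem_XS hc n g, fun β hβ => ?_⟩,
    fun h β hβ => ?_⟩
  · rw [← LB_cp hS hv c (fun i _ => (hβ i).1) hg]
    exact h _ (mul_mem_XS hnm hβ (ei_mem hg))
  · rw [vec_sum_auxT n hβ, map_sum]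
    refine Finset.sum_eq_zero fun g hg => ?_
    have h1 : (fun i => cp n g (β i) * e g) = P199.c K g g • fun i => cp n g (β i) * ei g := by
      funext i
      rw [Pi.smul_apply, e_eq_auxT, mul_smul_comm]
    rw [h1, map_smul, LB_cp hS hv c (fun i _ => cp_mem _ _ _) hg,
      (h g hg).2 _ (cp_mem_XS hβ n g), smul_zero]

theorem mul_mem_VV (hS : S.WF) (hv : ∀ i < S.N, v i ∈ D K n) (hnm : n ≤ m) {β : ℕ → A K}
    (hβ : β ∈ VV S n v) {z : A K} (hz : z ∈ DS K n m) : (fun i => β i * z) ∈ VV S m v := by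
  rw [mem_VV hS hv] at hβ
  refine (mem_VV hS fun i hi => D_mono hnm (hv i hi)).2 ⟨mul_mem_XS hnm hβ.1 hz, fun j hj => ?_⟩
  rw [d1_mul_DS β hv (hS.F_in j hj) hz, hβ.2 j hj, zero_mul]

theorem VV_mono (hS : S.WF) (hv : ∀ i < S.N, v i ∈ D K n) (hnm : n ≤ m) :
    VV S n v ≤ VV S m v := by
  intro β hβ
  simpa only [mul_one] using mul_mem_VV hS hv hnm hβ (one_mem _)

theorem OO_mono (hS : S.WF) (hv : ∀ i < S.N, v i ∈ D K n) (hnm : n ≤ m) :
    OO S n v ≤ OO S m v := by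
  classical
  intro c hc
  rw [OO_up hS hv hnm]
  refine ⟨XS_mono le_rfl hnm hc.1, fun g hg => ?_⟩
  have h1 : ∀ j, cp n g (c j) = if 0 = g then c j else 0 := fun j => by
    rw [← cp_mul_e hg (zero_mem_GS n m) (hc.1 j).1, e_zero, mul_one]
  simp only [h1]
  split_ifs
  · exact hc
  · exact zero_mem _

theorem mem_OO_of_XS (hnm : n ≤ m) {c : ℕ → A K} (hc : c ∈ OO S m v) (hc' : c ∈ XS K S.J n) :
    c ∈ OO S n v :=
  ⟨hc', fun β hβ => hc.2 β (XS_mono le_rfl hnm hβ)⟩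

theorem finrank_VV_up (hS : S.WF) (hv : ∀ i < S.N, v i ∈ D K n) (hnm : n ≤ m) :
    finrank K (VV S m v) = 4 ^ (m - n) * finrank K (VV S n v) := by
  rw [VV_up hS hv hnm, finrank_Up hnm (VV_le S n v)]

theorem del_up (hS : S.WF) (hv : ∀ i < S.N, v i ∈ D K n) (hnm : n ≤ m) :
    del S m v = 4 ^ (m - n) * del S n v := by
  rw [del, OO_up hS hv hnm, finrank_Up hnm (OO_le S n v), del]

theorem rk_up (hS : S.WF) (hv : ∀ i < S.N, v i ∈ D K n) (hnm : n ≤ m) {c : ℕ → A K}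
    (hc : c ∈ XS K S.J n) {R : ℕ} (h : RkGe (om S v c) (VV S n v) (VV S n v) R) :
    RkGe (om S v c) (VV S m v) (VV S m v) (4 ^ (m - n) * R) := by
  classical
  have h1 : lrad (om S v c) (VV S m v) (VV S m v)
      ≤ Up S.W n m (lrad (om S v c) (VV S n v) (VV S n v)) := by
    intro β hβ
    have hβ1 : β ∈ Up S.W n m (VV S n v) := VV_up hS hv hnm ▸ hβ.1
    refine ⟨hβ1.1, fun g hg => ⟨hβ1.2 g hg, fun γ hγ => ?_⟩⟩
    have hγ' : ∀ i < S.N, γ i ∈ D K n := fun i _ => (VV_le S n v hγ i).1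
    have h2 := hβ.2 _ (mul_mem_VV hS hv hnm hγ (ei_mem hg))
    rw [vec_sum_auxT n hβ1.1, map_sum, LinearMap.sum_apply,
      Finset.sum_eq_single_of_mem g hg] at h2
    · rw [om_apply, Om_mul hS hv _ _ hγ' (e_mem hg) (ei_mem hg),
        Om_mul hS hv _ _ (fun i _ => cp_mem _ _ _) (ei_mem hg) (e_mem hg)] at h2
      simp only [e_mul_ei, ei_mul_e, one_mul] at h2
      exact h2
    · intro k hk hkg
      rw [om_apply, Om_mul hS hv _ _ hγ' (e_mem hk) (ei_mem hg),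
        Om_mul hS hv _ _ (fun i _ => cp_mem _ _ _) (ei_mem hg) (e_mem hk),
        ← Om_pj hS hv _ (fun i _ => cp_mem _ _ _) hγ',
        ← Om_pj hS hv (fun j => ei g * e k * c j) hγ' (fun i _ => cp_mem _ _ _)]
      have a1 : (fun j => pj n (e k * ei g * c j)) = 0 := funext fun j => by
        rw [pj_mul_right (hc j).1, ← cp_apply, cp_e hg hk, if_neg hkg, zero_mul, Pi.zero_apply]
      have a2 : (fun j => pj n (ei g * e k * c j)) = 0 := funext fun j => by
        rw [pj_mul_right (hc j).1, pj_ei_e_auxT hg hk, if_neg hkg, zero_mul, Pi.zero_apply]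
      rw [a1, a2, map_zero]
      simp
  have : Module.Finite K (Up S.W n m (lrad (om S v c) (VV S n v) (VV S n v))) :=
    Submodule.finiteDimensional_of_le (S₂ := XS K S.W m) fun _ hx => hx.1
  have h2 := Submodule.finrank_mono h1
  rw [finrank_Up hnm ((lrad_le _ _ _).trans (VV_le S n v))] at h2
  unfold RkGe at h ⊢
  rw [finrank_VV_up hS hv hnm]
  calc _ ≤ 4 ^ (m - n) * (finrank K (lrad (om S v c) (VV S n v) (VV S n v)) + R) := by
        rw [mul_add]; omega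
    _ ≤ _ := Nat.mul_le_mul_left _ h

theorem msk_up (hS : S.WF) (hv : ∀ i < S.N, v i ∈ D K n) (hnm : n ≤ m) (W : Finset ℕ) :
    4 ^ (m - n) * finrank K ((VV S n v).map (msk W)) ≤ finrank K ((VV S m v).map (msk W)) := by
  have h0 : (VV S n v).map (msk W) ≤ XS K S.W n := by
    rintro _ ⟨β, hβ, rfl⟩ i
    rw [msk_apply]
    split_ifs
    · exact VV_le S n v hβ i
    · exact ⟨zero_mem _, fun _ => rfl⟩
  rw [← finrank_Up hnm h0]
  refine Submodule.finrank_mono fun x hx => ?_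
  choose! β hβ hβ' using hx.2
  refine ⟨∑ g ∈ GS n m, fun i => β g i * e g,
    Submodule.sum_mem _ fun g hg => mul_mem_VV hS hv hnm (hβ g hg) (e_mem hg), ?_⟩
  rw [map_sum]
  refine Eq.trans (Finset.sum_congr rfl fun g hg => funext fun i => ?_) (vec_sum_auxT n hx.1).symm
  rw [← congrFun (hβ' g hg) i, msk_apply, msk_apply]
  split_ifs
  · rfl
  · rw [zero_mul]

theorem H1.del_le (h : H1 S n v) : del S n v ≤ S.T.card :=
  finrank_le_card _ S.T (fun t => (LB S v).flip (Pi.single t 1)) h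

theorem finrank_VB (S : Sys) (m : ℕ) (v σ : ℕ → A K) :
    finrank K (VV S m v) ≤ finrank K (VB S m v σ) + del S m v := by
  have := lrad_flip (Bs S v σ) (OO S m v) (VV S m v)
  unfold del VB
  omega

section congr

variable {v' : ℕ → A K}

theorem LB_congr (hS : S.WF) (h : ∀ i < S.N, v i = v' i) : LB S v = LB S v' := by
  refine LinearMap.ext fun c => LinearMap.ext fun β => ?_
  rw [LB_apply, LB_apply]
  exact Finset.sum_congr rfl fun j hj => by rw [d1_congr h (fun _ _ => rfl) (hS.F_in j hj)]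

theorem Om_congr (hS : S.WF) (h : ∀ i < S.N, v i = v' i) : Om S v = Om S v' := by
  refine LinearMap.ext fun c => LinearMap.ext fun β => LinearMap.ext fun γ => ?_
  rw [Om_apply, Om_apply]
  exact Finset.sum_congr rfl fun j hj => by
    rw [d2_congr h (fun _ _ => rfl) (fun _ _ => rfl) (hS.F_in j hj)]

theorem VV_congr (hS : S.WF) (h : ∀ i < S.N, v i = v' i) : VV S m v = VV S m v' := by
  rw [VV, LB_congr hS h, VV]

theorem OO_congr (hS : S.WF) (h : ∀ i < S.N, v i = v' i) : OO S m v = OO S m v' := by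
  rw [OO, LB_congr hS h, OO]

theorem Move.congr (hS : S.WF) {σ : ℕ → A K} {w w' : ℕ → A (LS K)} (h : Move S n v m σ w)
    (hw : ∀ i < S.N, w' i = w i) : Move S n v m σ w' := by
  exact ⟨⟨h.le, fun i hi => hw i hi ▸ h.mem i hi, fun i hi => hw i (hS.Sc_lt i hi) ▸ h.sc i hi,
    h.sig, fun i hi => hw i hi ▸ h.ld i hi, fun i hi h1 h2 => (hw i hi).trans (h.cst i hi h1 h2),
    h.bp⟩, fun j hj => (ev_congr hw (hS.F_in j hj)).trans (h.eq j hj)⟩

end congr

section restrict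

variable {S' : Sys}

theorem IsSt.restrict (h : S.Le S') (hv : IsSt S' n v) : IsSt S n v :=
  ⟨fun i hi => hv.mem i (hi.trans_le h.N_le), fun i hi => hv.sc i (h.Sc_sub hi),
    fun j hj => h.F_eq j hj ▸ hv.eq j (h.J_sub hj)⟩

theorem msk_eq_auxT (h : S.Le S') {β : ℕ → A K} (hβ : β ∈ XS K S'.W m) :
    ∀ i < S.N, msk S.W β i = β i := by
  intro i hi
  rw [msk_apply]
  split_ifs with H
  · rfl
  · exact ((hβ i).2 fun H' => H (h.W_new i H' hi)).symm

theorem msk_XS_auxT {W W' : Finset ℕ} {β : ℕ → A K} (hβ : β ∈ XS K W' m) :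
    msk W β ∈ XS K W m := by
  intro i
  rw [msk_apply]
  split_ifs with H
  · exact ⟨(hβ i).1, fun H' => absurd H H'⟩
  · exact ⟨zero_mem _, fun _ => rfl⟩

theorem LB_of_le_auxT (h : S.Le S') {c : ℕ → A K} (hc : c ∈ XS K S.J m) (β : ℕ → A K) :
    LB S' v c β = LB S v c β := by
  rw [LB_apply, LB_apply, ← Finset.sum_subset h.J_sub fun j _ hj => by
    rw [(hc j).2 hj, zero_mul, map_zero]]
  exact Finset.sum_congr rfl fun j hj => by rw [h.F_eq j hj]

theorem LB_msk_auxT (hS : S.WF) (h : S.Le S') (c : ℕ → A K) {β : ℕ → A K}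
    (hβ : β ∈ XS K S'.W m) : LB S v c (msk S.W β) = LB S v c β := by
  rw [LB_apply, LB_apply]
  exact Finset.sum_congr rfl fun j hj => by
    rw [d1_congr (fun _ _ => rfl) (msk_eq_auxT h hβ) (hS.F_in j hj)]

theorem d1_msk (hS : S.WF) (h : S.Le S') {β : ℕ → A K} (hβ : β ∈ XS K S'.W m) {a : Ex}
    (ha : a.In (Set.Iio S.N)) : d1 v a (msk S.W β) = d1 v a β := by
  have _ := hS
  exact d1_congr (fun _ _ => rfl) (msk_eq_auxT h hβ) ha

theorem msk_mem_VV (hS : S.WF) (h : S.Le S') {β : ℕ → A K} (hβ : β ∈ VV S' m v) :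
    msk S.W β ∈ VV S m v := by
  refine ⟨msk_XS_auxT hβ.1, fun c hc => ?_⟩
  rw [LinearMap.flip_apply, LB_msk_auxT hS h c hβ.1, ← LB_of_le_auxT h hc]
  exact hβ.2 c (XS_mono h.J_sub le_rfl hc)

theorem OO_le_of_le (hS : S.WF) (h : S.Le S') : OO S m v ≤ OO S' m v := by
  refine fun c hc => ⟨XS_mono h.J_sub le_rfl hc.1, fun β hβ => ?_⟩
  rw [LB_of_le_auxT h hc.1, ← LB_msk_auxT hS h c hβ]
  exact hc.2 _ (msk_XS_auxT hβ)

theorem LB_of_le (h : S.Le S') {c : ℕ → A K} (hc : c ∈ XS K S.J m) (β : ℕ → A K) :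
    LB S' v c β = LB S v c β := by
  exact LB_of_le_auxT h hc β

theorem Om_of_le (h : S.Le S') {c : ℕ → A K} (hc : c ∈ XS K S.J m) (β γ : ℕ → A K) :
    Om S' v c β γ = Om S v c β γ := by
  rw [Om_apply, Om_apply, ← Finset.sum_subset h.J_sub fun j _ hj => by
    rw [(hc j).2 hj, zero_mul, map_zero]]
  exact Finset.sum_congr rfl fun j hj => by rw [h.F_eq j hj]

theorem BP.restrict (hS : S.WF) (h : S.Le S') {σ : ℕ → A K} (hσ : σ ∈ XS K S'.W m)
    (hb : BP S' n m v σ (VV S' m v)) :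
    BP S n m v (msk S.W σ) ((VV S' m v).map (msk S.W)) := by
  intro c hc H
  have key : ∀ β γ, β ∈ XS K S'.W m → γ ∈ XS K S'.W m →
      Om S' v c β γ = Om S v c (msk S.W β) (msk S.W γ) := by
    intro β γ hβ hγ
    rw [Om_of_le h hc.1, Om_apply, Om_apply]
    exact Finset.sum_congr rfl fun j hj => by
      rw [d2_congr (fun _ _ => rfl) (msk_eq_auxT h hβ) (msk_eq_auxT h hγ) (hS.F_in j hj)]
  have h1 := hb c (OO_le_of_le hS h hc) fun β hβ => by
    rw [Bs_apply, key _ _ hσ hβ.1, key _ _ hβ.1 hσ]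
    exact H _ ⟨β, hβ, rfl⟩
  exact fun j => ⟨(h1 j).1, (hc.1 j).2⟩

theorem Move.restrict (hS : S.WF) (h : S.Le S') {σ : ℕ → A K} {w : ℕ → A (LS K)}
    (hm : Move S' n v m σ w) : Move S n v m (msk S.W σ) w := by
  refine ⟨⟨hm.le, fun i hi => hm.mem i (hi.trans_le h.N_le), fun i hi => hm.sc i (h.Sc_sub hi),
    msk_mem_VV hS h hm.sig, fun i hi => ?_, fun i hi h1 h2 => hm.cst i (hi.trans_le h.N_le)
      (fun H => h1 (h.W_new i H hi)) fun H => h2 (h.T_new i H hi),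
    (hm.bp.restrict hS h hm.sig.1).mono ?_⟩, fun j hj => h.F_eq j hj ▸ hm.eq j (h.J_sub hj)⟩
  · rw [msk_eq_auxT h hm.sig.1 i hi]
    exact hm.ld i (hi.trans_le h.N_le)
  · rintro _ ⟨β, hβ, rfl⟩
    exact msk_mem_VV hS h hβ

theorem Desc.restrict (hS : S.WF) (h : S.Le S') {s t : St} (hd : Desc S' s t) : Desc S s t := by
  induction hd with
  | refl => exact Desc.refl
  | step _ hm ih => exact ih.step (hm.restrict hS h)

end restrict

end Vale.Agent.P199
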